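import Vale.Agent.P114.Val

/-! # P114: almost every base is good; the auxiliary system -/

open MeasureTheory Real Set Polynomial
open scoped ENNReal

namespace Vale.Agent.P114

noncomputable section

namespace AuxSysAux

open Filter Topology

open Classical in
/-- A finite set containing all controlled polynomials. -/
def PP (C m : ℕ) : Finset ℤ[X] :=
  ((Fintype.piFinset fun _ : Fin (C * m + 1) => Finset.Icc (-((m : ℤ) ^ C)) ((m : ℤ) ^ C)).image
    (fun a => ∑ i : Fin (C * m + 1), monomial (i : ℕ) (a i))).filter (fun P => P.natDegree ≤ C * m)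

theorem mem_PP {C m : ℕ} {P : ℤ[X]} (h : InB C m P) : P ∈ PP C m := by
  classical
  refine Finset.mem_filter.2 ⟨Finset.mem_image.2 ⟨fun i => P.coeff i, ?_, ?_⟩, h.1⟩
  · rw [Fintype.mem_piFinset]
    intro i
    rw [Finset.mem_Icc, ← abs_le]
    have := (abs_coeff_le_l1 P i).trans h.2
    exact_mod_cast this
  · rw [Fin.sum_univ_eq_sum_range (fun i => monomial i (P.coeff i))]
    exact (P.as_sum_range' _ (Nat.lt_succ_of_le h.1)).symm

theorem card_PP (C m : ℕ) : (PP C m).card ≤ (2 * m ^ C + 1) ^ (C * m + 1) := by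
  classical
  refine (Finset.card_filter_le _ _).trans (Finset.card_image_le.trans (le_of_eq ?_))
  rw [Fintype.card_piFinset, Finset.prod_const, Finset.card_univ, Fintype.card_fin, Int.card_Icc]
  congr 1
  have : ((m : ℤ) ^ C + 1 - -((m : ℤ) ^ C)) = ((2 * m ^ C + 1 : ℕ) : ℤ) := by push_cast; ring
  rw [this, Int.toNat_natCast]

open Classical in
/-- Points close to a root of a controlled polynomial. -/
def bad (C m : ℕ) : Set ℝ :=
  ⋃ P ∈ PP C m, ⋃ η ∈ (P.map (Int.castRingHom ℂ)).roots.toFinset,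
    Metric.ball η.re (exp (-(m * log m ^ 3)))

theorem vol_bad (C m : ℕ) : volume (bad C m) ≤ ENNReal.ofReal
    (((2 * m ^ C + 1) ^ (C * m + 1) : ℕ) * ((C * m : ℕ) * (2 * exp (-(m * log m ^ 3))))) := by
  classical
  refine (measure_biUnion_finset_le _ _).trans ?_
  refine (Finset.sum_le_card_nsmul _ _
    (ENNReal.ofReal ((C * m : ℕ) * (2 * exp (-(m * log m ^ 3))))) fun P hP => ?_).trans ?_
  · refine (measure_biUnion_finset_le _ _).trans ?_
    simp only [Real.volume_ball, Finset.sum_const, nsmul_eq_mul]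
    rw [ENNReal.ofReal_mul (Nat.cast_nonneg _), ENNReal.ofReal_natCast]
    refine mul_le_mul_left (Nat.cast_le.2 ?_) _
    exact (Multiset.toFinset_card_le _).trans ((card_roots' _).trans
      (natDegree_map_le.trans (Finset.mem_filter.1 hP).2))
  · rw [nsmul_eq_mul, ENNReal.ofReal_mul (p := (((2 * m ^ C + 1) ^ (C * m + 1) : ℕ) : ℝ))
      (Nat.cast_nonneg _), ENNReal.ofReal_natCast]
    exact mul_le_mul_left (Nat.cast_le.2 (card_PP C m)) _

theorem num_bad (C : ℕ) : ∃ M : ℕ, ∀ m : ℕ, M ≤ m →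
    (((2 * m ^ C + 1) ^ (C * m + 1) : ℕ) * ((C * m : ℕ) * (2 * exp (-(m * log m ^ 3)))) : ℝ) ≤
      exp (-1) ^ m := by
  have h := (tendsto_log_atTop.comp tendsto_natCast_atTop_atTop).eventually_ge_atTop
    (((C : ℝ) + 1) ^ 2 + 2 * C + 1)
  obtain ⟨m0, hm0⟩ := eventually_atTop.1 h
  refine ⟨max m0 3, fun m hm => ?_⟩
  have h1 := hm0 m (le_trans (le_max_left _ _) hm)
  simp only [Function.comp] at h1
  have h3 : 3 ≤ m := le_trans (le_max_right _ _) hm
  have hC : (0 : ℝ) ≤ C := Nat.cast_nonneg _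
  have hm1 : (1 : ℝ) ≤ m := by exact_mod_cast le_trans (by omega) h3
  have hl : 1 ≤ log m := by nlinarith
  have h4 : (2 * m ^ C + 1) ^ (C * m + 1) ≤ m ^ ((C + 1) * ((C + 1) * m)) := by
    have h5 : 2 * m ^ C + 1 ≤ m ^ (C + 1) := by
      have := Nat.one_le_pow C m (by omega)
      rw [pow_succ]
      nlinarith
    rw [pow_mul]
    exact (Nat.pow_le_pow_left h5 _).trans (Nat.pow_le_pow_right (Nat.one_le_pow _ _ (by omega))
      (by nlinarith))
  have h5 : (((2 * m ^ C + 1) ^ (C * m + 1) : ℕ) : ℝ) ≤ exp (((C + 1) * ((C + 1) * m)) * log m) := by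
    refine (Nat.cast_le.2 h4).trans (le_of_eq ?_)
    rw [Nat.cast_pow, ← exp_log (pow_pos (show (0 : ℝ) < m by linarith) _), log_pow]
    push_cast
    rfl
  have h6 : ((C * m : ℕ) : ℝ) * 2 ≤ exp (2 * C * m) := by
    push_cast
    linarith [add_one_le_exp (2 * (C : ℝ) * m)]
  rw [← mul_assoc ((C * m : ℕ) : ℝ), ← exp_nat_mul]
  refine (mul_le_mul h5 (mul_le_mul_of_nonneg_right h6 (exp_pos _).le) (by positivity)
    (exp_pos _).le).trans ?_
  rw [← exp_add, ← exp_add, exp_le_exp]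
  have h7 : (((C : ℝ) + 1) ^ 2 + 2 * C + 1) * log m ≤ log m ^ 3 := by
    have := mul_le_mul_of_nonneg_right h1 (show 0 ≤ log (m : ℝ) by linarith)
    nlinarith [mul_nonneg (mul_nonneg (show 0 ≤ log (m : ℝ) by linarith)
      (show 0 ≤ log (m : ℝ) by linarith)) (sub_nonneg.2 hl)]
  have h8 : (2 * (C : ℝ) + 1) ≤ (2 * C + 1) * log m := le_mul_of_one_le_right (by linarith) hl
  have h9 : ((C : ℝ) + 1) ^ 2 * log m + (2 * C + 1) ≤ log m ^ 3 := by linarith
  have := mul_le_mul_of_nonneg_left h9 (show (0 : ℝ) ≤ m by linarith)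
  nlinarith

theorem ae_not_bad (C : ℕ) : ∀ᵐ x : ℝ, ∃ M : ℕ, ∀ m, M ≤ m → x ∉ bad C m := by
  obtain ⟨M, hM⟩ := num_bad C
  have hq : exp (-1) < 1 := exp_lt_one_iff.2 (by norm_num)
  have h : ∑' i, volume (bad C (i + M)) ≠ ∞ := by
    refine ne_top_of_le_ne_top (b := ∑' i : ℕ, ENNReal.ofReal (exp (-1) ^ i)) ?_
      (ENNReal.tsum_le_tsum fun i => (vol_bad C _).trans (ENNReal.ofReal_le_ofReal
        ((hM _ (Nat.le_add_left _ _)).trans
          (pow_le_pow_of_le_one (exp_pos _).le hq.le (Nat.le_add_right _ _)))))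
    rw [← ENNReal.ofReal_tsum_of_nonneg (fun i => by positivity)
      (summable_geometric_of_lt_one (exp_pos _).le hq)]
    exact ENNReal.ofReal_ne_top
  filter_upwards [ae_eventually_notMem h] with x hx
  obtain ⟨N, hN⟩ := eventually_atTop.1 hx
  refine ⟨N + M, fun m hm => ?_⟩
  have := hN (m - M) (by omega)
  rwa [show m - M + M = m by omega] at this

/-- The series `f` converges at `x` with sum `a`. -/
def HS (f : PowerSeries ℤ) (x a : ℝ) : Prop :=
  HasSum (fun n => ((PowerSeries.coeff n f : ℤ) : ℝ) * x ^ n) a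

theorem HS.add {f g : PowerSeries ℤ} {x a b : ℝ} (hf : HS f x a) (hg : HS g x b) :
    HS (f + g) x (a + b) := by
  simpa only [HS, map_add, Int.cast_add, add_mul] using HasSum.add hf hg

theorem HS.sum {ι : Type*} (S : Finset ι) {f : ι → PowerSeries ℤ} {x : ℝ} {a : ι → ℝ}
    (h : ∀ i, HS (f i) x (a i)) : HS (∑ i ∈ S, f i) x (∑ i ∈ S, a i) := by
  simpa only [HS, map_sum, Int.cast_sum, Finset.sum_mul] using hasSum_sum fun i (_ : i ∈ S) => h i

theorem HS.mul_poly {f : PowerSeries ℤ} {x a : ℝ} (hf : HS f x a) (P : ℤ[X]) :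
    HS (f * (P : PowerSeries ℤ)) x (a * aeval x P) := by
  induction P using Polynomial.induction_on' with
  | add p q hp hq =>
    rw [Polynomial.coe_add, mul_add, map_add, mul_add]
    exact hp.add hq
  | monomial n c =>
    rw [← C_mul_X_pow_eq_monomial, Polynomial.coe_mul, Polynomial.coe_C, Polynomial.coe_pow,
      Polynomial.coe_X, ← mul_assoc, map_mul, aeval_C, map_pow, aeval_X,
      eq_intCast (algebraMap ℤ ℝ)]
    rw [HS, ← hasSum_nat_add_iff' n, Finset.sum_eq_zero, sub_zero]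
    · have := HasSum.mul_right ((c : ℝ) * x ^ n) hf
      refine this.congr_fun ?_
      intro k
      rw [PowerSeries.coeff_mul_X_pow, PowerSeries.coeff_mul_C, Int.cast_mul, pow_add]
      ring
    · intro i hi
      rw [PowerSeries.coeff_mul_X_pow', if_neg (Nat.not_le.2 (Finset.mem_range.1 hi))]
      simp

theorem summable_poly (D : ℕ) {r : ℝ} (h0 : 0 ≤ r) (h1 : r < 1) :
    Summable (fun n : ℕ => ((n : ℝ) + 1) ^ D * r ^ n) := by
  simp only [add_pow, one_pow, mul_one, Finset.sum_mul]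
  refine summable_sum fun k _ => ?_
  have := (summable_pow_mul_geometric_of_norm_lt_one k
    (show ‖r‖ < 1 by rwa [Real.norm_of_nonneg h0])).mul_left (D.choose k : ℝ)
  exact this.congr fun n => by ring

theorem ae_ne_zero {f : PowerSeries ℤ} (hf : f ≠ 0) (hs : ∀ x ∈ Ioo (-1 : ℝ) 1, ∃ a, HS f x a) :
    ∀ᵐ x : ℝ, x ∈ Ioo (-1 : ℝ) 1 → ¬ HS f x 0 := by
  set c : ℕ → ℝ := fun n => ((PowerSeries.coeff n f : ℤ) : ℝ) with hc
  set p := FormalMultilinearSeries.ofScalars ℝ c with hp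
  have hr : 1 ≤ p.radius := by
    refine ENNReal.le_of_forall_nnreal_lt fun r hr => p.le_radius_of_summable ?_
    have hr' : (r : ℝ) < 1 := by exact_mod_cast hr
    obtain ⟨a, ha⟩ := hs r ⟨by linarith [r.coe_nonneg], hr'⟩
    refine ha.summable.abs.congr fun n => ?_
    rw [hp, FormalMultilinearSeries.ofScalars_norm, abs_mul, abs_pow, NNReal.abs_eq]
    rfl
  have hb := p.hasFPowerSeriesOnBall (lt_of_lt_of_le one_pos hr)
  have han : AnalyticOnNhd ℝ p.sum (Ioo (-1) 1) := hb.analyticOnNhd.mono fun x hx => by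
    refine lt_of_lt_of_le ?_ hr
    rw [edist_dist, Real.dist_eq, sub_zero, ENNReal.ofReal_lt_one]
    exact abs_lt.2 hx
  rcases han.eqOn_zero_or_eventually_ne_zero_of_preconnected isPreconnected_Ioo with h | h
  · exfalso
    have h0 : p = 0 := hb.hasFPowerSeriesAt.eq_zero_of_eventually
      (eventually_of_mem (Ioo_mem_nhds (by norm_num) (by norm_num)) h)
    rw [hp, FormalMultilinearSeries.ofScalars_series_eq_zero] at h0
    refine hf (PowerSeries.ext fun n => ?_)
    have := congrFun h0 n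
    simpa [hc] using this
  · have h2 := ae_restrict_le_codiscreteWithin (μ := volume) measurableSet_Ioo h
    have h3 := (ae_restrict_iff' measurableSet_Ioo).1 h2
    filter_upwards [h3] with x hx hx' h4
    refine hx hx' ?_
    exact (FormalMultilinearSeries.ofScalars_sum_eq c x).trans h4.tsum_eq

theorem abs_coeff_mul_le {f : PowerSeries ℤ} {B : ℝ} {D : ℕ}
    (hf : ∀ n, |((PowerSeries.coeff n f : ℤ) : ℝ)| ≤ B * ((n : ℝ) + 1) ^ D) {P : ℤ[X]}
    (hP : ∀ i, |P.coeff i| ≤ 2) (n : ℕ) :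
    |((PowerSeries.coeff n (f * (P : PowerSeries ℤ)) : ℤ) : ℝ)| ≤
      2 * |B| * ((n : ℝ) + 1) ^ (D + 1) := by
  rw [PowerSeries.coeff_mul, Int.cast_sum]
  refine (Finset.abs_sum_le_sum_abs _ _).trans ?_
  refine (Finset.sum_le_card_nsmul _ _ (|B| * ((n : ℝ) + 1) ^ D * 2) fun z hz => ?_).trans ?_
  · rw [Int.cast_mul, abs_mul, Polynomial.coeff_coe]
    refine mul_le_mul ((hf _).trans ?_) (by exact_mod_cast hP _) (abs_nonneg _) (by positivity)
    have : (z.1 : ℝ) ≤ n := Nat.cast_le.2 (Finset.HasAntidiagonal.antidiagonal.fst_le hz)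
    exact mul_le_mul (le_abs_self _) (by gcongr) (by positivity) (abs_nonneg _)
  · rw [Finset.Nat.card_antidiagonal, nsmul_eq_mul]
    push_cast
    exact le_of_eq (by ring)

end AuxSysAux

open AuxSysAux Filter Topology

theorem ae_goodL : ∀ᵐ x : ℝ, x ∈ Ioo (0 : ℝ) 1 → GoodL x := by
  classical
  filter_upwards [ae_all_iff.2 ae_not_bad] with x h hx C
  obtain ⟨M, hM⟩ := h C
  obtain ⟨m0, hm0⟩ := alt1_of_far hx C
  refine ⟨max M m0, fun m hm => hm0 m (le_trans (le_max_right _ _) hm) fun P η hP h0 hη => ?_⟩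
  by_contra hlt
  refine hM m (le_trans (le_max_left _ _) hm) (mem_iUnion₂.2 ⟨P, mem_PP hP, mem_iUnion₂.2
    ⟨η, ?_, ?_⟩⟩)
  · rw [Multiset.mem_toFinset, mem_roots ((Polynomial.map_ne_zero_iff
      (Int.castRingHom ℂ).injective_int).2 h0), IsRoot, eval_map]
    exact hη
  · rw [Metric.mem_ball, Real.dist_eq]
    refine lt_of_le_of_lt ?_ (not_le.1 hlt)
    have := Complex.abs_re_le_norm ((x : ℂ) - η)
    simpa using this

/-- A small good base and translations that separate exactly the kernel of `q`. -/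
theorem exists_aux {Λ E : Type*} [Fintype Λ] [Fintype E] (q : E → Λ → PowerSeries ℤ) (B : ℝ)
    (D : ℕ) (hq : ∀ e l n, |((PowerSeries.coeff n (q e l) : ℤ) : ℝ)| ≤ B * ((n : ℝ) + 1) ^ D)
    {x₁ : ℝ} (hx₁ : 0 < x₁) :
    ∃ x₀ : ℝ, x₀ ∈ Ioo (0 : ℝ) 1 ∧ x₀ < x₁ ∧ GoodL x₀ ∧ ∃ t' : Λ → ℝ,
      (∀ y : Λ → ℤ[X], ev x₀ t' y = 0 ↔ ∀ e, ∑ l, q e l * toPS y l = 0) ∧
      ∀ τ : ℝ, 0 < τ → ∃ N1 : ℕ, ∀ y : Λ → ℤ[X], (∀ l i, |(y l).coeff i| ≤ 2) →
        (∀ e, ∀ n < N1, PowerSeries.coeff n (∑ l, q e l * toPS y l) = 0) →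
        |ev x₀ t' y| ≤ τ := by
  classical
  have : Countable ℤ[X] := by
    refine Function.Surjective.countable (f := fun a : ℕ →₀ ℤ => a.sum fun n c => monomial n c)
      fun P => ⟨Finsupp.onFinset P.support P.coeff (fun n h => mem_support_iff.2 h), ?_⟩
    simp only
    rw [Finsupp.onFinset_sum _ (by simp)]
    exact P.as_sum_support.symm
  let Ev : E → Λ → ℝ → ℝ := fun e l x => ∑' n, ((PowerSeries.coeff n (q e l) : ℤ) : ℝ) * x ^ n
  have hE : ∀ e l, ∀ x ∈ Ioo (-1 : ℝ) 1, HS (q e l) x (Ev e l x) := by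
    intro e l x hx
    refine Summable.hasSum (Summable.of_norm_bounded
      ((summable_poly D (abs_nonneg x) (abs_lt.2 hx)).mul_left B) fun n => ?_)
    rw [Real.norm_eq_abs, abs_mul, abs_pow, ← mul_assoc]
    exact mul_le_mul_of_nonneg_right (hq e l n) (by positivity)
  have hG : ∀ e (y : Λ → ℤ[X]), ∀ x ∈ Ioo (-1 : ℝ) 1,
      HS (∑ l, q e l * toPS y l) x (∑ l, Ev e l x * aeval x (y l)) :=
    fun e y x hx => HS.sum _ fun l => (hE e l x hx).mul_poly (y l)
  have hae : ∀ᵐ x : ℝ, ∀ (e : E) (y : Λ → ℤ[X]), ∑ l, q e l * toPS y l ≠ 0 →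
      x ∈ Ioo (-1 : ℝ) 1 → ¬ HS (∑ l, q e l * toPS y l) x 0 := by
    refine ae_all_iff.2 fun e => ae_all_iff.2 fun y => ?_
    by_cases h : ∑ l, q e l * toPS y l = 0
    · exact Eventually.of_forall fun x h' => (h' h).elim
    · filter_upwards [ae_ne_zero h fun x hx => ⟨_, hG e y x hx⟩] with x hx _ using hx
  obtain ⟨x₀, hx₀, h1, h2⟩ : ∃ x₀ ∈ Ioo (0 : ℝ) (min x₁ 1), (x₀ ∈ Ioo (0 : ℝ) 1 → GoodL x₀) ∧
      ∀ (e : E) (y : Λ → ℤ[X]), ∑ l, q e l * toPS y l ≠ 0 →
        x₀ ∈ Ioo (-1 : ℝ) 1 → ¬ HS (∑ l, q e l * toPS y l) x₀ 0 := by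
    refine Measure.exists_mem_of_measure_ne_zero_of_ae (μ := volume) ?_
      (ae_restrict_of_ae (ae_goodL.and hae))
    rw [Real.volume_Ioo, sub_zero]
    exact (ENNReal.ofReal_pos.2 (lt_min hx₁ one_pos)).ne'
  have hx0 : x₀ ∈ Ioo (0 : ℝ) 1 := ⟨hx₀.1, hx₀.2.trans_le (min_le_right _ _)⟩
  have hx0' : x₀ ∈ Ioo (-1 : ℝ) 1 := ⟨by linarith [hx0.1], hx0.2⟩
  let idx : E → ℕ := fun e => Fintype.equivFin E e
  have hidx : Function.Injective idx := fun a b h => (Fintype.equivFin E).injective (Fin.ext h)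
  let v : (Λ → ℤ[X]) → E → ℝ := fun y e => ∑ l, Ev e l x₀ * aeval x₀ (y l)
  let W : (Λ → ℤ[X]) → ℝ[X] := fun y => ∑ e, monomial (idx e) (v y e)
  have hW : ∀ y e, (W y).coeff (idx e) = v y e := by
    intro y e
    rw [finsetSum_coeff, Finset.sum_eq_single e (fun e' _ h => by
      rw [coeff_monomial, if_neg fun h' => h (hidx h')]) (by simp), coeff_monomial, if_pos rfl]
  obtain ⟨z, hz⟩ : ∃ z : ℝ, ∀ y, W y ≠ 0 → (W y).eval z ≠ 0 := by
    refine Eventually.exists (f := ae volume) (ae_all_iff.2 fun y => ?_)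
    by_cases h : W y = 0
    · exact Eventually.of_forall fun x h' => (h' h).elim
    · have := ((W y).roots.toFinset.finite_toSet).measure_zero volume
      filter_upwards [measure_eq_zero_iff_ae_notMem.1 this] with x hx _ h3
      exact hx (by simpa [h] using h3)
  have hev : ∀ y, ev x₀ (fun l => ∑ e, z ^ idx e * Ev e l x₀) y = ∑ e, v y e * z ^ idx e := by
    intro y
    simp only [ev, v, Finset.mul_sum, Finset.sum_mul]
    rw [Finset.sum_comm]
    refine Finset.sum_congr rfl fun e _ => Finset.sum_congr rfl fun l _ => ?_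
    ring
  refine ⟨x₀, hx0, hx₀.2.trans_le (min_le_left _ _), h1 hx0, fun l => ∑ e, z ^ idx e * Ev e l x₀,
    fun y => ⟨fun h e => ?_, fun h => ?_⟩, fun τ hτ => ?_⟩
  · by_contra hne
    refine hz y (fun h0 => h2 e y hne hx0' ?_) ?_
    · have h3 := hW y e
      rw [h0, coeff_zero] at h3
      have := hG e y x₀ hx0'
      rwa [show ∑ l, Ev e l x₀ * aeval x₀ (y l) = 0 from h3.symm] at this
    · rw [← h, hev, eval_finsetSum]
      simp only [eval_monomial]
  · rw [hev]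
    refine Finset.sum_eq_zero fun e _ => ?_
    have := hG e y x₀ hx0'
    rw [h e] at this
    have h3 : v y e = 0 := HasSum.unique this (by simp)
    rw [h3, zero_mul]
  · let u : ℕ → ℝ := fun n => Fintype.card Λ * (2 * |B|) * (((n : ℝ) + 1) ^ (D + 1) * x₀ ^ n)
    have hu : Summable u := (summable_poly (D + 1) hx0.1.le hx0.2).mul_left _
    have hlim : Tendsto (fun N => (∑' k, u (k + N)) * ∑ e, |z ^ idx e|) atTop (𝓝 0) := by
      simpa using (tendsto_sum_nat_add u).mul_const (∑ e, |z ^ idx e|)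
    obtain ⟨N, hN⟩ := (hlim.eventually (ge_mem_nhds hτ)).exists
    refine ⟨N, fun y hy h0 => le_trans ?_ hN⟩
    rw [hev, Finset.mul_sum]
    refine (Finset.abs_sum_le_sum_abs _ _).trans (Finset.sum_le_sum fun e _ => ?_)
    rw [abs_mul]
    refine mul_le_mul_of_nonneg_right ?_ (abs_nonneg _)
    have h3 := (hasSum_nat_add_iff' N).2 (hG e y x₀ hx0')
    rw [Finset.sum_eq_zero (s := Finset.range N) (fun i hi => by
      rw [h0 e i (Finset.mem_range.1 hi)]; simp),
      sub_zero] at h3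
    refine h3.norm_le_of_bounded ((summable_nat_add_iff N).2 hu).hasSum fun k => ?_
    rw [Real.norm_eq_abs, abs_mul, abs_of_pos (pow_pos hx0.1 _), map_sum, Int.cast_sum]
    have h4 : |∑ l, ((PowerSeries.coeff (k + N) (q e l * toPS y l) : ℤ) : ℝ)| ≤
        Fintype.card Λ * (2 * |B| * (((k + N : ℕ) : ℝ) + 1) ^ (D + 1)) := by
      refine (Finset.abs_sum_le_sum_abs _ _).trans ?_
      refine (Finset.sum_le_card_nsmul _ _ _ fun l _ => abs_coeff_mul_le (hq e l) (hy l) _).trans ?_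
      rw [nsmul_eq_mul, Finset.card_univ]
    refine (mul_le_mul_of_nonneg_right h4 (pow_pos hx0.1 _).le).trans (le_of_eq ?_)
    simp only [u]
    ring

end

end Vale.Agent.P114
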