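import Vale.Agent.P114.Level

/-! # P114: block entropy and cells of one block -/

open MeasureTheory Real Set Polynomial
open scoped ENNReal

namespace Vale.Agent.P114

noncomputable section

variable {Λ : Type*} [Fintype Λ] {β γ : Type*}

open LevelAux

namespace BlockAux

theorem small (d : ℕ) {g : ℝ} (hg : 0 < g) (V C : ℝ) :
    ∃ m0 : ℕ, ∀ m : ℕ, m0 ≤ m → d * log (m + 1) + V * √m + C ≤ g * m := by
  obtain ⟨m0, hm0⟩ := log_small d (half_pos hg) (C + V ^ 2 / (2 * g))
  refine ⟨m0, fun m hm => ?_⟩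
  have h1 := hm0 m hm
  have h2 : √(m : ℝ) ^ 2 = m := sq_sqrt (Nat.cast_nonneg m)
  have h3 : V * √m ≤ g / 2 * m + V ^ 2 / (2 * g) := by
    have h4 : 0 ≤ (g * √m - V) ^ 2 / (2 * g) := by positivity
    have h5 : (g * √m - V) ^ 2 / (2 * g) = g / 2 * √m ^ 2 - V * √m + V ^ 2 / (2 * g) := by
      field_simp
      ring
    rw [h5, h2] at h4
    linarith
  linarith

theorem atom_supp {Ω : Type*} (S : Finset Ω) (w t : Ω → ℝ) {a b : ℝ}
    (h : ∀ ω ∈ S, t ω ∈ Icc a b) : atom S w t (Icc a b)ᶜ = 0 := by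
  refine HsSuperAux.null_sum (fun ω hω => ?_)
  rw [Measure.smul_apply, Measure.dirac_apply' _ measurableSet_Icc.compl,
    indicator_of_notMem (notMem_compl_iff.2 (h ω hω)), smul_zero]

theorem sum_max (F : IFS Λ) {V : ℝ}
    (hV : ∀ m : ℕ, ∑ w ∈ words Λ m, pw F.p w * |F.chiw w - F.chi * m| ≤ V * √m) {ε : ℝ}
    (hε : 0 ≤ ε) (K : ℝ) (N : ℕ) :
    ∑ w ∈ words Λ N, pw F.p w * (K + max ((F.chi + ε) * N - F.chiw w) 0) ≤
      K + ε * N + V * √N := by
  have h1 : ∑ w ∈ words Λ N, pw F.p w * (K + max ((F.chi + ε) * N - F.chiw w) 0) ≤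
      ∑ w ∈ words Λ N, (pw F.p w * (K + ε * N) + pw F.p w * |F.chiw w - F.chi * N|) := by
    refine Finset.sum_le_sum (fun w hw' => ?_)
    rw [← mul_add]
    refine mul_le_mul_of_nonneg_left ?_ (hw F _ w hw')
    have a1 := neg_abs_le (F.chiw w - F.chi * N)
    have a2 := abs_nonneg (F.chiw w - F.chi * N)
    have a3 : 0 ≤ ε * N := by positivity
    have : max ((F.chi + ε) * N - F.chiw w) 0 ≤ ε * N + |F.chiw w - F.chi * N| :=
      max_le (by linarith) (by linarith)
    linarith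
  rw [Finset.sum_add_distrib, ← Finset.sum_mul, sum_pw F.p_sum, one_mul] at h1
  linarith [hV N]

theorem Hs_add_le {ν ν' : Measure ℝ} (h : Good ν) (h' : Good ν') (s : ℝ) :
    Hs (ν + ν') s ≤ mss (ν + ν') * log 2 + Hs ν s + Hs ν' s := by
  have h1 := Hs_sum_le (I := Finset.univ) (m := fun b : Bool => if b then ν else ν')
    (fun b _ => by cases b <;> simpa) s
  have h2 := ent_le_log_card (S := Finset.univ)
    (a := fun b : Bool => mss (if b then ν else ν')) (fun _ _ => mss_nonneg _)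
  simp only [Fintype.sum_bool, if_true, Bool.false_eq_true, if_false, Finset.card_univ,
    Fintype.card_bool, Nat.cast_ofNat] at h1 h2
  rw [mss_add h h']
  linarith

theorem Hs_up {μ : Measure ℝ} [IsProbabilityMeasure μ] (h : Good μ) {α C : ℝ}
    (hs : Slope μ α C) (hα1 : α ≤ 1) (x : ℝ) : Hs μ x ≤ (Hs μ 0 + C + 1) + max x 0 := by
  have hC : 0 ≤ C := by simpa using hs.1 0 0 le_rfl
  rcases le_total 0 x with hx | hx
  · have h1 := hs.1 0 x hx
    rw [zero_add] at h1
    have h2 := mul_le_mul_of_nonneg_right hα1 hx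
    rw [max_eq_left hx]
    linarith
  · have h1 := Hs_mono h hx
    rw [mss_prob] at h1
    rw [max_eq_right hx]
    linarith [log_two_le_one]

theorem ent_cls (F : IFS Λ) (ε : ℝ) (N : ℕ) :
    entW (F.typ ε N) (pw F.p) (cls (fun _ => ())) ≤ Fintype.card Λ * log (N + 1) := by
  have h5 := entW_le_log_card (hw F (F.typ ε N)) (cls (fun _ => ()))
    (card_img_cls (fun _ _ => rfl) F ε N)
  have h6 : log (((N + 1) ^ Fintype.card Λ : ℕ) : ℝ) = Fintype.card Λ * log (N + 1) := by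
    push_cast
    rw [log_pow]
  have h7 : 0 ≤ log (((N + 1) ^ Fintype.card Λ : ℕ) : ℝ) := log_natCast_nonneg _
  have h8 := mul_le_mul_of_nonneg_right (F.sum_typ_le_one ε N) h7
  linarith

theorem Hs_typ (F : IFS Λ) {μ : Measure ℝ} [IsProbabilityMeasure μ] (h : Good μ) {K : ℝ}
    (hK : ∀ x, Hs μ x ≤ K + max x 0) (ε : ℝ) (N : ℕ) (s : ℝ) :
    Hs (∑ f ∈ img (F.typ ε N) (cls (fun _ => ())),
        F.nu (fun _ => ()) ε N f ∗ scl (F.rm f.1) μ) s ≤
      Fintype.card Λ * log (N + 1) + F.Hm (fun _ => ()) ε N s + 4 +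
        ∑ w ∈ F.typ ε N, pw F.p w * (K + max (s - F.chiw w) 0) := by
  have h1 := Hs_sum_le (I := img (F.typ ε N) (cls (fun _ => ())))
    (m := fun f => F.nu (fun _ => ()) ε N f ∗ scl (F.rm f.1) μ)
    (fun f _ => (F.good_nu _ ε N f).conv (h.scl _)) s
  have h2 : ∀ f, mss (F.nu (fun _ => ()) ε N f ∗ scl (F.rm f.1) μ) =
      mass (F.typ ε N) (pw F.p) (cls (fun _ => ())) f := by
    intro f
    rw [mss_conv (F.good_nu _ ε N f) (h.scl _), mss_prob (scl _ μ), mul_one, F.mss_nu]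
  simp only [h2] at h1
  have h3 := ent_cls F ε N
  unfold entW at h3
  have h4 : ∑ f ∈ img (F.typ ε N) (cls (fun _ => ())),
      Hs (F.nu (fun _ => ()) ε N f ∗ scl (F.rm f.1) μ) s ≤
      ∑ f ∈ img (F.typ ε N) (cls (fun _ => ())), (Hs (F.nu (fun _ => ()) ε N f) s +
        ∑ w ∈ fib (F.typ ε N) (cls (fun _ => ())) f,
          (pw F.p w * (K + max (s - F.chiw w) 0) + pw F.p w * 4)) := by
    refine Finset.sum_le_sum (fun f _ => ?_)
    refine (Hs_conv_le (F.good_nu _ ε N f) (h.scl _) s).trans (add_le_add le_rfl ?_)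
    rw [F.mss_nu, mass, Finset.sum_mul]
    refine Finset.sum_le_sum (fun w hw' => ?_)
    have a1 : (w : Multiset Λ) = f.1 := congrArg Prod.fst (mem_fib.1 hw').2
    rw [← mul_add, Hs_scl h (F.rm_ne_zero _), ← a1, F.rm_coe]
    refine mul_le_mul_of_nonneg_left ?_ (hw F _ w hw')
    have a2 : s + log |F.rw w| = s - F.chiw w := by
      unfold IFS.chiw
      ring
    rw [a2]
    linarith [hK (s - F.chiw w)]
  rw [Finset.sum_add_distrib, sum_fib, Finset.sum_add_distrib, ← Finset.sum_mul] at h4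
  have h5 := F.sum_typ_le_one ε N
  unfold IFS.Hm
  linarith

theorem Hs_atyp (F : IFS Λ) {μ : Measure ℝ} [IsProbabilityMeasure μ] (h : Good μ) {K : ℝ}
    (hK : ∀ x, Hs μ x ≤ K + max x 0) (ε : ℝ) (N : ℕ) (s : ℝ) :
    Hs (∑ w ∈ F.atyp ε N,
        ENNReal.ofReal (pw F.p w) • μ.map (fun x => F.rw w * x + F.tw w)) s ≤
      ent (F.atyp ε N) (pw F.p) + ∑ w ∈ F.atyp ε N, pw F.p w * (K + max (s - F.chiw w) 0) := by
  have h1 := Hs_sum_le (I := F.atyp ε N)
    (m := fun w => ENNReal.ofReal (pw F.p w) • μ.map (fun x => F.rw w * x + F.tw w))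
    (fun w _ => (h.map_affine _ _).smul _) s
  have h2 : ∀ w, mss (ENNReal.ofReal (pw F.p w) • μ.map (fun x => F.rw w * x + F.tw w)) =
      pw F.p w := by
    intro w
    rw [mss_smul _ (pw_pos F.p_pos w).le, mss_map_affine, mss_prob, mul_one]
  simp only [h2] at h1
  refine h1.trans (add_le_add le_rfl (Finset.sum_le_sum (fun w _ => ?_)))
  rw [Hs_smul (h.map_affine _ _) (pw_pos F.p_pos w).le, Hs_map_affine h (F.rw_ne_zero w)]
  refine mul_le_mul_of_nonneg_left ?_ (pw_pos F.p_pos w).le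
  have a2 : s + log |F.rw w| = s - F.chiw w := by
    unfold IFS.chiw
    ring
  rw [a2]
  exact hK _

theorem Hinf_le_HG (F : IFS Λ) (ex : List Λ → β) (ε : ℝ) (N : ℕ) : F.Hinf ex ε N ≤ F.HG N :=
  ((condW_le_entW (hw F _) _ _).trans (entW_le_of_subset (F.typ_subset ε N) (hw F _) _)).trans
    (entW_mono (hw F _) (fun _ _ _ _ h => congrArg Prod.snd h))

end BlockAux

open BlockAux

/-- Block by block lower bound for the entropy of a label `Z`. -/
theorem block_lower {p : Λ → ℝ} (hp0 : ∀ i, 0 < p i) (hp : ∑ i, p i = 1) (N rem : ℕ)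
    (c : List Λ → γ) (Jv : ℝ)
    (h1 : ∀ L, Jv ≤ entW (words Λ (N + L)) (pw p) c -
      condW (words Λ (N + L)) (pw p) c (fun y => y.take N))
    (B : ℕ) (Z : List Λ → β)
    (h2 : ∀ (b : ℕ) (u : List Λ), b < B → u.length = N * b → ∀ z,
      (img (fib (words Λ (N * (B - b) + rem)) (fun y => Z (u ++ y)) z) c).card ≤ 4) :
    B * (Jv - log 4) ≤ entW (words Λ (N * B + rem)) (pw p) Z := by
  have hw0 : ∀ (S : Finset (List Λ)), ∀ w ∈ S, 0 ≤ pw p w := fun _ w _ => (pw_pos hp0 w).le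
  induction B generalizing Z with
  | zero =>
    rw [Nat.cast_zero, zero_mul]
    exact entW_nonneg (hw0 _) _
  | succ B ih =>
    have e : N * (B + 1) + rem = N + (N * B + rem) := by ring
    have a1 := info_transfer (hw0 (words Λ (N + (N * B + rem)))) Z c (fun y => y.take N)
    have a2 := h1 (N * B + rem)
    have a3 := condW_le_log (hw0 (words Λ (N + (N * B + rem)))) c Z (n := 4) (fun z => by
      have := h2 0 [] (Nat.succ_pos B) rfl z
      rw [Nat.sub_zero, e] at this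
      exact this)
    rw [sum_pw hp, one_mul, Nat.cast_ofNat] at a3
    have a4 : B * (Jv - log 4) ≤
        condW (words Λ (N + (N * B + rem))) (pw p) Z (fun y => y.take N) := by
      rw [condW_take, ← one_mul (B * (Jv - log 4)), ← sum_pw hp N, Finset.sum_mul]
      refine Finset.sum_le_sum (fun v hv => mul_le_mul_of_nonneg_left ?_ (hw0 _ v hv))
      refine ih _ (fun b u hb hu z => ?_)
      have := h2 (b + 1) (v ++ u) (by omega)
        (by rw [List.length_append, mem_words.1 hv, hu]; ring) z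
      rw [Nat.add_sub_add_right] at this
      simpa only [List.append_assoc] using this
    rw [e]
    push_cast
    linarith

namespace IFS

variable (F : IFS Λ)

/-- Cells with arbitrary class dependent offsets see all but `Rm` of the atomic entropy. -/
theorem low_cell (ex : List Λ → β) {ε : ℝ} (hε : 0 < ε) : ∃ C : ℝ, ∀ (N : ℕ) (s : ℝ)
    (u : Multiset Λ × β → ℝ),
    condW (words Λ N) (pw F.p) F.tw (cls ex) - F.Rm ex ε N s - C ≤
      condW (words Λ N) (pw F.p) (fun v => cell s (u (cls ex v)) (F.tw v)) (cls ex) := by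
  obtain ⟨C1, -, hC1⟩ := F.exists_ent_atyp hε
  refine ⟨C1 + 2, fun N s u => ?_⟩
  have a1 : condW (words Λ N) (pw F.p) F.tw (cls ex) ≤ (∑ w ∈ words Λ N, pw F.p w) * log 2 +
      condW (F.typ ε N) (pw F.p) F.tw (cls ex) + condW (F.atyp ε N) (pw F.p) F.tw (cls ex) :=
    condW_le_split (hw F _) _ _ (fun w => F.chiw w ≤ (F.chi + ε / 2) * N)
  rw [sum_pw F.p_sum, one_mul] at a1
  have a2 : condW (F.atyp ε N) (pw F.p) F.tw (cls ex) ≤ C1 :=
    ((condW_le_entW (hw F _) _ _).trans (entW_le_ent (hw F _) _)).trans (hC1 N)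
  have a3 := condW_le_of_subset (F.typ_subset ε N) (hw F _)
    (fun v => cell s (u (cls ex v)) (F.tw v)) (cls ex)
  have a4 : F.Hm ex ε N s ≤
      condW (F.typ ε N) (pw F.p) (fun v => cell s (u (cls ex v)) (F.tw v)) (cls ex) +
        (∑ f ∈ img (F.typ ε N) (cls ex), mss (F.nu ex ε N f)) * log 2 := by
    rw [condW_eq_sum, Finset.sum_mul, ← Finset.sum_add_distrib]
    refine Finset.sum_le_sum (fun f _ => (Hs_le_Hu (F.good_nu ex ε N f) s (u f)).trans
      (add_le_add (le_of_eq ?_) le_rfl))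
    rw [nu, Hu_atom (hw F _)]
    refine entW_congr _ (fun v hv v' hv' => ?_)
    rw [(mem_fib.1 hv).2, (mem_fib.1 hv').2]
  have a5 := mul_le_mul_of_nonneg_right (sum_mss_le F ex ε N) (log_nonneg one_le_two)
  have a6 := log_two_le_one
  unfold Rm Hinf
  linarith

/-- Given the first block, the cell at the natural scale has little entropy. -/
theorem up_cell : ∃ C : ℝ, ∀ (ε : ℝ), 0 ≤ ε → ∀ N L : ℕ,
    condW (words Λ (N + L)) (pw F.p) (fun y => cell ((F.chi + ε) * N) 0 (F.tw y))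
      (fun y => y.take N) ≤ ε * N + C * √N + C := by
  obtain ⟨R, hR, -, hR2⟩ := F.exists_radius
  obtain ⟨V, hV0, hV⟩ := F.exists_dev
  have hl : 0 ≤ log (2 * R + 2) := log_nonneg (by linarith)
  refine ⟨log (2 * R + 2) + V, fun ε hε N L => ?_⟩
  have a1 := sum_max F hV hε (log (2 * R + 2)) N
  have a2 : condW (words Λ (N + L)) (pw F.p) (fun y => cell ((F.chi + ε) * N) 0 (F.tw y))
      (fun y => y.take N) ≤ ∑ w ∈ words Λ N,
        pw F.p w * (log (2 * R + 2) + max ((F.chi + ε) * N - F.chiw w) 0) := by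
    rw [condW_take]
    refine Finset.sum_le_sum (fun v hv => mul_le_mul_of_nonneg_left ?_ (hw F _ v hv))
    have b0 := abs_pos.2 (F.rw_ne_zero v)
    have b1 := atom_supp (words Λ L) (pw F.p) (fun y => F.tw (v ++ y))
      (a := F.tw v - R * |F.rw v|) (b := F.tw v - R * |F.rw v| + 2 * R * |F.rw v|) (fun y _ => by
        have c1 : |F.tw y| ≤ R := by
          have := hR2 y
          have := mul_nonneg (abs_nonneg (F.rw y)) hR.le
          linarith
        have c2 : |F.rw v * F.tw y| ≤ R * |F.rw v| := by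
          rw [abs_mul, mul_comm]
          exact mul_le_mul_of_nonneg_right c1 b0.le
        rw [F.tw_append]
        rw [abs_le] at c2
        constructor <;> linarith [c2.1, c2.2])
    have b2 := Hu_le_diam (Good.atom _ _ _) (by positivity) b1 ((F.chi + ε) * N) 0
    rw [Hu_atom (hw F _), mss_atom (hw F _), sum_pw F.p_sum, one_mul] at b2
    refine b2.trans ?_
    obtain ⟨m, hm⟩ : ∃ m, m = max ((F.chi + ε) * N - F.chiw v) 0 := ⟨_, rfl⟩
    have b3 : |F.rw v| * exp ((F.chi + ε) * N) ≤ exp m := by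
      rw [← exp_log b0, ← exp_add, exp_le_exp, hm]
      refine le_trans (le_of_eq ?_) (le_max_left _ _)
      unfold chiw
      ring
    have b4 : 1 ≤ exp m := one_le_exp (by rw [hm]; exact le_max_right _ _)
    rw [← hm, ← log_exp m, ← log_mul (by positivity) (by positivity)]
    refine log_le_log (by positivity) ?_
    have b5 := mul_le_mul_of_nonneg_left b3 hR.le
    linarith
  have a3 := mul_nonneg hl (sqrt_nonneg (N : ℝ))
  linarith

/-- When the slope reaches the entropy, little is left at every large level. -/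
theorem Rm_small {μ : Measure ℝ} [IsProbabilityMeasure μ] (h : F.SelfSim μ) {α C : ℝ}
    (hs : Slope μ α C) (hα0 : 0 ≤ α) (hα1 : α ≤ 1) (hle : F.hh ≤ α * F.chi) {ε : ℝ}
    (hε : 0 < ε) (hε1 : ε ≤ 1) : ∃ N0 : ℕ, ∀ N, N0 ≤ N →
      F.Rm (fun _ => ()) ε N ((F.chi + ε) * N) ≤ (F.chi + 4) * ε * N := by
  have hg := F.good_of_selfSim h
  obtain ⟨V, -, hV⟩ := F.exists_dev
  obtain ⟨C1, -, hC1⟩ := F.exists_ent_atyp hε
  obtain ⟨N1, hN1⟩ := F.HG_le hε
  obtain ⟨s₁, hs₁⟩ := hs.2 ε hε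
  obtain ⟨N2, hN2⟩ := small (Fintype.card Λ) hε V
    (|s₁| + C + 1 + 4 + C1 + (Hs μ 0 + C + 1))
  obtain ⟨N3, hN3⟩ := exists_nat_ge (s₁ / ε)
  refine ⟨max N1 (max N2 N3), fun N hN => ?_⟩
  have n1 : N1 ≤ N := by omega
  have n2 : N2 ≤ N := by omega
  have n3 : (N3 : ℝ) ≤ N := by exact_mod_cast (by omega : N3 ≤ N)
  have hN0 : (0 : ℝ) ≤ N := Nat.cast_nonneg N
  have hχ := mul_nonneg F.chi_pos.le hN0
  have a0 : 0 ≤ (F.chi + ε) * N - s₁ := by
    have := (div_le_iff₀ hε).1 (hN3.trans n3)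
    linarith
  have a1 := hs₁ s₁ _ le_rfl a0
  rw [add_sub_cancel] at a1
  have a2 := Hs_nonneg hg s₁
  have a3 : (α - ε) * s₁ ≤ |s₁| := by
    refine (le_abs_self _).trans ?_
    rw [abs_mul]
    exact mul_le_of_le_one_left (abs_nonneg _) (abs_le.2 ⟨by linarith, by linarith⟩)
  have hK := Hs_up hg hs hα1
  have b1 := Hs_typ F hg hK ε N ((F.chi + ε) * N)
  have b2 := Hs_atyp F hg hK ε N ((F.chi + ε) * N)
  have b3 := Hs_add_le (Good.sum (I := img (F.typ ε N) (cls (fun _ => ())))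
    (m := fun f => F.nu (fun _ => ()) ε N f ∗ scl (F.rm f.1) μ)
    (fun f _ => (F.good_nu _ ε N f).conv (hg.scl _))) (Good.sum (I := F.atyp ε N)
    (m := fun w => ENNReal.ofReal (pw F.p w) • μ.map (fun x => F.rw w * x + F.tw w))
    (fun w _ => (hg.map_affine _ _).smul _)) ((F.chi + ε) * N)
  rw [← F.selfSim_classes h (fun _ => ()) ε N, mss_prob] at b3
  have b4 := sum_max F hV hε.le (Hs μ 0 + C + 1) N
  have b5 : ∑ w ∈ F.typ ε N, pw F.p w * ((Hs μ 0 + C + 1) + max ((F.chi + ε) * N - F.chiw w) 0) +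
      ∑ w ∈ F.atyp ε N, pw F.p w * ((Hs μ 0 + C + 1) + max ((F.chi + ε) * N - F.chiw w) 0) =
      ∑ w ∈ words Λ N, pw F.p w * ((Hs μ 0 + C + 1) + max ((F.chi + ε) * N - F.chiw w) 0) :=
    Finset.sum_filter_add_sum_filter_not _ _ _
  have c1 := Hinf_le_HG F (fun _ => ()) ε N
  have c2 := hN1 N n1
  have c3 := hN2 N n2
  have c4 := hC1 N
  have c5 := mul_le_mul_of_nonneg_right hle hN0
  have c6 := log_two_le_one
  have c7 : 0 ≤ α * ε * N := by positivity
  have c8 : 0 ≤ (1 - ε) * ε * N := by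
    have : 0 ≤ 1 - ε := by linarith
    positivity
  unfold Rm
  linarith

end IFS

/-- The information carried by the two cells of a suffix about its first block. -/
theorem two_cells (F F' : IFS Λ) (hp : F'.p = F.p) (ex : List Λ → β)
    (hex : ∀ v v' : List Λ, (v : Multiset Λ) = (v' : Multiset Λ) →
      (F'.tw v = F'.tw v' ↔ ex v = ex v')) {ε : ℝ} (hε : 0 < ε) :
    ∃ N0 : ℕ, ∀ N, N0 ≤ N → ∀ L : ℕ,
      entW (words Λ N) (pw F.p) (fun v => (cls ex v, F.tw v)) -
          F.Rm ex ε N ((F.chi + ε) * N) - F'.Rm (fun _ => ()) ε N ((F'.chi + ε) * N) -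
          3 * ε * N ≤
        entW (words Λ (N + L)) (pw F.p) (fun y =>
            (cell ((F'.chi + ε) * N) 0 (F'.tw y), cell ((F.chi + ε) * N) 0 (F.tw y))) -
          condW (words Λ (N + L)) (pw F.p) (fun y =>
            (cell ((F'.chi + ε) * N) 0 (F'.tw y), cell ((F.chi + ε) * N) 0 (F.tw y)))
            (fun y => y.take N) := by
  obtain ⟨C1, hC1⟩ := F.low_cell ex hε
  obtain ⟨C2, hC2⟩ := F'.low_cell (fun _ => ()) hε
  obtain ⟨C3, hC3⟩ := F.up_cell
  obtain ⟨C4, hC4⟩ := F'.up_cell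
  rw [hp] at hC2 hC4
  obtain ⟨N0, hN0⟩ := small (Fintype.card Λ) hε (C3 + C4) (C1 + C2 + C3 + C4)
  refine ⟨N0, fun N hN L => ?_⟩
  obtain ⟨s, hs⟩ : ∃ s, s = (F.chi + ε) * N := ⟨_, rfl⟩
  obtain ⟨s', hs'⟩ : ∃ s, s = (F'.chi + ε) * N := ⟨_, rfl⟩
  have u1 := hC3 ε hε.le N L
  have u2 := hC4 ε hε.le N L
  rw [← hs] at u1 ⊢
  rw [← hs'] at u2 ⊢
  have u3 := condW_pair (words Λ (N + L)) (pw F.p) (fun y => cell s' 0 (F'.tw y))
    (fun y => cell s 0 (F.tw y)) (fun y => y.take N)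
  have u4 : condW (words Λ (N + L)) (pw F.p) (fun y => cell s 0 (F.tw y))
      (fun y => (cell s' 0 (F'.tw y), y.take N)) ≤
      condW (words Λ (N + L)) (pw F.p) (fun y => cell s 0 (F.tw y)) (fun y => y.take N) :=
    condW_mono_right (hw F _) _ (fun _ _ _ _ h => congrArg Prod.snd h)
  have hc : ∀ (G : IFS Λ) (σ : ℝ) (v z : List Λ), cell σ 0 (G.tw (v ++ z)) =
      cell σ (G.rm (v : Multiset Λ) * G.tw z * exp σ) (G.tw v) := by
    intro G σ v z
    rw [G.tw_append, HsConvAux.cell_add, zero_add, G.rm_coe]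
  have l1 : condW (words Λ N) (pw F.p) F'.tw (cls (fun _ => ())) -
      F'.Rm (fun _ => ()) ε N s' - C2 + (condW (words Λ N) (pw F.p) F.tw (cls ex) -
      F.Rm ex ε N s - C1) ≤ entW (words Λ (N + L)) (pw F.p)
        (fun y => (cell s' 0 (F'.tw y), cell s 0 (F.tw y))) := by
    refine le_trans ?_ (condW_le_entW (hw F _) _
      (fun y => (y.drop N, ((y.take N : List Λ) : Multiset Λ))))
    rw [condW_drop N L _ (fun v : List Λ => (v : Multiset Λ)), ← one_mul (_ + _),
      ← sum_pw F.p_sum L, Finset.sum_mul]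
    refine Finset.sum_le_sum (fun z hz => mul_le_mul_of_nonneg_left ?_ (hw F _ z hz))
    simp only [hc]
    rw [condW_pair]
    refine add_le_add ((hC2 N s' (fun f => F'.rm f.1 * F'.tw z * exp s')).trans ?_)
      ((hC1 N s (fun f => F.rm f.1 * F.tw z * exp s)).trans ?_)
    · exact condW_mono_right (hw F _) _ (fun _ _ _ _ h => congrArg Prod.fst h)
    · refine condW_mono_right (hw F _) _ (fun v _ v' _ h => ?_)
      have d1 : (v : Multiset Λ) = (v' : Multiset Λ) := congrArg Prod.fst h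
      have d2 : ex v = ex v' := congrArg Prod.snd h
      rw [d1, (hex v v' d1).2 d2]
  have l2 : entW (words Λ N) (pw F.p) (fun v => (cls ex v, F.tw v)) =
      entW (words Λ N) (pw F.p) (fun v => (F.tw v, cls ex v)) :=
    entW_congr _ (fun v _ v' _ => by simp only [Prod.mk.injEq, and_comm])
  have l3 : entW (words Λ N) (pw F.p) (cls ex) =
      entW (words Λ N) (pw F.p) (fun v => (F'.tw v, cls (fun _ => ()) v)) := by
    refine entW_congr _ (fun v _ v' _ => ?_)
    simp only [cls, Prod.mk.injEq, and_true]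
    exact ⟨fun h => ⟨(hex v v' h.1).2 h.2, h.1⟩, fun h => ⟨h.2, (hex v v' h.2).1 h.1⟩⟩
  have l4 : entW (words Λ N) (pw F.p) (cls (fun _ => ())) ≤ Fintype.card Λ * log (N + 1) := by
    have d1 : entW (words Λ N) (pw F.p) (cls (fun _ => ())) ≤
        entW (words Λ N) (pw F.p) (fun v => (v : Multiset Λ)) :=
      entW_mono (hw F _) (fun v _ v' _ h => Prod.ext h rfl)
    have d2 := entW_le_log_card (hw F (words Λ N)) _ (card_img_counts N)
    rw [sum_pw F.p_sum, one_mul] at d2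
    push_cast at d2
    rw [log_pow] at d2
    exact d1.trans d2
  have l5 : condW (words Λ N) (pw F.p) F'.tw (cls (fun _ => ())) =
      entW (words Λ N) (pw F.p) (fun v => (F'.tw v, cls (fun _ => ()) v)) -
        entW (words Λ N) (pw F.p) (cls (fun _ => ())) := rfl
  have l6 : condW (words Λ N) (pw F.p) F.tw (cls ex) =
      entW (words Λ N) (pw F.p) (fun v => (F.tw v, cls ex v)) -
        entW (words Λ N) (pw F.p) (cls ex) := rfl
  have l7 := hN0 N hN
  linarith

end

end Vale.Agent.P114
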