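import Vale.Agent.P114.Main

/-! # P114: bridge to the statement of the problem -/

open MeasureTheory Real Set Polynomial
open scoped ENNReal

namespace Vale.Agent.P114

noncomputable section

variable {Λ : Type*} [Fintype Λ]

namespace IFS

variable (F : IFS Λ)

theorem chi_div_log_two : F.chi / log 2 = -∑ i, F.p i * Real.logb 2 |F.r i| := by
  unfold chi
  rw [Finset.sum_div, ← Finset.sum_neg_distrib]
  refine Finset.sum_congr rfl fun i _ => ?_
  rw [Real.logb]; ring

theorem hh_div_log_two : F.hh / log 2 = ⨅ n : ℕ, F.HG (n + 1) / log 2 / ((n : ℝ) + 1) := by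
  unfold hh
  rw [div_eq_mul_inv, Real.iInf_mul_of_nonneg (inv_nonneg.2 (log_pos one_lt_two).le)]
  refine iInf_congr fun n => ?_
  ring

theorem affine_eq_iff (a b a' b' : ℝ) :
    (fun x : ℝ => a * x + b) = (fun x => a' * x + b') ↔ (a, b) = (a', b') := by
  constructor
  · intro h
    have h0 := congrFun h 0
    have h1 := congrFun h 1
    simp only [mul_zero, zero_add, mul_one] at h0 h1
    rw [h0] at h1
    rw [add_right_cancel h1, h0]
  · intro h
    rw [Prod.mk.injEq] at h
    rw [h.1, h.2]

open Classical in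
theorem HG_eq_image (n : ℕ) (c : List Λ → ℝ → ℝ) (hc : ∀ w, c w = fun x => F.rw w * x + F.tw w) :
    F.HG n / log 2 = -∑ g ∈ Finset.univ.image (fun w : Fin n → Λ => c (List.ofFn w)),
      (∑ w : Fin n → Λ, if c (List.ofFn w) = g then ∏ j, F.p (w j) else 0) *
        Real.logb 2 (∑ w : Fin n → Λ, if c (List.ofFn w) = g then ∏ j, F.p (w j) else 0) := by
  have h1 : F.HG n = entW (words Λ n) (pw F.p) c := by
    refine entW_congr _ fun w _ w' _ => ?_
    rw [hc, hc, affine_eq_iff]
  have himg : img (words Λ n) c = Finset.univ.image (fun w : Fin n → Λ => c (List.ofFn w)) := by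
    ext g
    simp only [mem_img, mem_words, Finset.mem_image, Finset.mem_univ, true_and]
    constructor
    · rintro ⟨w, hw, rfl⟩
      subst hw
      exact ⟨w.get, by rw [List.ofFn_get]⟩
    · rintro ⟨w, rfl⟩
      exact ⟨_, List.length_ofFn, rfl⟩
  have hmass : ∀ g, mass (words Λ n) (pw F.p) c g =
      ∑ w : Fin n → Λ, if c (List.ofFn w) = g then ∏ j, F.p (w j) else 0 := by
    intro g
    unfold mass fib words
    rw [Finset.sum_filter, Finset.sum_map]
    refine Finset.sum_congr rfl fun w _ => ?_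
    simp only [Function.Embedding.coeFn_mk, pw, List.map_ofFn, List.prod_ofFn, Function.comp]
  rw [h1, entW, ent, sum_mass, sum_pw F.p_sum, negMulLog_one, sub_zero, himg, Finset.sum_div,
    ← Finset.sum_neg_distrib]
  refine Finset.sum_congr rfl fun g _ => ?_
  rw [hmass, negMulLog, Real.logb]; ring

theorem charFun_selfSim {μ : Measure ℝ} [IsProbabilityMeasure μ] (hμ : F.SelfSim μ) (ξ : ℝ) :
    charFun μ ξ = ∑ i, (F.p i : ℂ) * (Complex.exp (ξ * F.t i * Complex.I) *
      charFun μ (ξ * F.r i)) := by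
  have hint : ∀ (ν : Measure ℝ) [IsFiniteMeasure ν],
      Integrable (fun x : ℝ => Complex.exp (ξ * x * Complex.I)) ν := by
    intro ν _
    refine Integrable.of_bound (by fun_prop) 1 (Filter.Eventually.of_forall fun x => ?_)
    rw [← Complex.ofReal_mul, Complex.norm_exp_ofReal_mul_I]
  rw [charFun_apply_real]
  conv_lhs => rw [hμ]
  rw [integral_finsetSum_measure (fun i _ => (hint _).smul_measure ENNReal.ofReal_ne_top)]
  refine Finset.sum_congr rfl fun i _ => ?_
  rw [integral_smul_measure, ENNReal.toReal_ofReal (F.p_pos i).le,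
    integral_map (by fun_prop) (by fun_prop), charFun_apply_real, ← integral_const_mul,
    Complex.real_smul]
  congr 2
  funext x
  rw [← Complex.exp_add]
  congr 1
  push_cast
  ring

theorem selfSim_unique {μ ν : Measure ℝ} [IsProbabilityMeasure μ] [IsProbabilityMeasure ν]
    (hμ : F.SelfSim μ) (hν : F.SelfSim ν) : μ = ν := by
  have hne := F.nonempty
  obtain ⟨i0, -, hi0⟩ := Finset.exists_max_image Finset.univ (fun i => |F.r i|)
    Finset.univ_nonempty
  set c := |F.r i0| with hc
  have hc0 : 0 ≤ c := abs_nonneg _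
  have hc1 : c < 1 := F.r_lt i0
  apply Measure.ext_of_charFun
  funext ξ
  have hcont : Continuous (fun ξ : ℝ => charFun μ ξ - charFun ν ξ) :=
    continuous_charFun.sub continuous_charFun
  rw [← sub_eq_zero, ← norm_le_zero_iff]
  refine le_of_forall_pos_le_add fun ε hε => ?_
  obtain ⟨δ, hδ, hD⟩ := Metric.continuous_iff.1 hcont 0 ε hε
  have key : ∀ n : ℕ, ∀ ξ : ℝ, |ξ| * c ^ n < δ → ‖charFun μ ξ - charFun ν ξ‖ ≤ ε := by
    intro n
    induction n with
    | zero =>
      intro ξ hξ
      have := hD ξ (by simpa [Real.dist_eq] using hξ)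
      simpa [dist_eq_norm] using this.le
    | succ n ih =>
      intro ξ hξ
      rw [F.charFun_selfSim hμ, F.charFun_selfSim hν, ← Finset.sum_sub_distrib]
      refine (norm_sum_le _ _).trans ?_
      calc _ ≤ ∑ i, F.p i * ε := Finset.sum_le_sum fun i _ => ?_
        _ = ε := by rw [← Finset.sum_mul, F.p_sum, one_mul]
      rw [← mul_sub, ← mul_sub, norm_mul, norm_mul, ← Complex.ofReal_mul,
        Complex.norm_exp_ofReal_mul_I, one_mul, Complex.norm_real, Real.norm_eq_abs,
        abs_of_pos (F.p_pos i)]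
      refine mul_le_mul_of_nonneg_left (ih _ (lt_of_le_of_lt ?_ hξ)) (F.p_pos i).le
      rw [abs_mul, pow_succ', mul_assoc]
      exact mul_le_mul_of_nonneg_left
        (mul_le_mul_of_nonneg_right (hi0 i (Finset.mem_univ _)) (pow_nonneg hc0 _)) (abs_nonneg _)
  have ht : Filter.Tendsto (fun n : ℕ => |ξ| * c ^ n) Filter.atTop (nhds 0) := by
    simpa using (tendsto_pow_atTop_nhds_zero_of_lt_one hc0 hc1).const_mul |ξ|
  obtain ⟨n, hn⟩ := (ht.eventually (gt_mem_nhds hδ)).exists
  simpa using key n ξ hn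

theorem existsUnique_selfSim : ∃! μ : Measure ℝ, IsProbabilityMeasure μ ∧ F.SelfSim μ := by
  obtain ⟨μ, h1, h2⟩ := F.exists_selfSim
  exact ⟨μ, ⟨h1, h2⟩, fun ν hν => by have := hν.1; exact F.selfSim_unique hν.2 h2⟩

end IFS

end

end Vale.Agent.P114
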