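import Vale.Agent.P114.D1

/-! # P114: the lattice case -/

open MeasureTheory Real Set Polynomial
open scoped ENNReal

namespace Vale.Agent.P114

noncomputable section

variable {Λ : Type*} [Fintype Λ]

theorem one_le_fz {m : ℕ} (hm : 3 ≤ m) : 1 ≤ fz m := by
  have h3 : (3 : ℝ) ≤ m := by exact_mod_cast hm
  have h1 : 1 ≤ log m := by
    rw [Real.le_log_iff_exp_le (by linarith)]
    linarith [Real.exp_one_lt_d9]
  have := one_le_pow₀ (n := 5) h1
  unfold fz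
  nlinarith

theorem Shape.pp (sh : Shape Λ) {x : ℝ} (hx : x ∈ Ioo (0 : ℝ) 1) (t : Λ → ℝ)
    {μ : Measure ℝ} [IsProbabilityMeasure μ] (h : (sh.ifs x hx t).SelfSim μ)
    {α C : ℝ} (hs : Slope μ α C) (hα : α < 1)
    (K : Submodule (PowerSeries ℤ) (Λ → PowerSeries ℤ)) (hK : Nice K) :
    (sh.ifs x hx t).PP (sh.exK K) := by
  induction hk : rk (K : Set (Λ → PowerSeries ℤ)) using Nat.strong_induction_on
    generalizing K with
  | _ k ih =>
  set F := sh.ifs x hx t with hF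
  intro ε hε δ hδ N0
  by_contra hcon
  push Not at hcon
  obtain ⟨a, ha⟩ := sh.exists_bound
  obtain ⟨C0, hC0⟩ := exists_InB_minor Λ a
  obtain ⟨C', hC', m1, hval⟩ := val hx C0
  obtain ⟨m2, hm2⟩ := sh.w2_of_alt1 (β := (Λ → PowerSeries ℤ) ⧸ K) hx t ha hC0
  obtain ⟨m3, hm3⟩ := sh.w2_of_alt2 (β := (Λ → PowerSeries ℤ) ⧸ K) hx t ha hC0 hC'
  obtain ⟨A, m4, hd1⟩ := sh.d1 hx t hK (fun K' hK' hlt => ih _ (hk ▸ hlt) K' hK' rfl)
    (ρ := (1 + x) / 2) (by linarith [hx.1]) (by linarith [hx.2]) hε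
    (δ := δ / 4) (by positivity)
  obtain ⟨D0, m5, hd2⟩ := sh.d2 hx t ha hC0 K hC' A
  refine F.layer h hs hα (sh.exK K) (sh.exOK_exK K) hε (δ := δ / 2) (by positivity)
    (Fintype.card Λ) (D0 + Fintype.card Λ + 1) (N0 + m1 + m2 + m3 + m4 + m5 + 3) C'
    (fun m hm => ?_) (fun m hm => ?_) (fun m hm => ?_)
  · have := hcon m (by omega)
    linarith
  · rcases hval m (by omega) with h1 | ⟨η, γ, -, -, hγ, h2⟩
    · exact ⟨1, one_pos, (hm2 m (by omega) h1 _).mono subset_rfl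
        (mul_nonneg hC' (Real.log_natCast_nonneg m)) le_rfl⟩
    · exact ⟨γ, hγ, hm3 m (by omega) η γ h2 _⟩
  · have hfz := one_le_fz (m := m) (by omega)
    obtain ⟨s, hs1, hs2⟩ := F.exists_Rm_eq_zero (sh.exK K) ε m ((F.chi + ε) * m)
    have hpos : 0 ≤ δ / 2 * m / 2 := by positivity
    rcases hval m (by omega) with h1 | ⟨η, γ, hη0, hη, hγ, h2⟩
    · exact ⟨s, hs1, by rw [hs2]; exact hpos,
        (hm2 m (by omega) h1 _).cov.mono inter_subset_left (by omega) (by linarith)⟩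
    · obtain ⟨Y, hY, hcov⟩ := hd2 m (by omega) η γ hγ h2
      set Z : Set ℝ := {s | (F.chi + ε) * m ≤ s ∧ Deep η A (sh.RR x t K m s)} with hZ
      rcases Z.eq_empty_or_nonempty with hZe | hZn
      · refine ⟨s, hs1, by rw [hs2]; exact hpos, Y, by omega, fun v hv => hcov v ⟨hv.1, ?_⟩⟩
        intro hd
        have : v ∈ Z := ⟨hv.2.1, hd⟩
        rw [hZe] at this
        exact this
      · have hbdd : BddBelow Z := ⟨_, fun s hs => hs.1⟩
        obtain ⟨s', hs'Z, hs'⟩ := exists_lt_of_csInf_lt hZn (lt_add_one (sInf Z))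
        refine ⟨s', hs'Z.1, ?_, insert (sInf Z) Y,
          (Finset.card_insert_le _ _).trans (by omega), fun v hv => ?_⟩
        · have := hd1 m (by omega) η hη0 hη s' hs'Z.1 hs'Z.2
          linarith
        · rcases lt_or_ge v (sInf Z) with hlt | hge
          · obtain ⟨y, hy, hvy⟩ := hcov v ⟨hv.1, fun hd =>
              absurd (csInf_le hbdd (⟨hv.2.1, hd⟩ : v ∈ Z)) (not_le.2 hlt)⟩
            exact ⟨y, Finset.mem_insert_of_mem hy, hvy⟩
          · refine ⟨_, Finset.mem_insert_self _ _, ?_⟩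
            rw [abs_of_nonneg (by linarith)]
            linarith [hv.2.2]

theorem Shape.caseA (sh : Shape Λ) {x : ℝ} (hx : x ∈ Ioo (0 : ℝ) 1) (t : Λ → ℝ)
    {μ : Measure ℝ} [IsProbabilityMeasure μ] (h : (sh.ifs x hx t).SelfSim μ)
    {α C : ℝ} (hs : Slope μ α C) (hα0 : 0 ≤ α) (hα : α < 1) :
    (sh.ifs x hx t).hh ≤ α * (sh.ifs x hx t).chi :=
  (sh.ifs x hx t).hh_le_of_PP (sh.exK ⊤) h hs hα0 sh.exK_top (sh.pp hx t h hs hα ⊤ nice_top)

end

end Vale.Agent.P114
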