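import Vale.Agent.P114.Up

/-! # P114: the lazy walk dominates two uniform averages; even spreading -/

open MeasureTheory Real Set Polynomial
open scoped ENNReal

namespace Vale.Agent.P114

noncomputable section

variable {Λ : Type*} [Fintype Λ]

namespace DomAux

theorem central_sq (n : ℕ) : (16 : ℝ) ^ (n + 1) ≤ 4 * (n + 1) * ((n + 1).centralBinom : ℝ) ^ 2 := by
  induction n with
  | zero => norm_num [Nat.centralBinom]
  | succ n ih =>
    have h : ((n + 1 : ℕ) + 1 : ℝ) * ((n + 1 + 1).centralBinom : ℝ) =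
        2 * (2 * (n + 1 : ℕ) + 1) * ((n + 1).centralBinom : ℝ) := by
      exact_mod_cast Nat.succ_mul_centralBinom_succ (n + 1)
    push_cast at h ⊢
    have h0 : (0 : ℝ) < n + 1 + 1 := by positivity
    refine le_of_mul_le_mul_left ?_ h0
    have h1 : (n + 1 + 1 : ℝ) * (4 * (n + 1 + 1) * ((n + 1 + 1).centralBinom : ℝ) ^ 2) =
        16 * (2 * (n + 1) + 1) ^ 2 * ((n + 1).centralBinom : ℝ) ^ 2 := by
      linear_combination (4 * ((n + 1 + 1) * ((n + 1 + 1).centralBinom : ℝ) +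
        2 * (2 * (n + 1) + 1) * ((n + 1).centralBinom : ℝ))) * h
    rw [h1, pow_succ]
    nlinarith [mul_le_mul_of_nonneg_left ih h0.le, sq_nonneg ((n + 1).centralBinom : ℝ)]

theorem ratio (n j : ℕ) (hj : j ≤ n) :
    ((n : ℝ) - j ^ 2) * n.centralBinom ≤ n * ((2 * n).choose (n + j) : ℝ) := by
  induction j with
  | zero => simp [Nat.centralBinom]
  | succ j ih =>
    have h1 : ((2 * n).choose (n + j + 1) : ℝ) * (n + j + 1) = (2 * n).choose (n + j) * (n - j) := by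
      have := Nat.choose_succ_right_eq (2 * n) (n + j)
      rw [show 2 * n - (n + j) = n - j by omega] at this
      have h2 := congrArg (Nat.cast (R := ℝ)) this
      push_cast [Nat.cast_sub (by omega : j ≤ n)] at h2
      exact h2
    have h2 : ((2 * n).choose (n + j) : ℝ) ≤ n.centralBinom := by
      exact_mod_cast Nat.choose_le_centralBinom _ n
    have h3 := ih (by omega)
    have hj0 : (0 : ℝ) ≤ j := Nat.cast_nonneg j
    have hn0 : (0 : ℝ) ≤ n := Nat.cast_nonneg n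
    have ha : (0 : ℝ) ≤ (2 * n).choose (n + j) := Nat.cast_nonneg _
    have h4 : ((2 * n).choose (n + j + 1) : ℝ) ≤ (2 * n).choose (n + j) := by
      refine le_of_mul_le_mul_right ?_ (show (0 : ℝ) < n + j + 1 by positivity)
      rw [h1]
      exact mul_le_mul_of_nonneg_left (by linarith) ha
    rw [← add_assoc]
    push_cast
    nlinarith [mul_le_mul_of_nonneg_left h2 (show (0 : ℝ) ≤ 2 * j + 1 by positivity),
      mul_le_mul_of_nonneg_left h4 (show (0 : ℝ) ≤ j + 1 by positivity)]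

/-- The Bernoulli step. -/
def Bs (r : ℝ) (G : ℝ → ℝ) (ρ : ℝ) : ℝ := (G ρ + G (ρ * r)) / 2

/-- The rest of the lazy step. -/
def Rs (F : IFS Λ) (i : Λ) (G : ℝ → ℝ) (ρ : ℝ) : ℝ := F.Lz G ρ - F.p i * Bs (F.r i) G ρ

theorem Bs_iter (r : ℝ) (l : ℕ) (G : ℝ → ℝ) (ρ : ℝ) :
    (Bs r)^[l] G ρ = (∑ k ∈ Finset.range (l + 1), (l.choose k : ℝ) * G (ρ * r ^ k)) / 2 ^ l := by
  induction l generalizing ρ with
  | zero => simp
  | succ l ih =>
    rw [Function.iterate_succ_apply', Bs, ih, ih,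
      Finset.sum_choose_succ_mul (fun k _ => G (ρ * r ^ k)) l]
    simp only [mul_assoc, ← pow_succ']
    ring

theorem comm_Rs (F : IFS Λ) (i : Λ) : Function.Commute (Bs (F.r i)) (Rs F i) := fun G => by
  funext ρ
  simp only [Bs, Rs, IFS.Lz, mul_right_comm ρ (F.r i), mul_div_assoc', mul_add,
    ← Finset.sum_div, Finset.sum_add_distrib]
  ring

theorem comm_Uav (F : IFS Λ) (r : ℝ) (b : ℕ) : Function.Commute F.Lz (Uav r b) := fun G => by
  funext ρ
  simp only [Uav, IFS.Lz, mul_right_comm ρ (F.r _), mul_div_assoc', ← Finset.sum_div,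
    Finset.sum_add_distrib, Finset.mul_sum]
  rw [Finset.sum_comm]
  ring

theorem Rs_ge (F : IFS Λ) (i : Λ) {G : ℝ → ℝ} {γ : ℝ} (h : ∀ ρ, ρ ≠ 0 → γ ≤ G ρ) (ρ : ℝ)
    (hρ : ρ ≠ 0) : (1 - F.p i) * γ ≤ Rs F i G ρ := by
  have h1 := Finset.single_le_sum (f := fun k => F.p k * (G (ρ * F.r k) - γ))
    (fun k _ => mul_nonneg (F.p_pos k).le (sub_nonneg.2 (h _ (mul_ne_zero hρ (F.r_ne k)))))
    (Finset.mem_univ i)
  have h2 := Finset.single_le_sum (f := F.p) (fun k _ => (F.p_pos k).le) (Finset.mem_univ i)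
  simp only [mul_sub, Finset.sum_sub_distrib, ← Finset.sum_mul, F.p_sum] at h1 h2
  have h3 := mul_le_mul_of_nonneg_left (h ρ hρ) (sub_nonneg.2 h2)
  simp only [Rs, Bs, IFS.Lz]
  linarith

theorem Lz_ge (F : IFS Λ) (n : ℕ) {G : ℝ → ℝ} {γ : ℝ} (h : ∀ ρ, ρ ≠ 0 → γ ≤ G ρ) (ρ : ℝ)
    (hρ : ρ ≠ 0) : γ ≤ F.Lz^[n] G ρ := by
  have := F.Lz_iter_mono n (G := fun _ => γ) h ρ hρ
  rwa [F.Lz_iter_const] at this

theorem p_le (F : IFS Λ) (i : Λ) : F.p i ≤ 1 :=
  (Finset.single_le_sum (fun k _ => (F.p_pos k).le) (Finset.mem_univ i)).trans_eq F.p_sum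

theorem claim (F : IFS Λ) (i : Λ) (n : ℕ) : ∀ (l : ℕ) (G : ℝ → ℝ) (γ : ℝ), 0 ≤ γ →
    (∀ ρ, ρ ≠ 0 → 0 ≤ G ρ) → (∀ ρ, ρ ≠ 0 → γ ≤ (Bs (F.r i))^[l] G ρ) →
    ∀ ρ, ρ ≠ 0 → (1 - 2 ^ l * (1 - F.p i / 2) ^ n) * γ ≤ F.Lz^[n] G ρ := by
  have hp := p_le F i
  have hp0 := F.p_pos i
  have hq : 0 ≤ 1 - F.p i / 2 := by linarith
  induction n with
  | zero =>
    intro l G γ hγ hG _ ρ hρ
    refine le_trans ?_ (hG ρ hρ)
    have : (1 : ℝ) ≤ 2 ^ l := one_le_pow₀ one_le_two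
    nlinarith
  | succ n ih =>
    intro l G γ hγ hG h ρ hρ
    cases l with
    | zero =>
      refine le_trans ?_ (Lz_ge F _ h ρ hρ)
      nlinarith [mul_nonneg (pow_nonneg hq (n + 1)) hγ]
    | succ l =>
      have e : F.Lz G = fun ρ => F.p i * Bs (F.r i) G ρ + Rs F i G ρ := by
        funext ρ
        simp [Rs]
      have h1 := ih l (Bs (F.r i) G) γ hγ (fun ρ hρ => div_nonneg
        (add_nonneg (hG ρ hρ) (hG _ (mul_ne_zero hρ (F.r_ne i)))) zero_le_two) h ρ hρ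
      have h2 := ih (l + 1) (Rs F i G) ((1 - F.p i) * γ) (mul_nonneg (sub_nonneg.2 hp) hγ)
        (fun ρ hρ => by simpa using Rs_ge F i hG ρ hρ) (fun ρ hρ => by
          rw [(comm_Rs F i).iterate_left (l + 1) G]
          exact Rs_ge F i h ρ hρ) ρ hρ
      rw [Function.iterate_succ_apply, e, F.Lz_iter_add, F.Lz_iter_const_mul]
      have h3 := mul_le_mul_of_nonneg_left h1 hp0.le
      simp only [pow_succ] at h2 ⊢
      nlinarith

end DomAux

theorem choose_central_lower (n j : ℕ) (hn : 1 ≤ n) (hj : 4 * j ^ 2 ≤ n) :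
    (4 : ℝ) ^ n / (4 * √n) ≤ ((2 * n).choose (n + j) : ℝ) := by
  have hn0 : (0 : ℝ) < n := by exact_mod_cast hn
  have hs : 0 < √n := sqrt_pos.2 hn0
  have h1 := DomAux.ratio n j (by nlinarith)
  have h2 : (4 : ℝ) ^ n ≤ 2 * √n * n.centralBinom := by
    obtain ⟨m, rfl⟩ : ∃ m, n = m + 1 := ⟨n - 1, by omega⟩
    refine (pow_le_pow_iff_left₀ (by positivity) (by positivity) two_ne_zero).1 ?_
    rw [mul_pow, mul_pow, sq_sqrt hn0.le, ← pow_mul, mul_comm _ 2, pow_mul]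
    have := DomAux.central_sq m
    push_cast
    norm_num at this ⊢
    exact this
  have h3 : 4 * (j : ℝ) ^ 2 ≤ n := by exact_mod_cast hj
  have h4 : (0 : ℝ) ≤ n.centralBinom := Nat.cast_nonneg _
  have h5 : (n.centralBinom : ℝ) ≤ 2 * ((2 * n).choose (n + j) : ℝ) := by
    refine le_of_mul_le_mul_left ?_ hn0
    nlinarith
  rw [div_le_iff₀ (by positivity)]
  nlinarith

open DomAux in
theorem IFS.dom1 (F : IFS Λ) (i : Λ) : ∃ C : ℕ, ∀ b n : ℕ, 1 ≤ b → C * b ^ 2 ≤ n →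
    ∀ (G : ℝ → ℝ) (γ : ℝ), (∀ ρ, ρ ≠ 0 → 0 ≤ G ρ) → (∀ ρ, ρ ≠ 0 → γ ≤ Uav (F.r i) b G ρ) →
      ∀ ρ, ρ ≠ 0 → γ / 32 ≤ (F.Lz^[n] G) ρ := by
  have hp := p_le F i
  have hp0 := F.p_pos i
  have hq : 0 ≤ 1 - F.p i / 2 := by linarith
  obtain ⟨C, hC⟩ := exists_pow_lt_of_lt_one (show (0 : ℝ) < 1 / 2 / 2 ^ 32 by positivity)
    (show 1 - F.p i / 2 < 1 by linarith)
  refine ⟨C, fun b n hb hn G γ hG h ρ hρ => ?_⟩
  rcases le_total γ 0 with hγ | hγ
  · exact le_trans (by linarith) (Lz_ge F n hG ρ hρ)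
  have hb0 : (0 : ℝ) < b := by exact_mod_cast hb
  have h1 := claim F i n (2 * (16 * b ^ 2)) G (γ / 16) (by linarith) hG (fun ρ hρ => by
    have h2 := h (ρ * F.r i ^ (16 * b ^ 2)) (mul_ne_zero hρ (pow_ne_zero _ (F.r_ne i)))
    have hs : √((16 * b ^ 2 : ℕ) : ℝ) = 4 * b := by
      rw [sqrt_eq_iff_mul_self_eq (by positivity) (by positivity)]
      push_cast
      ring
    rw [Uav, le_div_iff₀ hb0] at h2
    rw [Bs_iter, le_div_iff₀ (by positivity)]
    refine le_trans ?_ (Finset.sum_le_sum_of_subset_of_nonneg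
      (s := (Finset.range b).image fun j => 16 * b ^ 2 + 2 * j) (fun k hk => ?_) fun k _ _ =>
          mul_nonneg (Nat.cast_nonneg _) (hG _ (mul_ne_zero hρ (pow_ne_zero _ (F.r_ne i)))))
    · rw [Finset.sum_image fun _ _ _ _ h => by simpa using h]
      refine le_trans ?_ (Finset.sum_le_sum fun j hj => mul_le_mul_of_nonneg_right
        (choose_central_lower (16 * b ^ 2) (2 * j) (by nlinarith)
          (by nlinarith [Finset.mem_range.1 hj]))
        (hG _ (mul_ne_zero hρ (pow_ne_zero _ (F.r_ne i)))))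
      simp only [pow_add, ← mul_assoc ρ, ← Finset.mul_sum]
      refine le_of_eq_of_le ?_ (mul_le_mul_of_nonneg_left h2 (by positivity))
      rw [hs, pow_mul (2 : ℝ) 2]
      field_simp
      norm_num
      ring
    · obtain ⟨j, hj, rfl⟩ := Finset.mem_image.1 hk
      rw [Finset.mem_range] at hj ⊢
      nlinarith) ρ hρ
  refine le_trans ?_ h1
  have h3 : (2 : ℝ) ^ (2 * (16 * b ^ 2)) * (1 - F.p i / 2) ^ n ≤ 1 / 2 := by
    calc _ ≤ 2 ^ (2 * (16 * b ^ 2)) * (1 - F.p i / 2) ^ (C * b ^ 2) :=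
          mul_le_mul_of_nonneg_left (pow_le_pow_of_le_one hq (by linarith) hn) (by positivity)
      _ = (2 ^ 32 * (1 - F.p i / 2) ^ C) ^ (b ^ 2) := by
          rw [mul_pow, ← pow_mul, ← pow_mul, show 2 * (16 * b ^ 2) = 32 * b ^ 2 by ring]
      _ ≤ (1 / 2) ^ (b ^ 2) := pow_le_pow_left₀ (by positivity)
          (by rw [lt_div_iff₀ (by positivity)] at hC; linarith) _
      _ ≤ 1 / 2 := pow_le_of_le_one (by norm_num) (by norm_num) (by positivity)
  nlinarith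

open DomAux in
theorem IFS.dom2 (F : IFS Λ) (i₁ i₂ : Λ) : ∃ C : ℕ, ∀ b b' : ℕ, 1 ≤ b → b ≤ b' →
    ∀ (G : ℝ → ℝ) (γ : ℝ), (∀ ρ, ρ ≠ 0 → 0 ≤ G ρ) →
      (∀ ρ, ρ ≠ 0 → γ ≤ Uav (F.r i₁) b (Uav (F.r i₂) b' G) ρ) →
      ∀ ρ, ρ ≠ 0 → γ / 1024 ≤ (F.Lz^[C * b' ^ 2] G) ρ := by
  obtain ⟨C₁, h₁⟩ := F.dom1 i₁
  obtain ⟨C₂, h₂⟩ := F.dom1 i₂
  refine ⟨C₂ + C₁, fun b b' hb hb' G γ hG h ρ hρ => ?_⟩
  have a1 := h₁ b (C₁ * b' ^ 2) hb (Nat.mul_le_mul_left _ (Nat.pow_le_pow_left hb' 2))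
    (Uav (F.r i₂) b' G) γ
    (fun ρ hρ => div_nonneg (Finset.sum_nonneg fun j _ =>
      hG _ (mul_ne_zero hρ (pow_ne_zero _ (F.r_ne i₂)))) (Nat.cast_nonneg _)) h
  rw [(comm_Uav F _ _).iterate_left] at a1
  have a2 := h₂ b' _ (hb.trans hb') le_rfl _ _ (Lz_ge F _ hG) a1 ρ hρ
  rw [add_mul, Function.iterate_add_apply]
  linarith

theorem exists_EQd {θ : ℝ} (hθ : Irrational θ) (b0 : ℕ) : ∃ b, b0 ≤ b ∧ EQd θ b := by
  have hev : ∀ᶠ n : ℕ in Filter.atTop, ∀ d ∈ Finset.Ico 1 b0,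
      1 / ((n : ℝ) + 1) < |d * θ - round (d * θ)| :=
    (Filter.eventually_all_finset _).2 fun d hd =>
      tendsto_one_div_add_atTop_nhds_zero_nat.eventually_lt_const (abs_pos.2 (sub_ne_zero.2
        ((hθ.natCast_mul (by have := (Finset.mem_Ico.1 hd).1; omega)).ne_int _)))
  obtain ⟨n, hn, hn0⟩ := (hev.and (Filter.eventually_gt_atTop 0)).exists
  obtain ⟨q, hq, hqn⟩ := exists_rat_abs_sub_le_and_den_le θ hn0
  have hb : (0 : ℝ) < q.den := by exact_mod_cast q.pos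
  have h1 : |q.den * θ - q.num| ≤ 1 / ((n : ℝ) + 1) := by
    have e : q.den * θ - q.num = (θ - q) * q.den := by
      rw [Rat.cast_def]
      field_simp
    rw [e, abs_mul, abs_of_pos hb, ← le_div_iff₀ hb, div_div]
    exact hq
  refine ⟨q.den, not_lt.1 fun hlt => ?_, fun a l hl => ?_⟩
  · exact ((hn q.den (Finset.mem_Ico.2 ⟨q.pos, hlt⟩)).trans_le
      ((round_le _ q.num).trans h1)).false
  have h2 := Finset.card_le_card_of_injOn
    (s := (Finset.range q.den).filter fun j : ℕ => a ≤ Int.fract (j * θ) ∧ Int.fract (j * θ) ≤ a + l)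
    (t := Finset.Icc ⌈q.den * a - 1⌉ ⌊q.den * a + q.den * l + 1⌋)
    (fun j : ℕ => j * q.num - q.den * ⌊j * θ⌋) (fun j hj => by
      obtain ⟨hj, h3, h4⟩ := Finset.mem_filter.1 hj
      have h5 : (j : ℝ) ≤ n + 1 := by
        have := Finset.mem_range.1 hj
        exact_mod_cast (by omega : j ≤ n + 1)
      have h6 : |j * (q.den * θ - q.num)| ≤ 1 := by
        rw [abs_mul, Nat.abs_cast]
        refine (mul_le_mul h5 h1 (abs_nonneg _) (by positivity)).trans_eq ?_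
        field_simp
      rw [abs_le] at h6
      rw [Int.fract] at h3 h4
      have h7 := mul_le_mul_of_nonneg_left h3 hb.le
      have h8 := mul_le_mul_of_nonneg_left h4 hb.le
      rw [Finset.coe_Icc, mem_Icc, Int.ceil_le, Int.le_floor]
      push_cast
      constructor <;> linarith [h6.1, h6.2])
    (fun j hj j' hj' e => by
      have a1 := Finset.mem_range.1 (Finset.mem_filter.1 hj).1
      have a2 := Finset.mem_range.1 (Finset.mem_filter.1 hj').1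
      have a3 : (q.den : ℤ) ∣ ((j : ℤ) - j') * q.num :=
        ⟨⌊j * θ⌋ - ⌊j' * θ⌋, by dsimp only at e; linarith⟩
      have a4 := Int.eq_zero_of_abs_lt_dvd
        ((Rat.isCoprime_num_den q).symm.dvd_of_dvd_mul_right a3) (by rw [abs_lt]; omega)
      omega)
  refine (Nat.cast_le.2 h2).trans ?_
  have a1 := Int.le_ceil (q.den * a - 1)
  have a2 := Int.floor_le (q.den * a + q.den * l + 1)
  have a3 := mul_nonneg hb.le hl
  rw [Int.card_Icc]
  rcases le_total 0 (⌊q.den * a + q.den * l + 1⌋ + 1 - ⌈q.den * a - 1⌉) with h | h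
  · rw [← Int.cast_natCast, Int.toNat_of_nonneg h]
    push_cast
    linarith
  · rw [Int.toNat_of_nonpos h]
    push_cast
    linarith

end

end Vale.Agent.P114
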