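import Vale.Agent.P114.GBAux

/-! # P114: linear information from a random mantissa -/

open MeasureTheory Real Set Polynomial
open scoped ENNReal

namespace Vale.Agent.P114

noncomputable section

namespace GBAux

theorem ratio_eq {r₁ r₂ : ℝ} (h₁ : r₁ ≠ 0) (h₂ : r₂ ≠ 0) (hl : log |r₂| < 0)
    (hθ : 0 ≤ log |r₁| / log |r₂|) (ρ : ℝ) (i j : ℕ)
    (hij : ⌊(j : ℝ) * (log |r₁| / log |r₂|)⌋₊ ≤ i) :
    ρ * r₁ ^ (2 * j) * r₂ ^ (2 * (i - ⌊(j : ℝ) * (log |r₁| / log |r₂|)⌋₊)) =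
      ρ * exp (-(-2 * log |r₂| * i)) *
        exp (-(-2 * log |r₂| * Int.fract (j * (log |r₁| / log |r₂|)))) := by
  have e : ∀ r : ℝ, r ≠ 0 → ∀ k : ℕ, r ^ (2 * k) = exp (2 * k * log |r|) := by
    intro r hr k
    rw [show (2 : ℝ) * k = ((2 * k : ℕ) : ℝ) by push_cast; ring, exp_nat_mul,
      exp_log (abs_pos.2 hr), pow_mul, pow_mul, sq_abs]
  rw [e _ h₁, e _ h₂, mul_assoc, mul_assoc ρ, ← exp_add, ← exp_add]
  congr 2
  have h0 : 0 ≤ (j : ℝ) * (log |r₁| / log |r₂|) := by positivity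
  rw [Nat.cast_sub hij, Int.fract, ← Int.natCast_floor_eq_floor h0, Int.cast_natCast]
  have hne := hl.ne
  field_simp
  ring

theorem sum_le_Uav {r₁ r₂ : ℝ} {b b' : ℕ} (hb : 1 ≤ b) (hb' : 1 ≤ b') (I : ℝ → ℝ)
    (hI : ∀ ρ, 0 ≤ I ρ) (ρ : ℝ) (T : Finset ℕ) (g : ℕ → ℕ → ℕ)
    (hg : ∀ j < b, ∀ k ∈ T, g j k < b') (hinj : ∀ j < b, Set.InjOn (g j) T) :
    ∑ k ∈ T, (∑ j ∈ Finset.range b, I (ρ * r₁ ^ (2 * j) * r₂ ^ (2 * g j k))) / b ≤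
      b' * Uav r₁ b (Uav r₂ b' I) ρ := by
  have hb0 : (0 : ℝ) < b := by exact_mod_cast hb
  have hb0' : (0 : ℝ) < b' := by exact_mod_cast hb'
  unfold Uav
  rw [← Finset.sum_div, ← Finset.sum_div, ← mul_div_assoc, mul_div_cancel₀ _ hb0'.ne',
    Finset.sum_comm]
  refine div_le_div_of_nonneg_right (Finset.sum_le_sum fun j hj => ?_) hb0.le
  have hj' := Finset.mem_range.1 hj
  rw [← Finset.sum_image (f := fun i => I (ρ * r₁ ^ (2 * j) * r₂ ^ (2 * i))) (hinj j hj')]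
  refine Finset.sum_le_sum_of_subset_of_nonneg (fun i hi => ?_) fun _ _ _ => hI _
  obtain ⟨k, hk, rfl⟩ := Finset.mem_image.1 hi
  exact Finset.mem_range.2 (hg j hj' k hk)

theorem Uav_const_mul (r : ℝ) (b : ℕ) (c : ℝ) (G : ℝ → ℝ) :
    Uav r b (fun ρ => c * G ρ) = fun ρ => c * Uav r b G ρ := by
  funext ρ
  unfold Uav
  rw [← Finset.mul_sum, mul_div_assoc]

theorem Uav_nonneg (r : ℝ) (b : ℕ) {G : ℝ → ℝ} (h : ∀ ρ, 0 ≤ G ρ) (ρ : ℝ) : 0 ≤ Uav r b G ρ :=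
  div_nonneg (Finset.sum_nonneg fun _ _ => h _) (Nat.cast_nonneg _)

theorem index {τ ℓ : ℝ} (hτ : 0 < τ) (hℓ : τ ≤ ℓ) (Km n1 b : ℕ) (hn : (n1 : ℝ) ≤ τ / ℓ * b) :
    ∃ d : ℕ → ℕ, Set.InjOn d (Finset.Ico Km (Km + n1) : Finset ℕ) ∧
      ∀ k ∈ Finset.Ico Km (Km + n1), d k ≤ b ∧ τ * d k ≤ (Km + n1 - k) * ℓ ∧
        (Km + n1 - k) * ℓ ≤ τ * d k + ℓ := by
  have hℓ0 : 0 < ℓ := hτ.trans_le hℓ
  have key : ∀ k ∈ Finset.Ico Km (Km + n1), (0 : ℝ) ≤ Km + n1 - k ∧ (Km + n1 - k : ℝ) ≤ n1 := by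
    intro k hk
    obtain ⟨h1, h2⟩ := Finset.mem_Ico.1 hk
    have h1' : (Km : ℝ) ≤ k := by exact_mod_cast h1
    have h2' : (k : ℝ) ≤ Km + n1 := by exact_mod_cast h2.le
    constructor <;> linarith
  have anti : ∀ k k' : ℕ, k' ∈ Finset.Ico Km (Km + n1) → k < k' →
      ⌊(Km + n1 - k' : ℝ) * ℓ / τ⌋₊ < ⌊(Km + n1 - k : ℝ) * ℓ / τ⌋₊ := by
    intro k k' hk' hlt
    have h0 := (key k' hk').1
    have hlt' : (k : ℝ) + 1 ≤ k' := by exact_mod_cast hlt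
    rw [Nat.lt_iff_add_one_le, ← Nat.floor_add_one (by positivity)]
    refine Nat.floor_le_floor ?_
    rw [div_add_one hτ.ne']
    exact div_le_div_of_nonneg_right (by nlinarith) hτ.le
  refine ⟨fun k => ⌊(Km + n1 - k : ℝ) * ℓ / τ⌋₊, fun k hk k' hk' h => ?_, fun k hk => ?_⟩
  · rcases lt_trichotomy k k' with h' | h' | h'
    · exact absurd h (anti k k' hk' h').ne'
    · exact h'
    · exact absurd h (anti k' k hk h').ne
  · obtain ⟨h0, h1⟩ := key k hk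
    have h2 := Nat.floor_le (a := (Km + n1 - k : ℝ) * ℓ / τ) (by positivity)
    have h3 := Nat.lt_floor_add_one ((Km + n1 - k : ℝ) * ℓ / τ)
    rw [le_div_iff₀ hτ] at h2
    rw [div_lt_iff₀ hτ] at h3
    refine ⟨Nat.floor_le_of_le ?_, by linarith, by linarith⟩
    rw [div_le_iff₀ hτ]
    rw [div_mul_eq_mul_div, le_div_iff₀ hℓ0] at hn
    nlinarith

theorem gb_norm {μ : Measure ℝ} (hμ : Good μ) [IsProbabilityMeasure μ] {α C : ℝ} (hα0 : 0 ≤ α)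
    (hα : α < 1) (hU : ∀ s x : ℝ, 0 ≤ x → Hs μ (s + x) - Hs μ s ≤ α * x + C)
    {r₁ r₂ : ℝ} (h₁ : r₁ ≠ 0) (h₁' : |r₁| < 1) (h₂ : r₂ ≠ 0) (h₂' : |r₂| < 1) (A : ℕ) :
    ∃ Cb : ℝ, 0 < Cb ∧ ∀ K2 : ℕ, ∃ b0 : ℕ, ∀ b, b0 ≤ b → EQd (log |r₁| / log |r₂|) b →
      ∀ σ0 ρ : ℝ, ρ ≠ 0 → ∀ (J : Finset ℤ) (n x : ℤ → ℝ), (∀ j ∈ J, 0 < n j) →
        ∑ j ∈ J, n j = 1 → J.card ≤ 2 ^ (Nat.log 2 b / 4) + 1 →
        Sep J x σ0 (σ0 + (Nat.log 2 b / 4 + K2 : ℕ) * log 2) →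
        ent J n ≤ ((b : ℝ) ^ A)⁻¹ +
          Cb * Uav r₁ b (Uav r₂ ((⌈log |r₁| / log |r₂|⌉₊ + 2) * b) (fun ρ' =>
            info (atom J n x) (scl ρ' μ)
              (σ0 + (2 * (Nat.log 2 b / 4) + K2 : ℕ) * log 2))) ρ := by
  have hl1 : log |r₁| < 0 := log_neg (abs_pos.2 h₁) h₁'
  have hl2 : log |r₂| < 0 := log_neg (abs_pos.2 h₂) h₂'
  have hθ : 0 < log |r₁| / log |r₂| := div_pos_of_neg_of_neg hl1 hl2
  have hratio := ratio_eq h₁ h₂ hl2 hθ.le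
  generalize log |r₁| / log |r₂| = θ at *
  have hτ : 0 < -2 * log |r₂| := by linarith
  generalize -2 * log |r₂| = τ at *
  obtain ⟨M, hM, hτM⟩ : ∃ M : ℕ, 2 ≤ M ∧ exp τ ≤ M :=
    ⟨⌈exp τ⌉₊ + 2, by omega, by push_cast; linarith [Nat.le_ceil (exp τ)]⟩
  have hM0 : (0 : ℝ) < M := by exact_mod_cast (by omega : 0 < M)
  have hM2 : (2 : ℝ) ≤ M := by exact_mod_cast hM
  have hτℓ : τ ≤ log M := (le_log_iff_exp_le hM0).2 hτM
  have hℓ : 0 < log M := hτ.trans_le hτℓ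
  obtain ⟨γ, hγα, hγ1⟩ := exists_between hα
  have hγ0 : 0 ≤ γ := hα0.trans hγα.le
  obtain ⟨c, hc, C1, hgs⟩ := gs hμ hα0 hU hγα hM
  have hc1 : 0 < (1 - γ) / 16 := by linarith
  refine ⟨2 * ((2 * A + 2) / ((1 - γ) / 16)) * (4 * (⌈θ⌉₊ + 2) / (c * (τ / log M))),
    by positivity, fun K2 => ?_⟩
  obtain ⟨b0, hb0⟩ := Filter.eventually_atTop.1
    (side hM hγ0 hγ1 hτ hc (div_pos hτ hℓ) C1 K2)
  refine ⟨max b0 2, fun b hb hEQ σ0 ρ hρ J n x hn hn1 hJ hsep => ?_⟩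
  obtain ⟨hb1, s1, s2, s3, s4, s5, s6, s7⟩ := hb0 b (le_trans (le_max_left _ _) hb)
  have hb2 : 2 ≤ b := le_trans (le_max_right _ _) hb
  have hbr : (1 : ℝ) < b := by exact_mod_cast hb2
  have hbr0 : (0 : ℝ) < b := by linarith
  generalize Nat.log 2 b / 4 = K0 at *
  set n1 := ⌊τ / log M * b⌋₊ with hn1def
  have hn1le : (n1 : ℝ) ≤ τ / log M * b := Nat.floor_le (by positivity)
  set sf := σ0 + (2 * K0 + K2 : ℕ) * log 2 with hsf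
  set Km := 2 * K0 + K2 + 4 with hKm
  set i0 := ⌈θ⌉₊ * b with hi0
  obtain ⟨G, hG, hGc⟩ := hgs Km n1 s1 (sf + log |ρ| - τ * (i0 + 1) - (Km + n1) * log M)
  obtain ⟨d, hdinj, hd⟩ := index hτ hτℓ Km n1 b hn1le
  set ζ := (b : ℝ) ^ (-((1 - γ) / 16)) with hζ
  have hζ0 : 0 < ζ := rpow_pos_of_pos hbr0 _
  have hsq : √((ζ / 2) ^ 2) = ζ / 2 := sqrt_sq (by positivity)
  set I : ℝ → ℝ := fun ρ' => info (atom J n x) (scl ρ' μ) sf with hI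
  have hI0 : ∀ ρ', 0 ≤ I ρ' := fun ρ' => (sup_info (hμ.scl ρ') sf).nonneg _ (Good.atom _ _ _)
  have hfl : ∀ j < b, ⌊(j : ℝ) * θ⌋₊ ≤ i0 := by
    intro j hj
    refine Nat.floor_le_of_le ?_
    have : (j : ℝ) ≤ b := by exact_mod_cast hj.le
    rw [hi0]; push_cast
    rw [mul_comm]
    exact mul_le_mul (Nat.le_ceil θ) this (Nat.cast_nonneg _) (Nat.cast_nonneg _)
  have hsep' : ∀ j ∈ J, ∀ j' ∈ J, j ≠ j' → (2 : ℝ) ^ K0 ≤ |x j - x j'| * exp sf ∧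
      |x j - x j'| * exp sf ≤ 2 ^ (2 * K0 + K2) := by
    intro j hj j' hj' hjj
    obtain ⟨a1, a2⟩ := hsep j hj j' hj' hjj
    have e : ∀ k : ℕ, (2 : ℝ) ^ k = exp (k * log 2) := fun k => by
      rw [exp_nat_mul, exp_log two_pos]
    constructor
    · refine le_trans (le_of_eq ?_) (mul_le_mul_of_nonneg_right a1 (exp_pos _).le)
      rw [e, ← exp_add, hsf]; congr 1; push_cast; ring
    · refine (mul_le_mul_of_nonneg_right a2 (exp_pos _).le).trans (le_of_eq ?_)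
      rw [e, ← exp_add, hsf]; congr 1; ring
  have hhi : 4 * (M : ℝ) ^ 2 * 2 ^ (2 * K0 + K2) ≤ (M : ℝ) ^ Km := by
    have a1 : (4 : ℝ) ≤ (M : ℝ) ^ 2 := by nlinarith
    have a2 : (2 : ℝ) ^ (2 * K0 + K2) ≤ (M : ℝ) ^ (2 * K0 + K2) :=
      pow_le_pow_left₀ (by norm_num) hM2 _
    calc _ ≤ (M : ℝ) ^ 2 * (M : ℝ) ^ 2 * (M : ℝ) ^ (2 * K0 + K2) := by gcongr
      _ = _ := by rw [hKm]; ring
  set Ψ := ∑ j ∈ J, n j * psi ζ (n j) with hΨ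
  set Ξ := ∑ j ∈ J, n j * (1 - n j) with hΞ
  have hlev : ∀ k ∈ Finset.Ico Km (Km + n1),
      μ.real {y | cell (sf + log |ρ| - τ * (i0 + 1) - (Km + n1) * log M + k * log M) 0 y ∈ G k}
        * Ψ - ζ / 2 * Ξ ≤ (∑ j ∈ Finset.range b,
          I (ρ * r₁ ^ (2 * j) * r₂ ^ (2 * (i0 + d k - ⌊(j : ℝ) * θ⌋₊)))) / b := by
    intro k hk
    obtain ⟨-, d1, d2⟩ := hd k hk
    have hlog : log |ρ * exp (-(τ * ((i0 + d k : ℕ) : ℝ)))| = log |ρ| - τ * (i0 + d k) := by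
      rw [abs_mul, log_mul (abs_pos.2 hρ).ne' (abs_pos.2 (exp_ne_zero _)).ne',
        abs_of_pos (exp_pos _), log_exp]
      push_cast; ring
    have := level hμ hn hn1 x hb1 hEQ hM hγ0 hγ1.le (hG k) hτ hτM
      (σ := sf + log |ρ| - τ * (i0 + 1) - (Km + n1) * log M + k * log M) (sf := sf)
      (ρ0 := ρ * exp (-(τ * ((i0 + d k : ℕ) : ℝ)))) (η := (ζ / 2) ^ 2)
      (mul_ne_zero hρ (exp_ne_zero _)) (by rw [hlog]; linarith) (by rw [hlog]; linarith)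
      hsep' s5 hhi (by positivity) (by nlinarith) s7
    rw [hsq, show 2 * (ζ / 2) = ζ by ring] at this
    refine this.trans (le_of_eq ?_)
    congr 1
    refine Finset.sum_congr rfl fun j hj => ?_
    rw [hratio ρ (i0 + d k) j ((hfl j (Finset.mem_range.1 hj)).trans (Nat.le_add_right _ _))]
  have hsum := (Finset.sum_le_sum hlev).trans (sum_le_Uav (r₁ := r₁) (r₂ := r₂) hb1
    (b' := (⌈θ⌉₊ + 2) * b) (Nat.mul_pos (by omega) hb1) I hI0 ρ _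
    (fun j k => i0 + d k - ⌊(j : ℝ) * θ⌋₊) (fun j _ k hk => by
      have := (hd k hk).1
      rw [add_mul]; omega)
    (fun j hj k hk k' hk' h => hdinj hk hk' (by
      have := hfl j hj
      simp only at h; omega)))
  rw [Finset.sum_sub_distrib, ← Finset.sum_mul, Finset.sum_const, Nat.card_Ico,
    Nat.add_sub_cancel_left, nsmul_eq_mul] at hsum
  have hθ0 : (b : ℝ) ^ (-(2 * A + 2 : ℝ)) ≤ ζ :=
    rpow_le_rpow_of_exponent_le hbr.le (by linarith [(Nat.cast_nonneg A : (0 : ℝ) ≤ A)])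
  obtain ⟨g1, g2⟩ := gb_num hn hn1 (rpow_pos_of_pos hbr0 _) hθ0 s3
  have hlb := (log_pos hbr).ne'
  have hR : log ((b : ℝ) ^ (-(2 * A + 2 : ℝ))) / log ζ = (2 * A + 2) / ((1 - γ) / 16) := by
    rw [hζ, log_rpow hbr0, log_rpow hbr0]; field_simp
  have herr : J.card * √((b : ℝ) ^ (-(2 * A + 2 : ℝ))) ≤ ((b : ℝ) ^ A)⁻¹ := by
    have a1 : (J.card : ℝ) ≤ b := by exact_mod_cast hJ.trans s6
    have a2 : (b : ℝ) ^ (-(2 * A + 2 : ℝ)) = (((b : ℝ) ^ A * b)⁻¹) ^ 2 := by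
      rw [rpow_neg hbr0.le, inv_pow, ← pow_succ, ← pow_mul, ← rpow_natCast]
      congr 2; push_cast; ring
    rw [a2, sqrt_sq (by positivity)]
    calc _ ≤ b * ((b : ℝ) ^ A * b)⁻¹ := by gcongr
      _ = _ := by field_simp
  have hΞ0 : 0 ≤ Ξ := Finset.sum_nonneg fun j hj => mul_nonneg (hn j hj).le (by
    have := Finset.single_le_sum (f := n) (fun j hj => (hn j hj).le) hj
    linarith)
  rw [hR, ← hΨ] at g1
  rw [← hΨ, ← hΞ] at g2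
  have hΨ0 : 0 ≤ Ψ := by linarith
  have hn10 : (0 : ℝ) ≤ n1 := Nat.cast_nonneg _
  set UU := Uav r₁ b (Uav r₂ ((⌈θ⌉₊ + 2) * b) I) ρ with hUU
  have h5 : c / 2 * (τ / log M * b / 2) * Ψ ≤ ((⌈θ⌉₊ + 2) * b) * UU := by
    have a1 := mul_le_mul_of_nonneg_right hGc hΨ0
    have a2 : (n1 : ℝ) * (ζ / 2 * Ξ) ≤ n1 * (c / 2 * Ψ) := by
      refine mul_le_mul_of_nonneg_left ?_ hn10
      calc ζ / 2 * Ξ ≤ ζ / 2 * (2 * Ψ) := mul_le_mul_of_nonneg_left g2 (by positivity)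
        _ = ζ * Ψ := by ring
        _ ≤ _ := mul_le_mul_of_nonneg_right s4 hΨ0
    have a3 : c / 2 * (τ / log M * b / 2) * Ψ ≤ c / 2 * n1 * Ψ := by gcongr
    push_cast at hsum
    linarith
  have h6 : Ψ ≤ 4 * (⌈θ⌉₊ + 2) / (c * (τ / log M)) * UU := by
    rw [div_mul_eq_mul_div, le_div_iff₀ (by positivity)]
    refine le_of_mul_le_mul_right ?_ (by positivity : 0 < (b : ℝ) / 4)
    linarith
  have h7 := mul_le_mul_of_nonneg_left h6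
    (by positivity : 0 ≤ 2 * ((2 * A + 2 : ℝ) / ((1 - γ) / 16)))
  linarith

end GBAux

theorem gb {μ : Measure ℝ} (hμ : Good μ) [IsProbabilityMeasure μ] {α C : ℝ} (hα0 : 0 ≤ α)
    (hα : α < 1) (hU : ∀ s x : ℝ, 0 ≤ x → Hs μ (s + x) - Hs μ s ≤ α * x + C)
    {r₁ r₂ : ℝ} (h₁ : r₁ ≠ 0) (h₁' : |r₁| < 1) (h₂ : r₂ ≠ 0) (h₂' : |r₂| < 1) (A : ℕ) :
    ∃ Cb : ℝ, 0 < Cb ∧ ∀ K2 : ℕ, ∃ b0 : ℕ, ∀ b, b0 ≤ b → EQd (log |r₁| / log |r₂|) b →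
      ∀ σ0 ρ : ℝ, ρ ≠ 0 → ∀ (J : Finset ℤ) (n x : ℤ → ℝ), (∀ j ∈ J, 0 ≤ n j) →
        J.card ≤ 2 ^ (Nat.log 2 b / 4) + 1 →
        Sep J x σ0 (σ0 + (Nat.log 2 b / 4 + K2 : ℕ) * log 2) →
        ent J n ≤ ((b : ℝ) ^ A)⁻¹ * ∑ j ∈ J, n j +
          Cb * Uav r₁ b (Uav r₂ ((⌈log |r₁| / log |r₂|⌉₊ + 2) * b) (fun ρ' =>
            info (atom J n x) (scl ρ' μ)
              (σ0 + (2 * (Nat.log 2 b / 4) + K2 : ℕ) * log 2))) ρ := by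
  classical
  obtain ⟨Cb, hCb, h⟩ := GBAux.gb_norm hμ hα0 hα hU h₁ h₁' h₂ h₂' A
  refine ⟨Cb, hCb, fun K2 => ?_⟩
  obtain ⟨b0, hb0⟩ := h K2
  refine ⟨b0, fun b hb hEQ σ0 ρ hρ J n x hn hJ hsep => ?_⟩
  set J' := J.filter (fun j => 0 < n j) with hJ'
  have hz : ∀ j ∈ J, j ∉ J' → n j = 0 := fun j hj hj' =>
    le_antisymm (not_lt.1 fun h => hj' (Finset.mem_filter.2 ⟨hj, h⟩)) (hn j hj)
  have hsub : J' ⊆ J := Finset.filter_subset _ _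
  have e1 : ent J n = ent J' n := (ent_subset hsub hz).symm
  have e2 : ∑ j ∈ J, n j = ∑ j ∈ J', n j := (Finset.sum_subset hsub hz).symm
  have e3 : atom J n x = atom J' n x :=
    (Finset.sum_subset hsub fun j hj hj' => by simp [hz j hj hj']).symm
  rw [e1, e2, e3]
  have hpos : ∀ j ∈ J', 0 < n j := fun j hj => (Finset.mem_filter.1 hj).2
  rcases J'.eq_empty_or_nonempty with he | hne
  · rw [he, ent_of_card_le_one _ (by simp), Finset.sum_empty, mul_zero, zero_add]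
    exact mul_nonneg hCb.le (GBAux.Uav_nonneg _ _ (GBAux.Uav_nonneg _ _ fun ρ' =>
      (sup_info (hμ.scl ρ') _).nonneg _ (Good.atom _ _ _)) _)
  · set W := ∑ j ∈ J', n j with hW
    have hW0 : 0 < W := Finset.sum_pos hpos hne
    have := hb0 b hb hEQ σ0 ρ hρ J' (fun j => n j / W) x (fun j hj => div_pos (hpos j hj) hW0)
      (by rw [← Finset.sum_div, div_self hW0.ne']) ((Finset.card_le_card hsub).trans hJ)
      (fun j hj j' hj' => hsep j (hsub hj) j' (hsub hj'))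
    have e4 : n = fun j => W * (n j / W) := by funext j; field_simp
    have e5 : ent J' n = W * ent J' (fun j => n j / W) := by
      rw [← ent_const_mul, ← e4]
    have e6 : ∀ ρ' s, info (atom J' n x) (scl ρ' μ) s =
        W * info (atom J' (fun j => n j / W) x) (scl ρ' μ) s := by
      intro ρ' s
      rw [← (sup_info (hμ.scl ρ') s).smul W _ hW0.le (Good.atom _ _ _),
        ← atom_const_mul _ _ _ hW0.le, ← e4]
    simp only [e6]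
    rw [GBAux.Uav_const_mul, GBAux.Uav_const_mul, e5]
    have := mul_le_mul_of_nonneg_left this hW0.le
    linarith

end

end Vale.Agent.P114
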