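import Vale.Agent.P114.HsInfo

/-! # P114: the gain of a pair and of three atoms -/

open MeasureTheory Real Set Polynomial
open scoped ENNReal

namespace Vale.Agent.P114

noncomputable section

variable {μ : Measure ℝ}

namespace GAAux

variable {Ω Ω' : Type*} {η : Measure ℝ}

theorem atom_map_add (S : Finset Ω) (w t : Ω → ℝ) (b : ℝ) :
    (atom S w t).map (fun x => b + x) = atom S w (fun ω => b + t ω) := by
  have hm : Measurable (fun x : ℝ => b + x) := measurable_const_add b
  unfold atom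
  rw [Measure.map_finset_sum hm.aemeasurable]
  refine Finset.sum_congr rfl fun ω _ => ?_
  rw [Measure.map_smul, Measure.map_dirac' hm]

theorem info_shift (h : Good η) {S : Finset Ω} {w : Ω → ℝ} (hw : ∀ ω ∈ S, 0 ≤ w ω)
    (t : Ω → ℝ) (b s : ℝ) :
    info (atom S w (fun ω => b + t ω)) η s = info (atom S w t) η s := by
  have g1 := Good.atom S w t
  have g2 := Good.atom S w (fun ω => b + t ω)
  have := h.fin
  have := g1.fin
  have := g2.fin
  unfold info
  rw [mss_atom hw, mss_atom hw, Measure.conv_comm _ η, ← atom_map_add, conv_map_add h g1,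
    Hs_map_add (h.conv g1), Measure.conv_comm η]

theorem atom_conv_atom {S : Finset Ω} {n : Ω → ℝ} (hn : ∀ j ∈ S, 0 ≤ n j) (x : Ω → ℝ)
    (I : Finset Ω') (m y : Ω' → ℝ) :
    atom S n x ∗ atom I m y =
      atom (S ×ˢ I) (fun z => n z.1 * m z.2) (fun z => x z.1 + y z.2) := by
  rw [atom_conv S n x (Good.atom I m y)]
  simp only [atom_map_add]
  unfold atom
  rw [Finset.sum_product]
  refine Finset.sum_congr rfl fun j hj => ?_
  rw [Finset.smul_sum]
  refine Finset.sum_congr rfl fun i _ => ?_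
  rw [smul_smul, ENNReal.ofReal_mul (hn j hj)]

theorem info_chain (h : Good η) [IsProbabilityMeasure η] {S : Finset Ω} {n : Ω → ℝ}
    (hn : ∀ j ∈ S, 0 ≤ n j) (hn1 : ∑ j ∈ S, n j = 1) (x : Ω → ℝ) {I : Finset Ω'} {m : Ω' → ℝ}
    (hm : ∀ i ∈ I, 0 ≤ m i) (hm1 : ∑ i ∈ I, m i = 1) (y : Ω' → ℝ) (s : ℝ) :
    info (atom S n x ∗ atom I m y) η s ≤ info (atom S n x) η s + info (atom I m y) η s := by
  have g1 := Good.atom S n x
  have g2 := Good.atom I m y
  have := g2.fin
  have h1 := info_submod h hn x hm hm1 y s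
  unfold info at h1 ⊢
  rw [mss_conv g1 g2, Measure.conv_assoc]
  rw [mss_atom hn, hn1] at h1 ⊢
  rw [mss_atom hm, hm1]
  linarith

/-- The pair at `0` and `D`. -/
def pr (D : ℝ) : Measure ℝ := atom (Finset.univ : Finset (Fin 2)) (fun _ => 1 / 2) ![0, D]

/-- The uniform measure on `2 ^ k` points of a progression. -/
def un (k : ℕ) (D : ℝ) : Measure ℝ :=
  atom (Finset.range (2 ^ k)) (fun _ => 1 / 2 ^ k) (fun j => j * D)

theorem half_sum : ∑ _i : Fin 2, (1 / 2 : ℝ) = 1 := by simp

theorem un_sum (k : ℕ) : ∑ _i ∈ Finset.range (2 ^ k), (1 / 2 ^ k : ℝ) = 1 := by simp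

theorem info_double (h : Good η) [IsProbabilityMeasure η] (D s : ℝ) :
    info (pr (2 * D)) η s ≤ 4 * info (pr D) η s := by
  classical
  have hh : ∀ j ∈ (Finset.univ : Finset (Fin 2)), (0 : ℝ) ≤ 1 / 2 := fun _ _ => by norm_num
  have h1 := info_chain h hh half_sum ![0, D] hh half_sum ![0, D] s
  rw [atom_conv_atom hh] at h1
  have h2 := (sup_info h s).atom_mono (S := (Finset.univ : Finset (Fin 2)) ×ˢ Finset.univ)
    (S' := {((0 : Fin 2), (0 : Fin 2)), (1, 1)}) (w := fun _ => (1 / 2 : ℝ) * (1 / 2))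
    (w' := fun _ => (1 / 2 : ℝ) * (1 / 2)) (fun z => ![0, D] z.1 + ![0, D] z.2)
    (fun z _ => by simp) (fun _ _ => by norm_num) (fun _ _ => by norm_num) (fun _ _ => le_rfl)
  have e : atom ({((0 : Fin 2), (0 : Fin 2)), (1, 1)} : Finset (Fin 2 × Fin 2))
      (fun _ => (1 / 2 : ℝ) * (1 / 2)) (fun z => ![0, D] z.1 + ![0, D] z.2) =
      ENNReal.ofReal (1 / 2) • pr (2 * D) := by
    unfold pr
    rw [← atom_const_mul _ _ _ (by norm_num)]
    unfold atom
    rw [Finset.sum_pair (by decide), Fin.sum_univ_two]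
    simp only [Matrix.cons_val_zero, Matrix.cons_val_one, add_zero, two_mul]
  have h3 := (sup_info h s).smul (1 / 2) (pr (2 * D)) (by norm_num) (Good.atom _ _ _)
  simp only at h2 h3
  rw [e, h3] at h2
  unfold pr at h2 ⊢
  linarith

theorem info_pow (h : Good η) [IsProbabilityMeasure η] (D s : ℝ) (k : ℕ) :
    info (pr (2 ^ k * D)) η s ≤ 4 ^ k * info (pr D) η s := by
  induction k with
  | zero => simp
  | succ k ih =>
    have := info_double h (2 ^ k * D) s
    rw [show 2 * (2 ^ k * D) = 2 ^ (k + 1) * D by ring] at this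
    rw [pow_succ 4 k]
    linarith

theorem un_succ (k : ℕ) (D : ℝ) : un (k + 1) D = un k D ∗ pr (2 ^ k * D) := by
  unfold un pr
  rw [atom_conv_atom (fun _ _ => by positivity)]
  unfold atom
  rw [Finset.sum_product, pow_succ, mul_two, Finset.sum_range_add, ← Finset.sum_add_distrib]
  refine Finset.sum_congr rfl fun j _ => ?_
  rw [Fin.sum_univ_two]
  have e : (1 / 2 ^ (k + 1) : ℝ) = 1 / 2 ^ k * (1 / 2) := by rw [pow_succ]; field_simp
  have e2 : ((2 ^ k + j : ℕ) : ℝ) * D = j * D + 2 ^ k * D := by push_cast; ring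
  simp only [Matrix.cons_val_zero, Matrix.cons_val_one, add_zero, e, e2]

theorem info_un (h : Good η) [IsProbabilityMeasure η] (D s : ℝ) (k : ℕ) :
    info (un k D) η s ≤ 4 ^ k * info (pr D) η s := by
  have h0 : 0 ≤ info (pr D) η s := (sup_info h s).nonneg _ (Good.atom _ _ _)
  induction k with
  | zero =>
    have := info_le_diam h (S := Finset.range (2 ^ 0)) (n := fun _ => (1 / 2 ^ 0 : ℝ))
      (fun _ _ => by positivity) (fun j : ℕ => (j : ℝ) * D) (le_refl 0)
      (fun j hj j' hj' => by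
        simp only [pow_zero, Finset.mem_range, Nat.lt_one_iff] at hj hj'
        simp [hj, hj']) s
    unfold un
    linarith
  | succ k ih =>
    have h1 := info_chain h (S := Finset.range (2 ^ k)) (n := fun _ => (1 / 2 ^ k : ℝ))
      (fun _ _ => by positivity) (un_sum k) (fun j : ℕ => (j : ℝ) * D)
      (I := (Finset.univ : Finset (Fin 2))) (m := fun _ => (1 / 2 : ℝ))
      (fun _ _ => by norm_num) half_sum ![0, 2 ^ k * D] s
    have h2 := info_pow h D s k
    have h3 : 0 ≤ 4 ^ k * info (pr D) η s := by positivity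
    rw [un_succ, pow_succ 4 k]
    unfold un pr at *
    linarith

theorem Hs_un_fine (k : ℕ) {D s : ℝ} (hs : exp (-s) ≤ |D|) : Hs (un k D) s = k * log 2 := by
  have hD : D ≠ 0 := by
    rintro rfl
    have := exp_pos (-s)
    rw [abs_zero] at hs
    linarith
  unfold un
  rw [Hs_atom_sep (fun _ _ => by positivity), entW_of_injOn]
  · unfold ent
    rw [un_sum, negMulLog_one, Finset.sum_const, Finset.card_range, nsmul_eq_mul, negMulLog,
      one_div, log_inv, log_pow]
    push_cast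
    field_simp
    ring
  · intro a _ b _ hab
    exact_mod_cast mul_right_cancel₀ hD hab
  · intro a _ b _ hab
    have h1 : a ≠ b := fun h => hab (by rw [h])
    have h2 : (1 : ℝ) ≤ |(a : ℝ) - b| := by
      have : (1 : ℤ) ≤ |(a : ℤ) - b| := Int.one_le_abs (sub_ne_zero.2 (by exact_mod_cast h1))
      exact_mod_cast this
    rw [← sub_mul, abs_mul]
    nlinarith [abs_nonneg D]

theorem Hs_un_coarse (k : ℕ) {D s : ℝ} (hs : 2 ^ k * |D| * exp s ≤ 2) : Hs (un k D) s ≤ 5 := by
  have hg : Good (un k D) := Good.atom _ _ _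
  have hL : 0 ≤ 2 * (2 ^ k * |D|) := by positivity
  have h1 := Hs_le_diam hg (a := -(2 ^ k * |D|)) hL (by
    unfold un atom
    rw [Measure.finsetSum_apply]
    refine Finset.sum_eq_zero fun j hj => ?_
    have h2 : |(j : ℝ) * D| ≤ 2 ^ k * |D| := by
      rw [abs_mul, Nat.abs_cast]
      refine mul_le_mul_of_nonneg_right ?_ (abs_nonneg _)
      exact_mod_cast (Finset.mem_range.1 hj).le
    have h3 := abs_le.1 h2
    rw [Measure.smul_apply, Measure.dirac_apply, Set.indicator_of_notMem, smul_zero]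
    exact fun hc => hc ⟨h3.1, by linarith [h3.2]⟩) s
  have h2 : mss (un k D) = 1 := by
    unfold un
    rw [mss_atom (fun _ _ => by positivity), un_sum]
  rw [h2, one_mul] at h1
  have h3 := log_le_sub_one_of_pos (x := 2 * (2 ^ k * |D|) * exp s + 2) (by positivity)
  nlinarith

theorem exp_log_two (k : ℕ) : exp (k * log 2) = 2 ^ k := by
  rw [exp_nat_mul, exp_log two_pos]

end GAAux

open GAAux

/-- A pair of atoms resolved by the scale carries a definite amount of information. -/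
theorem bp (hμ : Good μ) [IsProbabilityMeasure μ] {α C : ℝ} (hα : α < 1)
    (hU : ∀ s x : ℝ, 0 ≤ x → Hs μ (s + x) - Hs μ s ≤ α * x + C) :
    ∃ c : ℝ, 0 < c ∧ ∀ (ρ x₀ x₁ s : ℝ), ρ ≠ 0 → exp (-s) ≤ |x₁ - x₀| →
      c ≤ info (atom (Finset.univ : Finset (Fin 2)) (fun _ => 1 / 2) ![x₀, x₁]) (scl ρ μ) s := by
  have hl : 0 < log 2 := log_pos one_lt_two
  have hp : 0 < (1 - α) * log 2 := mul_pos (by linarith) hl
  obtain ⟨k, hk⟩ := exists_nat_ge ((6 + C) / ((1 - α) * log 2))
  rw [div_le_iff₀ hp] at hk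
  refine ⟨1 / 4 ^ k, by positivity, fun ρ x₀ x₁ s hρ hs => ?_⟩
  have hη : Good (scl ρ μ) := hμ.scl ρ
  set D := x₁ - x₀ with hD
  have e : info (atom (Finset.univ : Finset (Fin 2)) (fun _ => 1 / 2) ![x₀, x₁]) (scl ρ μ) s =
      info (pr D) (scl ρ μ) s := by
    unfold pr
    rw [← info_shift hη (fun _ _ => by norm_num) ![0, D] x₀]
    congr 2
    funext i
    fin_cases i <;> simp [hD]
  rw [e, div_le_iff₀ (by positivity), mul_comm]
  refine le_trans ?_ (info_un hη D s k)
  have hes : exp (-s) * exp s = 1 := by rw [← exp_add]; simp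
  have h1 : 1 ≤ |D| * exp s := by
    rw [← hes]
    exact mul_le_mul_of_nonneg_right hs (exp_pos s).le
  obtain ⟨kb, hb1, hb2⟩ := exists_nat_pow_near h1 one_lt_two
  have hg : Good (un k D) := Good.atom _ _ _
  set sa := s - kb * log 2 - k * log 2 with hsa
  have g1 := gain_eq (un k D) (scl ρ μ) sa k
  have g2 := gain_eq (un k D) (scl ρ μ) (sa + k * log 2) kb
  rw [show sa + k * log 2 + kb * log 2 = s by rw [hsa]; ring] at g2
  have n1 : 0 ≤ info (un k D) (scl ρ μ) sa := (sup_info hη sa).nonneg _ hg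
  have n2 : 0 ≤ gain (un k D) (scl ρ μ) (sa + k * log 2) kb := (sup_gain hη _ _).nonneg _ hg
  have n3 := Hk_conv_ge' hg hη sa k
  rw [mss_prob, one_mul] at n3
  have hm : mss (un k D) = 1 := by
    unfold un
    rw [mss_atom (fun _ _ => by positivity), un_sum]
  have n4 : Hk (scl ρ μ) sa k ≤ α * (k * log 2) + C := by
    rw [Hk_scl hμ hρ]
    exact hU _ _ (by positivity)
  have n5 : Hs (un k D) (sa + k * log 2) = k * log 2 := by
    refine Hs_un_fine k ?_
    rw [show -(sa + k * log 2) = kb * log 2 + -s by rw [hsa]; ring, exp_add, exp_log_two]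
    have := mul_le_mul_of_nonneg_right hb1 (exp_pos (-s)).le
    rwa [mul_assoc, mul_comm (exp s), hes, mul_one] at this
  have n6 : Hs (un k D) sa ≤ 5 := by
    refine Hs_un_coarse k ?_
    have e1 : exp s = exp sa * (2 ^ kb * 2 ^ k) := by
      rw [← exp_log_two, ← exp_log_two, ← exp_add, ← exp_add, hsa]
      congr 1
      ring
    rw [e1, pow_succ] at hb2
    have hpos : (0 : ℝ) < 2 ^ kb := by positivity
    have : 2 ^ kb * (2 ^ k * |D| * exp sa) < 2 ^ kb * 2 := by linarith
    exact (lt_of_mul_lt_mul_left this hpos.le).le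
  have n7 : gain (un k D) (scl ρ μ) sa k =
      Hk (un k D ∗ scl ρ μ) sa k - Hk (scl ρ μ) sa k := by
    unfold gain
    rw [hm, one_mul]
  have n8 : Hk (un k D) sa k = Hs (un k D) (sa + k * log 2) - Hs (un k D) sa := rfl
  linarith

/-- Entropy of at most three atoms against the share outside the heaviest one. -/
theorem ent_le_of_card_le_three {J : Finset ℤ} {n : ℤ → ℝ} (hn : ∀ j ∈ J, 0 ≤ n j)
    (hJ : J.card ≤ 3) {j0 : ℤ} (hj0 : j0 ∈ J) {η : ℝ} (hη0 : 0 < η) (hη1 : η ≤ 1) :
    ent J n ≤ η * ∑ j ∈ J, n j + log (2 / η) * ∑ j ∈ J.erase j0, n j := by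
  have hq : ∀ j : ℤ, 0 < (if j = j0 then 1 / (1 + η) else η / (2 * (1 + η))) := fun j => by
    split_ifs <;> positivity
  have hc : ((J.erase j0).card : ℝ) ≤ 2 := by
    have := Finset.card_erase_of_mem hj0
    have h2 : (J.erase j0).card ≤ 2 := by omega
    exact_mod_cast h2
  have h1 := ent_le_gibbs hn (q := fun j => if j = j0 then 1 / (1 + η) else η / (2 * (1 + η)))
    (fun j _ => (hq j).le) (fun j _ _ => hq j) (by
      rw [← Finset.add_sum_erase _ _ hj0, if_pos rfl,
        Finset.sum_congr rfl fun j hj => if_neg (Finset.ne_of_mem_erase hj), Finset.sum_const,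
        nsmul_eq_mul]
      have h2 : ((J.erase j0).card : ℝ) * (η / (2 * (1 + η))) ≤ 2 * (η / (2 * (1 + η))) :=
        mul_le_mul_of_nonneg_right hc (by positivity)
      have h3 : 1 / (1 + η) + 2 * (η / (2 * (1 + η))) = 1 := by field_simp
      linarith)
  refine h1.trans ?_
  have hl : log (1 + η) ≤ η := by
    have := log_le_sub_one_of_pos (x := 1 + η) (by positivity)
    linarith
  rw [← Finset.add_sum_erase _ _ hj0, ← Finset.add_sum_erase _ n hj0, if_pos rfl, mul_add η,
    add_assoc, ← add_mul, Finset.mul_sum]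
  refine add_le_add ?_ (Finset.sum_le_sum fun j hj => ?_)
  · rw [one_div, log_inv, neg_neg, mul_comm]
    exact mul_le_mul_of_nonneg_right hl (hn j0 hj0)
  · rw [if_neg (Finset.ne_of_mem_erase hj), mul_comm]
    refine mul_le_mul_of_nonneg_right ?_ (hn j (Finset.mem_of_mem_erase hj))
    rw [← log_inv, show (η / (2 * (1 + η)))⁻¹ = (1 + η) * (2 / η) by field_simp,
      log_mul (by positivity) (by positivity)]
    linarith

theorem ga (hμ : Good μ) [IsProbabilityMeasure μ] {α C : ℝ} (hα : α < 1)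
    (hU : ∀ s x : ℝ, 0 ≤ x → Hs μ (s + x) - Hs μ s ≤ α * x + C) :
    ∃ (K1 : ℕ) (b : ℝ), 0 < b ∧ ∀ (K2 : ℕ) (s ρ : ℝ), ρ ≠ 0 → ∀ η : ℝ, 0 < η → η ≤ 1 →
      ∀ (J : Finset ℤ) (n x : ℤ → ℝ), (∀ j ∈ J, 0 ≤ n j) → J.card ≤ 2 ^ 1 + 1 →
        Sep J x (s + K1 * log 2) (s + K1 * log 2 + (1 + K2 : ℕ) * log 2) →
        ent J n ≤ η * ∑ j ∈ J, n j +
          b * log (2 / η) * gain (atom J n x) (scl ρ μ) s (K1 + (1 + K2)) := by
  obtain ⟨c, hc, hbp⟩ := bp hμ hα hU
  obtain ⟨K1, hK1⟩ := pow_unbounded_of_one_lt (2 / c) (one_lt_two (α := ℝ))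
  refine ⟨K1, 2 / c, by positivity, fun K2 s ρ hρ η hη0 hη1 J n x hn hJ hsep => ?_⟩
  have hη : Good (scl ρ μ) := hμ.scl ρ
  have hlog : 0 ≤ log (2 / η) := log_nonneg (by rw [le_div_iff₀ hη0]; linarith)
  have hS := sup_gain hη s (K1 + (1 + K2))
  have hg0 : 0 ≤ gain (atom J n x) (scl ρ μ) s (K1 + (1 + K2)) := hS.nonneg _ (Good.atom _ _ _)
  by_cases h1 : J.card ≤ 1
  · rw [ent_of_card_le_one n h1]
    have := Finset.sum_nonneg hn
    positivity
  obtain ⟨j0, hj0, hm0⟩ := J.exists_max_image n (Finset.card_pos.1 (by omega))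
  have hce := Finset.card_erase_of_mem hj0
  obtain ⟨j1, hj1, hm1⟩ := (J.erase j0).exists_max_image n (Finset.card_pos.1 (by omega))
  have hne : j1 ≠ j0 := Finset.ne_of_mem_erase hj1
  have hj1' : j1 ∈ J := Finset.mem_of_mem_erase hj1
  have hn1 := hn j1 hj1'
  have a1 : ∑ j ∈ J.erase j0, n j ≤ 2 * n j1 := by
    have h2 := Finset.sum_le_card_nsmul _ _ _ hm1
    rw [nsmul_eq_mul] at h2
    have h3 : ((J.erase j0).card : ℝ) ≤ 2 := by
      have : (J.erase j0).card ≤ 2 := by omega
      exact_mod_cast this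
    exact h2.trans (mul_le_mul_of_nonneg_right h3 hn1)
  have a2 := hS.atom_mono (S := J) (S' := {j0, j1}) (w := n) (w' := fun _ => n j1) x
    (by
      intro j hj
      rcases Finset.mem_insert.1 hj with rfl | hj
      · exact hj0
      · rw [Finset.mem_singleton.1 hj]; exact hj1')
    (fun _ _ => hn1) hn (by
      intro j hj
      rcases Finset.mem_insert.1 hj with rfl | hj
      · exact hm0 j1 hj1'
      · rw [Finset.mem_singleton.1 hj])
  have e : atom ({j0, j1} : Finset ℤ) (fun _ => n j1) x = ENNReal.ofReal (2 * n j1) •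
      atom (Finset.univ : Finset (Fin 2)) (fun _ => 1 / 2) ![x j0, x j1] := by
    rw [← atom_const_mul _ _ _ (by positivity)]
    unfold atom
    rw [Finset.sum_pair hne.symm, Fin.sum_univ_two]
    simp only [Matrix.cons_val_zero, Matrix.cons_val_one,
      show 2 * n j1 * (1 / 2) = n j1 by ring]
  have a3 := hS.smul (2 * n j1)
    (atom (Finset.univ : Finset (Fin 2)) (fun _ => 1 / 2) ![x j0, x j1]) (by positivity)
    (Good.atom _ _ _)
  rw [e, a3, gain_eq] at a2
  obtain ⟨s1, s2⟩ := hsep j1 hj1' j0 hj0 hne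
  have a4 := hbp ρ (x j0) (x j1) (s + (K1 + (1 + K2) : ℕ) * log 2) hρ (by
    refine le_of_eq_of_le ?_ s1
    congr 1
    push_cast
    ring)
  have a5 := info_le_diam hη (S := (Finset.univ : Finset (Fin 2))) (n := fun _ => (1 / 2 : ℝ))
    (fun _ _ => by norm_num) ![x j0, x j1] (exp_pos (-(s + K1 * log 2))).le (by
      intro i _ i' _
      have := exp_pos (-(s + K1 * log 2))
      fin_cases i <;> fin_cases i'
      · simpa using this.le
      · simpa [abs_sub_comm] using s2
      · simpa using s2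
      · simpa using this.le) s
  have a6 : ent (Finset.univ : Finset (Fin 2)) (fun _ => (1 / 2 : ℝ)) ≤ 1 := by
    have h2 := ent_le_log_card (S := (Finset.univ : Finset (Fin 2))) (a := fun _ => (1 / 2 : ℝ))
      (fun _ _ => by norm_num)
    rw [half_sum, one_mul] at h2
    have h3 := log_le_sub_one_of_pos (x := ((Finset.univ : Finset (Fin 2)).card : ℝ)) (by simp)
    simp only [Finset.card_univ, Fintype.card_fin, Nat.cast_ofNat] at h2 h3
    linarith
  have a7 : exp (-(s + K1 * log 2)) * exp s ≤ c / 2 := by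
    rw [← exp_add, show -(s + K1 * log 2) + s = -(K1 * log 2) by ring, exp_neg, exp_log_two]
    rw [inv_le_comm₀ (by positivity) (by positivity), inv_div]
    exact hK1.le
  have a8 : exp (-(s + K1 * log 2)) * exp s *
      ent (Finset.univ : Finset (Fin 2)) (fun _ => (1 / 2 : ℝ)) ≤ c / 2 :=
    (mul_le_of_le_one_right (by positivity) a6).trans a7
  have a9 : 2 * n j1 * (c / 2) ≤ gain (atom J n x) (scl ρ μ) s (K1 + (1 + K2)) :=
    le_trans (mul_le_mul_of_nonneg_left (by linarith) (by positivity)) a2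
  have a10 : ∑ j ∈ J.erase j0, n j ≤ 2 / c * gain (atom J n x) (scl ρ μ) s (K1 + (1 + K2)) := by
    rw [div_mul_eq_mul_div, le_div_iff₀ hc]
    nlinarith
  refine (ent_le_of_card_le_three hn (by omega) hj0 hη0 hη1).trans ?_
  have := mul_le_mul_of_nonneg_left a10 hlog
  linarith

end

end Vale.Agent.P114
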