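import Vale.Agent.P114.Defs

/-! # P114: the layering argument, as a statement of real analysis -/

open MeasureTheory Real Set Polynomial
open scoped ENNReal

namespace Vale.Agent.P114

noncomputable section

namespace LayAbsAux

open Filter Metric Topology

/-- A finite union of windows. -/
def win (Y : Finset ℝ) (r : ℝ) : Set ℝ := ⋃ y ∈ Y, Icc (y - r) (y + r)

theorem meas_win (Y : Finset ℝ) (r : ℝ) : MeasurableSet (win Y r) :=
  Finset.measurableSet_biUnion _ fun _ _ => measurableSet_Icc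

theorem mem_win {Y : Finset ℝ} {r s y : ℝ} (hy : y ∈ Y) (h : |s - y| ≤ r) : s ∈ win Y r := by
  rw [abs_le] at h
  exact mem_biUnion hy ⟨by linarith [h.1], by linarith [h.2]⟩

theorem vol_win {Y : Finset ℝ} {r : ℝ} {A : Set ℝ} (hA : A ⊆ win Y r) (hr : 0 ≤ r) {D : ℕ}
    (hD : Y.card ≤ D) : volume.real A ≤ D * (2 * r) := by
  refine (measureReal_mono hA ?_).trans ((measureReal_biUnion_finset_le _ _).trans ?_)
  · exact (measure_biUnion_lt_top Y.finite_toSet fun _ _ => measure_Icc_lt_top).ne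
  · rw [Finset.sum_congr rfl fun y _ => (volume_real_Icc_of_le (by linarith)).trans
      (show y + r - (y - r) = 2 * r by ring), Finset.sum_const, nsmul_eq_mul]
    exact mul_le_mul_of_nonneg_right (Nat.cast_le.2 hD) (by linarith)

theorem int_le {E U : ℝ → ℝ} {s0 S η β : ℝ} {A : Set ℝ} (hA : MeasurableSet A)
    (hAJ : A ⊆ Icc s0 S) (hE : IntegrableOn E (Icc s0 S)) (hU : IntegrableOn U (Icc s0 S))
    (h : ∀ s, E s ≤ η + β * U s) : ∫ s in A, E s ≤ η * volume.real A + β * ∫ s in A, U s := by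
  have h1 : IntegrableOn (fun _ => η) A :=
    integrableOn_const ((measure_mono hAJ).trans_lt measure_Icc_lt_top).ne
  have h2 : IntegrableOn (fun s => β * U s) A := (hU.mono_set hAJ).const_mul β
  refine (setIntegral_mono_on (hE.mono_set hAJ) (h1.add h2) hA fun s _ => h s).trans_eq ?_
  rw [integral_add' h1 h2, integral_const_mul, setIntegral_const, smul_eq_mul, mul_comm]

theorem cover {V V' K : Set ℝ} (hVV : V' ⊆ V) {d D0 : ℕ} {J γ e e' m : ℝ} (hγ : 0 < γ)
    (h2 : W2 V' d J γ e') (h1 : Cov (V ∩ K) D0 e)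
    (hcase : J * γ + e' ≤ m ∨ (e' ≤ m ∧ 2 * (e + e') < γ)) : Cov (V' ∩ K) (d * (D0 + 1)) m := by
  classical
  obtain ⟨Y, hY, hv⟩ := h2
  obtain ⟨Z, hZ, hz⟩ := h1
  rcases hcase with h | ⟨h, h'⟩
  · refine ⟨Y, hY.trans (Nat.le_mul_of_pos_right _ (Nat.succ_pos _)), fun v hv' => ?_⟩
    obtain ⟨y, hy, j, hj, hvj⟩ := hv v hv'.1
    refine ⟨y, hy, ?_⟩
    have h3 := abs_add_le (v - y - j * γ) (j * γ)
    rw [sub_add_cancel, abs_mul, abs_of_pos hγ] at h3
    linarith [mul_le_mul_of_nonneg_right hj hγ.le]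
  · refine ⟨(Y ×ˢ Z).image fun p => p.1 + round ((p.2 - p.1) / γ) * γ,
      Finset.card_image_le.trans ?_, fun v hv' => ?_⟩
    · rw [Finset.card_product]
      exact Nat.mul_le_mul hY (hZ.trans (Nat.le_succ _))
    obtain ⟨y, hy, j, -, hvj⟩ := hv v hv'.1
    obtain ⟨z, hz', hvz⟩ := hz v ⟨hVV hv'.1, hv'.2⟩
    refine ⟨_, Finset.mem_image_of_mem _ (Finset.mk_mem_product hy hz'), ?_⟩
    have h3 : |(z - y) / γ - j| < 1 / 2 := by
      have e1 : (z - y) / γ - j = ((v - y - j * γ) - (v - z)) / γ := by field_simp; ring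
      rw [e1, abs_div, abs_of_pos hγ, div_lt_iff₀ hγ]
      linarith [abs_sub (v - y - j * γ) (v - z)]
    have h4 := abs_sub_round ((z - y) / γ)
    have h5 : round ((z - y) / γ) = j := by
      rw [abs_lt] at h3
      rw [abs_le] at h4
      have h6 : ((round ((z - y) / γ) : ℤ) : ℝ) < j + 1 := by linarith [h3.2, h4.1]
      have h7 : (j : ℝ) < (round ((z - y) / γ) : ℤ) + 1 := by linarith [h3.1, h4.2]
      norm_cast at h6 h7
      omega
    dsimp only
    rw [h5, ← sub_sub]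
    exact hvj.trans h

theorem step {g E U : ℝ → ℝ} {V V' : Set ℝ} {a c C b m m' s0 S e L η0 η : ℝ} {D0 D1 : ℕ}
    (ha : 0 ≤ a) (hc : 0 ≤ c) (hb : 0 ≤ b) (hm : 1 ≤ m) (hm' : m' ≤ m) (he : 0 ≤ e)
    (hL : L = a + 2 * c + 1) (hEi : IntegrableOn E (Icc s0 S)) (hUi : IntegrableOn U (Icc s0 S))
    (hEU : ∀ s η, 0 < η → η ≤ 1 → E s ≤ η + b * log (2 / η) * U s)
    (hE0 : ∀ s, (∀ v ∈ V, v ∉ Icc s (s + c)) → E s ≤ 0)
    (hUP : ∀ I T : Set ℝ, MeasurableSet I → MeasurableSet T →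
      I ⊆ Icc s0 S → (∀ s ∈ I, Icc (s - a * m) (s + c) ⊆ T) →
      ∫ s in I, U s ≤ C * m * (∫ x in T, g x) + C)
    (h1 : Cov (V ∩ Icc s0 (S + c)) D0 e) (h2 : Cov (V' ∩ Icc s0 (S + c)) D1 m)
    (h0 : 0 < η0) (h0' : η0 ≤ 1) (hη : 0 < η) (hη' : η ≤ 1) :
    ∫ s in Icc s0 S, E s ≤ η0 * ((D1 + 2 : ℕ) * (2 * ((2 * L + 1) * m))) +
      b * log (2 / η0) * (C * m * (∫ x in Ici (s0 - a * m), g x) + C) +
      (η * (D0 * (2 * (e + c))) + b * log (2 / η) *
        (C * m * (∫ x in thickening (L * m) V \ thickening (L * m') V', g x) + C)) := by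
  classical
  obtain ⟨Y1, hY1, hy1⟩ := h1
  obtain ⟨Y2, hY2, hy2⟩ := h2
  have hL0 : 0 ≤ L := by linarith
  have hcm : c ≤ c * m := le_mul_of_one_le_right hc hm
  have ham : 0 ≤ a * m := by positivity
  have hβ : ∀ η : ℝ, 0 < η → η ≤ 1 → 0 ≤ b * log (2 / η) := fun η h h' =>
    mul_nonneg hb (log_nonneg ((one_le_div h).2 (by linarith)))
  set N := win (insert s0 (insert S Y2)) ((2 * L + 1) * m) with hN
  set W := thickening (c + 1) V ∩ win Y1 (e + c) with hW
  have mN : MeasurableSet N := meas_win _ _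
  have mW : MeasurableSet W := isOpen_thickening.measurableSet.inter (meas_win _ _)
  have mI : MeasurableSet (Icc s0 S \ N) := measurableSet_Icc.diff mN
  rw [← integral_inter_add_sdiff mN hEi, ← integral_inter_add_sdiff mW (hEi.mono_set sdiff_subset)]
  refine add_le_add ?_ ((add_le_of_nonpos_right ?_).trans ?_)
  · refine (int_le (measurableSet_Icc.inter mN) inter_subset_left hEi hUi
      fun s => hEU s η0 h0 h0').trans (add_le_add ?_ ?_)
    · refine mul_le_mul_of_nonneg_left (vol_win inter_subset_right (by positivity) ?_) h0.le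
      exact (Finset.card_insert_le _ _).trans (Nat.succ_le_succ
        ((Finset.card_insert_le _ _).trans (Nat.succ_le_succ hY2)))
    · refine mul_le_mul_of_nonneg_left (hUP _ _ (measurableSet_Icc.inter mN) measurableSet_Ici
        inter_subset_left fun s hs x hx => ?_) (hβ _ h0 h0')
      exact (sub_le_sub_right hs.1.1 _).trans hx.1
  · refine setIntegral_nonpos (mI.diff mW) fun s hs => hE0 s fun v hv hvs => hs.2 ⟨?_, ?_⟩
    · refine mem_thickening_iff.2 ⟨v, hv, ?_⟩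
      rw [Real.dist_eq, abs_lt]
      constructor <;> linarith [hvs.1, hvs.2]
    · obtain ⟨y, hy, h⟩ := hy1 v ⟨hv, hs.1.1.1.trans hvs.1, by linarith [hvs.2, hs.1.1.2]⟩
      refine mem_win hy ?_
      rw [abs_le] at h ⊢
      constructor <;> linarith [hvs.1, hvs.2, h.1, h.2]
  · have hsub : (Icc s0 S \ N) ∩ W ⊆ Icc s0 S := inter_subset_left.trans sdiff_subset
    refine (int_le (mI.inter mW) hsub hEi hUi fun s => hEU s η hη hη').trans (add_le_add ?_ ?_)
    · exact mul_le_mul_of_nonneg_left (vol_win (inter_subset_right.trans inter_subset_right)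
        (by positivity) hY1) hη.le
    refine mul_le_mul_of_nonneg_left (hUP _ _ (mI.inter mW)
      (isOpen_thickening.measurableSet.diff isOpen_thickening.measurableSet) hsub
      fun s hs x hx => ⟨?_, fun hx' => hs.1.2 ?_⟩) (hβ _ hη hη')
    · obtain ⟨v, hv, h⟩ := mem_thickening_iff.1 hs.2.1
      refine mem_thickening_iff.2 ⟨v, hv, ?_⟩
      rw [Real.dist_eq, abs_lt] at h ⊢
      subst hL
      constructor <;> nlinarith [h.1, h.2, hx.1, hx.2]
    · obtain ⟨v, hv, h⟩ := mem_thickening_iff.1 hx'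
      have h3 : |s - v| ≤ 2 * L * m := by
        have := mul_le_mul_of_nonneg_left hm' hL0
        rw [Real.dist_eq, abs_lt] at h
        rw [abs_le]
        subst hL
        constructor <;> nlinarith [h.1, h.2, hx.1, hx.2]
      have h4 := abs_le.1 h3
      have h5 := hs.1.1
      rcases lt_or_ge v s0 with h6 | h6
      · refine mem_win (Finset.mem_insert_self _ _) ?_
        rw [abs_le]
        constructor <;> nlinarith [h4.1, h4.2, h5.1, h5.2]
      rcases lt_or_ge (S + c) v with h7 | h7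
      · refine mem_win (Finset.mem_insert_of_mem (Finset.mem_insert_self _ _)) ?_
        rw [abs_le]
        constructor <;> nlinarith [h4.1, h4.2, h5.1, h5.2]
      obtain ⟨y, hy, h8⟩ := hy2 v ⟨hv, h6, h7⟩
      refine mem_win (Finset.mem_insert_of_mem (Finset.mem_insert_of_mem hy)) ?_
      rw [abs_le] at h8 ⊢
      constructor <;> nlinarith [h4.1, h4.2, h8.1, h8.2]

theorem loglog_pos {m : ℕ} (hm : 3 ≤ m) : 0 < log (log m) := by
  refine log_pos ((lt_log_iff_exp_lt (by positivity)).2 ?_)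
  exact (exp_one_lt_three).trans_le (by exact_mod_cast hm)

theorem harmonic (x : ℕ → ℝ) {B c0 : ℝ} (hc0 : 0 < c0) (hx : ∀ m, x m ≤ B) {M : ℕ} (hM : 3 ≤ M)
    (h : ∀ n, M ≤ n → ∃ m, n ≤ m ∧ m ≤ n ^ 3 ∧ x n + c0 / log (log m) ≤ x m) : False := by
  have h3 : 0 < log 3 := log_pos (by norm_num)
  have hM0 := loglog_pos hM
  have hM1 : 0 < log M := log_pos (by exact_mod_cast (by omega : 1 < M))
  have hB : 0 < log 3 + log (log M) := by linarith
  have key : ∀ k : ℕ, ∃ m, M ≤ m ∧ m ≤ M ^ 3 ^ k ∧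
      x M + c0 / (log 3 + log (log M)) * ∑ i ∈ Finset.range k, (1 / (i + 1) : ℝ) ≤ x m := by
    intro k
    induction k with
    | zero => exact ⟨M, le_rfl, by simp, by simp⟩
    | succ k ih =>
      obtain ⟨n, hn, hn', hxn⟩ := ih
      obtain ⟨m, hm, hm', hxm⟩ := h n hn
      have h1 : m ≤ M ^ 3 ^ (k + 1) := by
        rw [pow_succ, pow_mul]
        exact hm'.trans (Nat.pow_le_pow_left hn' 3)
      refine ⟨m, hn.trans hm, h1, le_trans ?_ hxm⟩
      have hm3 : 3 ≤ m := hM.trans (hn.trans hm)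
      have h2 : log m ≤ 3 ^ (k + 1) * log M := by
        have := log_le_log (by exact_mod_cast (by omega : 0 < m)) ((Nat.cast_le (α := ℝ)).2 h1)
        rwa [Nat.cast_pow, log_pow, Nat.cast_pow] at this
      have h4 := log_le_log (log_pos (by exact_mod_cast (by omega : 1 < m))) h2
      rw [log_mul (by positivity) hM1.ne', log_pow] at h4
      have h5 : c0 / (log 3 + log (log M)) * (1 / (k + 1)) ≤ c0 / log (log m) := by
        rw [div_mul_div_comm, mul_one]
        refine div_le_div_of_nonneg_left hc0.le (loglog_pos hm3) (h4.trans ?_)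
        push_cast
        nlinarith [Nat.cast_nonneg (α := ℝ) k]
      rw [Finset.sum_range_succ, mul_add]
      linarith
  obtain ⟨k, hk⟩ := ((tendsto_sum_range_one_div_nat_succ_atTop.const_mul_atTop
    (div_pos hc0 hB)).eventually_gt_atTop (B - x M)).exists
  obtain ⟨m, -, -, hm⟩ := key k
  linarith [hx m]

theorem ev_log (K : ℝ) : ∀ᶠ m : ℕ in atTop, K ≤ log m :=
  (tendsto_log_atTop.comp tendsto_natCast_atTop_atTop).eventually_ge_atTop K

theorem ev_pow (n : ℕ) {K δ : ℝ} (hδ : 0 < δ) : ∀ᶠ m : ℕ in atTop, K * log m ^ n ≤ δ * m := by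
  have := ((isLittleO_pow_log_id_atTop (n := n)).const_mul_left K).comp_tendsto
    tendsto_natCast_atTop_atTop
  filter_upwards [this.bound hδ] with m hm
  refine (le_abs_self _).trans (hm.trans_eq ?_)
  simp

theorem ev_tail (g : ℝ → ℝ) {ε δ : ℝ} (hε : 0 < ε) (hδ : 0 < δ) (β C : ℝ) :
    ∀ᶠ m : ℕ in atTop, β * (C * m * (∫ x in Ici (ε * m), g x) + C) ≤ δ * m := by
  have h1 : Tendsto (fun m : ℕ => ∫ x in Ici (ε * m), g x) atTop (𝓝 0) :=
    tendsto_integral_Ici_zero (tendsto_natCast_atTop_atTop.const_mul_atTop hε)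
  have h2 := (h1.add (tendsto_inv_atTop_nhds_zero_nat (𝕜 := ℝ))).const_mul (β * C)
  rw [add_zero, mul_zero] at h2
  filter_upwards [h2.eventually_le_const hδ, eventually_gt_atTop 0] with m hm h0
  have h0' : (0 : ℝ) < m := by exact_mod_cast h0
  refine le_of_eq_of_le ?_ (mul_le_mul_of_nonneg_right hm h0'.le)
  field_simp

theorem choose_m {n : ℕ} {C' γ : ℝ} (hγ : 0 < γ) (hn : 3 ≤ n) (h1 : 1 ≤ log n)
    (hC : 2 * |C'| ≤ log n) (h7 : 320 * log n ^ 7 ≤ 1 * n) :
    ∃ m : ℕ, n ≤ m ∧ m ≤ n ^ 3 ∧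
      (C' * log n * γ + fz n ≤ m ∨ (fz n ≤ m ∧ 2 * (2 * fz m + fz n) < γ)) := by
  have hn' : (3 : ℝ) ≤ n := by exact_mod_cast hn
  have h57 : log n ^ 5 ≤ log n ^ 7 := pow_le_pow_right₀ h1 (by norm_num)
  have h5 : 1 ≤ log n ^ 5 := one_le_pow₀ h1
  have hf : fz n ≤ (n : ℝ) ^ 2 := by
    rw [fz, sq]
    exact mul_le_mul_of_nonneg_left (by linarith) (by linarith)
  have hf2 : fz (n ^ 2) = 32 * ((n : ℝ) ^ 2 * log n ^ 5) := by
    rw [fz, Nat.cast_pow, log_pow]
    push_cast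
    ring
  have h2 : (0 : ℝ) < (n : ℝ) ^ 2 := by positivity
  rcases lt_or_ge (10 * fz (n ^ 2)) γ with h | h
  · refine ⟨n ^ 2, Nat.le_self_pow two_ne_zero n, Nat.pow_le_pow_right (by omega) (by norm_num),
      Or.inr ⟨by rwa [Nat.cast_pow], ?_⟩⟩
    nlinarith
  · refine ⟨n ^ 3, Nat.le_self_pow three_ne_zero n, le_rfl, Or.inl ?_⟩
    have h3 : C' * log n ≤ log n ^ 2 / 2 := by nlinarith [le_abs_self C']
    have h4 := mul_le_mul h3 h hγ.le (by positivity)
    have h6 := mul_le_mul_of_nonneg_left h7 h2.le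
    rw [hf2] at h4
    push_cast
    nlinarith

end LayAbsAux

open LayAbsAux Filter Metric in
theorem lay_abstract (g : ℝ → ℝ) (hg0 : ∀ x, 0 ≤ g x) (hgi : Integrable g)
    {a ε δ c b C C' : ℝ} (ha : 0 < a) (hε : 0 < ε) (hδ : 0 < δ) (hc : 0 ≤ c) (hb : 0 < b)
    (hC : 0 ≤ C) (d D0 m0 : ℕ) (V : ℕ → Set ℝ) (hV : Monotone V) (E U : ℕ → ℝ → ℝ) (S : ℕ → ℝ)
    (hEi : ∀ m, m0 ≤ m → IntegrableOn (E m) (Icc ((a + ε) * m) (S m)))
    (hUi : ∀ m, m0 ≤ m → IntegrableOn (U m) (Icc ((a + ε) * m) (S m)))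
    (hU0 : ∀ m s, 0 ≤ U m s)
    (hE : ∀ m, m0 ≤ m → δ * m ≤ ∫ s in Icc ((a + ε) * m) (S m), E m s)
    (hEU : ∀ m, m0 ≤ m → ∀ s η, 0 < η → η ≤ 1 → E m s ≤ η + b * log (2 / η) * U m s)
    (hE0 : ∀ m, m0 ≤ m → ∀ s, (∀ v ∈ V m, v ∉ Icc s (s + c)) → E m s ≤ 0)
    (hUP : ∀ m, m0 ≤ m → ∀ I T : Set ℝ, MeasurableSet I → MeasurableSet T →
      I ⊆ Icc ((a + ε) * m) (S m) → (∀ s ∈ I, Icc (s - a * m) (s + c) ⊆ T) →
      ∫ s in I, U m s ≤ C * m * (∫ x in T, g x) + C)
    (h2 : ∀ m, m0 ≤ m → ∃ γ, 0 < γ ∧ W2 (V m) d (C' * log m) γ (fz m))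
    (h1 : ∀ m, m0 ≤ m → Cov (V m ∩ Icc ((a + ε) * m) (S m + c)) D0 (2 * fz m)) : False := by
  obtain ⟨L, hL⟩ : ∃ L, L = a + 2 * c + 1 := ⟨_, rfl⟩
  have hL0 : 0 < L := by linarith
  obtain ⟨K1, hK1⟩ : ∃ K1 : ℝ, K1 = (d * (D0 + 1) + 2 : ℕ) * (2 * (2 * L + 1)) := ⟨_, rfl⟩
  have hK0 : 0 < K1 := by rw [hK1]; positivity
  obtain ⟨η0, h0, h0', h0''⟩ : ∃ η0 : ℝ, 0 < η0 ∧ η0 ≤ 1 ∧ η0 * K1 ≤ δ / 4 :=
    ⟨min 1 (δ / 4 / K1), by positivity, min_le_left _ _, (le_div_iff₀ hK0).1 (min_le_right _ _)⟩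
  obtain ⟨M, hM⟩ := eventually_atTop.1 ((eventually_ge_atTop m0).and
    ((eventually_ge_atTop 3).and ((ev_log (2 * |C'|)).and ((ev_log 2).and
    ((ev_log (8 * (D0 * (2 * (2 + c))) / δ)).and ((ev_pow 7 (K := 320) one_pos).and
    ((ev_pow 1 (K := 48 * b * C) hδ).and
    (ev_tail g hε (show 0 < δ / 4 by positivity) (b * log (2 / η0)) C))))))))
  refine harmonic (fun m => ∫ x in thickening (L * m) (V m), g x) (B := ∫ x, g x)
    (c0 := δ / (48 * b * (C + 1))) (by positivity)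
    (fun m => setIntegral_le_integral hgi (ae_of_all _ hg0)) (hM M le_rfl).2.1 fun n hn => ?_
  obtain ⟨n0, n3, nC, n2, -, n7, -, -⟩ := hM n hn
  obtain ⟨γ, hγ, hW⟩ := h2 n n0
  obtain ⟨m, hnm, hm3, hcase⟩ := choose_m hγ n3 (by linarith) nC n7
  refine ⟨m, hnm, hm3, ?_⟩
  obtain ⟨m0', m3, -, m2, mK, -, m1, mT⟩ := hM m (hn.trans hnm)
  have hm : (3 : ℝ) ≤ m := by exact_mod_cast m3
  have hnm' : (n : ℝ) ≤ m := by exact_mod_cast hnm
  have h5 : 1 ≤ log m ^ 5 := one_le_pow₀ (by linarith)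
  have hf : 1 ≤ fz m := by rw [fz]; nlinarith
  have hl := loglog_pos m3
  have st := step (V' := V n) (m' := n) ha.le hc hb.le (by linarith) hnm' (by linarith) hL
    (hEi m m0') (hUi m m0') (hEU m m0') (hE0 m m0') (hUP m m0') (h1 m m0')
    (cover (hV hnm) hγ hW (h1 m m0') hcase) h0 h0'
    (show 0 < 2 / log m ^ 6 by positivity)
    ((div_le_one (by positivity)).2 (by rw [pow_succ]; nlinarith))
  rw [setIntegral_sdiff isOpen_thickening.measurableSet hgi.integrableOn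
    ((thickening_mono (mul_le_mul_of_nonneg_left hnm' hL0.le) _).trans
      (thickening_subset_of_subset _ (hV hnm))),
    show (a + ε) * m - a * m = ε * m by ring,
    show 2 / (2 / log m ^ 6) = log m ^ 6 by field_simp, log_pow] at st
  have hx : 0 ≤ (∫ x in thickening (L * m) (V m), g x) - ∫ x in thickening (L * n) (V n), g x :=
    sub_nonneg.2 (setIntegral_mono_set hgi.integrableOn (ae_of_all _ hg0)
      ((thickening_mono (mul_le_mul_of_nonneg_left hnm' hL0.le) _).trans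
        (thickening_subset_of_subset _ (hV hnm))).eventuallyLE)
  rw [← le_sub_iff_add_le']
  generalize (∫ x in thickening (L * m) (V m), g x) - ∫ x in thickening (L * n) (V n), g x = X
    at st hx ⊢
  have e1 : η0 * ((d * (D0 + 1) + 2 : ℕ) * (2 * ((2 * L + 1) * m))) ≤ δ / 4 * m := by
    refine le_of_eq_of_le ?_ (mul_le_mul_of_nonneg_right h0'' (by linarith))
    rw [hK1]
    ring
  have e2 : 2 / log m ^ 6 * (D0 * (2 * (2 * fz m + c))) ≤ δ / 4 * m := by
    have h6 : (D0 : ℝ) * (2 * (2 * fz m + c)) ≤ D0 * (2 * (2 + c)) * fz m := by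
      rw [mul_assoc]
      exact mul_le_mul_of_nonneg_left (by nlinarith) (Nat.cast_nonneg _)
    refine (mul_le_mul_of_nonneg_left h6 (by positivity)).trans ?_
    rw [div_le_iff₀ hδ] at mK
    have e : 2 / log m ^ 6 * (D0 * (2 * (2 + c)) * fz m) =
        2 * (D0 * (2 * (2 + c))) / log m * m := by
      rw [fz]
      field_simp
    rw [e]
    refine mul_le_mul_of_nonneg_right ?_ (by linarith)
    rw [div_le_iff₀ (by linarith)]
    linarith
  have e3 : b * log (log m) * C ≤ b * log m * C :=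
    mul_le_mul_of_nonneg_right (mul_le_mul_of_nonneg_left
      ((log_le_sub_one_of_pos (by linarith)).trans (by linarith)) hb.le) hC
  have e4 := hE m m0'
  have e5 : 0 ≤ b * log (log m) * (m * X) := by positivity
  rw [div_div, div_le_iff₀ (by positivity)]
  refine le_of_mul_le_mul_right ?_ (show (0 : ℝ) < m by linarith)
  push_cast at st e1
  nlinarith

end

end Vale.Agent.P114
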