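import Vale.Agent.P114.Pot

/-! # P114: the gains are paid by the potential -/

open MeasureTheory Real Set Polynomial
open scoped ENNReal

namespace Vale.Agent.P114

noncomputable section

variable {Λ : Type*} [Fintype Λ] {β : Type*}

namespace UpAux

/-- The lazy step on the additive scale. -/
def LA (F : IFS Λ) (G : ℝ → ℝ) (x : ℝ) : ℝ := (G x + ∑ i, F.p i * G (x + log |F.r i|)) / 2

/-- The density of the potential summed over `K` consecutive scales. -/
def gK (F : IFS Λ) (μ : Measure ℝ) (K : ℕ) (x : ℝ) : ℝ :=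
  ∑ i ∈ Finset.range K, F.gfun μ (x + i * log 2)

theorem Lz_iter_log (F : IFS Λ) (n : ℕ) (G : ℝ → ℝ) (s : ℝ) :
    ∀ ρ, ρ ≠ 0 → (F.Lz^[n] (fun ρ' => G (s + log |ρ'|))) ρ = ((LA F)^[n] G) (s + log |ρ|) := by
  induction n with
  | zero => intro ρ _; rfl
  | succ n ih =>
    intro ρ hρ
    rw [Function.iterate_succ_apply', Function.iterate_succ_apply']
    rw [IFS.Lz, LA, ih ρ hρ]
    congr 2
    refine Finset.sum_congr rfl fun i _ => ?_
    rw [ih _ (mul_ne_zero hρ (F.r_ne i)), abs_mul,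
      log_mul (abs_ne_zero.2 hρ) (abs_ne_zero.2 (F.r_ne i)), add_assoc]

theorem LA_iter_lin (F : IFS Λ) (n : ℕ) (G G' : ℝ → ℝ) (c : ℝ) :
    (LA F)^[n] (fun x => G x + c * G' x) =
      fun x => ((LA F)^[n] G) x + c * ((LA F)^[n] G') x := by
  induction n with
  | zero => rfl
  | succ n ih =>
    funext x
    rw [Function.iterate_succ_apply', Function.iterate_succ_apply',
      Function.iterate_succ_apply', ih]
    unfold LA
    have : ∑ i, F.p i * ((LA F)^[n] G (x + log |F.r i|) + c * (LA F)^[n] G' (x + log |F.r i|)) =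
        ∑ i, F.p i * (LA F)^[n] G (x + log |F.r i|) +
          c * ∑ i, F.p i * (LA F)^[n] G' (x + log |F.r i|) := by
      rw [Finset.mul_sum, ← Finset.sum_add_distrib]
      exact Finset.sum_congr rfl fun i _ => by ring
    unfold LA at this
    rw [this]
    ring

theorem LA_iter_nonneg (F : IFS Λ) (n : ℕ) {G : ℝ → ℝ} (hG : ∀ x, 0 ≤ G x) :
    ∀ x, 0 ≤ ((LA F)^[n] G) x := by
  induction n with
  | zero => exact hG
  | succ n ih =>
    intro x
    rw [Function.iterate_succ_apply']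
    exact div_nonneg (add_nonneg (ih x)
      (Finset.sum_nonneg fun i _ => mul_nonneg (F.p_pos i).le (ih _))) zero_le_two

theorem LA_iter_integrable (F : IFS Λ) (n : ℕ) {G : ℝ → ℝ} (hG : Integrable G) :
    Integrable ((LA F)^[n] G) := by
  induction n with
  | zero => exact hG
  | succ n ih =>
    rw [Function.iterate_succ_apply']
    exact (ih.add (integrable_finsetSum _ fun i _ =>
      (ih.comp_add_right (log |F.r i|)).const_mul (F.p i))).div_const 2

theorem setIntegral_shift (G : ℝ → ℝ) (I : Set ℝ) (c : ℝ) :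
    ∫ s in I, G (s + c) = ∫ x in (fun x => x + -c) ⁻¹' I, G x := by
  have := (measurePreserving_add_right (volume : Measure ℝ) (-c)).setIntegral_preimage_emb
    (measurableEmbedding_addRight (-c)) (fun s => G (s + c)) I
  rw [← this]
  simp

/-- The integrals of `G` over sets whose neighbourhoods lie in `T` are at most `B`. -/
def Bd (T : Set ℝ) (L B : ℝ) (G : ℝ → ℝ) (a : ℝ) : Prop :=
  ∀ I : Set ℝ, MeasurableSet I → (∀ s ∈ I, Icc (s - a) (s + L) ⊆ T) → ∫ s in I, G s ≤ B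

theorem Bd.shift {T : Set ℝ} {L B : ℝ} {G : ℝ → ℝ} {a : ℝ} (h : Bd T L B G a) {c a' : ℝ}
    (hc : c ≤ 0) (ha : a - c ≤ a') : Bd T L B (fun s => G (s + c)) a' := by
  intro I hI hT
  rw [setIntegral_shift]
  refine h _ (measurable_add_const (-c) hI) fun x hx => ?_
  refine Subset.trans ?_ (hT _ hx)
  exact Icc_subset_Icc (by linarith) (by linarith)

theorem Bd.mono {T : Set ℝ} {L B : ℝ} {G : ℝ → ℝ} {a : ℝ} (h : Bd T L B G a) {a' : ℝ}
    (ha : a ≤ a') : Bd T L B G a' :=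
  fun I hI hT => h I hI fun s hs => Subset.trans (Icc_subset_Icc (by linarith) le_rfl) (hT s hs)

theorem Bd.iter (F : IFS Λ) {cM : ℝ} (hc : ∀ i, -log |F.r i| ≤ cM) (hc0 : 0 ≤ cM) {T : Set ℝ}
    {L B : ℝ} {G : ℝ → ℝ} (hG : Integrable G) (h : Bd T L B G 0) (n : ℕ) :
    Bd T L B ((LA F)^[n] G) (cM * n) := by
  induction n with
  | zero => simpa using h
  | succ n ih =>
    intro I hI hT
    rw [Function.iterate_succ_apply']
    have hi := LA_iter_integrable F n hG
    have hsh : ∀ i, Integrable (fun x => F.p i * (LA F)^[n] G (x + log |F.r i|)) := fun i =>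
      (hi.comp_add_right (log |F.r i|)).const_mul (F.p i)
    have e : ∫ s in I, LA F ((LA F)^[n] G) s = ((∫ s in I, (LA F)^[n] G s) +
        ∑ i, F.p i * ∫ s in I, (LA F)^[n] G (s + log |F.r i|)) / 2 := by
      have e0 : ∀ s, LA F ((LA F)^[n] G) s =
        ((LA F)^[n] G s + ∑ i, F.p i * (LA F)^[n] G (s + log |F.r i|)) / 2 := fun s => rfl
      simp only [e0]
      rw [integral_div, integral_add hi.integrableOn
        (integrable_finsetSum _ fun i _ => (hsh i).integrableOn),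
        integral_finsetSum _ fun i _ => (hsh i).integrableOn]
      simp only [integral_const_mul]
    rw [e]
    have hn : cM * n ≤ cM * ((n + 1 : ℕ) : ℝ) := by
      push_cast
      linarith
    have h1 := ih.mono hn I hI hT
    have h2 : ∑ i, F.p i * ∫ s in I, (LA F)^[n] G (s + log |F.r i|) ≤ ∑ i, F.p i * B := by
      refine Finset.sum_le_sum fun i _ => mul_le_mul_of_nonneg_left ?_ (F.p_pos i).le
      refine ih.shift (log_nonpos (abs_nonneg _) (F.r_lt i).le) ?_ I hI hT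
      have := hc i
      push_cast
      linarith
    rw [← Finset.sum_mul, F.p_sum] at h2
    linarith

variable {μ : Measure ℝ} [IsProbabilityMeasure μ]

theorem gK_nonneg (F : IFS Λ) (h : F.SelfSim μ) (K : ℕ) (x : ℝ) : 0 ≤ gK F μ K x :=
  Finset.sum_nonneg fun _ _ => F.gfun_nonneg h _

theorem gK_integrable (F : IFS Λ) (h : F.SelfSim μ) (K : ℕ) : Integrable (gK F μ K) :=
  integrable_finsetSum _ fun i _ => (F.integrable_gfun h).comp_add_right (i * log 2)

theorem gK_bd (F : IFS Λ) (h : F.SelfSim μ) (K : ℕ) (T : Set ℝ) :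
    Bd T (K * log 2) (K * ∫ x in T, F.gfun μ x) (gK F μ K) 0 := by
  intro I hI hT
  unfold gK
  rw [integral_finsetSum _ fun i _ =>
    ((F.integrable_gfun h).comp_add_right ((i : ℕ) * log 2)).integrableOn]
  have : ∀ i ∈ Finset.range K,
      ∫ s in I, F.gfun μ (s + (i : ℕ) * log 2) ≤ ∫ x in T, F.gfun μ x := by
    intro i hi
    rw [setIntegral_shift]
    refine setIntegral_mono_set (F.integrable_gfun h).integrableOn
      (Filter.Eventually.of_forall fun x => F.gfun_nonneg h x)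
      (LE.le.eventuallyLE fun x hx => hT _ hx ⟨?_, ?_⟩)
    · have : 0 ≤ (i : ℝ) * log 2 := mul_nonneg (Nat.cast_nonneg _) (log_nonneg one_le_two)
      linarith
    · have h1 : (i : ℝ) ≤ K := by exact_mod_cast (Finset.mem_range.1 hi).le
      have := mul_le_mul_of_nonneg_right h1 (log_nonneg one_le_two)
      linarith
  have := Finset.sum_le_sum this
  simpa using this

omit [IsProbabilityMeasure μ] in
theorem Hk_sub_eq (F : IFS Λ) (K : ℕ) (x : ℝ) :
    Hk μ x K - ∑ i, F.p i * Hk μ (x + log |F.r i|) K = gK F μ K x := by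
  unfold gK IFS.gfun
  rw [Finset.sum_sub_distrib, ← Hk_eq_sum, Finset.sum_comm]
  congr 1
  refine Finset.sum_congr rfl fun i _ => ?_
  rw [← Finset.mul_sum, Hk_eq_sum μ (x + log |F.r i|) K]
  congr 1
  exact Finset.sum_congr rfl fun j _ => by rw [add_right_comm]

omit [IsProbabilityMeasure μ] in
theorem lazy_telescope (F : IFS Λ) (K n : ℕ) (x : ℝ) :
    Hk μ x K - ((LA F)^[n] (fun y => Hk μ y K)) x =
      ∑ j ∈ Finset.range n, ((LA F)^[j] (gK F μ K)) x / 2 := by
  induction n with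
  | zero => simp
  | succ n ih =>
    have e : LA F (fun y => Hk μ y K) = fun y => Hk μ y K + (-1 / 2) * gK F μ K y := by
      funext y
      rw [← Hk_sub_eq]
      unfold LA
      ring
    rw [Function.iterate_succ_apply, e, LA_iter_lin, Finset.sum_range_succ, ← ih]
    ring

omit [IsProbabilityMeasure μ] in
theorem word_telescope (F : IFS Λ) (K m : ℕ) (s : ℝ) :
    Hk μ s K - ∑ w ∈ words Λ m, pw F.p w * Hk μ (s + -F.chiw w) K =
      ∑ j ∈ Finset.range m, ∑ v ∈ words Λ j, pw F.p v * gK F μ K (s + -F.chiw v) := by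
  induction m with
  | zero => simp [words_zero, F.chiw_nil]
  | succ m ih =>
    rw [Finset.sum_range_succ, ← ih, sum_words_succ, Finset.sum_comm]
    have : ∀ v ∈ words Λ m, ∑ i, pw F.p (i :: v) * Hk μ (s + -F.chiw (i :: v)) K =
        pw F.p v * Hk μ (s + -F.chiw v) K - pw F.p v * gK F μ K (s + -F.chiw v) := by
      intro v _
      rw [← Hk_sub_eq, ← mul_sub, sub_sub_cancel, Finset.mul_sum]
      refine Finset.sum_congr rfl fun i _ => ?_
      rw [pw_cons, F.chiw_cons]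
      have : s + -(-log |F.r i| + F.chiw v) = s + -F.chiw v + log |F.r i| := by ring
      rw [this]
      ring
    rw [Finset.sum_congr rfl this, Finset.sum_sub_distrib]
    ring

theorem Q_step (F : IFS Λ) (h : F.SelfSim μ) {ν : Measure ℝ} (hν : Good ν) (s : ℝ) (K : ℕ)
    (ρ : ℝ) : F.Lz (fun ρ' => Hk (ν ∗ scl ρ' μ) s K) ρ ≤ Hk (ν ∗ scl ρ μ) s K := by
  have hμ := F.good_of_selfSim h
  have hg : ∀ i, Good ((scl (ρ * F.r i) μ).map (fun x => ρ * F.t i + x)) := fun i => by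
    have := (hμ.scl (ρ * F.r i)).map_affine 1 (ρ * F.t i)
    simpa only [one_mul, add_comm] using this
  have h1 := Hk_sum_ge (I := Finset.univ) (m := fun i => ν ∗ (ENNReal.ofReal (F.p i) •
    (scl (ρ * F.r i) μ).map (fun x => ρ * F.t i + x)))
    (fun i _ => hν.conv ((hg i).smul _)) s K
  rw [← conv_sum (fun i _ => (hg i).smul _) hν, ← F.scl_selfSim h ρ] at h1
  have h2 : ∀ i, Hk (ν ∗ (ENNReal.ofReal (F.p i) •
      (scl (ρ * F.r i) μ).map (fun x => ρ * F.t i + x))) s K =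
      F.p i * Hk (ν ∗ scl (ρ * F.r i) μ) s K := by
    intro i
    rw [conv_smul_ofReal hν (hg i), Hk_smul (hν.conv (hg i)) (F.p_pos i).le,
      conv_map_add hν (hμ.scl _)]
    unfold Hk
    rw [Hs_map_add (hν.conv (hμ.scl _)), Hs_map_add (hν.conv (hμ.scl _))]
  simp only [h2] at h1
  unfold IFS.Lz
  linarith

theorem classes_le (F : IFS Λ) (h : F.SelfSim μ) (ex : List Λ → β) (ε : ℝ) (m K : ℕ) (s : ℝ) :
    ∑ f ∈ img (F.typ ε m) (cls ex), Hk (F.nu ex ε m f ∗ scl (F.rm f.1) μ) s K +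
      ∑ w ∈ F.atyp ε m, pw F.p w * Hk μ (s + -F.chiw w) K ≤ Hk μ s K := by
  have hμ := F.good_of_selfSim h
  have hg1 : ∀ f ∈ img (F.typ ε m) (cls ex), Good (F.nu ex ε m f ∗ scl (F.rm f.1) μ) :=
    fun f _ => (F.good_nu ex ε m f).conv (hμ.scl _)
  have hg2 : ∀ w ∈ F.atyp ε m,
      Good (ENNReal.ofReal (pw F.p w) • μ.map (fun x => F.rw w * x + F.tw w)) :=
    fun w _ => (hμ.map_affine _ _).smul _
  have h1 := Hk_add_ge (Good.sum hg1) (Good.sum hg2) s K
  rw [← F.selfSim_classes h ex ε m] at h1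
  have h2 := Hk_sum_ge hg1 s K
  have h3 := Hk_sum_ge hg2 s K
  have h4 : ∀ w ∈ F.atyp ε m,
      Hk (ENNReal.ofReal (pw F.p w) • μ.map (fun x => F.rw w * x + F.tw w)) s K =
        pw F.p w * Hk μ (s + -F.chiw w) K := by
    intro w _
    rw [Hk_smul (hμ.map_affine _ _) (pw_pos F.p_pos w).le, Hk_map_affine hμ (F.rw_ne_zero w),
      IFS.chiw, neg_neg]
  rw [Finset.sum_congr rfl h4] at h3
  linarith

omit [IsProbabilityMeasure μ] in
theorem sum_classes (F : IFS Λ) (ex : List Λ → β) (ε : ℝ) (m : ℕ) (G : ℝ → ℝ) (s : ℝ) :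
    ∑ f ∈ img (F.typ ε m) (cls ex), mss (F.nu ex ε m f) * G (s + log |F.rm f.1|) =
      ∑ w ∈ F.typ ε m, pw F.p w * G (s + -F.chiw w) := by
  rw [← sum_fib (F.typ ε m) (cls ex)]
  refine Finset.sum_congr rfl fun f _ => ?_
  rw [F.mss_nu, mass, Finset.sum_mul]
  refine Finset.sum_congr rfl fun w hw => ?_
  rw [← (mem_fib.1 hw).2, IFS.chiw, neg_neg]
  change _ * G (s + log |F.rm (w : Multiset Λ)|) = _
  rw [F.rm_coe]

theorem sum_big_le (F : IFS Λ) (ε : ℝ) {m j : ℕ} (hj : j ≤ m) :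
    ∑ v ∈ words Λ j, pw F.p v * (if F.chiw v ≤ (F.chi + ε / 2) * m then 0 else 1) ≤
      ∑ w ∈ F.atyp ε m, pw F.p w := by
  obtain ⟨k, rfl⟩ := Nat.exists_eq_add_of_le hj
  rw [IFS.atyp, Finset.sum_filter, sum_words_add]
  refine Finset.sum_le_sum fun v _ => ?_
  by_cases hv : F.chiw v ≤ (F.chi + ε / 2) * ((j + k : ℕ) : ℝ)
  · rw [if_pos hv, mul_zero]
    refine Finset.sum_nonneg fun u _ => ?_
    split_ifs
    · exact le_rfl
    · exact (pw_pos F.p_pos _).le
  · rw [if_neg hv]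
    have : ∀ u ∈ words Λ k, (if ¬ F.chiw (v ++ u) ≤ (F.chi + ε / 2) * ((j + k : ℕ) : ℝ)
        then pw F.p (v ++ u) else 0) = pw F.p v * pw F.p u := by
      intro u _
      rw [if_pos, pw_append]
      rw [F.chiw_append]
      have := F.chiw_nonneg u
      intro hh
      exact hv (by linarith)
    rw [Finset.sum_congr rfl this, ← Finset.mul_sum, sum_pw F.p_sum]

/-- First part of the dominating function. -/
def U1 (F : IFS Λ) (μ : Measure ℝ) (m K : ℕ) (s : ℝ) : ℝ :=
  ∑ j ∈ Finset.range m, ∑ v ∈ words Λ j, pw F.p v * gK F μ K (s + -F.chiw v)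

/-- Second part of the dominating function. -/
def U2 (F : IFS Λ) (μ : Measure ℝ) (ε : ℝ) (m n K : ℕ) (s : ℝ) : ℝ :=
  ∑ w ∈ F.typ ε m, pw F.p w *
    ∑ j ∈ Finset.range n, ((LA F)^[j] (gK F μ K)) (s + -F.chiw w) / 2

theorem U1_nonneg (F : IFS Λ) (h : F.SelfSim μ) (m K : ℕ) (s : ℝ) : 0 ≤ U1 F μ m K s :=
  Finset.sum_nonneg fun _ _ => Finset.sum_nonneg fun v _ =>
    mul_nonneg (pw_pos F.p_pos v).le (gK_nonneg F h K _)

theorem U2_nonneg (F : IFS Λ) (h : F.SelfSim μ) (ε : ℝ) (m n K : ℕ) (s : ℝ) :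
    0 ≤ U2 F μ ε m n K s :=
  Finset.sum_nonneg fun w _ => mul_nonneg (pw_pos F.p_pos w).le
    (Finset.sum_nonneg fun j _ => div_nonneg (LA_iter_nonneg F j (gK_nonneg F h K) _) zero_le_two)

theorem U1_integrable (F : IFS Λ) (h : F.SelfSim μ) (m K : ℕ) : Integrable (U1 F μ m K) :=
  integrable_finsetSum _ fun _ _ => integrable_finsetSum _ fun v _ =>
    ((gK_integrable F h K).comp_add_right (-F.chiw v)).const_mul _

theorem U2_integrable (F : IFS Λ) (h : F.SelfSim μ) (ε : ℝ) (m n K : ℕ) :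
    Integrable (U2 F μ ε m n K) :=
  integrable_finsetSum _ fun w _ => (integrable_finsetSum _ fun j _ =>
    ((LA_iter_integrable F j (gK_integrable F h K)).comp_add_right
      (-F.chiw w)).div_const 2).const_mul _

theorem U1_bound (F : IFS Λ) (h : F.SelfSim μ) (ε : ℝ) (m K : ℕ) {I T : Set ℝ}
    (hI : MeasurableSet I) {a : ℝ} (ha : (F.chi + ε / 2) * m ≤ a)
    (hT : ∀ s ∈ I, Icc (s - a) (s + K * log 2) ⊆ T) :
    ∫ s in I, U1 F μ m K s ≤ m * (K * ∫ x in T, F.gfun μ x) +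
      (K * ∫ x, F.gfun μ x) * (m * ∑ w ∈ F.atyp ε m, pw F.p w) := by
  obtain ⟨A, hA⟩ : ∃ A, A = K * ∫ x in T, F.gfun μ x := ⟨_, rfl⟩
  obtain ⟨X, hX⟩ : ∃ X, X = K * ∫ x, F.gfun μ x := ⟨_, rfl⟩
  have hA0 : 0 ≤ A := by
    rw [hA]
    exact mul_nonneg (Nat.cast_nonneg _) (integral_nonneg fun x => F.gfun_nonneg h x)
  have hX0 : 0 ≤ X := by
    rw [hX]
    exact mul_nonneg (Nat.cast_nonneg _) (integral_nonneg fun x => F.gfun_nonneg h x)
  have hint : ∀ v : List Λ, Integrable (fun s => pw F.p v * gK F μ K (s + -F.chiw v)) :=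
    fun v => ((gK_integrable F h K).comp_add_right (-F.chiw v)).const_mul _
  have key : ∀ v : List Λ, ∫ s in I, gK F μ K (s + -F.chiw v) ≤
      A + X * (if F.chiw v ≤ (F.chi + ε / 2) * m then 0 else 1) := by
    intro v
    have hv0 := F.chiw_nonneg v
    split_ifs with hv
    · have := (gK_bd F h K T).shift (c := -F.chiw v) (a' := a) (by linarith) (by linarith) I hI hT
      rw [← hA] at this
      linarith
    · have := (gK_bd F h K univ).shift (c := -F.chiw v) (a' := F.chiw v) (by linarith)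
        (by linarith) I hI fun s _ => subset_univ _
      rw [Measure.restrict_univ, ← hX] at this
      linarith
  unfold U1
  rw [integral_finsetSum _ fun j _ => (integrable_finsetSum _ fun v _ => hint v).integrableOn,
    ← hA, ← hX]
  have h1 : ∀ j ∈ Finset.range m,
      ∫ s in I, ∑ v ∈ words Λ j, pw F.p v * gK F μ K (s + -F.chiw v) ≤
        A + X * ∑ w ∈ F.atyp ε m, pw F.p w := by
    intro j hj
    rw [integral_finsetSum _ fun v _ => (hint v).integrableOn]
    simp only [integral_const_mul]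
    have h2 := Finset.sum_le_sum fun v (_ : v ∈ words Λ j) =>
      mul_le_mul_of_nonneg_left (key v) (pw_pos F.p_pos v).le
    have h3 : ∑ v ∈ words Λ j,
        pw F.p v * (A + X * (if F.chiw v ≤ (F.chi + ε / 2) * m then 0 else 1)) =
        (∑ v ∈ words Λ j, pw F.p v) * A + X * ∑ v ∈ words Λ j,
          pw F.p v * (if F.chiw v ≤ (F.chi + ε / 2) * m then 0 else 1) := by
      rw [Finset.sum_mul, Finset.mul_sum, ← Finset.sum_add_distrib]
      exact Finset.sum_congr rfl fun v _ => by ring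
    rw [h3, sum_pw F.p_sum, one_mul] at h2
    have h4 := mul_le_mul_of_nonneg_left (sum_big_le F ε (Finset.mem_range.1 hj).le) hX0
    linarith
  have h5 := Finset.sum_le_sum h1
  rw [Finset.sum_const, Finset.card_range, nsmul_eq_mul] at h5
  linarith

theorem U2_bound (F : IFS Λ) (h : F.SelfSim μ) (ε : ℝ) {cM : ℝ} (hc : ∀ i, -log |F.r i| ≤ cM)
    (hc0 : 0 ≤ cM) (m n K : ℕ) {I T : Set ℝ} (hI : MeasurableSet I)
    (hT : ∀ s ∈ I, Icc (s - ((F.chi + ε / 2) * m + cM * n)) (s + K * log 2) ⊆ T) :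
    ∫ s in I, U2 F μ ε m n K s ≤ n * (K * ∫ x in T, F.gfun μ x) := by
  obtain ⟨A, hA⟩ : ∃ A, A = K * ∫ x in T, F.gfun μ x := ⟨_, rfl⟩
  have hA0 : 0 ≤ A := by
    rw [hA]
    exact mul_nonneg (Nat.cast_nonneg _) (integral_nonneg fun x => F.gfun_nonneg h x)
  have hint : ∀ (w : List Λ) (j : ℕ),
      Integrable (fun s => ((LA F)^[j] (gK F μ K)) (s + -F.chiw w) / 2) := fun w j =>
    ((LA_iter_integrable F j (gK_integrable F h K)).comp_add_right (-F.chiw w)).div_const 2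
  unfold U2
  rw [integral_finsetSum _ fun w _ =>
    ((integrable_finsetSum _ fun j _ => hint w j).const_mul _).integrableOn, ← hA]
  have h1 : ∀ w ∈ F.typ ε m, ∫ s in I, pw F.p w *
      ∑ j ∈ Finset.range n, ((LA F)^[j] (gK F μ K)) (s + -F.chiw w) / 2 ≤ pw F.p w * (n * A) := by
    intro w hw
    rw [integral_const_mul, integral_finsetSum _ fun j _ => (hint w j).integrableOn]
    refine mul_le_mul_of_nonneg_left ?_ (pw_pos F.p_pos w).le
    have hw' : F.chiw w ≤ (F.chi + ε / 2) * m := (Finset.mem_filter.1 hw).2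
    have h2 : ∀ j ∈ Finset.range n,
        ∫ s in I, ((LA F)^[j] (gK F μ K)) (s + -F.chiw w) / 2 ≤ A := by
      intro j hj
      have hj' : (j : ℝ) ≤ n := by exact_mod_cast (Finset.mem_range.1 hj).le
      have h3 := mul_le_mul_of_nonneg_left hj' hc0
      have := (Bd.iter F hc hc0 (gK_integrable F h K) (gK_bd F h K T) j).shift
        (c := -F.chiw w) (a' := (F.chi + ε / 2) * m + cM * n)
        (by linarith [F.chiw_nonneg w]) (by linarith) I hI hT
      rw [← hA] at this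
      rw [integral_div]
      linarith
    have h5 := Finset.sum_le_sum h2
    rwa [Finset.sum_const, Finset.card_range, nsmul_eq_mul] at h5
  have h6 := Finset.sum_le_sum h1
  rw [← Finset.sum_mul] at h6
  have h7 := mul_le_of_le_one_left (mul_nonneg (Nat.cast_nonneg n) hA0) (F.sum_typ_le_one ε m)
  linarith

end UpAux

open UpAux

namespace IFS

variable (F : IFS Λ)

theorem Lz_iter_mono (n : ℕ) {G G' : ℝ → ℝ} (h : ∀ ρ, ρ ≠ 0 → G ρ ≤ G' ρ) :
    ∀ ρ, ρ ≠ 0 → (F.Lz^[n] G) ρ ≤ (F.Lz^[n] G') ρ := by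
  induction n with
  | zero => exact h
  | succ n ih =>
    intro ρ hρ
    rw [Function.iterate_succ_apply', Function.iterate_succ_apply']
    have h1 := ih ρ hρ
    have h2 : ∑ i, F.p i * (F.Lz^[n] G) (ρ * F.r i) ≤ ∑ i, F.p i * (F.Lz^[n] G') (ρ * F.r i) :=
      Finset.sum_le_sum fun i _ =>
        mul_le_mul_of_nonneg_left (ih _ (mul_ne_zero hρ (F.r_ne i))) (F.p_pos i).le
    change ((F.Lz^[n] G) ρ + ∑ i, F.p i * (F.Lz^[n] G) (ρ * F.r i)) / 2 ≤
      ((F.Lz^[n] G') ρ + ∑ i, F.p i * (F.Lz^[n] G') (ρ * F.r i)) / 2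
    linarith

theorem Lz_iter_add (n : ℕ) (G G' : ℝ → ℝ) :
    F.Lz^[n] (fun ρ => G ρ + G' ρ) = fun ρ => (F.Lz^[n] G) ρ + (F.Lz^[n] G') ρ := by
  induction n with
  | zero => rfl
  | succ n ih =>
    funext ρ
    rw [Function.iterate_succ_apply', Function.iterate_succ_apply',
      Function.iterate_succ_apply', ih]
    change ((F.Lz^[n] G) ρ + (F.Lz^[n] G') ρ +
      ∑ i, F.p i * ((F.Lz^[n] G) (ρ * F.r i) + (F.Lz^[n] G') (ρ * F.r i))) / 2 =
      ((F.Lz^[n] G) ρ + ∑ i, F.p i * (F.Lz^[n] G) (ρ * F.r i)) / 2 +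
      ((F.Lz^[n] G') ρ + ∑ i, F.p i * (F.Lz^[n] G') (ρ * F.r i)) / 2
    simp only [mul_add, Finset.sum_add_distrib]
    ring

theorem Lz_iter_const_mul (n : ℕ) (c : ℝ) (G : ℝ → ℝ) :
    F.Lz^[n] (fun ρ => c * G ρ) = fun ρ => c * (F.Lz^[n] G) ρ := by
  induction n with
  | zero => rfl
  | succ n ih =>
    funext ρ
    rw [Function.iterate_succ_apply', Function.iterate_succ_apply', ih]
    change (c * (F.Lz^[n] G) ρ + ∑ i, F.p i * (c * (F.Lz^[n] G) (ρ * F.r i))) / 2 =
      c * (((F.Lz^[n] G) ρ + ∑ i, F.p i * (F.Lz^[n] G) (ρ * F.r i)) / 2)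
    have : ∑ i, F.p i * (c * (F.Lz^[n] G) (ρ * F.r i)) =
        c * ∑ i, F.p i * (F.Lz^[n] G) (ρ * F.r i) := by
      rw [Finset.mul_sum]
      exact Finset.sum_congr rfl fun i _ => by ring
    rw [this]
    ring

theorem Lz_iter_const (n : ℕ) (c : ℝ) : F.Lz^[n] (fun _ => c) = fun _ => c := by
  refine Function.iterate_fixed ?_ n
  funext ρ
  change (c + ∑ i, F.p i * c) / 2 = c
  rw [← Finset.sum_mul, F.p_sum]
  ring

theorem sup_Gam {μ : Measure ℝ} (hμ : Good μ) (n K : ℕ) (s : ℝ) {ρ : ℝ} (hρ : ρ ≠ 0) :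
    Sup (F.Gam μ n K s ρ) := by
  induction n generalizing ρ with
  | zero => exact sup_gain (hμ.scl ρ) s K
  | succ n ih =>
    have e : ∀ ν, F.Gam μ (n + 1) K s ρ ν =
        (F.Gam μ n K s ρ ν + ∑ i, F.p i * F.Gam μ n K s (ρ * F.r i) ν) / 2 := by
      intro ν
      unfold Gam
      rw [Function.iterate_succ_apply']
      rfl
    have h0 := ih hρ
    have hi := fun i => ih (mul_ne_zero hρ (F.r_ne i))
    refine ⟨fun ν hν => ?_, fun ν ν' hν hν' => ?_, fun c ν hc hν => ?_⟩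
    · rw [e]
      exact div_nonneg (add_nonneg (h0.nonneg ν hν) (Finset.sum_nonneg fun i _ =>
        mul_nonneg (F.p_pos i).le ((hi i).nonneg ν hν))) zero_le_two
    · rw [e, e, e]
      have h1 := h0.add ν ν' hν hν'
      have h2 := Finset.sum_le_sum fun i (_ : i ∈ Finset.univ) =>
        mul_le_mul_of_nonneg_left ((hi i).add ν ν' hν hν') (F.p_pos i).le
      simp only [mul_add, Finset.sum_add_distrib] at h2
      linarith
    · rw [e, e, h0.smul c ν hc hν]
      have : ∑ i, F.p i * F.Gam μ n K s (ρ * F.r i) (ENNReal.ofReal c • ν) =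
          c * ∑ i, F.p i * F.Gam μ n K s (ρ * F.r i) ν := by
        rw [Finset.mul_sum]
        exact Finset.sum_congr rfl fun i _ => by rw [(hi i).smul c ν hc hν]; ring
      rw [this]
      ring

end IFS

namespace UpAux

theorem Gam_le (F : IFS Λ) {μ : Measure ℝ} [IsProbabilityMeasure μ] (h : F.SelfSim μ)
    {ν : Measure ℝ} (hν : Good ν) (n K : ℕ) (s : ℝ) {ρ : ℝ} (hρ : ρ ≠ 0) :
    F.Gam μ n K s ρ ν ≤
      Hk (ν ∗ scl ρ μ) s K - mss ν * ((LA F)^[n] (fun y => Hk μ y K)) (s + log |ρ|) := by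
  have hμ := F.good_of_selfSim h
  have h1 : ∀ n : ℕ, ∀ ρ, ρ ≠ 0 →
      (F.Lz^[n] (fun ρ' => Hk (ν ∗ scl ρ' μ) s K)) ρ ≤ Hk (ν ∗ scl ρ μ) s K := by
    intro n
    induction n with
    | zero => intro ρ _; exact le_rfl
    | succ n ih =>
      intro ρ hρ
      rw [Function.iterate_succ_apply]
      exact (F.Lz_iter_mono n (fun ρ' _ => Q_step F h hν s K ρ') ρ hρ).trans (ih ρ hρ)
  have h2 := F.Lz_iter_mono n (G := fun ρ' => gain ν (scl ρ' μ) s K)
    (G' := fun ρ' => Hk (ν ∗ scl ρ' μ) s K + (-mss ν) * Hk μ (s + log |ρ'|) K)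
    (fun ρ' hρ' => by
      unfold gain
      rw [Hk_scl hμ hρ']
      linarith) ρ hρ
  rw [F.Lz_iter_add, F.Lz_iter_const_mul] at h2
  have h3 := Lz_iter_log F n (fun y => Hk μ y K) s ρ hρ
  have h4 := h1 n ρ hρ
  simp only at h2 h3
  rw [h3] at h2
  unfold IFS.Gam
  linarith

end UpAux

namespace IFS

variable (F : IFS Λ)

/-- The summed gain is dominated by a function whose integrals are paid by the potential. -/
theorem up {μ : Measure ℝ} [IsProbabilityMeasure μ] (h : F.SelfSim μ) (ex : List Λ → β)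
    {ε : ℝ} (hε : 0 < ε) {cM : ℝ} (hc : ∀ i, -log |F.r i| ≤ cM) :
    ∃ C : ℝ, 0 ≤ C ∧ ∀ m n K : ℕ, ∃ U : ℝ → ℝ, (∀ s, 0 ≤ U s) ∧
      (∀ a b, IntegrableOn U (Icc a b)) ∧
      (∀ s, ∑ f ∈ img (F.typ ε m) (cls ex), F.Gam μ n K s (F.rm f.1) (F.nu ex ε m f) ≤ U s) ∧
      ∀ I T : Set ℝ, MeasurableSet I → MeasurableSet T → (∃ a b, I ⊆ Icc a b) →
        (∀ s ∈ I, Icc (s - ((F.chi + ε / 2) * m + cM * n)) (s + K * log 2) ⊆ T) →
        ∫ s in I, U s ≤ K * (m + n) * (∫ x in T, F.gfun μ x) + K * C := by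
  obtain ⟨C0, hC0, hC⟩ := F.exists_atyp hε
  have hX0 : 0 ≤ ∫ x, F.gfun μ x := integral_nonneg fun x => F.gfun_nonneg h x
  have hc0 : 0 ≤ cM := by
    obtain ⟨i⟩ := F.nonempty
    have := hc i
    have := log_nonpos (abs_nonneg _) (F.r_lt i).le
    linarith
  refine ⟨(∫ x, F.gfun μ x) * C0, mul_nonneg hX0 hC0, fun m n K =>
    ⟨fun s => U1 F μ m K s + U2 F μ ε m n K s,
      fun s => add_nonneg (U1_nonneg F h m K s) (U2_nonneg F h ε m n K s),
      fun a b => ((U1_integrable F h m K).add (U2_integrable F h ε m n K)).integrableOn,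
      fun s => ?_, fun I T hI _ _ hT => ?_⟩⟩
  · have h1 := Finset.sum_le_sum fun f (_ : f ∈ img (F.typ ε m) (cls ex)) =>
      Gam_le F h (F.good_nu ex ε m f) n K s (F.rm_ne_zero f.1)
    rw [Finset.sum_sub_distrib, sum_classes] at h1
    have h2 := classes_le F h ex ε m K s
    have h3 := word_telescope (μ := μ) F K m s
    have h4 : ∑ w ∈ F.typ ε m, pw F.p w * Hk μ (s + -F.chiw w) K +
        ∑ w ∈ F.atyp ε m, pw F.p w * Hk μ (s + -F.chiw w) K =
        ∑ w ∈ words Λ m, pw F.p w * Hk μ (s + -F.chiw w) K :=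
      Finset.sum_filter_add_sum_filter_not _ _ _
    have h5 : U2 F μ ε m n K s = ∑ w ∈ F.typ ε m, pw F.p w * Hk μ (s + -F.chiw w) K -
        ∑ w ∈ F.typ ε m, pw F.p w * ((LA F)^[n] (fun y => Hk μ y K)) (s + -F.chiw w) := by
      rw [← Finset.sum_sub_distrib]
      refine Finset.sum_congr rfl fun w _ => ?_
      rw [← lazy_telescope]
      ring
    unfold U1
    linarith
  · rw [integral_add (U1_integrable F h m K).integrableOn (U2_integrable F h ε m n K).integrableOn]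
    have h1 := U1_bound F h ε m K hI (a := (F.chi + ε / 2) * m + cM * n)
      (by linarith [mul_nonneg hc0 (Nat.cast_nonneg n)]) hT
    have h2 := U2_bound F h ε hc hc0 m n K hI hT
    have h3 := mul_le_mul_of_nonneg_left (hC m) (mul_nonneg (Nat.cast_nonneg K) hX0)
    linarith

end IFS

end

end Vale.Agent.P114
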