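import Vale.Agent.P114.Level
import Vale.Agent.P114.Up
import Vale.Agent.P114.GA
import Vale.Agent.P114.LayAbs

/-! # P114: the layering lemma -/

open MeasureTheory Real Set Polynomial
open scoped ENNReal

namespace Vale.Agent.P114

noncomputable section

variable {Λ : Type*} [Fintype Λ] {β : Type*}

theorem exists_K2 {L δ : ℝ} (hδ : 0 < δ) : ∃ K2 : ℕ, 8 / 2 ^ K2 * ((1 + K2) * L) ≤ δ := by
  have h1 : Filter.Tendsto (fun n : ℕ => (n : ℝ) ^ 1 * (1 / 2 : ℝ) ^ n) Filter.atTop (nhds 0) :=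
    tendsto_pow_const_mul_const_pow_of_abs_lt_one 1 (by rw [abs_of_pos] <;> norm_num)
  have h0 : Filter.Tendsto (fun n : ℕ => (1 / 2 : ℝ) ^ n) Filter.atTop (nhds 0) :=
    tendsto_pow_atTop_nhds_zero_of_lt_one (by norm_num) (by norm_num)
  have h2 := ((h0.add h1).const_mul (8 * L))
  simp only [add_zero, mul_zero] at h2
  obtain ⟨n, hn⟩ := (h2.eventually (gt_mem_nhds hδ)).exists
  refine ⟨n, le_of_eq_of_le ?_ hn.le⟩
  rw [one_div, inv_pow]
  field_simp

theorem setIntegral_Icc_shift (f : ℝ → ℝ) (a b c : ℝ) (hab : a ≤ b) :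
    ∫ s in Icc a b, f (s + c) = ∫ s in Icc (a + c) (b + c), f s := by
  rw [integral_Icc_eq_integral_Ioc, integral_Icc_eq_integral_Ioc,
    ← intervalIntegral.integral_of_le hab,
    ← intervalIntegral.integral_of_le (by linarith : a + c ≤ b + c),
    intervalIntegral.integral_comp_add_right]

theorem integrableOn_Icc_shift {f : ℝ → ℝ} (h : ∀ a b, IntegrableOn f (Icc a b)) (a b c : ℝ) :
    IntegrableOn (fun s => f (s + c)) (Icc a b) := by
  rcases le_or_gt a b with hab | hab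
  · have h1 : IntervalIntegrable f volume (a + c) (b + c) :=
      (intervalIntegrable_iff_integrableOn_Icc_of_le (by linarith)).2 (h _ _)
    have h2 := h1.comp_add_right c
    simp only [add_sub_cancel_right] at h2
    exact (intervalIntegrable_iff_integrableOn_Icc_of_le hab).1 h2
  · rw [Icc_eq_empty (not_le.2 hab)]; exact integrableOn_empty

theorem IFS.layer (F : IFS Λ) {μ : Measure ℝ} [IsProbabilityMeasure μ] (h : F.SelfSim μ)
    {α C : ℝ} (hs : Slope μ α C) (hα : α < 1) (ex : List Λ → β) (hex : ExOK ex)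
    {ε δ : ℝ} (hε : 0 < ε) (hδ : 0 < δ) (d D0 m0 : ℕ) (C' : ℝ)
    (hR : ∀ m, m0 ≤ m → 2 * δ * m ≤ F.Rm ex ε m ((F.chi + ε) * m))
    (h2 : ∀ m, m0 ≤ m → ∃ γ, 0 < γ ∧ W2 (F.VV ex m) d (C' * log m) γ (fz m))
    (h1 : ∀ m, m0 ≤ m → ∃ s, (F.chi + ε) * m ≤ s ∧ F.Rm ex ε m s ≤ δ * m / 2 ∧
      Cov (F.VV ex m ∩ Icc ((F.chi + ε) * m) s) D0 (2 * fz m)) : False := by
  have hμ := F.good_of_selfSim h
  obtain ⟨K1, b, hb, hga⟩ := ga hμ hα hs.1
  obtain ⟨K2, hK2⟩ := exists_K2 (L := log (Fintype.card Λ)) (δ := δ / 4) (by positivity)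
  obtain ⟨cM, hcM0, hcM⟩ := F.exists_chi_bound
  obtain ⟨Cu, hCu, hup⟩ := F.up h ex hε hcM
  set K : ℕ := K1 + (1 + K2) with hK
  choose U hU0 hUi hUG hUP using fun m => hup m 0 K
  choose! sst hsst using h1
  have hl2 : 0 < log 2 := log_pos one_lt_two
  have hl2' : log 2 < 1 := by
    have := Real.log_two_lt_d9; linarith
  have hl2'' : 1 / 2 < log 2 := by
    have := Real.log_two_gt_d9; linarith
  obtain ⟨m1, hm1⟩ := exists_nat_ge ((4 * K + 40) / δ)
  have hm1' : ∀ m : ℕ, max m0 m1 ≤ m → 4 * K + 40 ≤ δ * m := by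
    intro m hm
    have : (m1 : ℝ) ≤ m := by exact_mod_cast le_trans (le_max_right _ _) hm
    rw [div_le_iff₀ hδ] at hm1
    nlinarith
  have hchi := F.chi_pos
  have e0 : ∀ m : ℕ, (F.chi + ε / 2 + ε / 2) * m = (F.chi + ε) * m := fun m => by ring
  have hKr : (K : ℝ) = K1 + (1 + K2) := by rw [hK]; push_cast; ring
  have hK0 : (0 : ℝ) ≤ K := Nat.cast_nonneg _
  have hK10 : (0 : ℝ) ≤ K1 := Nat.cast_nonneg _
  have hK20 : (0 : ℝ) ≤ K2 := Nat.cast_nonneg _
  refine lay_abstract (F.gfun μ) (F.gfun_nonneg h) (F.integrable_gfun h)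
    (a := F.chi + ε / 2) (ε := ε / 2) (δ := δ / 4) (c := K * log 2) (b := b)
    (C := K * (1 + Cu)) (C' := C') (by positivity) (by positivity) (by positivity)
    (by positivity) hb (by positivity) d D0 (max m0 m1) (F.VV ex) (F.VV_mono ex hex)
    (fun m s => F.Em ex ε m 1 K2 (s + K1 * log 2)) U (fun m => sst m - K * log 2)
    (fun m _ => integrableOn_Icc_shift (F.integrableOn_Em ex ε m 1 K2) _ _ _)
    (fun m _ => hUi m _ _) hU0 ?_ ?_ ?_ ?_ (fun m hm => h2 m (le_trans (le_max_left _ _) hm)) ?_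
  · intro m hm
    have hm0 := le_trans (le_max_left _ _) hm
    obtain ⟨hs1, hs2, -⟩ := hsst m hm0
    have hR' := hR m hm0
    have hδm := hm1' m hm
    unfold IFS.Rm at hs2 hR'
    have hlip := F.Hm_lip ex ε m hs1
    have hle : (F.chi + ε) * m ≤ sst m - K * log 2 := by nlinarith
    rw [e0, setIntegral_Icc_shift _ _ _ _ hle]
    refine le_trans ?_ (F.integral_Em_ge ex ε m 1 K2 (by linarith))
    have ha := F.Hm_lip ex ε m (s := (F.chi + ε) * m) (s' := (F.chi + ε) * m + K1 * log 2)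
      (by nlinarith)
    have hb' := F.Hm_lip ex ε m (s := sst m - K * log 2 + K1 * log 2) (s' := sst m)
      (by rw [hKr]; nlinarith)
    have hm0' : (0 : ℝ) ≤ m := Nat.cast_nonneg _
    have h8 : 8 / 2 ^ K2 * ((((1 : ℕ) : ℝ) + K2) * (m * log (Fintype.card Λ))) ≤ δ / 4 * m := by
      have := mul_le_mul_of_nonneg_right hK2 hm0'
      calc _ = 8 / 2 ^ K2 * ((1 + K2) * log (Fintype.card Λ)) * m := by push_cast; ring
        _ ≤ _ := this
    have h9 : δ * m ≤ F.Hm ex ε m (sst m - K * log 2 + K1 * log 2) -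
        F.Hm ex ε m ((F.chi + ε) * m + K1 * log 2) - ((1 : ℕ) : ℝ) - 3 := by
      push_cast
      nlinarith
    have h10 : δ * m / 2 ≤ ((1 : ℕ) : ℝ) * log 2 * (F.Hm ex ε m (sst m - K * log 2 + K1 * log 2) -
        F.Hm ex ε m ((F.chi + ε) * m + K1 * log 2) - ((1 : ℕ) : ℝ) - 3) := by
      have : 0 ≤ δ * m := by positivity
      calc δ * m / 2 = (1 / 2) * (δ * m) := by ring
        _ ≤ log 2 * (δ * m) := mul_le_mul_of_nonneg_right hl2''.le this
        _ ≤ _ := by
          rw [Nat.cast_one, one_mul] at *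
          exact mul_le_mul_of_nonneg_left h9 hl2.le
    linarith
  · intro m _ s η hη0 hη1
    have hlog : 0 ≤ log (2 / η) := log_nonneg (by rw [le_div_iff₀ hη0]; linarith)
    refine (F.Em_le ex ε m 1 K2 (s + K1 * log 2) (fun ρ => F.Gam μ 0 K s ρ)
      (fun ρ hρ => F.sup_Gam hμ 0 K s hρ) hη0.le (b := b * log (2 / η)) (by positivity)
      (fun ρ hρ J n x hn hJ hsep => hga K2 s ρ hρ η hη0 hη1 J n x hn hJ hsep)).trans ?_
    have := mul_le_mul_of_nonneg_left (hUG m s) (by positivity : 0 ≤ b * log (2 / η))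
    linarith
  · intro m _ s hs'
    refine F.Em_nonpos ex ε m 1 K2 _ fun v hv hv' => hs' v hv ⟨?_, ?_⟩
    · have := hv'.1; nlinarith
    · have := hv'.2
      push_cast at this
      rw [hKr]; linarith
  · intro m _ I T hI hT hIs hIT
    refine (hUP m I T hI hT ⟨_, _, hIs⟩ (fun s hs' => ?_)).trans ?_
    · simpa using hIT s hs'
    · have hg : 0 ≤ ∫ x in T, F.gfun μ x := integral_nonneg fun x => F.gfun_nonneg h x
      have hm0' : (0 : ℝ) ≤ m := Nat.cast_nonneg _
      have : 0 ≤ K * Cu * m * ∫ x in T, F.gfun μ x := by positivity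
      push_cast
      nlinarith
  · intro m hm
    obtain ⟨-, -, hc⟩ := hsst m (le_trans (le_max_left _ _) hm)
    rw [e0, sub_add_cancel]
    exact hc

end

end Vale.Agent.P114
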