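import Vale.Agent.P114.EntW

/-! # P114: words, product weights, typical words, subadditivity of the level entropies -/

open MeasureTheory Real Set Polynomial
open scoped ENNReal

namespace Vale.Agent.P114

noncomputable section

variable {Λ : Type*} [Fintype Λ] {β γ : Type*}

@[simp] theorem mem_words {m : ℕ} {w : List Λ} : w ∈ words Λ m ↔ w.length = m := by
  simp only [words, Finset.mem_map, Finset.mem_univ, true_and, Function.Embedding.coeFn_mk]
  constructor
  · rintro ⟨f, rfl⟩
    simp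
  · rintro rfl
    exact ⟨w.get, List.ofFn_get w⟩

theorem card_words (m : ℕ) : (words Λ m).card = Fintype.card Λ ^ m := by
  simp [words]

theorem words_zero : words Λ 0 = {[]} := by
  ext w
  simp [List.length_eq_zero_iff]

theorem sum_words_succ {M : Type*} [AddCommMonoid M] (m : ℕ) (g : List Λ → M) :
    ∑ w ∈ words Λ (m + 1), g w = ∑ i, ∑ w ∈ words Λ m, g (i :: w) := by
  rw [← Finset.sum_product' (f := fun i w => g (i :: w))]
  symm
  refine Finset.sum_bij (fun z _ => z.1 :: z.2) ?_ ?_ ?_ ?_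
  · intro z hz
    rw [Finset.mem_product, mem_words] at hz
    simp [hz.2]
  · intro z _ z' _ h
    rw [List.cons.injEq] at h
    exact Prod.ext h.1 h.2
  · intro w hw
    rw [mem_words] at hw
    obtain ⟨i, v, rfl⟩ := List.exists_cons_of_length_eq_add_one hw
    exact ⟨(i, v), by simpa using hw, rfl⟩
  · intro z _
    rfl

theorem sum_words_add {M : Type*} [AddCommMonoid M] (m n : ℕ) (g : List Λ → M) :
    ∑ w ∈ words Λ (m + n), g w = ∑ u ∈ words Λ m, ∑ v ∈ words Λ n, g (u ++ v) := by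
  induction m generalizing g with
  | zero => simp [words_zero]
  | succ m ih =>
    rw [show m + 1 + n = (m + n) + 1 by ring, sum_words_succ, sum_words_succ]
    refine Finset.sum_congr rfl fun i _ => ?_
    rw [ih (fun w => g (i :: w))]
    rfl

omit [Fintype Λ] in
@[simp] theorem pw_nil (p : Λ → ℝ) : pw p [] = 1 := by
  simp [pw]

omit [Fintype Λ] in
@[simp] theorem pw_cons (p : Λ → ℝ) (i : Λ) (w : List Λ) : pw p (i :: w) = p i * pw p w := by
  simp [pw]

omit [Fintype Λ] in
theorem pw_append (p : Λ → ℝ) (u v : List Λ) : pw p (u ++ v) = pw p u * pw p v := by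
  simp [pw]

omit [Fintype Λ] in
theorem pw_pos {p : Λ → ℝ} (hp : ∀ i, 0 < p i) (w : List Λ) : 0 < pw p w := by
  induction w with
  | nil => simp
  | cons i w ih => rw [pw_cons]; exact mul_pos (hp i) ih

theorem sum_pw {p : Λ → ℝ} (hp : ∑ i, p i = 1) (m : ℕ) : ∑ w ∈ words Λ m, pw p w = 1 := by
  induction m with
  | zero => simp [words_zero]
  | succ m ih =>
    rw [sum_words_succ]
    simp only [pw_cons, ← Finset.mul_sum, ih, mul_one, hp]

/-- At most `(m+1)^d` letter counts. -/
theorem card_img_counts (m : ℕ) :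
    (img (words Λ m) (fun w => (w : Multiset Λ))).card ≤ (m + 1) ^ Fintype.card Λ := by
  classical
  have h : (Fintype.piFinset (fun _ : Λ => Finset.range (m + 1))).card = (m + 1) ^ Fintype.card Λ := by
    simp
  rw [← h]
  refine Finset.card_le_card_of_injOn (fun c i => c.count i) ?_ ?_
  · intro c hc
    obtain ⟨w, hw, rfl⟩ := mem_img.1 hc
    rw [mem_words] at hw
    rw [Finset.mem_coe, Fintype.mem_piFinset]
    intro i
    rw [Finset.mem_range]
    have := Multiset.count_le_card i (w : Multiset Λ)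
    rw [Multiset.coe_card, hw] at this
    exact Nat.lt_succ_of_le this
  · intro c _ c' _ h
    ext i
    exact congrFun h i

namespace WordsAux

open Classical in
theorem mass_eq {Ω : Type*} (S : Finset Ω) (w : Ω → ℝ) (X : Ω → β) (b : β) :
    mass S w X b = ∑ ω ∈ S, if X ω = b then w ω else 0 := by
  rw [mass, fib, Finset.sum_filter]

theorem condW_eq_sum' {Ω : Type*} (S : Finset Ω) (w : Ω → ℝ) (X : Ω → β) (Y : Ω → γ)
    {T : Finset γ} (hT : ∀ ω ∈ S, Y ω ∈ T) :
    condW S w X Y = ∑ c ∈ T, entW (fib S Y c) w X := by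
  rw [condW_eq_sum]
  refine Finset.sum_subset (fun c hc => ?_) fun c _ hc => ?_
  · obtain ⟨ω, h, rfl⟩ := mem_img.1 hc
    exact hT ω h
  · have : fib S Y c = ∅ := Finset.eq_empty_of_forall_notMem fun ω h =>
      hc (mem_img.2 ⟨ω, mem_fib.1 h⟩)
    rw [this]
    simp [entW, ent, img]

theorem condW_drop0 {p : Λ → ℝ} (N L : ℕ) (Z : List Λ → β) :
    condW (words Λ (N + L)) (pw p) Z (fun y => y.drop N) =
      ∑ z ∈ words Λ L, pw p z * entW (words Λ N) (pw p) (fun v => Z (v ++ z)) := by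
  rw [condW_eq_sum' (T := words Λ L) _ _ _ _ (fun y hy => by
    rw [mem_words] at hy ⊢; simp [hy])]
  refine Finset.sum_congr rfl fun z hz => ?_
  rw [mem_words] at hz
  rw [← entW_const_mul, ← entW_bij (S' := words Λ N) (fun v => v ++ z) (pw p) Z]
  · exact entW_congr_w (fun v _ => by rw [pw_append, mul_comm]) _
  · intro v hv
    rw [mem_words] at hv
    simp [hv, hz]
  · intro v _ v' _ h
    exact List.append_cancel_right h
  · intro y hy
    rw [mem_fib, mem_words] at hy
    refine ⟨y.take N, by simp [hy.1], ?_⟩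
    rw [← hy.2, List.take_append_drop]

theorem entW_drop {p : Λ → ℝ} (hp : ∑ i, p i = 1) (N L : ℕ) (X : List Λ → β) :
    entW (words Λ (N + L)) (pw p) (fun y => X (y.drop N)) = entW (words Λ L) (pw p) X := by
  classical
  rw [entW_eq_ent (T := img (words Λ L) X) _ _ _ (fun y hy => mem_img.2 ⟨y.drop N, by
    rw [mem_words] at hy ⊢; simp [hy], rfl⟩), entW]
  refine ent_congr fun b _ => ?_
  rw [mass_eq, mass_eq, sum_words_add, Finset.sum_comm]
  refine Finset.sum_congr rfl fun z _ => ?_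
  have : ∀ v ∈ words Λ N, (if X ((v ++ z).drop N) = b then pw p (v ++ z) else 0) =
      pw p v * (if X z = b then pw p z else 0) := by
    intro v hv
    rw [mem_words] at hv
    rw [List.drop_left' hv, pw_append]
    split_ifs <;> simp
  rw [Finset.sum_congr rfl this, ← Finset.sum_mul, sum_pw hp, one_mul]

end WordsAux

open WordsAux

/-- Conditioning on the first block. -/
theorem condW_take {p : Λ → ℝ} (N L : ℕ) (Z : List Λ → β) :
    condW (words Λ (N + L)) (pw p) Z (fun y => y.take N) =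
      ∑ v ∈ words Λ N, pw p v * entW (words Λ L) (pw p) (fun y => Z (v ++ y)) := by
  rw [condW_eq_sum' (T := words Λ N) _ _ _ _ (fun y hy => by
    rw [mem_words] at hy ⊢; simp [hy])]
  refine Finset.sum_congr rfl fun v hv => ?_
  rw [mem_words] at hv
  rw [← entW_const_mul, ← entW_bij (S' := words Λ L) (fun y => v ++ y) (pw p) Z]
  · exact entW_congr_w (fun y _ => pw_append p v y) _
  · intro y hy
    rw [mem_words] at hy
    simp [hv, hy]
  · intro y _ y' _ h
    exact List.append_cancel_left h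
  · intro y hy
    rw [mem_fib, mem_words] at hy
    refine ⟨y.drop N, by simp [hy.1], ?_⟩
    rw [← hy.2, List.take_append_drop]

/-- Conditioning on the tail and on a function of the first block. -/
theorem condW_drop {p : Λ → ℝ} (N L : ℕ) (Z : List Λ → β) (Y : List Λ → γ) :
    condW (words Λ (N + L)) (pw p) Z (fun y => (y.drop N, Y (y.take N))) =
      ∑ z ∈ words Λ L, pw p z * condW (words Λ N) (pw p) (fun v => Z (v ++ z)) Y := by
  have h1 := condW_drop0 (p := p) N L (fun y => (Z y, Y (y.take N)))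
  have h2 := condW_drop0 (p := p) N L (fun y => Y (y.take N))
  have e1 : entW (words Λ (N + L)) (pw p) (fun y => (Z y, (y.drop N, Y (y.take N)))) =
      entW (words Λ (N + L)) (pw p) (fun y => ((Z y, Y (y.take N)), y.drop N)) :=
    entW_congr _ fun a _ b _ => by simp only [Prod.mk.injEq]; tauto
  have e2 : entW (words Λ (N + L)) (pw p) (fun y => (y.drop N, Y (y.take N))) =
      entW (words Λ (N + L)) (pw p) (fun y => (Y (y.take N), y.drop N)) :=
    entW_congr _ fun a _ b _ => by simp only [Prod.mk.injEq]; tauto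
  simp only [condW] at h1 h2 ⊢
  rw [e1, e2]
  have : ∀ z ∈ words Λ L, pw p z * (entW (words Λ N) (pw p) (fun v => (Z (v ++ z), Y v)) -
      entW (words Λ N) (pw p) Y) =
      pw p z * entW (words Λ N) (pw p) (fun v => (Z (v ++ z), Y ((v ++ z).take N))) -
      pw p z * entW (words Λ N) (pw p) (fun v => Y ((v ++ z).take N)) := by
    intro z _
    rw [mul_sub]
    congr 2
    · refine entW_congr _ fun a ha b hb => ?_
      rw [mem_words] at ha hb
      rw [List.take_left' ha, List.take_left' hb]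
    · refine entW_congr _ fun a ha b hb => ?_
      rw [mem_words] at ha hb
      rw [List.take_left' ha, List.take_left' hb]
  rw [Finset.sum_congr rfl this, Finset.sum_sub_distrib, ← h1, ← h2]
  ring

theorem entW_take {p : Λ → ℝ} (hp : ∑ i, p i = 1) (N L : ℕ) (X : List Λ → β) :
    entW (words Λ (N + L)) (pw p) (fun y => X (y.take N)) = entW (words Λ N) (pw p) X := by
  classical
  rw [entW_eq_ent (T := img (words Λ N) X) _ _ _ (fun y hy => mem_img.2 ⟨y.take N, by
    rw [mem_words] at hy ⊢; simp [hy], rfl⟩), entW]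
  refine ent_congr fun b _ => ?_
  rw [mass_eq, mass_eq, sum_words_add]
  refine Finset.sum_congr rfl fun v hv => ?_
  rw [mem_words] at hv
  have : ∀ z ∈ words Λ L, (if X ((v ++ z).take N) = b then pw p (v ++ z) else 0) =
      (if X v = b then pw p v else 0) * pw p z := by
    intro z _
    rw [List.take_left' hv, pw_append]
    split_ifs <;> simp
  rw [Finset.sum_congr rfl this, ← Finset.mul_sum, sum_pw hp, mul_one]

/-- Subadditivity for variables that are compatible with concatenation. -/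
theorem entW_words_add_le {p : Λ → ℝ} (hp0 : ∀ i, 0 < p i) (hp : ∑ i, p i = 1)
    (X : List Λ → β)
    (hX : ∀ v v' y y' : List Λ, X v = X v' → X y = X y' → X (v ++ y) = X (v' ++ y'))
    (N L : ℕ) :
    entW (words Λ (N + L)) (pw p) X ≤ entW (words Λ N) (pw p) X + entW (words Λ L) (pw p) X := by
  have hw : ∀ ω ∈ words Λ (N + L), 0 ≤ pw p ω := fun ω _ => (pw_pos hp0 ω).le
  have h1 : entW (words Λ (N + L)) (pw p) X ≤
      entW (words Λ (N + L)) (pw p) (fun y => (X (y.drop N), X (y.take N))) := by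
    refine entW_mono hw fun a _ b _ h => ?_
    rw [Prod.mk.injEq] at h
    have := hX _ _ _ _ h.2 h.1
    rwa [List.take_append_drop, List.take_append_drop] at this
  have h2 := condW_le_entW hw (fun y => X (y.drop N)) (fun y => X (y.take N))
  rw [condW, entW_take hp, entW_drop hp] at h2
  linarith

theorem entW_words_le {p : Λ → ℝ} (hp0 : ∀ i, 0 < p i) (hp : ∑ i, p i = 1)
    (X : List Λ → β) (m : ℕ) : entW (words Λ m) (pw p) X ≤ m * log (Fintype.card Λ) := by
  have h := entW_le_log_card (S := words Λ m) (w := pw p) (fun ω _ => (pw_pos hp0 ω).le) X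
    (n := Fintype.card Λ ^ m) (by
      classical
      rw [← card_words]
      unfold img
      convert Finset.card_image_le)
  rwa [sum_pw hp, one_mul, Nat.cast_pow, log_pow] at h

theorem entW_words_blocks_le {p : Λ → ℝ} (hp0 : ∀ i, 0 < p i) (hp : ∑ i, p i = 1)
    (X : List Λ → β)
    (hX : ∀ v v' y y' : List Λ, X v = X v' → X y = X y' → X (v ++ y) = X (v' ++ y'))
    (N B rem : ℕ) :
    entW (words Λ (N * B + rem)) (pw p) X ≤
      B * entW (words Λ N) (pw p) X + rem * log (Fintype.card Λ) := by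
  induction B with
  | zero => simpa using entW_words_le hp0 hp X rem
  | succ B ih =>
    rw [show N * (B + 1) + rem = N + (N * B + rem) by ring]
    have := entW_words_add_le hp0 hp X hX N (N * B + rem)
    push_cast
    linarith

namespace IFS

variable (F : IFS Λ)

@[simp] theorem rw_nil : F.rw [] = 1 := by simp [IFS.rw]
@[simp] theorem rw_cons (i : Λ) (w : List Λ) : F.rw (i :: w) = F.r i * F.rw w := by simp [IFS.rw]
@[simp] theorem tw_nil : F.tw [] = 0 := rfl
@[simp] theorem tw_cons (i : Λ) (w : List Λ) : F.tw (i :: w) = F.r i * F.tw w + F.t i := rfl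
theorem rw_append (u v : List Λ) : F.rw (u ++ v) = F.rw u * F.rw v := by simp [IFS.rw]
theorem tw_append (u v : List Λ) : F.tw (u ++ v) = F.rw u * F.tw v + F.tw u := by
  induction u with
  | nil => simp
  | cons i u ih => simp only [List.cons_append, tw_cons, rw_cons, ih]; ring
theorem rm_coe (w : List Λ) : F.rm (w : Multiset Λ) = F.rw w := by simp [IFS.rm, IFS.rw]
theorem rw_ne_zero (w : List Λ) : F.rw w ≠ 0 := by
  induction w with
  | nil => simp
  | cons i w ih => rw [rw_cons]; exact mul_ne_zero (F.r_ne i) ih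
theorem rm_ne_zero (c : Multiset Λ) : F.rm c ≠ 0 := by
  induction c using Quotient.inductionOn with
  | h w => exact (F.rm_coe w).trans_ne (F.rw_ne_zero w)
theorem abs_rw_le_one (w : List Λ) : |F.rw w| ≤ 1 := by
  induction w with
  | nil => simp
  | cons i w ih =>
    rw [rw_cons, abs_mul]
    exact mul_le_one₀ (F.r_lt i).le (abs_nonneg _) ih
theorem chiw_nil : F.chiw [] = 0 := by simp [IFS.chiw]
theorem chiw_cons (i : Λ) (w : List Λ) : F.chiw (i :: w) = -log |F.r i| + F.chiw w := by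
  rw [IFS.chiw, IFS.chiw, rw_cons, abs_mul, log_mul (abs_ne_zero.2 (F.r_ne i))
    (abs_ne_zero.2 (F.rw_ne_zero w))]
  ring
theorem chiw_append (u v : List Λ) : F.chiw (u ++ v) = F.chiw u + F.chiw v := by
  rw [IFS.chiw, IFS.chiw, IFS.chiw, rw_append, abs_mul, log_mul (abs_ne_zero.2 (F.rw_ne_zero u))
    (abs_ne_zero.2 (F.rw_ne_zero v))]
  ring
theorem chiw_nonneg (w : List Λ) : 0 ≤ F.chiw w := by
  exact neg_nonneg.2 (log_nonpos (abs_nonneg _) (F.abs_rw_le_one w))
theorem chi_pos : 0 < F.chi := by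
  have hne : (Finset.univ : Finset Λ).Nonempty := by
    by_contra h
    rw [Finset.not_nonempty_iff_eq_empty] at h
    have := F.p_sum
    rw [h] at this
    simp at this
  exact Finset.sum_pos (fun i _ => mul_pos (F.p_pos i)
    (neg_pos.2 (log_neg (abs_pos.2 (F.r_ne i)) (F.r_lt i)))) hne
include F in
theorem nonempty : Nonempty Λ := by
  by_contra h
  rw [not_nonempty_iff] at h
  have := F.p_sum
  simp at this

theorem exists_chi_bound : ∃ cM : ℝ, 0 < cM ∧ ∀ i, -log |F.r i| ≤ cM := by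
  have h : ∀ i, 0 ≤ -log |F.r i| := fun i =>
    neg_nonneg.2 (log_nonpos (abs_nonneg _) (F.r_lt i).le)
  refine ⟨1 + ∑ i, -log |F.r i|, add_pos_of_pos_of_nonneg one_pos
    (Finset.sum_nonneg fun i _ => h i), fun i => ?_⟩
  have := Finset.single_le_sum (f := fun i => -log |F.r i|) (fun i _ => h i) (Finset.mem_univ i)
  linarith

theorem chiw_le {cM : ℝ} (h : ∀ i, -log |F.r i| ≤ cM) (w : List Λ) :
    F.chiw w ≤ cM * w.length := by
  induction w with
  | nil => simp [chiw_nil]
  | cons i w ih =>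
    rw [chiw_cons, List.length_cons]
    push_cast
    linarith [h i]

/-- A common bound for all translations, with an invariant interval. -/
theorem exists_radius : ∃ R : ℝ, 0 < R ∧ (∀ i, |F.r i| * R + |F.t i| ≤ R) ∧
    ∀ w, |F.rw w| * R + |F.tw w| ≤ R := by
  have h0 : ∀ i, 0 < 1 - |F.r i| := fun i => sub_pos.2 (F.r_lt i)
  have h1 : ∀ i, 0 ≤ |F.t i| / (1 - |F.r i|) := fun i => div_nonneg (abs_nonneg _) (h0 i).le
  set R := 1 + ∑ i, |F.t i| / (1 - |F.r i|) with hR
  have hi : ∀ i, |F.r i| * R + |F.t i| ≤ R := by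
    intro i
    have := Finset.single_le_sum (f := fun i => |F.t i| / (1 - |F.r i|)) (fun i _ => h1 i)
      (Finset.mem_univ i)
    have h2 : |F.t i| / (1 - |F.r i|) ≤ R := by linarith
    rw [div_le_iff₀ (h0 i)] at h2
    linarith
  refine ⟨R, add_pos_of_pos_of_nonneg one_pos (Finset.sum_nonneg fun i _ => h1 i), hi,
    fun w => ?_⟩
  induction w with
  | nil => simp
  | cons i w ih =>
    rw [rw_cons, tw_cons, abs_mul]
    have h3 := abs_add_le (F.r i * F.tw w) (F.t i)
    rw [abs_mul] at h3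
    have h4 := mul_le_mul_of_nonneg_left ih (abs_nonneg (F.r i))
    nlinarith [hi i]

theorem sum_pw_chiw (m : ℕ) : ∑ w ∈ words Λ m, pw F.p w * F.chiw w = F.chi * m := by
  induction m with
  | zero => simp [words_zero, chiw_nil]
  | succ m ih =>
    rw [sum_words_succ]
    have : ∀ i, ∑ w ∈ words Λ m, pw F.p (i :: w) * F.chiw (i :: w) =
        F.p i * (-log |F.r i|) + F.p i * (F.chi * m) := by
      intro i
      rw [← ih, Finset.mul_sum, ← mul_one (F.p i * _), ← sum_pw F.p_sum m, Finset.mul_sum,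
        ← Finset.sum_add_distrib]
      refine Finset.sum_congr rfl fun w _ => ?_
      rw [pw_cons, chiw_cons]
      ring
    simp only [this, Finset.sum_add_distrib, ← Finset.sum_mul, F.p_sum]
    rw [← IFS.chi]
    push_cast
    ring

/-- Variance bound. -/
theorem exists_var : ∃ V : ℝ, 0 ≤ V ∧ ∀ m : ℕ,
    ∑ w ∈ words Λ m, pw F.p w * (F.chiw w - F.chi * m) ^ 2 ≤ V * m := by
  set V := ∑ i, F.p i * (-log |F.r i| - F.chi) ^ 2 with hV
  refine ⟨V, Finset.sum_nonneg fun i _ => mul_nonneg (F.p_pos i).le (sq_nonneg _), fun m => ?_⟩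
  induction m with
  | zero => simp [words_zero, chiw_nil]
  | succ m ih =>
    rw [sum_words_succ]
    have h0 : ∑ w ∈ words Λ m, pw F.p w * (F.chiw w - F.chi * m) = 0 := by
      simp only [mul_sub, Finset.sum_sub_distrib, ← Finset.sum_mul, sum_pw_chiw, sum_pw F.p_sum]
      ring
    have : ∀ i, ∑ w ∈ words Λ m, pw F.p (i :: w) * (F.chiw (i :: w) - F.chi * (m + 1 : ℕ)) ^ 2 =
        F.p i * (-log |F.r i| - F.chi) ^ 2 +
          F.p i * ∑ w ∈ words Λ m, pw F.p w * (F.chiw w - F.chi * m) ^ 2 := by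
      intro i
      have e : ∀ w ∈ words Λ m, pw F.p (i :: w) * (F.chiw (i :: w) - F.chi * (m + 1 : ℕ)) ^ 2 =
          F.p i * (-log |F.r i| - F.chi) ^ 2 * pw F.p w +
          2 * F.p i * (-log |F.r i| - F.chi) * (pw F.p w * (F.chiw w - F.chi * m)) +
          F.p i * (pw F.p w * (F.chiw w - F.chi * m) ^ 2) := by
        intro w _
        rw [pw_cons, chiw_cons]
        push_cast
        ring
      rw [Finset.sum_congr rfl e, Finset.sum_add_distrib, Finset.sum_add_distrib,
        ← Finset.mul_sum, ← Finset.mul_sum, ← Finset.mul_sum, h0, sum_pw F.p_sum]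
      ring
    simp only [this, Finset.sum_add_distrib, ← Finset.sum_mul, F.p_sum]
    rw [← hV]
    push_cast
    linarith

theorem exists_dev : ∃ V : ℝ, 0 ≤ V ∧ ∀ m : ℕ,
    ∑ w ∈ words Λ m, pw F.p w * |F.chiw w - F.chi * m| ≤ V * √m := by
  obtain ⟨V, hV, h⟩ := F.exists_var
  refine ⟨√V, sqrt_nonneg _, fun m => ?_⟩
  set M := ∑ w ∈ words Λ m, pw F.p w * |F.chiw w - F.chi * m| with hM
  have h1 : 0 ≤ ∑ w ∈ words Λ m, pw F.p w * (|F.chiw w - F.chi * m| - M) ^ 2 :=
    Finset.sum_nonneg fun w _ => mul_nonneg (pw_pos F.p_pos w).le (sq_nonneg _)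
  have e : ∀ w ∈ words Λ m, pw F.p w * (|F.chiw w - F.chi * m| - M) ^ 2 =
      pw F.p w * (F.chiw w - F.chi * m) ^ 2 - 2 * M * (pw F.p w * |F.chiw w - F.chi * m|) +
        M ^ 2 * pw F.p w := by
    intro w _
    rw [← sq_abs (F.chiw w - F.chi * m)]
    ring
  rw [Finset.sum_congr rfl e, Finset.sum_add_distrib, Finset.sum_sub_distrib, ← Finset.mul_sum,
    ← Finset.mul_sum, ← hM, sum_pw F.p_sum] at h1
  rw [← sqrt_mul hV]
  exact le_sqrt_of_sq_le (by linarith [h m])

/-- Chebyshev. -/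
theorem exists_atyp {ε : ℝ} (hε : 0 < ε) : ∃ C : ℝ, 0 ≤ C ∧ ∀ m : ℕ,
    m * ∑ w ∈ F.atyp ε m, pw F.p w ≤ C := by
  obtain ⟨V, hV, h⟩ := F.exists_var
  refine ⟨4 * V / ε ^ 2, by positivity, fun m => ?_⟩
  rcases Nat.eq_zero_or_pos m with rfl | hm
  · simp only [Nat.cast_zero, zero_mul]
    positivity
  have hm' : (0 : ℝ) < m := Nat.cast_pos.2 hm
  have h1 : (ε / 2 * m) ^ 2 * ∑ w ∈ F.atyp ε m, pw F.p w ≤ V * m := by
    refine le_trans ?_ (h m)
    rw [Finset.mul_sum]
    refine le_trans (Finset.sum_le_sum fun w hw => ?_) (Finset.sum_le_sum_of_subset_of_nonneg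
      (Finset.filter_subset _ _) fun w _ _ => mul_nonneg (pw_pos F.p_pos w).le (sq_nonneg _))
    rw [IFS.atyp, Finset.mem_filter, not_le] at hw
    rw [mul_comm]
    refine mul_le_mul_of_nonneg_left ?_ (pw_pos F.p_pos w).le
    refine pow_le_pow_left₀ (by positivity) (by linarith [hw.2]) 2
  rw [le_div_iff₀ (by positivity)]
  have h2 : (m * (∑ w ∈ F.atyp ε m, pw F.p w) * ε ^ 2) * m ≤ (4 * V) * m := by nlinarith
  exact le_of_mul_le_mul_right h2 hm'

theorem typ_subset (ε : ℝ) (m : ℕ) : F.typ ε m ⊆ words Λ m := Finset.filter_subset _ _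

theorem sum_typ_le_one (ε : ℝ) (m : ℕ) : ∑ w ∈ F.typ ε m, pw F.p w ≤ 1 := by
  rw [← sum_pw F.p_sum m]
  exact Finset.sum_le_sum_of_subset_of_nonneg (F.typ_subset ε m)
    fun w _ _ => (pw_pos F.p_pos w).le

/-- The atypical words carry bounded entropy. -/
theorem exists_ent_atyp {ε : ℝ} (hε : 0 < ε) : ∃ C : ℝ, 0 ≤ C ∧ ∀ m : ℕ,
    ent (F.atyp ε m) (pw F.p) ≤ C := by
  obtain ⟨C, hC, h⟩ := F.exists_atyp hε
  have := F.nonempty
  have hc : (1 : ℝ) ≤ Fintype.card Λ := Nat.one_le_cast.2 Fintype.card_pos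
  have hl : 0 ≤ log (Fintype.card Λ : ℝ) := log_nonneg hc
  refine ⟨C * log (Fintype.card Λ), mul_nonneg hC hl, fun m => ?_⟩
  refine (ent_le_log_card fun w _ => (pw_pos F.p_pos w).le).trans ?_
  have h0 : 0 ≤ ∑ w ∈ F.atyp ε m, pw F.p w := Finset.sum_nonneg fun w _ => (pw_pos F.p_pos w).le
  have h1 : log ((F.atyp ε m).card : ℝ) ≤ m * log (Fintype.card Λ) := by
    rcases Nat.eq_zero_or_pos (F.atyp ε m).card with h2 | h2
    · rw [h2, Nat.cast_zero, log_zero]
      positivity
    · rw [← log_pow, ← Nat.cast_pow, ← card_words]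
      exact log_le_log (Nat.cast_pos.2 h2)
        (Nat.cast_le.2 (Finset.card_le_card (Finset.filter_subset _ _)))
  calc _ ≤ (∑ w ∈ F.atyp ε m, pw F.p w) * (m * log (Fintype.card Λ)) :=
        mul_le_mul_of_nonneg_left h1 h0
    _ = (m * ∑ w ∈ F.atyp ε m, pw F.p w) * log (Fintype.card Λ) := by ring
    _ ≤ _ := mul_le_mul_of_nonneg_right (h m) hl

theorem hh_nonneg : 0 ≤ F.hh := by
  exact le_ciInf fun n => div_nonneg (entW_nonneg (fun w _ => (pw_pos F.p_pos w).le) _)
    (by positivity)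

theorem hh_mul_le (m : ℕ) : F.hh * m ≤ F.HG m := by
  have h0 : ∀ m, 0 ≤ F.HG m := fun m => entW_nonneg (fun w _ => (pw_pos F.p_pos w).le) _
  cases m with
  | zero => simpa using h0 0
  | succ n =>
    have h : F.hh ≤ F.HG (n + 1) / (n + 1) :=
      ciInf_le (f := fun n : ℕ => F.HG (n + 1) / (n + 1))
        ⟨0, by rintro _ ⟨k, rfl⟩; exact div_nonneg (h0 _) (by positivity)⟩ n
    rw [le_div_iff₀ (by positivity)] at h
    push_cast
    exact h

theorem HG_le {ε : ℝ} (hε : 0 < ε) : ∃ N0 : ℕ, ∀ N, N0 ≤ N → F.HG N ≤ (F.hh + ε) * N := by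
  obtain ⟨n, hn⟩ := exists_lt_of_ciInf_lt (f := fun n : ℕ => F.HG (n + 1) / (n + 1))
    (show F.hh < F.hh + ε / 2 by linarith)
  rw [div_lt_iff₀ (by positivity)] at hn
  have := F.nonempty
  have hc : (1 : ℝ) ≤ Fintype.card Λ := Nat.one_le_cast.2 Fintype.card_pos
  have hl : 0 ≤ log (Fintype.card Λ : ℝ) := log_nonneg hc
  obtain ⟨N0, hN0⟩ := exists_nat_ge ((n + 1) * log (Fintype.card Λ) / (ε / 2))
  refine ⟨N0, fun N hN => ?_⟩
  have h1 := entW_words_blocks_le F.p_pos F.p_sum (fun w => (F.rw w, F.tw w))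
    (fun v v' y y' h h' => by
      rw [Prod.mk.injEq] at h h' ⊢
      rw [rw_append, rw_append, tw_append, tw_append, h.1, h.2, h'.1, h'.2]
      exact ⟨rfl, rfl⟩) (n + 1) (N / (n + 1)) (N % (n + 1))
  rw [Nat.div_add_mod] at h1
  change F.HG N ≤ _ * F.HG (n + 1) + _ at h1
  have h2 : ((N % (n + 1) : ℕ) : ℝ) ≤ n + 1 := by
    exact_mod_cast (Nat.mod_lt N (Nat.succ_pos n)).le
  have h3 : ((N / (n + 1) : ℕ) : ℝ) * (n + 1) ≤ N := by
    exact_mod_cast Nat.div_mul_le_self N (n + 1)
  rw [div_le_iff₀ (by positivity)] at hN0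
  have h4 : (N0 : ℝ) ≤ N := Nat.cast_le.2 hN
  have h5 : 0 ≤ F.hh + ε / 2 := by linarith [F.hh_nonneg]
  have h6 : (0 : ℝ) ≤ (N / (n + 1) : ℕ) := Nat.cast_nonneg _
  have h7 := mul_le_mul_of_nonneg_left hn.le h6
  have h8 := mul_le_mul_of_nonneg_left h3 h5
  have h9 := mul_le_mul_of_nonneg_right h2 hl
  nlinarith

end IFS

end

end Vale.Agent.P114
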