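import Vale.Agent.P114.Elim
import Vale.Agent.P114.Words

/-! # P114: polynomially many windows of polynomial size -/

open MeasureTheory Real Set Polynomial
open scoped ENNReal

namespace Vale.Agent.P114

noncomputable section

variable {Λ : Type*} [Fintype Λ] {β : Type*}

namespace ZwinAux

open Classical in
theorem rw_count (F : IFS Λ) (u : List Λ) : F.rw u = ∏ j, F.r j ^ u.count j := by
  induction u with
  | nil => simp [IFS.rw]
  | cons i u ih =>
    have : F.rw (i :: u) = F.r i * F.rw u := by simp [IFS.rw]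
    simp only [this, ih, List.count_cons, pow_add, Finset.prod_mul_distrib]
    simp [mul_comm]

open Classical in
theorem exists_vec (F : IFS Λ) (m : ℕ) (w : List Λ) (hw : w.length ≤ m) :
    ∃ y : (Λ → Fin (m + 1)) × Λ → ℤ, (∀ l, 0 ≤ y l ∧ y l ≤ w.length) ∧
      F.tw w = ∑ l, (y l : ℝ) * ((∏ j, F.r j ^ (l.1 j : ℕ)) * F.t l.2) := by
  induction w using List.reverseRecOn with
  | nil => exact ⟨0, fun l => by simp, by simp [IFS.tw]⟩
  | append_singleton u i ih =>
    rw [List.length_append, List.length_singleton] at hw ⊢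
    obtain ⟨y, h1, h2⟩ := ih (by omega)
    refine ⟨fun l => y l + if l = (fun j => ⟨u.count j, by
      have := List.count_le_length (a := j) (l := u); omega⟩, i) then 1 else 0, fun l => ?_, ?_⟩
    · have := h1 l
      push_cast
      split_ifs <;> omega
    · rw [F.tw_append, h2, rw_count]
      simp [IFS.tw, add_mul, Finset.sum_add_distrib, add_comm]

theorem minor_bound {L : Type*} [Fintype L] {m k : ℕ} (y : Fin k → L → ℤ)
    (hy : ∀ i l, |y i l| ≤ m) (e : Fin k → L) (h : minor y e ≠ 0) :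
    |log (|((minor y e : ℤ) : ℝ)|)| ≤ Fintype.card L * (Fintype.card L * m) := by
  have hk : k ≤ Fintype.card L := by
    simpa using Fintype.card_le_of_injective e (injective_of_minor_ne_zero h).2
  have h1 : |minor y e| ≤ ((k * m) ^ k : ℕ) := by
    have := Matrix.det_le (A := Matrix.of fun i j => y i (e j)) (abv := AbsoluteValue.abs)
      (x := m) fun i j => hy i (e j)
    rw [Fintype.card_fin, nsmul_eq_mul] at this
    refine this.trans ?_
    rw [mul_pow]
    exact_mod_cast Nat.mul_le_mul_right _ (Nat.factorial_le_pow k)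
  have h2 : (1 : ℝ) ≤ |((minor y e : ℤ) : ℝ)| := by exact_mod_cast Int.one_le_abs h
  have h3 : |((minor y e : ℤ) : ℝ)| ≤ ((k : ℝ) * m) ^ k := by exact_mod_cast h1
  rw [abs_of_nonneg (log_nonneg h2)]
  refine (log_le_log (by linarith) h3).trans ?_
  rw [log_pow]
  have h4 : (k : ℝ) ≤ Fintype.card L := by exact_mod_cast hk
  refine (mul_le_mul_of_nonneg_left (log_le_self (by positivity)) (Nat.cast_nonneg k)).trans ?_
  gcongr

end ZwinAux

open ZwinAux in
theorem IFS.zwin (F : IFS Λ) : ∃ Cz : ℕ, ∀ (ex : List Λ → β) (m : ℕ), 2 ≤ m →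
    Cov (F.VV ex m) (m ^ Cz) ((m : ℝ) ^ Cz) := by
  classical
  refine ⟨6 * Fintype.card Λ + 3, fun ex m hm => ?_⟩
  have h := (w2_generic (Int.castRingHom ℝ)
    (fun l : (Λ → Fin (m + 1)) × Λ => (∏ j, F.r j ^ (l.1 j : ℕ)) * F.t l.2)
    {y | ∀ l, |y l| ≤ m} (fun _ => 0) (J := 0) (γ := 1)
    (e := Fintype.card ((Λ → Fin (m + 1)) × Λ) * (Fintype.card ((Λ → Fin (m + 1)) × Λ) * m))
    le_rfl (by positivity)
    fun k y hy e he => ⟨by simp, by
      rw [Nat.cast_zero, zero_mul, sub_zero, abs_neg]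
      exact minor_bound y hy e (by simpa using he)⟩).cov
  have hD : Fintype.card ((Λ → Fin (m + 1)) × Λ) ≤ m ^ (3 * Fintype.card Λ) := by
    rw [Fintype.card_prod, Fintype.card_fun, Fintype.card_fin, pow_mul, pow_succ, mul_pow]
    refine Nat.mul_le_mul (Nat.pow_le_pow_left (by nlinarith) _) ?_
    exact Nat.lt_two_pow_self.le.trans (Nat.pow_le_pow_left hm _)
  refine h.mono ?_ (hD.trans (Nat.pow_le_pow_right (by omega) (by omega))) ?_
  · rintro v ⟨w, hw, w', hw', -, hne, rfl⟩
    rw [mem_words] at hw hw'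
    obtain ⟨y, h1, h2⟩ := exists_vec F m w hw.le
    obtain ⟨y', h1', h2'⟩ := exists_vec F m w' hw'.le
    have e : ∑ l, Int.castRingHom ℝ ((y - y') l) * ((∏ j, F.r j ^ (l.1 j : ℕ)) * F.t l.2) =
        F.tw w - F.tw w' := by
      simp [h2, h2', sub_mul, Finset.sum_sub_distrib]
    refine ⟨y - y', fun l => ?_, ?_, ?_⟩
    · have := h1 l
      have := h1' l
      rw [Pi.sub_apply, abs_le]
      omega
    · rw [e]
      exact sub_ne_zero.2 hne
    · rw [e]
  · generalize Fintype.card ((Λ → Fin (m + 1)) × Λ) = D at hD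
    have h1 : 2 * (D * (D * m)) + D ≤ m ^ (6 * Fintype.card Λ + 3) := by
      have h2 : D * D ≤ m ^ (6 * Fintype.card Λ) := by
        rw [show 6 * Fintype.card Λ = 3 * Fintype.card Λ + 3 * Fintype.card Λ by ring, pow_add]
        exact Nat.mul_le_mul hD hD
      have h3 : 3 * m ≤ m ^ 3 := by
        have : 4 ≤ m * m := by nlinarith
        nlinarith
      calc _ ≤ D * D * (3 * m) := by nlinarith [Nat.le_mul_self D]
        _ ≤ _ := by rw [pow_add]; exact Nat.mul_le_mul h2 h3
    have h2 : (2 : ℝ) * (D * (D * m)) + D ≤ (m : ℝ) ^ (6 * Fintype.card Λ + 3) := by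
      exact_mod_cast h1
    linarith [log_le_self (Nat.cast_nonneg (α := ℝ) D)]

end

end Vale.Agent.P114
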