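import Vale.Agent.P114.Level
import Vale.Agent.P114.Dom
import Vale.Agent.P114.GB
import Vale.Agent.P114.Zwin
import Vale.Agent.P114.Layer

/-! # P114: the case of two incommensurable ratios -/

open MeasureTheory Real Set Polynomial
open scoped ENNReal

namespace Vale.Agent.P114

noncomputable section

variable {Λ : Type*} [Fintype Λ]

namespace CaseBAux

theorem Uav_le {r : ℝ} (hr : r ≠ 0) {b : ℕ} (hb : 1 ≤ b) {G G' : ℝ → ℝ} {c : ℝ}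
    (h : ∀ ρ, ρ ≠ 0 → G ρ ≤ G' ρ + c) (ρ : ℝ) (hρ : ρ ≠ 0) :
    Uav r b G ρ ≤ Uav r b G' ρ + c := by
  have hb' : (0 : ℝ) < b := by exact_mod_cast hb
  rw [Uav, Uav, div_add' _ _ _ hb'.ne']
  refine div_le_div_of_nonneg_right ((Finset.sum_le_sum fun j _ =>
    h _ (mul_ne_zero hρ (pow_ne_zero _ hr))).trans_eq ?_) hb'.le
  rw [Finset.sum_add_distrib, Finset.sum_const, Finset.card_range, nsmul_eq_mul, mul_comm]

theorem point {μ : Measure ℝ} (hμ : Good μ) [IsProbabilityMeasure μ] {r₁ r₂ : ℝ} (h₁ : r₁ ≠ 0)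
    (h₂ : r₂ ≠ 0) {b b' : ℕ} (hb : 1 ≤ b) (hb' : 1 ≤ b') {Cb η σ σ2 : ℝ} (hCb : 0 < Cb)
    {K1 K3 : ℕ} (hK1 : Cb * (1 / 2) ^ K1 ≤ 1 / 2) {J : Finset ℤ} {n x : ℤ → ℝ}
    (hn : ∀ j ∈ J, 0 ≤ n j) (hsep : Sep J x (σ + K1 * log 2) σ2) {ρ : ℝ} (hρ : ρ ≠ 0)
    (h : ent J n ≤ η + Cb * Uav r₁ b (Uav r₂ b' fun ρ' =>
      info (atom J n x) (scl ρ' μ) (σ + K1 * log 2 + K3 * log 2)) ρ) :
    (ent J n / 2 - η) / Cb ≤
      Uav r₁ b (Uav r₂ b' fun ρ' => gain (atom J n x) (scl ρ' μ) σ (K1 + K3)) ρ := by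
  have h1 := Uav_le h₁ hb (Uav_le h₂ hb' (c := (1 / 2) ^ K1 * ent J n)
    (G := fun ρ' => info (atom J n x) (scl ρ' μ) (σ + K1 * log 2 + K3 * log 2))
    (G' := fun ρ' => gain (atom J n x) (scl ρ' μ) σ (K1 + K3)) fun ρ' _ => ?_) ρ hρ
  · have h2 := mul_le_mul_of_nonneg_left h1 hCb.le
    have h3 := mul_le_mul_of_nonneg_right hK1 (ent_nonneg hn)
    rw [div_le_iff₀' hCb]
    linarith
  · have h2 := info_le_diam (hμ.scl ρ') hn x (exp_pos (-(σ + K1 * log 2))).le (fun j hj j' hj' => by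
      rcases eq_or_ne j j' with rfl | hne
      · rw [sub_self, abs_zero]
        exact (exp_pos _).le
      · exact (hsep j hj j' hj' hne).2) σ
    rw [← exp_add, show -(σ + K1 * log 2) + σ = -(K1 * log 2) by ring, exp_neg,
      GAAux.exp_log_two, ← inv_pow, ← one_div] at h2
    rw [gain_eq, Nat.cast_add, add_mul, ← add_assoc]
    linarith

theorem exists_pow {c δ : ℝ} (hδ : 0 < δ) : ∃ K : ℕ, c * (1 / 2) ^ K ≤ δ := by
  have h := (tendsto_pow_atTop_nhds_zero_of_lt_one (r := (1 / 2 : ℝ)) (by norm_num)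
    (by norm_num)).const_mul c
  rw [mul_zero] at h
  exact (h.eventually_le_const hδ).exists

theorem int_win {E U : ℝ → ℝ} {V : Set ℝ} {s0 S η β c e : ℝ} {D : ℕ} (hη : 0 ≤ η) (hc : 0 ≤ c)
    (he : 0 ≤ e) (hE : IntegrableOn E (Icc s0 S)) (hU : IntegrableOn U (Icc s0 S))
    (h : ∀ s, E s ≤ η + β * U s) (h0 : ∀ s, (∀ v ∈ V, v ∉ Icc s (s + c)) → E s ≤ 0)
    (hV : Cov V D e) : ∃ A ⊆ Icc s0 S, MeasurableSet A ∧
      ∫ s in Icc s0 S, E s ≤ η * (D * (2 * (e + c))) + β * ∫ s in A, U s := by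
  obtain ⟨Y, hY, hV⟩ := hV
  have hm := LayAbsAux.meas_win Y (e + c)
  refine ⟨_, inter_subset_left, measurableSet_Icc.inter hm, ?_⟩
  have h1 := LayAbsAux.int_le (measurableSet_Icc.inter hm) inter_subset_left hE hU h
  have h2 := mul_le_mul_of_nonneg_left (LayAbsAux.vol_win
    (inter_subset_right (s := Icc s0 S)) (add_nonneg he hc) hY) hη
  have h3 : ∫ s in Icc s0 S \ LayAbsAux.win Y (e + c), E s ≤ 0 :=
    setIntegral_nonpos (measurableSet_Icc.diff hm) fun s hs => h0 s fun v hv hv' => by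
      obtain ⟨y, hy, hy'⟩ := hV v hv
      refine hs.2 (LayAbsAux.mem_win hy ?_)
      rw [abs_le] at hy' ⊢
      constructor <;> linarith [hv'.1, hv'.2]
  linarith [integral_inter_add_sdiff hm hE]

theorem vol_num {b : ℕ} (hb : 1 ≤ b) (Cz : ℕ) : 2 * ((b : ℝ) ^ (6 * Cz + 3))⁻¹ *
    (((b ^ 3) ^ Cz : ℕ) * (2 * (((b ^ 3 : ℕ) : ℝ) ^ Cz + (b ^ 3 : ℕ)))) ≤ 8 := by
  have h1 : (1 : ℝ) ≤ (b : ℝ) ^ 3 := one_le_pow₀ (by exact_mod_cast hb)
  have h2 : (1 : ℝ) ≤ ((b : ℝ) ^ 3) ^ Cz := one_le_pow₀ h1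
  rw [show (b : ℝ) ^ (6 * Cz + 3) = ((b : ℝ) ^ 3) ^ Cz * (((b : ℝ) ^ 3) ^ Cz * (b : ℝ) ^ 3) by
    ring, ← div_eq_mul_inv, div_mul_eq_mul_div, div_le_iff₀ (by positivity)]
  push_cast
  generalize ((b : ℝ) ^ 3) ^ Cz = u at *
  generalize (b : ℝ) ^ 3 = v at *
  nlinarith [mul_nonneg (zero_le_one.trans h2) (mul_nonneg (sub_nonneg.2 h1) (sub_nonneg.2 h2)),
    mul_nonneg (zero_le_one.trans h2) (mul_nonneg (sub_nonneg.2 h1) (zero_le_one.trans h2)),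
    mul_nonneg (zero_le_one.trans h2) (mul_nonneg (zero_le_one.trans h1) (sub_nonneg.2 h2))]

theorem final_num {b m n K K0 K1 K2 δ Cb Cu τ I L q x v : ℝ} (hδ : 0 < δ) (hCb : 0 < Cb)
    (hCu : 0 ≤ Cu) (hτ : 0 ≤ τ) (hL : 0 ≤ L) (hq : 0 ≤ q) (hm : b * b ≤ m) (hb : 72 ≤ δ * b)
    (hn0 : 0 ≤ n) (hn : n ≤ m) (k5 : K ≤ 4 * K0) (k6 : K1 + K2 + 1 ≤ K0) (k7 : 4 * K0 ≤ b)
    (k8 : 0 ≤ K1) (k9 : 0 ≤ K2) (hv : v ≤ 8) (hK2 : 16 * L * q ≤ δ / 4)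
    (hP : I ≤ K * (m + n) * τ + K * Cu)
    (e7 : 8192 * Cb * ((2 + Cu) * m * τ + (2 + Cu)) ≤ δ / 8 * m)
    (hx : 2 * δ * m - (K1 * log 2 + 2) ≤ x)
    (h : K0 * log 2 * (x - K0 - 3) - 8 * q * ((K0 + K2) * (m * L)) ≤ v + 2048 * Cb * I) :
    False := by
  have l2 := LevelAux.log_two_le_one
  have l3 : 1 / 2 ≤ log 2 := by linarith [log_two_gt_d9]
  have k0 : 1 ≤ K0 := by linarith
  have m0 : 0 ≤ m := hn0.trans hn
  have h1 : 72 * b ≤ δ * m := by nlinarith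
  have u1 : I ≤ 4 * K0 * ((2 + Cu) * m * τ + (2 + Cu)) := by
    refine hP.trans ?_
    rw [mul_assoc, ← mul_add]
    refine mul_le_mul k5 ?_ (by positivity) (by positivity)
    linarith [mul_le_mul_of_nonneg_right hn hτ, mul_nonneg hCu (mul_nonneg m0 hτ)]
  have u2 := mul_le_mul_of_nonneg_left u1 (show 0 ≤ 2048 * Cb by positivity)
  have u3 := mul_le_mul_of_nonneg_left e7 (zero_le_one.trans k0)
  have u4 : 8 * q * ((K0 + K2) * (m * L)) ≤ K0 * (δ / 4 * m) := by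
    calc _ ≤ 8 * q * ((K0 + K0) * (m * L)) := by gcongr; linarith
      _ = K0 * (16 * L * q * m) := by ring
      _ ≤ _ := by gcongr
  have u5 : K0 * (1 / 2) * (δ * m) ≤ K0 * log 2 * (x - K0 - 3) := by
    refine mul_le_mul (by gcongr) ?_ (by positivity) (by positivity)
    linarith [mul_le_of_le_one_right k8 l2]
  have u6 := mul_le_mul_of_nonneg_right k0 (show 0 ≤ δ * m by positivity)
  linarith

end CaseBAux

open CaseBAux Filter in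
theorem IFS.caseB (F : IFS Λ) {μ : Measure ℝ} [IsProbabilityMeasure μ] (h : F.SelfSim μ)
    {α C : ℝ} (hs : Slope μ α C) (hα0 : 0 ≤ α) (hα : α < 1) (i₁ i₂ : Λ)
    (hirr : Irrational (log |F.r i₁| / log |F.r i₂|)) : F.hh ≤ α * F.chi := by
  refine not_lt.1 fun hlt => ?_
  have hμ := F.good_of_selfSim h
  obtain ⟨ε, hε, δ, hδ, m0, hR⟩ := F.Rm_lower (fun _ => ()) h hs hα0 hlt fun _ _ => rfl
  obtain ⟨Cz, hz⟩ := F.zwin (β := Unit)
  obtain ⟨Cb, hCb, hgb⟩ := gb hμ hα0 hα hs.1 (F.r_ne i₁) (F.r_lt i₁) (F.r_ne i₂) (F.r_lt i₂)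
    (6 * Cz + 3)
  obtain ⟨K1, hK1⟩ := exists_pow (c := Cb) one_half_pos
  obtain ⟨K2, hK2⟩ := exists_pow (c := 16 * log (Fintype.card Λ)) (δ := δ / 4) (by positivity)
  obtain ⟨b0, hgb⟩ := hgb K2
  obtain ⟨Cd, hdom⟩ := F.dom2 i₁ i₂
  obtain ⟨cM, hcM0, hcM⟩ := F.exists_chi_bound
  obtain ⟨Cu, hCu, hup⟩ := F.up h (fun _ => ()) hε hcM
  set B := ⌈log |F.r i₁| / log |F.r i₂|⌉₊ + 2 with hB
  have t3 : Tendsto (fun b : ℕ => b ^ 3) atTop atTop := tendsto_pow_atTop (by norm_num)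
  have tR : ∀ {c : ℝ} (_ : 0 < c) (y : ℝ), ∀ᶠ b : ℕ in atTop, y ≤ c * b := fun hc y =>
    (tendsto_natCast_atTop_atTop.const_mul_atTop hc).eventually_ge_atTop y
  obtain ⟨b1, hb1⟩ := eventually_atTop.1 ((eventually_ge_atTop b0).and <|
    (eventually_ge_atTop (2 ^ (4 * (K1 + K2 + 1)))).and <| (t3.eventually_ge_atTop m0).and <|
    (tR hδ 72).and <| (eventually_ge_atTop (Cd * B ^ 2)).and <|
    (tR (show 0 < ε / 4 by positivity) (cM * (Cd * B ^ 2))).and <|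
    t3.eventually (LayAbsAux.ev_tail (F.gfun μ) (show 0 < ε / 4 by positivity)
      (show 0 < δ / 8 by positivity) (8192 * Cb) (2 + Cu)))
  obtain ⟨b, hb, hEQ⟩ := exists_EQd hirr b1
  obtain ⟨e1, e2, e3, e4, e5, e6, e7⟩ := hb1 b hb
  replace hgb := hgb b e1 hEQ
  have k1 : 4 * (K1 + K2 + 1) ≤ Nat.log 2 b := Nat.le_log_of_pow_le one_lt_two e2
  have k2 := Nat.log_le_self 2 b
  set K0 := Nat.log 2 b / 4 with hK0
  have k3 : K1 + K2 + 1 ≤ K0 := by omega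
  have k4 : 4 * K0 ≤ b := by omega
  have hb2 : 2 ≤ b := by omega
  have hbm : b ≤ b ^ 3 := Nat.le_self_pow (by norm_num) b
  have hn : Cd * (B * b) ^ 2 ≤ b ^ 3 := by
    rw [mul_pow, ← mul_assoc, pow_succ' b 2]
    exact Nat.mul_le_mul_right _ e5
  obtain ⟨U, hU0, hUi, hUG, hUP⟩ := hup (b ^ 3) (Cd * (B * b) ^ 2) (K1 + (2 * K0 + K2))
  obtain ⟨S, hS, hS0⟩ := F.exists_Rm_eq_zero (fun _ => ()) ε (b ^ 3)
    ((F.chi + ε) * (b ^ 3 : ℕ) + K1 * log 2)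
  have hb0 : (0 : ℝ) < b := by exact_mod_cast (by omega : 0 < b)
  have l1 : 0 < log 2 := log_pos one_lt_two
  have l2 := LevelAux.log_two_le_one
  have hEU : ∀ s, F.Em (fun _ => ()) ε (b ^ 3) K0 K2 (s + K1 * log 2) ≤
      2 * ((b : ℝ) ^ (6 * Cz + 3))⁻¹ + 2048 * Cb * U s := fun s => by
    refine (F.Em_le _ ε _ K0 K2 (s + K1 * log 2)
      (fun ρ => F.Gam μ (Cd * (B * b) ^ 2) (K1 + (2 * K0 + K2)) s ρ)
      (fun ρ hρ => F.sup_Gam hμ _ _ s hρ) (η := 2 * ((b : ℝ) ^ (6 * Cz + 3))⁻¹) (by positivity)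
      (b := 2048 * Cb) (by positivity) fun ρ hρ J n x hn hJ hsep => ?_).trans ?_
    · have h1 := hdom b (B * b) (by omega) (Nat.le_mul_of_pos_left b (by omega)) _ _
        (fun ρ _ => (sup_gain (hμ.scl ρ) s _).nonneg _ (Good.atom J n x))
        (fun ρ hρ => point hμ (F.r_ne i₁) (F.r_ne i₂) (by omega) (Nat.mul_pos (by omega) (by omega))
          hCb hK1 hn hsep hρ (hgb _ ρ hρ J n x hn hJ hsep)) ρ hρ
      rw [div_le_iff₀ (by norm_num), div_le_iff₀ hCb] at h1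
      unfold IFS.Gam
      linarith
    · linarith [mul_le_mul_of_nonneg_left (hUG s) (show 0 ≤ 2048 * Cb by positivity)]
  have hE0 : ∀ s : ℝ, (∀ v ∈ F.VV (fun _ => ()) (b ^ 3), v ∉ Icc s (s + (b ^ 3 : ℕ))) →
      F.Em (fun _ => ()) ε (b ^ 3) K0 K2 (s + K1 * log 2) ≤ 0 := fun s hs' => by
    refine F.Em_nonpos _ ε _ K0 K2 _ fun v hv hv' => hs' v hv ⟨?_, ?_⟩
    · linarith [hv'.1, show 0 ≤ K1 * log 2 by positivity]
    · have h1 : ((K1 + (K0 + K2) : ℕ) : ℝ) ≤ (b ^ 3 : ℕ) := by exact_mod_cast (by omega)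
      have h2 := mul_le_of_le_one_right (Nat.cast_nonneg (α := ℝ) (K1 + (K0 + K2))) l2
      rw [Nat.cast_add] at h1 h2
      linarith [hv'.2]
  obtain ⟨A, hA, hAm, hI⟩ := int_win (s0 := (F.chi + ε) * (b ^ 3 : ℕ)) (S := S - K1 * log 2)
    (by positivity) (by positivity) (by positivity)
    (integrableOn_Icc_shift (F.integrableOn_Em _ ε _ K0 K2) _ _ _) (hUi _ _) hEU hE0
    (hz (fun _ => ()) (b ^ 3) (hb2.trans hbm))
  have hP := hUP A (Ici (ε / 4 * (b ^ 3 : ℕ))) hAm measurableSet_Ici ⟨_, _, hA⟩ fun s hs' y hy => by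
    have h1 := mul_le_mul_of_nonneg_right e6 (sq_nonneg (b : ℝ))
    have h2 := (hA hs').1
    have h3 := hy.1
    rw [mem_Ici]
    push_cast at h2 h3 ⊢
    linarith
  rw [setIntegral_Icc_shift _ _ _ _ (by linarith), sub_add_cancel] at hI
  have hL := (F.integral_Em_ge _ ε _ K0 K2 hS).trans hI
  have hlip := F.Hm_lip (fun _ => ()) ε (b ^ 3) (s := (F.chi + ε) * (b ^ 3 : ℕ))
    (s' := (F.chi + ε) * (b ^ 3 : ℕ) + K1 * log 2) (le_add_of_nonneg_right (by positivity))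
  have hR' := hR _ e3
  unfold IFS.Rm at hR' hS0
  rw [div_eq_mul_one_div, ← one_div_pow] at hL
  have hm : b * b ≤ b ^ 3 :=
    (pow_two b).symm.trans_le (Nat.pow_le_pow_right (by omega) (by norm_num))
  refine final_num hδ hCb hCu (integral_nonneg fun x => F.gfun_nonneg h x) (log_natCast_nonneg _)
    (by positivity) ?_ e4 (Nat.cast_nonneg _) (Nat.cast_le.2 hn) ?_ ?_ ?_ (Nat.cast_nonneg K1)
    (Nat.cast_nonneg _) (vol_num (by omega) Cz) hK2 hP e7 (by linarith) hL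
  · exact_mod_cast hm
  · exact_mod_cast (by omega)
  · exact_mod_cast k3
  · exact_mod_cast k4

end

end Vale.Agent.P114
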