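import Vale.Agent.P114.Defs

/-! # P114: lengths of polynomials, zero counting, Liouville inequality -/

open MeasureTheory Real Set Polynomial
open scoped ENNReal

namespace Vale.Agent.P114

noncomputable section

theorem l1_nonneg (P : ℤ[X]) : 0 ≤ l1 P := by
  exact Finset.sum_nonneg fun _ _ => abs_nonneg _
theorem one_le_l1 {P : ℤ[X]} (hP : P ≠ 0) : 1 ≤ l1 P := by
  have h : (1 : ℝ) ≤ |(P.coeff P.natDegree : ℝ)| := by
    have := Int.one_le_abs (leadingCoeff_ne_zero.2 hP)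
    exact_mod_cast this
  exact h.trans (Finset.single_le_sum (f := fun i => |(P.coeff i : ℝ)|) (fun _ _ => abs_nonneg _)
    (natDegree_mem_support_of_nonzero hP))
theorem l1_eq_sum_range (P : ℤ[X]) {n : ℕ} (hn : P.natDegree < n) :
    l1 P = ∑ i ∈ Finset.range n, |(P.coeff i : ℝ)| := by
  refine Finset.sum_subset (supp_subset_range hn) fun i _ hi => ?_
  rw [notMem_support_iff.1 hi]
  simp
theorem abs_coeff_le_l1 (P : ℤ[X]) (i : ℕ) : |(P.coeff i : ℝ)| ≤ l1 P := by
  by_cases hi : i ∈ P.support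
  · exact Finset.single_le_sum (f := fun i => |(P.coeff i : ℝ)|) (fun _ _ => abs_nonneg _) hi
  · rw [notMem_support_iff.1 hi]
    simpa using l1_nonneg P
theorem l1_add_le (P Q : ℤ[X]) : l1 (P + Q) ≤ l1 P + l1 Q := by
  have h1 : P.natDegree < max P.natDegree Q.natDegree + 1 := Nat.lt_succ_of_le (le_max_left _ _)
  have h2 : Q.natDegree < max P.natDegree Q.natDegree + 1 := Nat.lt_succ_of_le (le_max_right _ _)
  rw [l1_eq_sum_range _ (Nat.lt_succ_of_le (natDegree_add_le P Q)), l1_eq_sum_range _ h1,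
    l1_eq_sum_range _ h2, ← Finset.sum_add_distrib]
  refine Finset.sum_le_sum fun i _ => ?_
  rw [coeff_add, Int.cast_add]
  exact abs_add_le _ _
theorem l1_neg (P : ℤ[X]) : l1 (-P) = l1 P := by
  simp [l1]
theorem l1_sum_le {ι : Type*} (I : Finset ι) (P : ι → ℤ[X]) :
    l1 (∑ i ∈ I, P i) ≤ ∑ i ∈ I, l1 (P i) := by
  classical
  induction I using Finset.induction_on with
  | empty => simp [l1]
  | insert a s ha ih =>
    rw [Finset.sum_insert ha, Finset.sum_insert ha]
    exact (l1_add_le _ _).trans (by linarith)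

theorem LiouAux.l1_monomial (n : ℕ) (c : ℤ) : l1 (monomial n c) = |(c : ℝ)| := by
  by_cases hc : c = 0
  · simp [l1, hc]
  · simp [l1, support_monomial n hc]

theorem l1_mul_le (P Q : ℤ[X]) : l1 (P * Q) ≤ l1 P * l1 Q := by
  rw [mul_eq_sum_sum]
  refine (l1_sum_le _ _).trans ?_
  rw [l1.eq_1 P, Finset.sum_mul]
  refine Finset.sum_le_sum fun i _ => ?_
  rw [Polynomial.sum_def]
  refine (l1_sum_le _ _).trans ?_
  rw [l1.eq_1 Q, Finset.mul_sum]
  refine Finset.sum_le_sum fun j _ => ?_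
  rw [LiouAux.l1_monomial, Int.cast_mul, abs_mul]
theorem l1_one : l1 1 = 1 := by
  rw [← monomial_zero_one, LiouAux.l1_monomial]
  simp

theorem LiouAux.norm_aeval_le (P : ℤ[X]) (z : ℂ) :
    ‖aeval z P‖ ≤ l1 P * max 1 ‖z‖ ^ P.natDegree := by
  rw [aeval_def, eval₂_eq_sum, Polynomial.sum_def, l1, Finset.sum_mul]
  refine norm_sum_le_of_le _ fun i hi => ?_
  rw [norm_mul, norm_pow, algebraMap_int_eq, eq_intCast, Complex.norm_intCast]
  refine mul_le_mul_of_nonneg_left ?_ (abs_nonneg _)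
  exact (pow_le_pow_left₀ (norm_nonneg _) (le_max_right _ _) _).trans
    (pow_le_pow_right₀ (le_max_left _ _) (le_natDegree_of_mem_supp i hi))

theorem norm_aeval_le_l1 (P : ℤ[X]) {z : ℂ} (hz : ‖z‖ ≤ 1) : ‖aeval z P‖ ≤ l1 P := by
  simpa [max_eq_left hz] using LiouAux.norm_aeval_le P z
theorem abs_aeval_le_l1 (P : ℤ[X]) {x : ℝ} (hx : |x| ≤ 1) : |aeval x P| ≤ l1 P := by
  have h := norm_aeval_le_l1 P (z := (x : ℂ)) (by simpa using hx)
  have e : aeval (x : ℂ) P = ((aeval x P : ℝ) : ℂ) := aeval_algebraMap_apply ℂ x P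
  rw [e] at h
  simpa using h

theorem LiouAux.l1_prod_le {ι : Type*} (I : Finset ι) (P : ι → ℤ[X]) :
    l1 (∏ i ∈ I, P i) ≤ ∏ i ∈ I, l1 (P i) := by
  classical
  induction I using Finset.induction_on with
  | empty => simp [l1_one]
  | insert a s ha ih =>
    rw [Finset.prod_insert ha, Finset.prod_insert ha]
    exact (l1_mul_le _ _).trans (mul_le_mul_of_nonneg_left ih (l1_nonneg _))

theorem LiouAux.l1_small {a m : ℕ} (hm : 2 ≤ m) {P : ℤ[X]} (h1 : P.natDegree ≤ a * m)
    (h2 : ∀ i, |P.coeff i| ≤ 2) : l1 P ≤ (m : ℝ) ^ (a + 2) := by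
  rw [l1_eq_sum_range P (Nat.lt_succ_of_le h1)]
  refine (Finset.sum_le_card_nsmul _ _ (2 : ℝ) fun i _ => by exact_mod_cast h2 i).trans ?_
  rw [Finset.card_range, nsmul_eq_mul]
  have h3 : a + 1 ≤ m ^ a := Nat.lt_pow_self (by omega)
  have h4 : (a * m + 1) * 2 ≤ m ^ (a + 2) :=
    calc (a * m + 1) * 2 ≤ ((a + 1) * m) * m := Nat.mul_le_mul (by nlinarith) hm
      _ ≤ (m ^ a * m) * m := by gcongr
      _ = m ^ (a + 2) := by ring
  exact_mod_cast h4

/-- Minors of small vectors are of controlled degree and length. -/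
theorem exists_InB_minor (Λ : Type*) [Fintype Λ] (a : ℕ) : ∃ C : ℕ, ∀ m : ℕ, 2 ≤ m →
    ∀ (k : ℕ) (y : Fin k → Λ → ℤ[X]), (∀ i, Small (a * m) (y i)) → ∀ e : Fin k → Λ,
      InB C m (minor y e) := by
  classical
  refine ⟨Fintype.card Λ * Fintype.card Λ + Fintype.card Λ * (a + 2), fun m hm k y hy e => ?_⟩
  have hm1 : (1 : ℝ) ≤ m := by exact_mod_cast (by omega : 1 ≤ m)
  by_cases he : Function.Injective e
  swap
  · have h0 : minor y e = 0 := by
      obtain ⟨i, j, hij, hne⟩ := Function.not_injective_iff.1 he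
      exact Matrix.det_zero_of_column_eq hne fun a => by simp [hij]
    rw [h0]
    exact ⟨by simp, by simp [l1]⟩
  have hk : k ≤ Fintype.card Λ := by simpa using Fintype.card_le_of_injective e he
  have hs : ∀ (σ : Equiv.Perm (Fin k)) (Q : ℤ[X]),
      Equiv.Perm.sign σ • Q = Q ∨ Equiv.Perm.sign σ • Q = -Q := fun σ Q => by
    rcases Int.units_eq_one_or (Equiv.Perm.sign σ) with h | h <;> simp [h]
  unfold InB minor
  rw [Matrix.det_apply]
  constructor
  · refine natDegree_sum_le_of_forall_le _ _ fun σ _ => ?_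
    have h : (∏ i, Matrix.of (fun i j => y i (e j)) (σ i) i).natDegree ≤ k * (a * m) := by
      refine (natDegree_prod_le _ _).trans ?_
      simpa using Finset.sum_le_card_nsmul Finset.univ _ (a * m) fun i _ => (hy (σ i) (e i)).1
    have h2 : k * (a * m) ≤ (Fintype.card Λ * Fintype.card Λ + Fintype.card Λ * (a + 2)) * m := by
      rw [← mul_assoc]
      refine Nat.mul_le_mul_right _ (le_add_left (Nat.mul_le_mul hk (by omega)))
    rcases hs σ (∏ i, Matrix.of (fun i j => y i (e j)) (σ i) i) with h3 | h3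
    · rw [h3]
      exact h.trans h2
    · rw [h3, natDegree_neg]
      exact h.trans h2
  · have h : ∀ σ : Equiv.Perm (Fin k), l1 (Equiv.Perm.sign σ •
        ∏ i, Matrix.of (fun i j => y i (e j)) (σ i) i) ≤ ((m : ℝ) ^ (a + 2)) ^ k := fun σ => by
      have h1 : l1 (∏ i, Matrix.of (fun i j => y i (e j)) (σ i) i) ≤ ((m : ℝ) ^ (a + 2)) ^ k := by
        refine (LiouAux.l1_prod_le _ _).trans ?_
        simpa using Finset.prod_le_prod (s := Finset.univ) (g := fun _ => (m : ℝ) ^ (a + 2))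
          (fun i _ => l1_nonneg _)
          (fun i _ => LiouAux.l1_small hm (hy (σ i) (e i)).1 (hy (σ i) (e i)).2)
      rcases hs σ (∏ i, Matrix.of (fun i j => y i (e j)) (σ i) i) with h3 | h3
      · rwa [h3]
      · rwa [h3, l1_neg]
    refine (l1_sum_le _ _).trans ((Finset.sum_le_card_nsmul _ _ _ fun σ _ => h σ).trans ?_)
    rw [Finset.card_univ, Fintype.card_perm, Fintype.card_fin, nsmul_eq_mul, ← pow_mul,
      pow_add]
    refine mul_le_mul ?_ (pow_le_pow_right₀ hm1 (by rw [mul_comm]; gcongr)) (by positivity)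
      (by positivity)
    have h4 : k.factorial ≤ m ^ (Fintype.card Λ * Fintype.card Λ) :=
      calc k.factorial ≤ k ^ k := Nat.factorial_le_pow k
        _ ≤ (m ^ k) ^ k := Nat.pow_le_pow_left (Nat.lt_pow_self (by omega)).le _
        _ ≤ m ^ (Fintype.card Λ * Fintype.card Λ) := by
          rw [← pow_mul]
          exact Nat.pow_le_pow_right (by omega) (Nat.mul_le_mul hk hk)
    exact_mod_cast h4

open Classical in
theorem LiouAux.prod_le {ρ R : ℝ} (hρ : 0 < ρ) (hR : ρ ≤ R) (s : Multiset ℂ) :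
    (R / ρ) ^ Multiset.card (s.filter fun z => ‖z‖ ≤ ρ) * (s.map fun z => ‖z‖).prod ≤
      (s.map fun z => max R ‖z‖).prod := by
  have hR0 : 0 < R := hρ.trans_le hR
  induction s using Multiset.induction_on with
  | empty => simp
  | cons a s ih =>
    have h0 : 0 ≤ (R / ρ) ^ Multiset.card (s.filter fun z => ‖z‖ ≤ ρ) *
        (s.map fun z => ‖z‖).prod :=
      mul_nonneg (by positivity) (Multiset.prod_map_nonneg fun _ _ => norm_nonneg _)
    rw [Multiset.map_cons, Multiset.map_cons, Multiset.prod_cons, Multiset.prod_cons]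
    refine le_trans ?_ (mul_le_mul_of_nonneg_left ih (hR0.le.trans (le_max_left _ _)))
    by_cases ha : ‖a‖ ≤ ρ
    · have h1 : R / ρ * ‖a‖ ≤ max R ‖a‖ := by
        refine le_trans ?_ (le_max_left _ _)
        rw [div_mul_eq_mul_div, div_le_iff₀ hρ]
        exact mul_le_mul_of_nonneg_left ha hR0.le
      rw [Multiset.filter_cons_of_pos (p := fun z : ℂ => ‖z‖ ≤ ρ) _ ha, Multiset.card_cons, pow_succ]
      refine le_trans (le_of_eq ?_) (mul_le_mul_of_nonneg_right h1 h0)
      ring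
    · rw [Multiset.filter_cons_of_neg (p := fun z : ℂ => ‖z‖ ≤ ρ) _ ha]
      refine le_trans (le_of_eq ?_) (mul_le_mul_of_nonneg_right (le_max_right R ‖a‖) h0)
      ring

open Classical in
theorem LiouAux.count_le {ρ R : ℝ} (hρ : 0 < ρ) (hR : ρ ≤ R) (q : ℂ[X]) :
    (R / ρ) ^ Multiset.card (q.roots.filter fun z => ‖z‖ ≤ ρ) * ‖q.coeff 0‖ ≤
      ∑ i ∈ Finset.range (q.natDegree + 1), ‖q.coeff i‖ * R ^ i := by
  have hR0 : 0 < R := hρ.trans_le hR
  have hq := (IsAlgClosed.splits q).eq_prod_roots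
  have e1 : ‖q.coeff 0‖ = ‖q.leadingCoeff‖ * (q.roots.map fun z => ‖z‖).prod := by
    conv_lhs => rw [hq, coeff_zero_eq_eval_zero, eval_mul, eval_C, eval_multiset_prod, norm_mul]
    rw [Multiset.map_map, ← normHom_apply ((Multiset.map _ _).prod), map_multiset_prod,
      Multiset.map_map]
    simp
  have e2 : (q.comp (C (R : ℂ) * X)).mahlerMeasure =
      ‖q.leadingCoeff‖ * (q.roots.map fun z => max R ‖z‖).prod := by
    conv_lhs => rw [hq, mul_comp, C_comp, mahlerMeasure_mul, mahlerMeasure_const,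
      multiset_prod_comp, prod_mahlerMeasure_eq_mahlerMeasure_prod, Multiset.map_map,
      Multiset.map_map]
    congr 2
    refine Multiset.map_congr rfl fun z _ => ?_
    have := mahlerMeasure_C_mul_X_add_C (a := (R : ℂ)) (by exact_mod_cast hR0.ne') (-z)
    simpa [sub_eq_add_neg, abs_of_pos hR0] using this
  have e3 := mahlerMeasure_le_sum_norm_coeff (q.comp (C (R : ℂ) * X))
  have hd : (q.comp (C (R : ℂ) * X)).natDegree < q.natDegree + 1 :=
    Nat.lt_succ_of_le (natDegree_comp_le.trans (by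
      simpa using Nat.mul_le_mul_left q.natDegree (natDegree_C_mul_X_pow_le (R : ℂ) 1)))
  rw [sum_over_range' _ (by simp) _ hd, e2] at e3
  simp only [comp_C_mul_X_coeff, norm_mul, norm_pow, Complex.norm_real, Real.norm_of_nonneg hR0.le]
    at e3
  refine le_trans ?_ e3
  rw [e1, mul_left_comm]
  exact mul_le_mul_of_nonneg_left (LiouAux.prod_le hρ hR _) (norm_nonneg _)

open Classical in
/-- Zero counting in a disc of radius `ρ < 1`. -/
theorem zc {ρ : ℝ} (hρ0 : 0 < ρ) (hρ1 : ρ < 1) (D : ℕ) : ∃ c : ℝ, 0 < c ∧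
    ∀ (P : ℤ[X]) (B : ℝ), P ≠ 0 → 1 ≤ B →
      (∀ i, |(P.coeff (i + P.natTrailingDegree) : ℝ)| ≤ B * ((i : ℝ) + 1) ^ D) →
      (Multiset.card ((P.map (Int.castRingHom ℂ)).roots.filter
        (fun z => z ≠ 0 ∧ ‖z‖ ≤ ρ)) : ℝ) ≤ c * (1 + log B) := by
  set R : ℝ := (1 + ρ) / 2 with hR
  have hR0 : 0 < R := by positivity
  have hR1 : R < 1 := by linarith
  have hρR : ρ < R := by linarith
  have hsum : Summable fun i : ℕ => ((i : ℝ) + 1) ^ D * R ^ i := by
    have h := (summable_nat_add_iff 1).2 (summable_pow_mul_geometric_of_norm_lt_one D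
      (r := R) (by rwa [Real.norm_of_nonneg hR0.le]))
    refine (h.mul_right R⁻¹).congr fun i => ?_
    push_cast
    field_simp
    ring
  set c0 : ℝ := ∑' i : ℕ, ((i : ℝ) + 1) ^ D * R ^ i
  have hc0 : 1 ≤ c0 := by
    simpa using hsum.le_tsum 0 fun i _ => by positivity
  have hL : 0 < log (R / ρ) := log_pos ((one_lt_div hρ0).2 hρR)
  have hc1 : 0 ≤ log c0 := log_nonneg hc0
  refine ⟨(1 + log c0) / log (R / ρ), by positivity, fun P B hP hB hc => ?_⟩
  have hB1 : 0 ≤ log B := log_nonneg hB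
  obtain ⟨Q, hQ⟩ : X ^ P.natTrailingDegree ∣ P :=
    X_pow_dvd_iff.2 fun d hd => coeff_eq_zero_of_lt_natTrailingDegree hd
  have hco : ∀ i, P.coeff (i + P.natTrailingDegree) = Q.coeff i := fun i => by
    conv_lhs => enter [1]; rw [hQ]
    exact coeff_X_pow_mul _ _ _
  have hQ0 : Q.coeff 0 ≠ 0 := by
    rw [← hco, zero_add]
    exact mt trailingCoeff_eq_zero.1 hP
  have hq : Q.map (Int.castRingHom ℂ) ≠ 0 := fun h => hQ0 (by simpa using congrArg (coeff · 0) h)
  have hroots : (P.map (Int.castRingHom ℂ)).roots.filter (fun z => z ≠ 0 ∧ ‖z‖ ≤ ρ) ≤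
      (Q.map (Int.castRingHom ℂ)).roots.filter (fun z => ‖z‖ ≤ ρ) := by
    rw [hQ, Polynomial.map_mul, Polynomial.map_pow, map_X,
      roots_mul (mul_ne_zero (pow_ne_zero _ X_ne_zero) hq), roots_X_pow, Multiset.filter_add,
      Multiset.filter_eq_nil.2 (fun z hz => by simp [Multiset.mem_of_mem_nsmul hz |> Multiset.mem_singleton.1]),
      zero_add]
    exact Multiset.monotone_filter_right _ fun z hz => hz.2
  have h1 := LiouAux.count_le hρ0 hρR.le (Q.map (Int.castRingHom ℂ))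
  set N := Multiset.card ((Q.map (Int.castRingHom ℂ)).roots.filter (fun z => ‖z‖ ≤ ρ))
  have h2 : (1 : ℝ) ≤ ‖(Q.map (Int.castRingHom ℂ)).coeff 0‖ := by
    rw [coeff_map, eq_intCast, Complex.norm_intCast]
    exact_mod_cast Int.one_le_abs hQ0
  have h3 : ∑ i ∈ Finset.range ((Q.map (Int.castRingHom ℂ)).natDegree + 1),
      ‖(Q.map (Int.castRingHom ℂ)).coeff i‖ * R ^ i ≤ B * c0 := by
    refine le_trans ?_ (mul_le_mul_of_nonneg_left
      (hsum.sum_le_tsum (Finset.range ((Q.map (Int.castRingHom ℂ)).natDegree + 1))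
        fun i _ => by positivity) (by linarith))
    rw [Finset.mul_sum]
    refine Finset.sum_le_sum fun i _ => ?_
    rw [coeff_map, eq_intCast, Complex.norm_intCast, ← hco, ← mul_assoc]
    exact mul_le_mul_of_nonneg_right (hc i) (by positivity)
  have h4 : (R / ρ) ^ N ≤ B * c0 :=
    (le_mul_of_one_le_right (by positivity) h2).trans (h1.trans h3)
  have h5 := log_le_log (by positivity) h4
  rw [log_pow, log_mul (by positivity) (by positivity)] at h5
  refine le_trans (b := (N : ℝ)) (by exact_mod_cast Multiset.card_le_card hroots) ?_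
  rw [div_mul_eq_mul_div, le_div_iff₀ hL]
  nlinarith [mul_nonneg hc1 hB1]

theorem ordAt_le {ρ : ℝ} (hρ0 : 0 < ρ) (hρ1 : ρ < 1) (D : ℕ) : ∃ c : ℝ, 0 < c ∧
    ∀ (P : ℤ[X]) (B : ℝ), P ≠ 0 → 1 ≤ B →
      (∀ i, |(P.coeff (i + P.natTrailingDegree) : ℝ)| ≤ B * ((i : ℝ) + 1) ^ D) →
      ∀ η : ℂ, η ≠ 0 → ‖η‖ ≤ ρ → (ordAt η P : ℝ) ≤ c * (1 + log B) := by
  classical
  obtain ⟨c, hc, h⟩ := zc hρ0 hρ1 D
  refine ⟨c, hc, fun P B hP hB hco η h0 h1 => le_trans ?_ (h P B hP hB hco)⟩
  rw [ordAt, ← count_roots, Nat.cast_le,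
    ← Multiset.count_filter_of_pos (p := fun z : ℂ => z ≠ 0 ∧ ‖z‖ ≤ ρ) ⟨h0, h1⟩]
  exact Multiset.count_le_card _ _

theorem LiouAux.mahler_le (P : ℤ[X]) : (P.map (Int.castRingHom ℂ)).mahlerMeasure ≤ l1 P := by
  refine (mahlerMeasure_le_sum_norm_coeff _).trans (le_of_eq ?_)
  rw [Polynomial.sum_def, support_map_of_injective _ (Int.castRingHom ℂ).injective_int, l1]
  simp

theorem LiouAux.exists_factor {η : ℂ} {P₀ : ℤ[X]} (h0 : P₀ ≠ 0) (hroot : aeval η P₀ = 0) :
    ∃ f : ℤ[X], Irreducible f ∧ f ∣ P₀ ∧ aeval η f = 0 := by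
  induction P₀ using WfDvdMonoid.induction_on_irreducible with
  | zero => exact absurd rfl h0
  | unit u hu => exact absurd hroot (hu.map (aeval η : ℤ[X] →ₐ[ℤ] ℂ)).ne_zero
  | mul a i ha hi ih =>
    rw [map_mul, mul_eq_zero] at hroot
    rcases hroot with h | h
    · exact ⟨i, hi, dvd_mul_right _ _, h⟩
    · obtain ⟨f, h1, h2, h3⟩ := ih ha h
      exact ⟨f, h1, h2.mul_left _, h3⟩

theorem LiouAux.res_ne {η : ℂ} {f P : ℤ[X]} (hirr : Irreducible f) (hf : aeval η f = 0)
    (hP : aeval η P ≠ 0) : resultant f P ≠ 0 := by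
  have hd : f.natDegree ≠ 0 := fun h => by
    rw [eq_C_of_natDegree_eq_zero h] at hf hirr
    exact hirr.ne_zero (by simpa using hf)
  have h1 := (IsPrimitive.Int.irreducible_iff_irreducible_map_cast (hirr.isPrimitive hd)).1 hirr
  have hev : ∀ Q : ℤ[X], aeval η (Q.map (Int.castRingHom ℚ)) = aeval η Q := fun Q =>
    aeval_map_algebraMap ℚ η Q
  have h2 : IsCoprime (f.map (Int.castRingHom ℚ)) (P.map (Int.castRingHom ℚ)) := by
    refine h1.coprime_iff_not_dvd.2 fun ⟨S, hS⟩ => hP ?_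
    rw [← hev, hS, map_mul, hev, hf, zero_mul]
  have h3 := resultant_ne_zero _ _ h2
  have hinj := (Int.castRingHom ℚ).injective_int
  rw [resultant_map_map, natDegree_map_eq_of_injective hinj,
    natDegree_map_eq_of_injective hinj] at h3
  exact fun h => h3 (by rw [h, map_zero])

/-- Liouville inequality. -/
theorem liou {η : ℂ} {P₀ P : ℤ[X]} (h0 : P₀ ≠ 0) (hroot : aeval η P₀ = 0)
    (hP : aeval η P ≠ 0) :
    1 ≤ ‖aeval η P‖ * l1 P ^ P₀.natDegree * l1 P₀ ^ P.natDegree := by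
  obtain ⟨f, hirr, ⟨S, hS⟩, hf⟩ := LiouAux.exists_factor h0 hroot
  have hP0 : P ≠ 0 := fun h => hP (by rw [h, map_zero])
  have hS0 : S ≠ 0 := fun h => h0 (by rw [hS, h, mul_zero])
  have hinj := (Int.castRingHom ℂ).injective_int
  have hev : ∀ (Q : ℤ[X]) (z : ℂ), (Q.map (Int.castRingHom ℂ)).eval z = aeval z Q :=
    fun Q z => by rw [aeval_def, eval_map, algebraMap_int_eq]
  have hr := resultant_eq_prod_eval (f.map (Int.castRingHom ℂ)) (P.map (Int.castRingHom ℂ))
    P.natDegree natDegree_map_le (IsAlgClosed.splits _)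
  rw [resultant_map_map, natDegree_map_eq_of_injective hinj] at hr
  have h1 : (1 : ℝ) ≤ ‖Int.castRingHom ℂ (resultant f P)‖ := by
    rw [eq_intCast, Complex.norm_intCast]
    exact_mod_cast Int.one_le_abs (LiouAux.res_ne hirr hf hP)
  have hm := mahlerMeasure_eq_leadingCoeff_mul_prod_roots (f.map (Int.castRingHom ℂ))
  have hcard := (IsAlgClosed.splits (f.map (Int.castRingHom ℂ))).natDegree_eq_card_roots
  obtain ⟨s, hs⟩ := Multiset.exists_cons_of_mem ((mem_roots
    ((Polynomial.map_ne_zero_iff hinj).2 hirr.ne_zero)).2 ((hev f η).trans hf))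
  rw [hs, Multiset.map_cons, Multiset.prod_cons] at hr hm
  rw [hs, Multiset.card_cons, natDegree_map_eq_of_injective hinj] at hcard
  rw [hr, norm_mul, norm_mul, norm_pow, hev] at h1
  have h2 : ‖(s.map (P.map (Int.castRingHom ℂ)).eval).prod‖ ≤
      l1 P ^ Multiset.card s * (s.map fun a => max 1 ‖a‖).prod ^ P.natDegree := by
    clear hr hm hs hcard h1
    induction s using Multiset.induction_on with
    | empty => simp
    | cons a s ih =>
      rw [Multiset.map_cons, Multiset.map_cons, Multiset.prod_cons, Multiset.prod_cons, norm_mul,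
        hev, Multiset.card_cons]
      refine (mul_le_mul (LiouAux.norm_aeval_le P a) ih (norm_nonneg _)
        (mul_nonneg (l1_nonneg _) (by positivity))).trans (le_of_eq ?_)
      ring
  have hs1 : 0 ≤ (s.map fun a => max 1 ‖a‖).prod :=
    Multiset.prod_map_nonneg fun _ _ => by positivity
  have h3 : ‖(f.map (Int.castRingHom ℂ)).leadingCoeff‖ * (s.map fun a => max 1 ‖a‖).prod ≤
      l1 P₀ := by
    refine le_trans ?_ (LiouAux.mahler_le P₀)
    rw [hS, Polynomial.map_mul, mahlerMeasure_mul]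
    refine le_trans ?_ (le_mul_of_one_le_right (mahlerMeasure_nonneg _)
      (one_le_mahlerMeasure_of_ne_zero hS0))
    rw [hm]
    exact mul_le_mul_of_nonneg_left (le_mul_of_one_le_left hs1 (le_max_left _ _)) (norm_nonneg _)
  have h4 : l1 P ^ Multiset.card s ≤ l1 P ^ P₀.natDegree :=
    pow_le_pow_right₀ (one_le_l1 hP0) (by
      have := natDegree_le_of_dvd ⟨S, hS⟩ h0
      omega)
  calc (1 : ℝ) ≤ _ := h1
    _ ≤ ‖(f.map (Int.castRingHom ℂ)).leadingCoeff‖ ^ P.natDegree * (‖aeval η P‖ *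
        (l1 P ^ P₀.natDegree * (s.map fun a => max 1 ‖a‖).prod ^ P.natDegree)) := by
      gcongr
      exact h2.trans (mul_le_mul_of_nonneg_right h4 (by positivity))
    _ = ‖aeval η P‖ * l1 P ^ P₀.natDegree * (‖(f.map (Int.castRingHom ℂ)).leadingCoeff‖ *
        (s.map fun a => max 1 ‖a‖).prod) ^ P.natDegree := by ring
    _ ≤ _ := by
      have := l1_nonneg P
      gcongr

end

end Vale.Agent.P114
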