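import Vale.Agent.P114.Elim
import Vale.Agent.P114.Liou

/-! # P114: the limit of deep configurations has smaller rank -/

open MeasureTheory Real Set Polynomial
open scoped ENNReal

namespace Vale.Agent.P114

noncomputable section

variable {Λ : Type*} [Fintype Λ]

namespace D1LimitAux

/-- Agreement of all coefficients below `N`. -/
def Agr (N : ℕ) (y z : Λ → PowerSeries ℤ) : Prop :=
  ∀ l, ∀ i < N, PowerSeries.coeff i (y l) = PowerSeries.coeff i (z l)

lemma agr_iff (N : ℕ) (f g : PowerSeries ℤ) :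
    (∀ i < N, PowerSeries.coeff i f = PowerSeries.coeff i g) ↔
      Ideal.Quotient.mk (Ideal.span {PowerSeries.X ^ N}) f =
        Ideal.Quotient.mk (Ideal.span {PowerSeries.X ^ N}) g := by
  simp only [Ideal.Quotient.eq, Ideal.mem_span_singleton, PowerSeries.X_pow_dvd_iff, map_sub,
    sub_eq_zero]

omit [Fintype Λ] in
lemma agr_minor {N k : ℕ} {y z : Fin k → Λ → PowerSeries ℤ} (h : ∀ i, Agr N (y i) (z i))
    (e : Fin k → Λ) :
    ∀ n < N, PowerSeries.coeff n (minor y e) = PowerSeries.coeff n (minor z e) := by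
  simp only [agr_iff, map_minor, fun i l => (agr_iff _ _ _).1 (h i l)]

lemma agr_sum {N : ℕ} {y z : Λ → PowerSeries ℤ} (q : Λ → PowerSeries ℤ) (h : Agr N y z) :
    ∀ n < N, PowerSeries.coeff n (∑ l, q l * y l) = PowerSeries.coeff n (∑ l, q l * z l) := by
  rw [agr_iff]
  simp only [map_sum, map_mul, fun l => (agr_iff _ _ _).1 (h l)]

lemma bd_prod {ι : Type*} (s : Finset ι) {f : ι → PowerSeries ℤ}
    (h : ∀ i n, |PowerSeries.coeff n (f i)| ≤ 2) (n : ℕ) :
    |((PowerSeries.coeff n (∏ i ∈ s, f i) : ℤ) : ℝ)| ≤ 2 ^ s.card * ((n : ℝ) + 1) ^ s.card := by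
  classical
  induction s using Finset.induction_on generalizing n with
  | empty =>
    simp only [Finset.prod_empty, PowerSeries.coeff_one]
    split_ifs <;> simp
  | insert a s ha ih =>
    rw [Finset.prod_insert ha, Finset.card_insert_of_notMem ha, PowerSeries.coeff_mul, Int.cast_sum]
    refine (Finset.abs_sum_le_sum_abs _ _).trans ((Finset.sum_le_card_nsmul _ _
      (2 * (2 ^ s.card * ((n : ℝ) + 1) ^ s.card)) fun p hp => ?_).trans_eq ?_)
    · rw [Int.cast_mul, abs_mul]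
      refine mul_le_mul (by exact_mod_cast h a p.1) ((ih p.2).trans ?_) (abs_nonneg _) zero_le_two
      gcongr
      exact Finset.HasAntidiagonal.mem_antidiagonal.1 hp ▸ Nat.le_add_left _ _
    · simp only [Finset.Nat.card_antidiagonal, nsmul_eq_mul]
      push_cast
      ring

omit [Fintype Λ] in
lemma bd_minor {k : ℕ} {y : Fin k → Λ → PowerSeries ℤ}
    (h : ∀ i l n, |PowerSeries.coeff n (y i l)| ≤ 2) (e : Fin k → Λ) (n : ℕ) :
    |((PowerSeries.coeff n (minor y e) : ℤ) : ℝ)| ≤ k.factorial * 2 ^ k * ((n : ℝ) + 1) ^ k := by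
  rw [minor, Matrix.det_apply, map_sum, Int.cast_sum, mul_assoc]
  refine (Finset.abs_sum_le_sum_abs _ _).trans ((Finset.sum_le_card_nsmul _ _
    (2 ^ k * ((n : ℝ) + 1) ^ k) fun σ _ => ?_).trans_eq (by simp [Fintype.card_perm]))
  have := bd_prod Finset.univ (fun i => h (σ i) (e i)) n
  rcases Int.units_eq_one_or (Equiv.Perm.sign σ) with h | h <;> simpa [h] using this

/-- The limit configuration. -/
def Rinf (U : Ultrafilter ℕ) (R : ℕ → Set (Λ → ℤ[X])) : Set (Λ → PowerSeries ℤ) :=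
  {y | ∀ N, ∀ᶠ A in U, ∃ z ∈ R A, Agr N (toPS z) y}

lemma extend (U : Ultrafilter ℕ) {R : ℕ → Set (Λ → ℤ[X])}
    (hR2 : ∀ A, ∀ y ∈ R A, ∀ l i, |(y l).coeff i| ≤ 2) (N : ℕ) :
    ∀ᶠ A in U, ∀ z ∈ R A, ∃ y ∈ Rinf U R, Agr N (toPS z) y := by
  by_contra hn
  rw [← Ultrafilter.eventually_not] at hn
  push Not at hn
  obtain ⟨z, hz⟩ := hn.choice
  have h1 : ∀ l i, ∃ c ∈ Icc (-2 : ℤ) 2, ∀ᶠ A in U, (z A l).coeff i = c := fun l i =>
    (U.eventually_exists_mem_iff (finite_Icc _ _)).1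
      (hz.mono fun A hA => ⟨_, abs_le.1 (hR2 A _ hA.1 l i), rfl⟩)
  choose c _ hc using h1
  have h2 : ∀ M, ∀ᶠ A in U, Agr M (toPS (z A)) fun l => PowerSeries.mk (c l) := fun M =>
    Filter.eventually_all.2 fun l => (Filter.eventually_all_finite (finite_lt_nat M)).2
      fun i _ => (hc l i).mono fun A hA => by simpa [toPS] using hA
  obtain ⟨A, h3, h4⟩ := (hz.and (h2 N)).exists
  exact h3.2 _ (fun M => (hz.and (h2 M)).mono fun A hA => ⟨_, hA.1.1, hA.2⟩) h4

open Classical in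
/-- Cofactors along the first row. -/
def qq {k : ℕ} (b : Fin k → Λ → PowerSeries ℤ) (e : Fin (k + 1) → Λ) (l : Λ) : PowerSeries ℤ :=
  ∑ j : Fin (k + 1), if e j = l then (-1) ^ (j : ℕ) * minor b (fun i => e (j.succAbove i)) else 0

lemma qq_sum {k : ℕ} (b : Fin k → Λ → PowerSeries ℤ) (e : Fin (k + 1) → Λ)
    (y : Λ → PowerSeries ℤ) :
    ∑ l, qq b e l * y l = minor (Fin.cons y b : Fin (k + 1) → Λ → PowerSeries ℤ) e := by
  simp only [qq, Finset.sum_mul, ite_mul, zero_mul]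
  rw [Finset.sum_comm, minor, Matrix.det_succ_row_zero]
  refine Finset.sum_congr rfl fun j _ => ?_
  rw [Finset.sum_eq_single (e j) (fun l _ h => if_neg h.symm) (by simp), if_pos rfl,
    mul_right_comm]
  rfl

/-- The common kernel of the functionals `q e`. -/
def ker {E : Type*} (q : E → Λ → PowerSeries ℤ) :
    Submodule (PowerSeries ℤ) (Λ → PowerSeries ℤ) where
  carrier := {y | ∀ e, ∑ l, q e l * y l = 0}
  add_mem' ha hb e := by simp [mul_add, Finset.sum_add_distrib, ha e, hb e]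
  zero_mem' e := by simp
  smul_mem' a y hy e := by simp [mul_left_comm _ a, ← Finset.mul_sum, hy e]

lemma nice_ker {E : Type*} (q : E → Λ → PowerSeries ℤ) : Nice (ker q) := by
  refine ⟨fun a y ha h e => ?_, fun y h e => PowerSeries.ext fun n => ?_⟩
  · simpa [mul_left_comm _ a, ← Finset.mul_sum, ha] using h e
  · obtain ⟨z, hz, hzy⟩ := h (n + 1)
    rw [← agr_sum (q e) hzy n n.lt_succ_self, hz e]

end D1LimitAux

theorem d1_limit {K : Submodule (PowerSeries ℤ) (Λ → PowerSeries ℤ)} (hK : Nice K) {ρ : ℝ}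
    (hρ0 : 0 < ρ) (hρ1 : ρ < 1) (R : ℕ → Set (Λ → ℤ[X])) (η : ℕ → ℂ)
    (hR2 : ∀ A, ∀ y ∈ R A, ∀ l i, |(y l).coeff i| ≤ 2) (hRK : ∀ A, ∀ y ∈ R A, toPS y ∈ K)
    (hη0 : ∀ A, η A ≠ 0) (hη : ∀ A, ‖η A‖ ≤ ρ) (hdeep : ∀ A, Deep (η A) A (R A)) :
    ∃ K' : Submodule (PowerSeries ℤ) (Λ → PowerSeries ℤ), Nice K' ∧ K' ≤ K ∧
      rk (K' : Set (Λ → PowerSeries ℤ)) < rk (K : Set (Λ → PowerSeries ℤ)) ∧
      ∃ (k : ℕ) (q : (Fin k → Λ) → Λ → PowerSeries ℤ) (B : ℝ) (D : ℕ),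
        (∀ e l n, |((PowerSeries.coeff n (q e l) : ℤ) : ℝ)| ≤ B * ((n : ℝ) + 1) ^ D) ∧
        (∀ y, y ∈ K' ↔ ∀ e, ∑ l, q e l * y l = 0) ∧
        ∀ N1 A0 : ℕ, ∃ A, A0 ≤ A ∧ ∀ y ∈ R A, ∀ e, ∀ n < N1,
          PowerSeries.coeff n (∑ l, q e l * toPS y l) = 0 := by
  classical
  set U : Ultrafilter ℕ := Filter.hyperfilter ℕ with hU
  have hUt : (U : Filter ℕ) ≤ Filter.atTop := Nat.hyperfilter_le_atTop
  obtain ⟨k', -, hk'⟩ := (U.eventually_exists_mem_iff (P := fun k A => rk (R A) = k)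
    (finite_le_nat (Fintype.card Λ))).1 (.of_forall fun A => ⟨_, rk_le_card _, rfl⟩)
  set Ri := D1LimitAux.Rinf U R with hRi
  have hiK : ∀ y ∈ Ri, y ∈ K := fun y hy => hK.closed y fun N => by
    obtain ⟨A, z, hz, h⟩ := (hy N).exists
    exact ⟨_, hRK A z hz, h⟩
  have hi2 : ∀ y ∈ Ri, ∀ l n, |PowerSeries.coeff n (y l)| ≤ 2 := fun y hy l n => by
    obtain ⟨A, z, hz, h⟩ := (hy (n + 1)).exists
    rw [← h l n n.lt_succ_self, toPS, Polynomial.coeff_coe]
    exact hR2 A z hz l n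
  obtain ⟨b, hb, e₀, he₀⟩ := rk_mem Ri
  have hlt : rk Ri < k' := by
    by_contra hn
    obtain ⟨y, hy, e, he⟩ := rkSet_down (rk_mem Ri) (not_lt.1 hn)
    obtain ⟨N, hN⟩ := not_forall.1 fun h => he (PowerSeries.ext h)
    obtain ⟨c, -, hc⟩ := ordAt_le hρ0 hρ1 k'
    obtain ⟨A, h1, h2, h3⟩ := (hk'.and ((Filter.eventually_all.2 fun i => hy i (N + 1)).and
      (hUt ((tendsto_natCast_atTop_atTop (R := ℝ)).eventually_gt_atTop
        (c * (1 + log (k'.factorial * 2 ^ k' * ((N : ℝ) + 1) ^ k'))))))).exists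
    subst h1
    choose z hz hzy using h2
    have e1 := map_minor (Polynomial.coeToPowerSeries.ringHom (R := ℤ)) z e
    have e2 : (minor z e).coeff N ≠ 0 := by
      rw [← Polynomial.coeff_coe, ← Polynomial.coeToPowerSeries.ringHom_apply, e1]
      exact fun h => hN ((D1LimitAux.agr_minor hzy e N N.lt_succ_self).symm.trans h)
    have e3 : minor z e ≠ 0 := fun h => e2 (by rw [h, coeff_zero])
    have e4 : (1 : ℝ) ≤ (rk (R A)).factorial * 2 ^ rk (R A) * ((N : ℝ) + 1) ^ rk (R A) :=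
      one_le_mul_of_one_le_of_one_le (one_le_mul_of_one_le_of_one_le
        (by exact_mod_cast Nat.factorial_pos _) (one_le_pow₀ one_le_two))
        (one_le_pow₀ (by linarith [Nat.cast_nonneg (α := ℝ) N]))
    refine absurd ((Nat.cast_le.2 (hdeep A z hz e e3)).trans
      (hc _ _ e3 e4 (fun i => ?_) _ (hη0 A) (hη A))) (not_le.2 h3)
    rw [← Polynomial.coeff_coe, ← Polynomial.coeToPowerSeries.ringHom_apply, e1]
    refine (D1LimitAux.bd_minor (fun j l n => ?_) e _).trans ?_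
    · rw [Polynomial.coeToPowerSeries.ringHom_apply, Polynomial.coeff_coe]
      exact hR2 A _ (hz j) l n
    · rw [mul_assoc _ (((N : ℝ) + 1) ^ _), ← mul_pow]
      have : ((minor z e).natTrailingDegree : ℝ) ≤ N :=
        Nat.cast_le.2 (natTrailingDegree_le_of_ne_zero e2)
      gcongr
      push_cast
      nlinarith [Nat.cast_nonneg (α := ℝ) N, Nat.cast_nonneg (α := ℝ) i]
  have hle : k' ≤ rk (K : Set (Λ → PowerSeries ℤ)) := by
    obtain ⟨A, rfl⟩ := hk'.exists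
    obtain ⟨y, hy, e, he⟩ := rk_mem (R A)
    refine le_rk ⟨fun i => toPS (y i), fun i => hRK A _ (hy i), e, fun h => he ?_⟩
    exact Polynomial.coe_injective ℤ
      ((map_minor (Polynomial.coeToPowerSeries.ringHom (R := ℤ)) y e).trans (h.trans (by simp)))
  have hcr : ∀ z ∈ D1LimitAux.ker (D1LimitAux.qq b), ∃ c : Fin (rk Ri) → PowerSeries ℤ,
      ∀ l, minor b e₀ * z l = ∑ i, c i * b i l := fun z hz =>
    ⟨_, cramer_cons z b (fun e => (D1LimitAux.qq_sum b e z).symm.trans (hz e)) e₀⟩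
  refine ⟨D1LimitAux.ker (D1LimitAux.qq b), D1LimitAux.nice_ker _, fun z hz => ?_,
    (rk_le_of_span b fun z hz => ⟨_, he₀, hcr z hz⟩).trans_lt (hlt.trans_le hle), _,
    D1LimitAux.qq b, (rk Ri + 1 : ℕ) * ((rk Ri).factorial * 2 ^ rk Ri), rk Ri, fun e l n => ?_,
    fun y => Iff.rfl, fun N1 A0 => ?_⟩
  · obtain ⟨c, hc⟩ := hcr z hz
    refine hK.sat _ z he₀ ?_
    rw [show minor b e₀ • z = ∑ i, c i • b i from funext fun l => by simpa using hc l]
    exact K.sum_mem fun i _ => K.smul_mem _ (hiK _ (hb i))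
  · rw [D1LimitAux.qq, map_sum, Int.cast_sum, mul_assoc]
    refine (Finset.abs_sum_le_sum_abs _ _).trans ((Finset.sum_le_card_nsmul _ _
      ((rk Ri).factorial * 2 ^ rk Ri * ((n : ℝ) + 1) ^ rk Ri) fun j _ => ?_).trans_eq (by simp))
    split_ifs
    · rcases neg_one_pow_eq_or (PowerSeries ℤ) j with h | h <;>
        simpa [h] using D1LimitAux.bd_minor (fun j => hi2 _ (hb j)) _ n
    · simp only [map_zero, Int.cast_zero, abs_zero]
      positivity
  · obtain ⟨A, h1, h2⟩ :=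
      ((D1LimitAux.extend U hR2 N1).and (hUt (Filter.eventually_ge_atTop A0))).exists
    refine ⟨A, h2, fun y hy e n hn => ?_⟩
    obtain ⟨w, hw, h⟩ := h1 y hy
    rw [D1LimitAux.agr_sum _ h n hn, D1LimitAux.qq_sum,
      minor_eq_zero_of_rk_lt (R := Ri) (Nat.lt_succ_self _) (Fin.cases hw hb), map_zero]

end

end Vale.Agent.P114
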