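import Vale.Agent.P114.GoodBase
import Vale.Agent.P114.Block
import Vale.Agent.P114.D1Limit
import Vale.Agent.P114.AuxSys

/-! # P114: little entropy is left beyond a deep threshold -/

open MeasureTheory Real Set Polynomial
open scoped ENNReal

namespace Vale.Agent.P114

noncomputable section

variable {Λ : Type*} [Fintype Λ]

namespace D1Aux

lemma card_le_four {T : Finset (ℤ × ℤ)}
    (h : ∀ c ∈ T, ∀ c' ∈ T, |c.1 - c'.1| ≤ 1 ∧ |c.2 - c'.2| ≤ 1) : T.card ≤ 4 := by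
  rcases T.eq_empty_or_nonempty with rfl | hT
  · simp
  obtain ⟨a, ha, ha'⟩ := T.exists_min_image Prod.fst hT
  obtain ⟨b, hb, hb'⟩ := T.exists_min_image Prod.snd hT
  refine (Finset.card_le_card (t := {a.1, a.1 + 1} ×ˢ {b.2, b.2 + 1}) fun c hc => ?_).trans ?_
  · have h1 := abs_le.1 (h c hc a ha).1
    have h2 := abs_le.1 (h c hc b hb).2
    have h3 := ha' c hc
    have h4 := hb' c hc
    simp only [Finset.mem_product, Finset.mem_insert, Finset.mem_singleton]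
    omega
  · rw [Finset.card_product]
    exact Nat.mul_le_mul Finset.card_le_two Finset.card_le_two

lemma close_of_cell {s u a b : ℝ} (h : cell s u a = cell s u b) : |a - b| ≤ exp (-s) := by
  have := (Int.abs_sub_lt_one_of_floor_eq_floor h).le
  rwa [add_sub_add_right_eq_sub, ← sub_mul, abs_mul, abs_exp, ← le_div_iff₀ (exp_pos s),
    one_div, ← exp_neg] at this

lemma cell_close {s u a b : ℝ} (h : |a - b| ≤ exp (-s)) : |cell s u a - cell s u b| ≤ 1 := by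
  rw [exp_neg, ← one_div, le_div_iff₀ (exp_pos s), ← abs_exp s, ← abs_mul, sub_mul, abs_le] at h
  have h1 : cell s u a ≤ cell s u b + 1 := by
    rw [cell, cell, ← Int.floor_add_one]
    exact Int.floor_mono (by linarith [h.2])
  have h2 : cell s u b ≤ cell s u a + 1 := by
    rw [cell, cell, ← Int.floor_add_one]
    exact Int.floor_mono (by linarith [h.1])
  exact abs_le.2 ⟨by omega, by omega⟩

lemma le_chi (sh : Shape Λ) {x : ℝ} (hx : x ∈ Ioo (0 : ℝ) 1) (t : Λ → ℝ) :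
    -log x ≤ (sh.ifs x hx t).chi := by
  have h0 : 0 ≤ -log x := neg_nonneg.2 (log_nonpos hx.1.le hx.2.le)
  rw [← one_mul (-log x), ← sh.p_sum, Finset.sum_mul]
  refine Finset.sum_le_sum fun i _ => mul_le_mul_of_nonneg_left ?_ (sh.p_pos i).le
  have h1 : |(sh.sg i : ℝ)| = 1 := by rcases sh.sg_sq i with h | h <;> simp [h]
  have h2 : (1 : ℝ) ≤ sh.a i := by exact_mod_cast sh.a_pos i
  simp only [Shape.ifs]
  rw [abs_mul, h1, one_mul, abs_of_pos (pow_pos hx.1 _), log_pow]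
  nlinarith

lemma pin (F : IFS Λ) {ε s : ℝ} {m : ℕ} {u y y' : List Λ} (hy : u ++ y ∈ F.typ ε m)
    (hs : (F.chi + ε) * m ≤ s) (h : |F.tw (u ++ y) - F.tw (u ++ y')| ≤ exp (-s)) :
    |F.tw y - F.tw y'| ≤ exp (-(ε / 2 * m)) := by
  have h1 := (Finset.mem_filter.1 hy).2
  have h0 := abs_pos.2 (F.rw_ne_zero u)
  rw [F.tw_append, F.tw_append, add_sub_add_right_eq_sub, ← mul_sub, abs_mul, ← le_div_iff₀' h0,
    ← exp_log h0, ← exp_sub] at h
  rw [F.chiw_append, IFS.chiw] at h1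
  exact h.trans (exp_le_exp.2 (by linarith [F.chiw_nonneg y]))

end D1Aux

/-- The pinning estimate: if suffixes of words in one class and one cell are close for both
systems, then the entropy left is small. -/
theorem Rm_le_of_pin {β β' : Type*} (F F' : IFS Λ) (ex : List Λ → β) (ex' : List Λ → β')
    (happ : ∀ v v' y y' : List Λ, (cls ex v, F.tw v) = (cls ex v', F.tw v') →
      (cls ex y, F.tw y) = (cls ex y', F.tw y') →
      (cls ex (v ++ y), F.tw (v ++ y)) = (cls ex (v' ++ y'), F.tw (v' ++ y')))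
    (href : ∀ v v' : List Λ, cls ex' v = cls ex' v' → ex v = ex v') {ε : ℝ} (hε : 0 < ε) :
    ∃ C : ℝ, ∀ (N : ℕ), 1 ≤ N → ∀ (s₁ s₂ Jv : ℝ),
      (∀ L, Jv ≤ entW (words Λ (N + L)) (pw F.p)
          (fun y => (cell s₂ 0 (F'.tw y), cell s₁ 0 (F.tw y))) -
        condW (words Λ (N + L)) (pw F.p)
          (fun y => (cell s₂ 0 (F'.tw y), cell s₁ 0 (F.tw y))) (fun y => y.take N)) →
      ∀ (m : ℕ) (s : ℝ),
        (∀ u y y' : List Λ, u ++ y ∈ F.typ ε m → u ++ y' ∈ F.typ ε m →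
          cls ex (u ++ y) = cls ex (u ++ y') → |F.tw (u ++ y) - F.tw (u ++ y')| ≤ exp (-s) →
          |F.tw y - F.tw y'| ≤ exp (-s₁) ∧ |F'.tw y - F'.tw y'| ≤ exp (-s₂)) →
        F.Rm ex ε m s ≤ (m / N : ℕ) *
          (entW (words Λ N) (pw F.p) (fun v => (cls ex' v, F.tw v)) - Jv + log 4) +
          N * log (Fintype.card Λ) + C := by
  classical
  obtain ⟨C, -, hC⟩ := F.exists_ent_atyp hε
  refine ⟨log 2 + C, fun N hN s₁ s₂ Jv hJ m s hpin => ?_⟩
  have hm := Nat.div_add_mod m N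
  have h1 : entW (F.typ ε m) (pw F.p) (fun w => (F.tw w, cls ex w)) ≤
      (m / N : ℕ) * entW (words Λ N) (pw F.p) (fun v => (cls ex' v, F.tw v)) +
        N * log (Fintype.card Λ) := by
    have a := entW_words_blocks_le F.p_pos F.p_sum _ happ N (m / N) (m % N)
    rw [hm] at a
    refine (entW_le_of_subset (F.typ_subset ε m) (LevelAux.hw F _) _).trans
      ((entW_congr (Y := fun v => (cls ex v, F.tw v)) _ fun _ _ _ _ => by
        simp only [Prod.mk.injEq, and_comm]).trans_le (a.trans (add_le_add ?_ ?_)))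
    · refine mul_le_mul_of_nonneg_left (entW_mono (LevelAux.hw F _) fun v _ v' _ h => ?_)
        (Nat.cast_nonneg _)
      obtain ⟨h1, h2⟩ := Prod.mk.inj h
      exact Prod.ext (Prod.ext (Prod.mk.inj h1).1 (href v v' h1)) h2
    · exact mul_le_mul_of_nonneg_right (Nat.cast_le.2 (Nat.mod_lt m hN).le) (log_natCast_nonneg _)
  have h2 : ∀ u₀ : ℝ, (m / N : ℕ) * (Jv - log 4) ≤ log 2 +
      entW (F.typ ε m) (pw F.p) (fun w => (cell s u₀ (F.tw w), cls ex w)) + C := by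
    intro u₀
    set Z : List Λ → (ℤ × Multiset Λ × β) ⊕ List Λ := fun w =>
      if w ∈ F.typ ε m then .inl (cell s u₀ (F.tw w), cls ex w) else .inr w with hZ
    have a := block_lower F.p_pos F.p_sum N (m % N) _ Jv hJ (m / N) Z fun b u _ _ z => by
      refine D1Aux.card_le_four fun c hc c' hc' => ?_
      obtain ⟨y, hy, rfl⟩ := mem_img.1 hc
      obtain ⟨y', hy', rfl⟩ := mem_img.1 hc'
      have e := (mem_fib.1 hy).2.trans (mem_fib.1 hy').2.symm
      simp only [hZ] at e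
      split_ifs at e with k k'
      · obtain ⟨e1, e2⟩ := Prod.mk.inj (Sum.inl.inj e)
        obtain ⟨p1, p2⟩ := hpin u y y' k k' e2 (D1Aux.close_of_cell e1)
        exact ⟨D1Aux.cell_close p2, D1Aux.cell_close p1⟩
      · simp [List.append_cancel_left (Sum.inr.inj e)]
    rw [hm] at a
    have b := entW_le_split (LevelAux.hw F (words Λ m)) Z
      fun w => F.chiw w ≤ (F.chi + ε / 2) * m
    rw [sum_pw F.p_sum, one_mul] at b
    refine a.trans (b.trans (add_le_add (add_le_add le_rfl (le_of_eq ?_))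
      ((entW_le_ent (LevelAux.hw F _) _).trans (hC m))))
    refine entW_congr _ fun w hw w' hw' => ?_
    simp only [hZ, if_pos (show w ∈ F.typ ε m from hw), if_pos (show w' ∈ F.typ ε m from hw'),
      Sum.inl.injEq]
  have h3 := intervalIntegral.integral_mono_on zero_le_one
    (intervalIntegrable_const (c := (m / N : ℕ) * (Jv - log 4) - log 2 - C -
      entW (F.typ ε m) (pw F.p) (cls ex))) (F.intervalIntegrable_condW_cell ex ε m s)
    fun u _ => by
      rw [condW]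
      linarith [h2 u]
  rw [← F.Hm_eq_integral, intervalIntegral.integral_const, sub_zero, one_smul] at h3
  rw [IFS.Rm, IFS.Hinf, condW]
  linarith

theorem Shape.d1 (sh : Shape Λ) {x : ℝ} (hx : x ∈ Ioo (0 : ℝ) 1) (t : Λ → ℝ)
    {K : Submodule (PowerSeries ℤ) (Λ → PowerSeries ℤ)} (hK : Nice K)
    (IH : ∀ K' : Submodule (PowerSeries ℤ) (Λ → PowerSeries ℤ), Nice K' →
      rk (K' : Set (Λ → PowerSeries ℤ)) < rk (K : Set (Λ → PowerSeries ℤ)) →
      (sh.ifs x hx t).PP (sh.exK K'))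
    {ρ : ℝ} (hρ0 : 0 < ρ) (hρ1 : ρ < 1) {ε δ : ℝ} (hε : 0 < ε) (hδ : 0 < δ) :
    ∃ A m0 : ℕ, ∀ m, m0 ≤ m → ∀ η : ℂ, η ≠ 0 → ‖η‖ ≤ ρ → ∀ s,
      ((sh.ifs x hx t).chi + ε) * m ≤ s → Deep η A (sh.RR x t K m s) →
      (sh.ifs x hx t).Rm (sh.exK K) ε m s ≤ δ * m := by
  by_contra hn
  push Not at hn
  choose m hm η hη0 hη s hs hdeep hlt using fun A => hn A A
  have ha : ∀ i, sh.a i ≤ Finset.univ.sup sh.a := fun i => Finset.le_sup (Finset.mem_univ i)
  obtain ⟨K', hK', hle, hrk, k, q, B, D, hq, hmem, hA⟩ := d1_limit hK hρ0 hρ1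
    (fun A => sh.RR x t K (m A) (s A)) η
    (fun A y hy l => (sh.small_of_mem_RR t K ha hy l).2)
    (fun A y hy => sh.toPS_mem_of_mem_RR t K hy) hη0 hη hdeep
  obtain ⟨x₀, hx₀, hx₁, hgood, t', hker, happ⟩ := exists_aux q B D hq
    (x₁ := ((Fintype.card Λ : ℝ) + 1)⁻¹) (by positivity)
  set F := sh.ifs x hx t with hF
  set F' := sh.ifs x₀ hx₀ t' with hF'
  have hχ := F'.chi_pos
  obtain ⟨μ, _, hμ⟩ := F'.exists_selfSim
  obtain ⟨α, C', hα0, hα1, -, hsl⟩ := F'.exists_slope hμ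
  have hα : α < 1 := by
    have h1 := F'.slope_chi_le hμ hsl
    have h2 := log_lt_log hx₀.1 hx₁
    have h3 : log (Fintype.card Λ) ≤ log (Fintype.card Λ + 1) :=
      haveI := F.nonempty
      log_le_log (by exact_mod_cast Fintype.card_pos) (by linarith)
    rw [log_inv] at h2
    exact lt_of_mul_lt_mul_right (by linarith [D1Aux.le_chi sh hx₀ t']) hχ.le
  obtain ⟨ε', hε0, hε1, hε2⟩ : ∃ ε' : ℝ, 0 < ε' ∧ ε' ≤ 1 ∧ (F'.chi + 9) * ε' ≤ δ / 2 :=
    ⟨min 1 (δ / 2 / (F'.chi + 9)), by positivity, min_le_left _ _,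
      (le_div_iff₀' (by positivity)).1 (min_le_right _ _)⟩
  obtain ⟨N₁, hN₁⟩ := F'.Rm_small hμ hsl hα0 hα1 (sh.thmM_good hx₀ hgood t' hμ hsl hα0 hα) hε0 hε1
  obtain ⟨N₂, hN₂⟩ := two_cells F F' rfl (sh.exK K') (fun v v' _ => by
    rw [sh.exK_eq_iff, hmem, ← hker, ev_sub, sub_eq_zero, sh.tw_ifs, sh.tw_ifs]) hε0
  obtain ⟨N, hN, hR⟩ := IH K' hK' hrk ε' hε0 ε' hε0 (N₁ + N₂ + ⌈log 4 / ε'⌉₊ + 1)
  have h4 : log 4 ≤ ε' * N :=
    (div_le_iff₀' hε0).1 (Nat.ceil_le.1 (by omega))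
  obtain ⟨C, hC⟩ := Rm_le_of_pin F F' (sh.exK K) (sh.exK K') (sh.triple_append hx t K)
    (fun v v' h => (sh.exK_eq_iff K v v').2
      (hle ((sh.exK_eq_iff K' v v').1 (congrArg Prod.snd h)))) hε
  obtain ⟨N1, hN1⟩ := happ (exp (-((F'.chi + ε') * N))) (exp_pos _)
  obtain ⟨A, hA0, hA1⟩ := hA N1
    (⌈(F.chi + ε') * N / (ε / 2)⌉₊ + ⌈(N * log (Fintype.card Λ) + C) / (δ / 2)⌉₊)
  have hmA := hm A
  have k1 : (F.chi + ε') * N ≤ ε / 2 * m A :=
    (div_le_iff₀' (by positivity)).1 (Nat.ceil_le.1 (by omega))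
  have k2 : N * log (Fintype.card Λ) + C ≤ δ / 2 * m A :=
    (div_le_iff₀' (by positivity)).1 (Nat.ceil_le.1 (by omega))
  have k3 := hC N (by omega) _ _ _ (hN₂ N (by omega)) (m A) (s A) fun u y y' h1 _ h2 h3 => by
    refine ⟨(D1Aux.pin F h1 (hs A) h3).trans (exp_le_exp.2 (neg_le_neg k1)), ?_⟩
    have hy := sh.sub_mem_RR hx t K hK u y y' (mem_words.1 (F.typ_subset _ _ h1)) h2 h3
    rw [sh.tw_ifs, sh.tw_ifs, ← ev_sub]
    exact hN1 _ (fun l => (sh.small_of_mem_RR t K ha hy l).2) (hA1 _ hy)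
  have k4 : ((m A / N : ℕ) : ℝ) * N ≤ m A := by exact_mod_cast Nat.div_mul_le_self _ _
  have k5 := mul_le_mul_of_nonneg_right hε2 (Nat.cast_nonneg (α := ℝ) N)
  have k6 := mul_le_mul_of_nonneg_left (show F.Rm (sh.exK K') ε' N ((F.chi + ε') * N) +
    F'.Rm (fun _ => ()) ε' N ((F'.chi + ε') * N) + 3 * ε' * N + log 4 ≤ δ / 2 * N by
      linarith [hN₁ N (by omega)]) (Nat.cast_nonneg (α := ℝ) (m A / N))
  linarith [hlt A, mul_le_mul_of_nonneg_left k4 (half_pos hδ).le]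

end

end Vale.Agent.P114
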