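import Vale.Agent.P114.XWords

/-! # P114: windows in the lattice case (W2 and the non-deep thresholds) -/

open MeasureTheory Real Set Polynomial
open scoped ENNReal

namespace Vale.Agent.P114

noncomputable section

variable {Λ : Type*} [Fintype Λ] {β : Type*}

namespace D2Aux

open Filter

theorem ev_fz (a b : ℝ) : ∃ m0 : ℕ, ∀ m : ℕ, m0 ≤ m → 2 ≤ m ∧ a * m + b ≤ fz m := by
  have h := (tendsto_log_atTop.comp tendsto_natCast_atTop_atTop).eventually_ge_atTop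
    (max 1 (|a| + |b|))
  obtain ⟨m0, hm0⟩ := eventually_atTop.1 h
  refine ⟨max m0 2, fun m hm => ⟨le_trans (le_max_right _ _) hm, ?_⟩⟩
  have h1 := hm0 m (le_trans (le_max_left _ _) hm)
  simp only [Function.comp] at h1
  have h2 : (1 : ℝ) ≤ m := by exact_mod_cast le_trans (by omega) (le_trans (le_max_right _ _) hm)
  have h3 : log m ≤ log m ^ 5 := le_self_pow₀ (le_trans (le_max_left _ _) h1) (by norm_num)
  have h4 : |a| + |b| ≤ log m ^ 5 := (le_trans (le_max_right _ _) h1).trans h3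
  have h5 := mul_le_mul_of_nonneg_left h4 (show (0 : ℝ) ≤ m by linarith)
  rw [fz]
  nlinarith [le_abs_self a, le_abs_self b, abs_nonneg a, abs_nonneg b]

theorem fz_nonneg (m : ℕ) : 0 ≤ fz m :=
  mul_nonneg (Nat.cast_nonneg _) (pow_nonneg (log_natCast_nonneg m) _)

/-- Differences of formal translation vectors of level `m`. -/
def DD (sh : Shape Λ) (m : ℕ) : Set (Λ → ℤ[X]) :=
  {y | ∃ w w' : List Λ, w.length = m ∧ w'.length = m ∧ y = sh.XW w - sh.XW w'}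

theorem small_DD (sh : Shape Λ) {a : ℕ} (ha : ∀ i, sh.a i ≤ a) {m : ℕ} {y : Λ → ℤ[X]}
    (hy : y ∈ DD sh m) : Small (a * m) y := by
  obtain ⟨w, w', h1, h2, rfl⟩ := hy
  exact sh.small_XW_sub ha h1.le h2.le

theorem VV_subset (sh : Shape Λ) {x : ℝ} (hx : x ∈ Ioo (0 : ℝ) 1) (t : Λ → ℝ)
    (ex : List Λ → β) (m : ℕ) : (sh.ifs x hx t).VV ex m ⊆
      {v | ∃ y ∈ DD sh m, ∑ l, (aeval x : ℤ[X] →ₐ[ℤ] ℝ).toRingHom (y l) * t l ≠ 0 ∧
        v = -log |∑ l, (aeval x : ℤ[X] →ₐ[ℤ] ℝ).toRingHom (y l) * t l|} := by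
  rintro v ⟨w, hw, w', hw', -, hne, rfl⟩
  rw [sh.tw_ifs, sh.tw_ifs] at hne ⊢
  rw [← ev_sub]
  refine ⟨_, ⟨w, w', mem_words.1 hw, mem_words.1 hw', rfl⟩, ?_, rfl⟩
  change ev x t _ ≠ 0
  rw [ev_sub]
  exact sub_ne_zero.2 hne

theorem log_card_le : log (Fintype.card Λ) ≤ Fintype.card Λ :=
  log_le_self (Nat.cast_nonneg _)

/-- Covering by windows from clusters and progressions. -/
theorem cov_of_clusters {V : Set ℝ} {d A : ℕ} {L γ e : ℝ} (hγ : 0 < γ) (κ : ℝ → ℕ)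
    (hκ : ∀ v, κ v ≤ d) (hL : ∀ v ∈ V, ∀ s ∈ V, κ v = κ s → |v - s| ≤ L) (Y : Finset ℝ)
    (hY : Y.card ≤ d + 1) (hV : ∀ v ∈ V, ∃ y ∈ Y, ∃ j : ℤ, |v - y - j * γ| ≤ e)
    (hle : L + e ≤ (A + 2) * γ) : Cov V ((d + 1) * ((d + 1) * (2 * A + 6))) e := by
  classical
  have : ∀ k : ℕ, ∃ s : ℝ, ∀ v ∈ V, κ v = k → |v - s| ≤ L := by
    intro k
    by_cases h : ∃ s ∈ V, κ s = k
    · obtain ⟨s, hs, rfl⟩ := h
      exact ⟨s, fun v hv hk => hL v hv s hs hk⟩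
    · exact ⟨0, fun v hv hk => (h ⟨v, hv, hk⟩).elim⟩
  choose s hs using this
  refine ⟨(Finset.range (d + 1)).biUnion fun k => Y.biUnion fun y =>
    (Finset.Icc (⌊(s k - y) / γ⌋ - (A + 2)) (⌊(s k - y) / γ⌋ + (A + 3))).image
      fun j : ℤ => y + j * γ, ?_, fun v hv => ?_⟩
  · refine (Finset.card_biUnion_le_card_mul _ _ _ fun k _ => ?_).trans
      (by rw [Finset.card_range])
    refine (Finset.card_biUnion_le_card_mul _ _ (2 * A + 6) fun y _ => ?_).trans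
      (Nat.mul_le_mul_right _ hY)
    refine Finset.card_image_le.trans ?_
    rw [Int.card_Icc]
    omega
  · obtain ⟨y, hy, j, hj⟩ := hV v hv
    refine ⟨y + j * γ, ?_, by rwa [← sub_sub]⟩
    refine Finset.mem_biUnion.2 ⟨κ v, Finset.mem_range.2 (Nat.lt_succ_of_le (hκ v)),
      Finset.mem_biUnion.2 ⟨y, hy, Finset.mem_image.2 ⟨j, ?_, rfl⟩⟩⟩
    have h1 := abs_le.1 (hs _ v hv rfl)
    have h2 := abs_le.1 hj
    have h3 := Int.floor_le ((s (κ v) - y) / γ)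
    have h4 := Int.lt_floor_add_one ((s (κ v) - y) / γ)
    have h5 : (s (κ v) - y) / γ - (A + 2) ≤ j := by
      rw [sub_le_iff_le_add, div_le_iff₀ hγ]
      linarith [h1.1, h2.2]
    have h6 : (j : ℝ) ≤ (s (κ v) - y) / γ + (A + 2) := by
      rw [← sub_le_iff_le_add, le_div_iff₀ hγ]
      linarith [h1.2, h2.1]
    rw [Finset.mem_Icc]
    constructor
    · have : ((⌊(s (κ v) - y) / γ⌋ - (A + 2) : ℤ) : ℝ) ≤ j := by push_cast; linarith
      exact_mod_cast this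
    · have : (j : ℝ) ≤ ((⌊(s (κ v) - y) / γ⌋ + (A + 3) : ℤ) : ℝ) := by push_cast; linarith
      exact_mod_cast this

end D2Aux

open D2Aux

namespace Shape

variable (sh : Shape Λ) {x : ℝ} (hx : x ∈ Ioo (0 : ℝ) 1) (t : Λ → ℝ) {a C : ℕ}
  (ha : ∀ i, sh.a i ≤ a)
  (hC : ∀ m : ℕ, 2 ≤ m → ∀ (k : ℕ) (y : Fin k → Λ → ℤ[X]), (∀ i, Small (a * m) (y i)) →
    ∀ e : Fin k → Λ, InB C m (minor y e))

include ha hC in
/-- Windows under the first alternative. -/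
theorem w2_of_alt1 : ∃ m0 : ℕ, ∀ m, m0 ≤ m → Alt1 x C m → ∀ ex : List Λ → β,
    W2 ((sh.ifs x hx t).VV ex m) (Fintype.card Λ) 0 1 (fz m) := by
  obtain ⟨m0, hm0⟩ := ev_fz 0 (2 * Fintype.card Λ)
  refine ⟨m0, fun m hm h1 ex => ?_⟩
  obtain ⟨hm2, hm3⟩ := hm0 m hm
  have hf := fz_nonneg m
  refine (w2_generic (aeval x : ℤ[X] →ₐ[ℤ] ℝ).toRingHom t (DD sh m) (fun _ => 0) (J := 0) (γ := 1)
    (e := fz m / 9) le_rfl (by linarith) fun k y hy e' hne => ⟨by simp, ?_⟩).mono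
    (VV_subset sh hx t ex m) le_rfl (by linarith [log_card_le (Λ := Λ)])
  rw [Nat.cast_zero, zero_mul, sub_zero, abs_neg]
  exact h1 _ (hC m hm2 k y (fun i => small_DD sh ha (hy i)) e') hne

include ha hC in
/-- Windows under the second alternative. -/
theorem w2_of_alt2 {C' : ℝ} (hC' : 0 ≤ C') : ∃ m0 : ℕ, ∀ m, m0 ≤ m → ∀ (η : ℂ) (γ : ℝ),
    Alt2 x C C' m η γ → ∀ ex : List Λ → β,
    W2 ((sh.ifs x hx t).VV ex m) (Fintype.card Λ) (C' * log m) γ (fz m) := by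
  obtain ⟨m0, hm0⟩ := ev_fz 0 (2 * Fintype.card Λ)
  refine ⟨m0, fun m hm η γ h2 ex => ?_⟩
  obtain ⟨hm2, hm3⟩ := hm0 m hm
  have hf := fz_nonneg m
  refine (w2_generic (aeval x : ℤ[X] →ₐ[ℤ] ℝ).toRingHom t (DD sh m) (ordAt η) (J := C' * log m)
    (γ := γ) (e := fz m / 9) (mul_nonneg hC' (log_natCast_nonneg m)) (by linarith)
    fun k y hy e' hne => ?_).mono
    (VV_subset sh hx t ex m) le_rfl (by linarith [log_card_le (Λ := Λ)])
  exact (h2 _ (hC m hm2 k y (fun i => small_DD sh ha (hy i)) e')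
    (fun h => hne (by rw [h, map_zero]))).2

include hx ha hC in
theorem d2_gap (K : Submodule (PowerSeries ℤ) (Λ → PowerSeries ℤ)) {C' : ℝ} (A : ℕ) {m : ℕ}
    (hm : 2 ≤ m) {η : ℂ} {γ : ℝ} (hγ : 0 < γ) (h2 : Alt2 x C C' m η γ) {v s : ℝ}
    (hv : v ∈ (sh.ifs x hx t).VV (sh.exK K) m) (hs : ¬ Deep η A (sh.RR x t K m s))
    (hvs : v ≤ s) (hk : rk (sh.RR x t K m v) = rk (sh.RR x t K m s)) :
    s - v ≤ A * γ + fz m / 9 + ((C + a * (-log x)) * m + Fintype.card Λ) := by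
  simp only [Deep, not_forall, not_le] at hs
  obtain ⟨y, hy, e, hne, hord⟩ := hs
  obtain ⟨z, hz, hz0, hzv⟩ := sh.exists_RR_of_mem_VV hx t K hv
  have hmem : ∀ i, (Fin.cons z y : Fin (rk (sh.RR x t K m s) + 1) → Λ → ℤ[X]) i ∈
      sh.RR x t K m v := by
    intro i
    refine Fin.cases ?_ (fun i => ?_) i
    · exact hz
    · exact sh.RR_anti t K hvs (hy i)
  have hcr := cramer_cons z y (fun e' => minor_eq_zero_of_rk_lt (by omega) hmem e') e
  have hev : aeval x (minor y e) * ev x t z = ∑ i : Fin (rk (sh.RR x t K m s)), (-1) ^ (i : ℕ) *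
      aeval x (minor (fun j => (Fin.cons z y : Fin (rk (sh.RR x t K m s) + 1) → Λ → ℤ[X])
        (i.succ.succAbove j)) e) * ev x t (y i) := by
    simp only [ev, Finset.mul_sum]
    rw [Finset.sum_comm]
    refine Finset.sum_congr rfl fun l _ => ?_
    rw [← mul_assoc, ← map_mul, hcr, map_sum, Finset.sum_mul]
    refine Finset.sum_congr rfl fun i _ => ?_
    simp only [map_mul, map_pow, map_neg, map_one, mul_assoc]
  obtain ⟨h3, -, h4⟩ := h2 _ (hC m hm _ y (fun i => sh.small_of_mem_RR t K ha (hy i)) e) hne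
  have hm0 : (0 : ℝ) ≤ m := Nat.cast_nonneg _
  have hb : |aeval x (minor y e)| * |ev x t z| ≤
      exp (Fintype.card Λ) * (exp (C * m) * exp (-s + a * m * (-log x))) := by
    rw [← abs_mul, hev]
    refine (Finset.abs_sum_le_sum_abs _ _).trans ?_
    refine (Finset.sum_le_card_nsmul _ _ (exp (C * m) * exp (-s + a * m * (-log x)))
      fun i _ => ?_).trans ?_
    · rw [abs_mul, abs_mul, abs_pow, abs_neg, abs_one, one_pow, one_mul]
      refine mul_le_mul ?_ (sh.abs_ev_le_of_mem_RR hx t K ha (hy i)) (abs_nonneg _) (exp_pos _).le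
      refine (abs_aeval_le_l1 _ (abs_le.2 ⟨by linarith [hx.1], hx.2.le⟩)).trans ?_
      refine (hC m hm _ _ (fun j => sh.small_of_mem_RR t K ha (hmem _)) e).2.trans ?_
      rw [exp_nat_mul]
      exact pow_le_pow_left₀ hm0 (by linarith [add_one_le_exp (m : ℝ)]) _
    · rw [nsmul_eq_mul, Finset.card_univ, Fintype.card_fin]
      refine mul_le_mul_of_nonneg_right ?_ (by positivity)
      have : (rk (sh.RR x t K m s) : ℝ) ≤ Fintype.card Λ := Nat.cast_le.2 (rk_le_card _)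
      linarith [add_one_le_exp (Fintype.card Λ : ℝ)]
  rw [← exp_log (abs_pos.2 h3), ← exp_log (abs_pos.2 hz0), ← exp_add, ← exp_add, ← exp_add,
    exp_le_exp] at hb
  have h5 := (abs_le.1 h4).2
  have h6 : (ordAt η (minor y e) : ℝ) * γ ≤ A * γ :=
    mul_le_mul_of_nonneg_right (Nat.cast_le.2 hord.le) hγ.le
  linarith

include ha hC in
/-- Values that are not deep thresholds lie in boundedly many windows. -/
theorem d2 (K : Submodule (PowerSeries ℤ) (Λ → PowerSeries ℤ)) {C' : ℝ} (hC' : 0 ≤ C') (A : ℕ) :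
    ∃ D0 m0 : ℕ, ∀ m, m0 ≤ m → ∀ (η : ℂ) (γ : ℝ), 0 < γ → Alt2 x C C' m η γ →
      Cov {v | v ∈ (sh.ifs x hx t).VV (sh.exK K) m ∧ ¬ Deep η A (sh.RR x t K m v)} D0
        (2 * fz m) := by
  obtain ⟨m0, hm0⟩ := ev_fz (2 * (C + a * (-log x))) (2 * Fintype.card Λ + 1)
  obtain ⟨m1, hm1⟩ := sh.w2_of_alt2 (β := (Λ → PowerSeries ℤ) ⧸ K) hx t ha hC hC'
  refine ⟨(Fintype.card Λ + 1) * ((Fintype.card Λ + 1) * (2 * A + 6)), max m0 m1,
    fun m hm η γ hγ h2 => ?_⟩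
  obtain ⟨hm2, hm3⟩ := hm0 m (le_trans (le_max_left _ _) hm)
  have hlx : 0 ≤ -log x := neg_nonneg.2 (log_nonpos hx.1.le hx.2.le)
  have hf : 0 < fz m := lt_of_lt_of_le (by positivity) hm3
  have hL : ∀ v ∈ {v | v ∈ (sh.ifs x hx t).VV (sh.exK K) m ∧ ¬ Deep η A (sh.RR x t K m v)},
      ∀ s ∈ {v | v ∈ (sh.ifs x hx t).VV (sh.exK K) m ∧ ¬ Deep η A (sh.RR x t K m v)},
      rk (sh.RR x t K m v) = rk (sh.RR x t K m s) → |v - s| ≤ A * γ + fz m := by
    intro v hv s hs hk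
    rcases le_total v s with h | h
    · have := sh.d2_gap hx t ha hC K A hm2 hγ h2 hv.1 hs.2 h hk
      rw [abs_sub_comm, abs_of_nonneg (sub_nonneg.2 h)]
      linarith
    · have := sh.d2_gap hx t ha hC K A hm2 hγ h2 hs.1 hv.2 h hk.symm
      rw [abs_of_nonneg (sub_nonneg.2 h)]
      linarith
  have hA : (0 : ℝ) ≤ A := Nat.cast_nonneg _
  refine Cov.mono (e := fz m) ?_ subset_rfl le_rfl (by linarith)
  rcases le_total γ (fz m) with h | h
  · refine cov_of_clusters hf (fun v => rk (sh.RR x t K m v)) (fun v => rk_le_card _) hL {0}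
      (by simp) (fun v _ => ⟨0, by simp, ⌊v / fz m⌋, ?_⟩) (by nlinarith)
    have h3 := Int.floor_le (v / fz m)
    have h4 := Int.lt_floor_add_one (v / fz m)
    rw [le_div_iff₀ hf] at h3
    rw [div_lt_iff₀ hf] at h4
    rw [abs_le]
    constructor <;> linarith
  · obtain ⟨Y, hY, hV⟩ := hm1 m (le_trans (le_max_right _ _) hm) η γ h2 (sh.exK K)
    refine cov_of_clusters hγ (fun v => rk (sh.RR x t K m v)) (fun v => rk_le_card _) hL Y
      (by omega) (fun v hv => ?_) (by nlinarith)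
    obtain ⟨y, hy, j, -, hj⟩ := hV v hv.1
    exact ⟨y, hy, j, hj⟩

end Shape

end

end Vale.Agent.P114
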