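import Vale.Agent.P114.HsConv

/-! # P114: mass distribution principle and the one step exponential moment -/

open MeasureTheory Real Set Metric Filter
open scoped ENNReal NNReal Topology

namespace Vale.Agent.P114.DimLowAux

noncomputable section

variable {Ω β : Type*}

theorem ball_bound (μ : Measure ℝ) [IsFiniteMeasure μ] {L b : ℝ} (hL : 0 < L) (hb : 0 < b)
    {x : ℝ} {N₀ : ℕ}
    (hx : ∀ N : ℕ, N₀ ≤ N → μ.real (closedBall x (exp (-(N * L)))) ≤ exp (-(b * (N * L))))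
    {δ : ℝ} (h0 : 0 ≤ δ) (h1 : δ ≤ exp (-(N₀ * L))) :
    exp (-(b * L)) * μ.real (closedBall x δ) ≤ δ ^ b := by
  rcases h0.eq_or_lt with h0 | h0
  · subst h0
    have h2 : Tendsto (fun N : ℕ => exp (-(b * (N * L)))) atTop (𝓝 0) :=
      tendsto_exp_neg_atTop_nhds_zero.comp
        ((tendsto_natCast_atTop_atTop.atTop_mul_const hL).const_mul_atTop hb)
    have h3 : μ.real (closedBall x 0) ≤ 0 := by
      refine ge_of_tendsto h2 ?_
      filter_upwards [eventually_ge_atTop N₀] with N hN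
      exact (measureReal_mono (closedBall_subset_closedBall (exp_pos _).le)).trans (hx N hN)
    rw [zero_rpow hb.ne']
    exact mul_nonpos_of_nonneg_of_nonpos (exp_pos _).le h3
  · have h2 : N₀ * L ≤ -log δ := by
      have h3 := log_le_log h0 h1
      rw [log_exp] at h3
      linarith only [h3]
    have h3 : 0 ≤ -log δ / L :=
      div_nonneg ((mul_nonneg (Nat.cast_nonneg _) hL.le).trans h2) hL.le
    have h4 : N₀ ≤ ⌊-log δ / L⌋₊ := Nat.le_floor ((le_div_iff₀ hL).2 h2)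
    have h5 : (⌊-log δ / L⌋₊ : ℝ) * L ≤ -log δ := (le_div_iff₀ hL).1 (Nat.floor_le h3)
    have h6 : -log δ < ((⌊-log δ / L⌋₊ : ℝ) + 1) * L :=
      (div_lt_iff₀ hL).1 (Nat.lt_floor_add_one _)
    have h7 := hx _ h4
    generalize (⌊-log δ / L⌋₊ : ℝ) = N at h5 h6 h7
    have h8 : δ ≤ exp (-(N * L)) := by
      rw [← exp_log h0]
      exact exp_le_exp.2 (by linarith only [h5])
    have h9 := (measureReal_mono (μ := μ) (closedBall_subset_closedBall (x := x) h8)).trans h7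
    refine (mul_le_mul_of_nonneg_left h9 (exp_pos _).le).trans ?_
    rw [← exp_add, rpow_def_of_pos h0]
    exact exp_le_exp.2 (by nlinarith only [h6, hb])

/-- Mass distribution principle along a geometric sequence of radii. -/
theorem mass_dist (μ : Measure ℝ) [IsFiniteMeasure μ] {L : ℝ} (hL : 0 < L) {b : ℝ≥0}
    (hb : 0 < b)
    (hs : ∑' N : ℕ, μ {x | exp (-(b * (N * L))) ≤ μ.real (closedBall x (exp (-(N * L))))} ≠ ∞) :
    (b : ℝ≥0∞) ≤ lowerDim μ := by
  refine le_iInf fun E => le_iInf fun hE => le_iInf fun hE0 => ?_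
  set B : ℕ → Set ℝ := fun N => toMeasurable μ
    {x | exp (-(b * (N * L))) ≤ μ.real (closedBall x (exp (-(N * L))))} with hB
  have h1 : ∀ᵐ x ∂μ, ∀ᶠ N in atTop, x ∉ B N :=
    ae_eventually_notMem (by simpa only [hB, measure_toMeasurable] using hs)
  set G : ℕ → Set ℝ := fun N₀ => ⋂ N, ⋂ (_ : N₀ ≤ N), (B N)ᶜ with hG
  have hGm : ∀ N₀, MeasurableSet (G N₀) := fun N₀ =>
    MeasurableSet.iInter fun N => MeasurableSet.iInter fun _ =>
      (measurableSet_toMeasurable _ _).compl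
  obtain ⟨N₀, hN₀⟩ : ∃ N₀, μ (E ∩ G N₀) ≠ 0 := by
    by_contra hc
    have h2 : μ (⋃ N₀, E ∩ G N₀) = 0 :=
      measure_iUnion_null_iff.2 fun N₀ => not_not.1 fun h => hc ⟨N₀, h⟩
    refine hE0.ne' (le_antisymm (le_trans (measure_mono_ae ?_) h2.le) zero_le)
    filter_upwards [h1] with x hx hxE
    obtain ⟨N₀, hN₀⟩ := eventually_atTop.1 hx
    exact mem_iUnion.2 ⟨N₀, hxE, mem_iInter₂.2 fun N hN => hN₀ N hN⟩
  have h2 : ENNReal.ofReal (exp (-(b * L))) • μ.restrict (G N₀) ≤ Measure.hausdorffMeasure b := by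
    refine Measure.le_hausdorffMeasure _ _ (ENNReal.ofReal (exp (-(N₀ * L))))
      (ENNReal.ofReal_pos.2 (exp_pos _)) fun s hs => ?_
    rw [Measure.smul_apply, Measure.restrict_apply' (hGm N₀), smul_eq_mul]
    rcases (s ∩ G N₀).eq_empty_or_nonempty with h0 | ⟨x, hxs, hxG⟩
    · rw [h0, measure_empty, mul_zero]
      exact zero_le
    have h3 : ediam s ≠ ∞ := ne_top_of_le_ne_top ENNReal.ofReal_ne_top hs
    have h4 : s ∩ G N₀ ⊆ closedBall x (diam s) := fun y hy =>
      dist_le_diam_of_mem' h3 hy.1 hxs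
    have h5 : diam s ≤ exp (-(N₀ * L)) := ENNReal.toReal_le_of_le_ofReal (exp_pos _).le hs
    have h6 := ball_bound μ hL (b := b) (NNReal.coe_pos.2 hb) (x := x) (N₀ := N₀)
      (fun N hN => le_of_not_ge fun h =>
        (mem_iInter₂.1 hxG N hN) (subset_toMeasurable _ _ h)) diam_nonneg h5
    calc ENNReal.ofReal (exp (-(b * L))) * μ (s ∩ G N₀)
        ≤ ENNReal.ofReal (exp (-(b * L))) * μ (closedBall x (diam s)) :=
          mul_le_mul_right (measure_mono h4) _
      _ = ENNReal.ofReal (exp (-(b * L)) * μ.real (closedBall x (diam s))) := by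
          rw [ENNReal.ofReal_mul (exp_pos _).le, ofReal_measureReal]
      _ ≤ ENNReal.ofReal (diam s ^ (b : ℝ)) := ENNReal.ofReal_le_ofReal h6
      _ = ediam s ^ (b : ℝ) := by
          rw [← ENNReal.ofReal_rpow_of_nonneg diam_nonneg b.coe_nonneg, diam, ENNReal.ofReal_toReal h3]
  refine le_dimH_of_hausdorffMeasure_ne_zero fun h0 => ?_
  have h3 := (Measure.le_iff'.1 h2 E).trans h0.le
  rw [Measure.smul_apply, Measure.restrict_apply hE, smul_eq_mul, nonpos_iff_eq_zero,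
    mul_eq_zero] at h3
  rcases h3 with h3 | h3
  · exact (ENNReal.ofReal_pos.2 (exp_pos _)).ne' h3
  · exact hN₀ h3

theorem exp_neg_le_quad {x : ℝ} (hx : 0 ≤ x) : exp (-x) ≤ 1 - x + x ^ 2 := by
  have h1 : 0 < 1 + x := by linarith only [hx]
  have h2 : exp (-x) ≤ (1 + x)⁻¹ := by
    rw [exp_neg]
    exact inv_anti₀ h1 (by linarith only [add_one_le_exp x])
  refine h2.trans ?_
  rw [inv_le_iff_one_le_mul₀' h1]
  nlinarith only [pow_nonneg hx 3]

/-- Exponential moment from the Gibbs inequality. -/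
theorem exp_moment {U : Finset Ω} {p : Ω → ℝ} (hp : ∀ u ∈ U, 0 ≤ p u) (hp1 : ∑ u ∈ U, p u = 1)
    (X : Ω → β) (Q : β → ℝ) {B H la : ℝ} (hQ0 : ∀ u ∈ U, exp (-B) ≤ Q (X u))
    (hQ1 : ∀ u ∈ U, Q (X u) ≤ 1) (hQ : ∑ k ∈ img U X, Q k ≤ 1) (hH : H ≤ entW U p X)
    (hla : 0 ≤ la) :
    ∑ u ∈ U, p u * Q (X u) ^ la ≤ exp (-(la * H) + la ^ 2 * B ^ 2) := by
  have hpos : ∀ u ∈ U, 0 < Q (X u) := fun u hu => (exp_pos _).trans_le (hQ0 u hu)
  have h1 := hH.trans (entW_le_gibbs hp X Q hpos hQ)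
  have h2 : ∀ u ∈ U, p u * Q (X u) ^ la ≤
      p u * (1 + la ^ 2 * B ^ 2) - la * (p u * (-log (Q (X u)))) := by
    intro u hu
    have h3 : 0 ≤ -log (Q (X u)) := neg_nonneg.2 (log_nonpos (hpos u hu).le (hQ1 u hu))
    have h4 : -log (Q (X u)) ≤ B := by
      have h5 := log_le_log (exp_pos _) (hQ0 u hu)
      rw [log_exp] at h5
      linarith only [h5]
    have h5 := exp_neg_le_quad (mul_nonneg hla h3)
    have h6 : (la * -log (Q (X u))) ^ 2 ≤ la ^ 2 * B ^ 2 := by
      rw [mul_pow]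
      exact mul_le_mul_of_nonneg_left (pow_le_pow_left₀ h3 h4 2) (sq_nonneg _)
    have h7 : Q (X u) ^ la = exp (-(la * -log (Q (X u)))) := by
      rw [rpow_def_of_pos (hpos u hu)]
      congr 1
      ring
    have h8 : Q (X u) ^ la ≤ 1 + la ^ 2 * B ^ 2 - la * -log (Q (X u)) := by
      linarith only [h5, h6, h7]
    have h9 := mul_le_mul_of_nonneg_left h8 (hp u hu)
    linarith only [h9]
  have h3 := Finset.sum_le_sum h2
  rw [Finset.sum_sub_distrib, ← Finset.sum_mul, hp1, one_mul, ← Finset.mul_sum] at h3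
  have h4 := mul_le_mul_of_nonneg_left h1 hla
  linarith only [h3, h4, add_one_le_exp (-(la * H) + la ^ 2 * B ^ 2)]

theorem cell_near {s a b : ℝ} {K : ℕ} (h : |a - b| ≤ K * exp (-s)) :
    cell s 0 a - cell s 0 b ∈ Finset.Icc (-(K : ℤ)) K := by
  have h0 : |a * exp s - b * exp s| ≤ K := by
    rw [← sub_mul, abs_mul, abs_of_pos (exp_pos s)]
    refine (mul_le_mul_of_nonneg_right h (exp_pos s).le).trans (le_of_eq ?_)
    rw [mul_assoc, ← exp_add, neg_add_cancel, exp_zero, mul_one]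
  obtain ⟨h1, h2⟩ := abs_le.1 h0
  have h3 : ⌊a * exp s⌋ ≤ ⌊b * exp s⌋ + K := by
    rw [← Int.floor_add_natCast]
    exact Int.floor_mono (by linarith only [h2])
  have h4 : ⌊b * exp s⌋ ≤ ⌊a * exp s⌋ + K := by
    rw [← Int.floor_add_natCast]
    exact Int.floor_mono (by linarith only [h1])
  simp only [cell, add_zero, Finset.mem_Icc]
  omega

theorem card_img_cell {U : Finset Ω} (x : Ω → ℝ) {s b : ℝ} {T : ℕ}
    (h : ∀ u ∈ U, |x u - b| ≤ T * exp (-s)) :
    (img U (fun u => cell s 0 (x u))).card ≤ 2 * T + 1 := by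
  have h1 : img U (fun u => cell s 0 (x u)) ⊆
      Finset.Icc (cell s 0 b - T) (cell s 0 b + T) := by
    intro k hk
    obtain ⟨u, hu, rfl⟩ := mem_img.1 hk
    have h2 := Finset.mem_Icc.1 (cell_near (h u hu))
    rw [Finset.mem_Icc]
    omega
  refine (Finset.card_le_card h1).trans ?_
  rw [Int.card_Icc]
  omega

/-- Mass of the cells near the cell `k`. -/
def nb (m : Measure ℝ) (s : ℝ) (K : ℕ) (k : ℤ) : ℝ :=
  ∑ i ∈ Finset.Icc (-(K : ℤ)) K, m.real (cell s 0 ⁻¹' {k + i})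

theorem nb_nonneg (m : Measure ℝ) (s : ℝ) (K : ℕ) (k : ℤ) : 0 ≤ nb m s K k :=
  Finset.sum_nonneg fun _ _ => measureReal_nonneg

theorem sum_nb_le (m : Measure ℝ) [IsFiniteMeasure m] (s : ℝ) (K : ℕ) (T : Finset ℤ) :
    ∑ k ∈ T, nb m s K k ≤ (2 * K + 1) * m.real univ := by
  unfold nb
  rw [Finset.sum_comm]
  have h1 : ∀ i ∈ Finset.Icc (-(K : ℤ)) K, ∑ k ∈ T,
      m.real (cell s 0 ⁻¹' {k + i}) ≤ m.real univ := by
    intro i _
    refine sum_measureReal_le_measureReal_univ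
      (fun k _ => measurable_cell s 0 (MeasurableSet.singleton _)) fun k _ k' _ hk => ?_
    refine Set.disjoint_left.2 fun y hy hy' => hk ?_
    have h2 : cell s 0 y = k + i := hy
    have h3 : cell s 0 y = k' + i := hy'
    omega
  refine (Finset.sum_le_card_nsmul _ _ _ h1).trans (le_of_eq ?_)
  have h2 : (Finset.Icc (-(K : ℤ)) K).card = 2 * K + 1 := by
    rw [Int.card_Icc]
    omega
  rw [h2, nsmul_eq_mul]
  push_cast
  rfl

theorem ball_le_nb (m : Measure ℝ) [IsFiniteMeasure m] (s : ℝ) (K : ℕ) (x : ℝ) :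
    m.real (closedBall x (K * exp (-s))) ≤ nb m s K (cell s 0 x) := by
  refine le_trans (measureReal_mono (fun y hy => ?_) (measure_ne_top _ _))
    (measureReal_biUnion_finset_le _ _)
  have h2 := cell_near (s := s) (mem_closedBall_iff_norm.1 hy)
  refine mem_biUnion (Finset.mem_coe.2 h2) ?_
  show cell s 0 y = _
  ring

theorem moment_of_weights {U : Finset Ω} {p : Ω → ℝ} (hp : ∀ u ∈ U, 0 ≤ p u)
    (hp1 : ∑ u ∈ U, p u = 1) (X : Ω → β) {a : β → ℝ} (ha : ∀ k, 0 ≤ a k) {c D H la : ℝ}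
    (hc : 0 < c) (hac : ∑ k ∈ img U X, a k ≤ c) (hD : ((img U X).card : ℝ) ≤ D)
    (hH : H ≤ entW U p X) (hla : 0 ≤ la) :
    ∑ u ∈ U, p u * a (X u) ^ la ≤
      (2 * c) ^ la * exp (-(la * H) + la ^ 2 * log (2 * D) ^ 2) := by
  have hD0 : 0 < D := by
    rcases U.eq_empty_or_nonempty with rfl | ⟨u, hu⟩
    · simp at hp1
    · have h1 : 0 < (img U X).card := Finset.card_pos.2 ⟨_, mem_img.2 ⟨u, hu, rfl⟩⟩
      exact (Nat.cast_pos.2 h1).trans_le hD
  have hc2 : 0 < 2 * c := by linarith only [hc]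
  have hD2 : 0 < 2 * D := by linarith only [hD0]
  have hQ0 : ∀ k, 1 / (2 * D) ≤ a k / (2 * c) + 1 / (2 * D) := fun k =>
    le_add_of_nonneg_left (div_nonneg (ha k) hc2.le)
  have hQs : ∑ k ∈ img U X, (a k / (2 * c) + 1 / (2 * D)) ≤ 1 := by
    rw [Finset.sum_add_distrib, ← Finset.sum_div, Finset.sum_const, nsmul_eq_mul]
    have h1 : (∑ k ∈ img U X, a k) / (2 * c) ≤ 1 / 2 := by
      rw [div_le_iff₀ hc2]
      linarith only [hac]
    have h2 : ((img U X).card : ℝ) * (1 / (2 * D)) ≤ 1 / 2 := by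
      rw [mul_one_div, div_le_iff₀ hD2]
      linarith only [hD]
    linarith only [h1, h2]
  have hQp : ∀ k, 0 ≤ a k / (2 * c) + 1 / (2 * D) := fun k =>
    le_trans (one_div_pos.2 hD2).le (hQ0 k)
  have h1 := exp_moment hp hp1 X (fun k => a k / (2 * c) + 1 / (2 * D)) (B := log (2 * D))
    (H := H) (fun u _ => by
      rw [exp_neg, exp_log hD2, ← one_div]
      exact hQ0 _)
    (fun u hu => (Finset.single_le_sum (f := fun k => a k / (2 * c) + 1 / (2 * D))
      (fun k _ => hQp k) (mem_img.2 ⟨u, hu, rfl⟩)).trans hQs) hQs hH hla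
  refine le_trans ?_ (mul_le_mul_of_nonneg_left h1 (rpow_nonneg hc2.le la))
  rw [Finset.mul_sum]
  refine Finset.sum_le_sum fun u hu => ?_
  have h3 : a (X u) ≤ 2 * c * (a (X u) / (2 * c) + 1 / (2 * D)) := by
    rw [← div_le_iff₀' hc2]
    exact le_add_of_nonneg_right (one_div_pos.2 hD2).le
  have h4 := rpow_le_rpow (ha _) h3 hla
  rw [mul_rpow hc2.le (hQp _)] at h4
  rw [mul_left_comm]
  exact mul_le_mul_of_nonneg_left h4 (hp u hu)

/-- One step of the moment recursion. -/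
theorem one_step (m : Measure ℝ) [IsFiniteMeasure m] {U : Finset Ω} {p : Ω → ℝ}
    (hp : ∀ u ∈ U, 0 ≤ p u) (hp1 : ∑ u ∈ U, p u = 1) (x : Ω → ℝ) (s : ℝ) (K : ℕ) {J : Set ℝ}
    (hJ : ∀ u ∈ U, closedBall (x u) (K * exp (-s)) ⊆ J) {D H la : ℝ}
    (hD : ((img U (fun u => cell s 0 (x u))).card : ℝ) ≤ D)
    (hH : H ≤ entW U p (fun u => cell s 0 (x u))) (hla : 0 < la) :
    ∑ u ∈ U, p u * m.real (closedBall (x u) (K * exp (-s))) ^ la ≤
      (2 * (2 * K + 1)) ^ la * exp (-(la * H) + la ^ 2 * log (2 * D) ^ 2) * m.real J ^ la := by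
  rcases (measureReal_nonneg (μ := m) (s := J)).eq_or_lt with hA | hA
  · rw [← hA, zero_rpow hla.ne', mul_zero]
    refine le_of_eq (Finset.sum_eq_zero fun u hu => ?_)
    have h1 : m.real (closedBall (x u) (K * exp (-s))) = 0 :=
      le_antisymm ((measureReal_mono (hJ u hu)).trans hA.ge) measureReal_nonneg
    rw [h1, zero_rpow hla.ne', mul_zero]
  have hK : (0 : ℝ) < 2 * K + 1 := by positivity
  have h1 := sum_nb_le (m.restrict J) s K (img U (fun u => cell s 0 (x u)))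
  rw [measureReal_restrict_apply_univ] at h1
  have h2 := moment_of_weights hp hp1 (fun u => cell s 0 (x u)) (nb_nonneg (m.restrict J) s K)
    (mul_pos hK hA) h1 hD hH hla.le
  rw [← mul_assoc, mul_rpow (mul_pos two_pos hK).le hA.le, mul_right_comm] at h2
  refine le_trans (Finset.sum_le_sum fun u hu => ?_) h2
  refine mul_le_mul_of_nonneg_left (rpow_le_rpow measureReal_nonneg ?_ hla.le) (hp u hu)
  have h3 := ball_le_nb (m.restrict J) s K (x u)
  rw [measureReal_restrict_apply measurableSet_closedBall, inter_eq_left.2 (hJ u hu)] at h3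
  exact h3

/-- The entropy of a mixture of small pieces is carried by the cells of the centres. -/
theorem Hs_le_entW {μ : Measure ℝ} (h : Good μ) [IsProbabilityMeasure μ] {R : ℝ} (hR : 0 ≤ R)
    (hμ : μ (Icc (-R) R)ᶜ = 0) {U : Finset Ω} {p : Ω → ℝ} (hp : ∀ u ∈ U, 0 ≤ p u)
    (hp1 : ∑ u ∈ U, p u = 1) (ρ x : Ω → ℝ) (s : ℝ) (hρ : ∀ u ∈ U, |ρ u| ≤ exp (-s)) :
    Hs (∑ u ∈ U, ENNReal.ofReal (p u) • μ.map (fun y => ρ u * y + x u)) s ≤
      entW U p (fun u => cell s 0 (x u)) + log (2 * R + 3) := by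
  have hg : ∀ u, Good (ENNReal.ofReal (p u) • μ.map (fun y => ρ u * y + x u)) := fun u =>
    (h.map_affine _ _).smul _
  have hg' : ∀ k, Good (∑ u ∈ fib U (fun u => cell s 0 (x u)) k,
      ENNReal.ofReal (p u) • μ.map (fun y => ρ u * y + x u)) := fun k => Good.sum fun u _ => hg u
  have hm : ∀ k, mss (∑ u ∈ fib U (fun u => cell s 0 (x u)) k,
      ENNReal.ofReal (p u) • μ.map (fun y => ρ u * y + x u)) =
      mass U p (fun u => cell s 0 (x u)) k := by
    intro k
    rw [mss_sum fun u _ => hg u, mass]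
    refine Finset.sum_congr rfl fun u hu => ?_
    rw [mss_smul _ (hp u (fib_subset _ _ _ hu)), mss_map_affine, mss_prob, mul_one]
  have he : exp (-s) * exp s = 1 := by rw [← exp_add, neg_add_cancel, exp_zero]
  have hd : ∀ k, Hs (∑ u ∈ fib U (fun u => cell s 0 (x u)) k,
      ENNReal.ofReal (p u) • μ.map (fun y => ρ u * y + x u)) s ≤
      mass U p (fun u => cell s 0 (x u)) k * log (2 * R + 3) := by
    intro k
    have h0 : ∀ u ∈ fib U (fun u => cell s 0 (x u)) k,
        (fun y => ρ u * y + x u) ⁻¹' (Icc ((k - R) * exp (-s))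
          ((k - R) * exp (-s) + (2 * R + 1) * exp (-s)))ᶜ ⊆ (Icc (-R) R)ᶜ := by
      intro u hu y hy hy'
      obtain ⟨hu, hk⟩ := mem_fib.1 hu
      refine hy ?_
      have h2 : |ρ u * y| ≤ R * exp (-s) := by
        rw [abs_mul, mul_comm]
        exact mul_le_mul (abs_le.2 hy') (hρ u hu) (abs_nonneg _) hR
      obtain ⟨h3, h4⟩ := abs_le.1 h2
      have h5 : ⌊x u * exp s⌋ = k := by simpa only [cell, add_zero] using hk
      have h6 := Int.floor_le (x u * exp s)
      have h7 := (Int.lt_floor_add_one (x u * exp s)).le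
      rw [h5] at h6 h7
      have h8 := mul_le_mul_of_nonneg_right h6 (exp_pos (-s)).le
      have h9 := mul_le_mul_of_nonneg_right h7 (exp_pos (-s)).le
      rw [mul_assoc, mul_comm (exp s), he, mul_one] at h8 h9
      constructor
      · linarith only [h3, h8]
      · linarith only [h4, h9]
    have h1 := Hs_le_diam (hg' k) (a := (k - R) * exp (-s)) (L := (2 * R + 1) * exp (-s))
      (by positivity) (by
        rw [Measure.finsetSum_apply]
        refine Finset.sum_eq_zero fun u hu => ?_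
        rw [Measure.smul_apply, Measure.map_apply (by fun_prop) measurableSet_Icc.compl,
          measure_mono_null (h0 u hu) hμ, smul_zero]) s
    rw [hm, mul_assoc, he, mul_one, add_assoc] at h1
    have h2 : (1 : ℝ) + 2 = 3 := by norm_num
    rw [h2] at h1
    exact h1
  rw [← sum_fib U (fun u => cell s 0 (x u))]
  refine (Hs_sum_le (fun k _ => hg' k) s).trans ?_
  simp only [hm]
  have h1 := Finset.sum_le_sum fun k (_ : k ∈ img U (fun u => cell s 0 (x u))) => hd k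
  rw [← Finset.sum_mul, sum_mass, hp1, one_mul] at h1
  exact add_le_add le_rfl h1

end

end Vale.Agent.P114.DimLowAux
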