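import Vale.Agent.P114.SelfSim
import Vale.Agent.P114.DimLowAux

/-! # P114: the Hausdorff dimension is at least the slope -/

open MeasureTheory Real Set Polynomial
open scoped ENNReal

namespace Vale.Agent.P114

noncomputable section

variable {Λ : Type*} [Fintype Λ]

namespace DimLowAux

open Metric

theorem abs_le_exp {ρ σ : ℝ} (hρ : ρ ≠ 0) (h : σ ≤ -log |ρ|) : |ρ| ≤ exp (-σ) := by
  rw [← exp_log (abs_pos.2 hρ)]
  exact exp_le_exp.2 (by linarith only [h])

/-- Splitting one affine image of the measure into its children. -/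
theorem exists_children (F : IFS Λ) {μ : Measure ℝ} (h : F.SelfSim μ) {cM L : ℝ}
    (hc : ∀ i, -log |F.r i| ≤ cM) (hL : cM ≤ L) {σ ρ : ℝ} (hρ : ρ ≠ 0)
    (h2 : -log |ρ| ≤ σ + cM) (b : ℝ) :
    ∃ U : Finset (List Λ), (∀ u ∈ U, σ + L ≤ -log |ρ * F.rw u| ∧
      -log |ρ * F.rw u| ≤ σ + L + cM) ∧ ∑ u ∈ U, pw F.p u = 1 ∧
      μ.map (fun y => ρ * y + b) = ∑ u ∈ U, ENNReal.ofReal (pw F.p u) •
        μ.map (fun y => ρ * F.rw u * y + (ρ * F.tw u + b)) := by
  obtain ⟨U, hU, hU1, hμ⟩ := F.exists_stop h hc (x := σ + L + log |ρ|) (by linarith only [hL, h2])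
  refine ⟨U, fun u hu => ?_, hU1, ?_⟩
  · have h3 := hU u hu
    unfold IFS.chiw at h3
    rw [abs_mul, log_mul (abs_ne_zero.2 hρ) (abs_ne_zero.2 (F.rw_ne_zero u))]
    constructor
    · linarith only [h3.1]
    · linarith only [h3.2]
  · have hm : Measurable (fun y : ℝ => ρ * y + b) := by fun_prop
    have h3 := congrArg (Measure.map (fun y : ℝ => ρ * y + b)) hμ
    rw [Measure.map_finset_sum hm.aemeasurable] at h3
    refine h3.trans (Finset.sum_congr rfl fun u _ => ?_)
    rw [Measure.map_smul, Measure.map_map hm (by fun_prop)]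
    congr 2
    funext y
    simp only [Function.comp]
    ring

theorem real_sum_smul {Ω : Type*} {U : Finset Ω} {p : Ω → ℝ} (hp : ∀ u ∈ U, 0 ≤ p u)
    (m : Ω → Measure ℝ) [∀ u, IsFiniteMeasure (m u)] (A : Set ℝ) :
    (∑ u ∈ U, ENNReal.ofReal (p u) • m u).real A = ∑ u ∈ U, p u * (m u).real A := by
  rw [measureReal_def, Measure.finsetSum_apply, ENNReal.toReal_sum]
  · refine Finset.sum_congr rfl fun u hu => ?_
    rw [Measure.smul_apply, smul_eq_mul, ENNReal.toReal_mul, ENNReal.toReal_ofReal (hp u hu),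
      measureReal_def]
  · intro u _
    rw [Measure.smul_apply, smul_eq_mul]
    exact ENNReal.mul_ne_top ENNReal.ofReal_ne_top (measure_ne_top _ _)

theorem bad_base {μ : Measure ℝ} [IsProbabilityMeasure μ] {R : ℝ} (hR : 0 ≤ R)
    (hμ : μ (Icc (-R) R)ᶜ = 0) {K : ℝ} (hK : R + 1 ≤ K) {la r t : ℝ} (hla : 0 ≤ la) (ht : 0 < t)
    {σ ρ : ℝ} (hρ : |ρ| ≤ exp (-σ)) (hr : r ≤ exp (-σ)) (b : ℝ) :
    (μ.map (fun y => ρ * y + b)).real {x | t ≤ μ.real (closedBall x r)} ≤
      μ.real (closedBall b (K * exp (-σ))) ^ la / t ^ la := by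
  have hm : Measurable (fun y : ℝ => ρ * y + b) := by fun_prop
  have := Measure.isProbabilityMeasure_map (μ := μ) hm.aemeasurable
  by_cases hc : t ≤ μ.real (closedBall b (K * exp (-σ)))
  · refine measureReal_le_one.trans ?_
    rw [le_div_iff₀ (rpow_pos_of_pos ht la), one_mul]
    exact rpow_le_rpow ht.le hc hla
  · have h1 : {x | t ≤ μ.real (closedBall x r)} ⊆ (closedBall b (R * exp (-σ)))ᶜ := by
      intro x hx hx'
      refine hc (le_trans hx (measureReal_mono (closedBall_subset_closedBall' ?_)))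
      have h2 : dist x b ≤ R * exp (-σ) := hx'
      nlinarith only [h2, hr, hK, exp_pos (-σ)]
    have h2 : (μ.map (fun y => ρ * y + b)) (closedBall b (R * exp (-σ)))ᶜ = 0 := by
      rw [Measure.map_apply hm measurableSet_closedBall.compl]
      refine measure_mono_null (fun y hy => ?_) hμ
      intro hy'
      refine hy ?_
      rw [mem_closedBall, Real.dist_eq, add_sub_cancel_right, abs_mul, mul_comm]
      exact mul_le_mul (abs_le.2 hy') hρ (abs_nonneg _) hR
    rw [measureReal_def, measure_mono_null h1 h2, ENNReal.toReal_zero]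
    exact div_nonneg (rpow_nonneg measureReal_nonneg la) (rpow_nonneg ht.le la)

/-- The recursion for the measure of the bad set. -/
theorem bad_le (F : IFS Λ) {μ : Measure ℝ} [IsProbabilityMeasure μ] (h : F.SelfSim μ)
    {R : ℝ} (hR0 : 0 ≤ R) (hR : ∀ w, |F.rw w| * R + |F.tw w| ≤ R) {cM L : ℝ}
    (hc : ∀ i, -log |F.r i| ≤ cM) (hL : cM ≤ L) {K T : ℕ} (hK : R + 1 ≤ K)
    (hKL : K * exp (-L) ≤ 1) (hT : R * exp L ≤ T) {la r t θ : ℝ} (hla : 0 < la) (ht : 0 < t)
    (hθ : (2 * (2 * K + 1)) ^ la * exp (-(la * (Hs μ (L - cM) - log 2 - log (2 * R + 3))) +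
      la ^ 2 * log (2 * (2 * T + 1)) ^ 2) ≤ θ) (j : ℕ) :
    ∀ σ ρ b : ℝ, ρ ≠ 0 → σ ≤ -log |ρ| → -log |ρ| ≤ σ + cM → r ≤ exp (-(σ + j * L)) →
      (μ.map (fun y => ρ * y + b)).real {x | t ≤ μ.real (closedBall x r)} ≤
        θ ^ j * (μ.real (closedBall b (K * exp (-σ))) ^ la / t ^ la) := by
  have hμ := F.support_of_selfSim h hR hR0
  have hg := F.good_of_selfSim h
  have hθ0 : 0 ≤ θ := le_trans (by positivity) hθ
  induction j with
  | zero =>
    intro σ ρ b hρ h1 _ hr
    rw [Nat.cast_zero, zero_mul, add_zero] at hr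
    rw [pow_zero, one_mul]
    exact bad_base hR0 hμ hK hla.le ht (abs_le_exp hρ h1) hr b
  | succ j ih =>
    intro σ ρ b hρ h1 h2 hr
    obtain ⟨U, hU, hU1, hE⟩ := exists_children F h hc hL hρ h2 b
    have hp : ∀ u ∈ U, 0 ≤ pw F.p u := fun u _ => (pw_pos F.p_pos u).le
    have hne : ∀ u, ρ * F.rw u ≠ 0 := fun u => mul_ne_zero hρ (F.rw_ne_zero u)
    have hb : ∀ u, |ρ * F.tw u + b - b| ≤ R * exp (-σ) := by
      intro u
      rw [add_sub_cancel_right, abs_mul, mul_comm]
      refine mul_le_mul ?_ (abs_le_exp hρ h1) (abs_nonneg _) hR0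
      exact le_trans (le_add_of_nonneg_left (mul_nonneg (abs_nonneg _) hR0)) (hR u)
    have he : exp (-(σ + L)) = exp (-L) * exp (-σ) := by
      rw [← exp_add]
      congr 1
      ring
    have hJ : ∀ u ∈ U, closedBall (ρ * F.tw u + b) (K * exp (-(σ + L))) ⊆
        closedBall b (K * exp (-σ)) := by
      intro u _
      refine closedBall_subset_closedBall' ?_
      rw [Real.dist_eq, he, ← mul_assoc]
      have h3 := mul_le_mul_of_nonneg_right hKL (exp_pos (-σ)).le
      have h4 := mul_le_mul_of_nonneg_right hK (exp_pos (-σ)).le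
      linarith only [h3, h4, hb u]
    have hD : ((img U (fun u => cell (σ + L) 0 (ρ * F.tw u + b))).card : ℝ) ≤ 2 * T + 1 := by
      have h3 := card_img_cell (U := U) (fun u => ρ * F.tw u + b) (s := σ + L) (b := b) (T := T)
        fun u _ => (hb u).trans (by
          have h4 : R * exp (-σ) = R * exp L * exp (-(σ + L)) := by
            rw [mul_assoc, ← exp_add]
            congr 2
            ring
          rw [h4]
          exact mul_le_mul_of_nonneg_right hT (exp_pos _).le)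
      exact_mod_cast h3
    have hH : Hs μ (L - cM) - log 2 - log (2 * R + 3) ≤
        entW U (pw F.p) (fun u => cell (σ + L) 0 (ρ * F.tw u + b)) := by
      have h3 := Hs_le_entW hg hR0 hμ hp hU1 (fun u => ρ * F.rw u) (fun u => ρ * F.tw u + b)
        (σ + L) fun u hu => abs_le_exp (hne u) (hU u hu).1
      rw [← hE, Hs_map_affine hg hρ] at h3
      have h4 := Hs_mono hg (s := L - cM) (s' := σ + L + log |ρ|) (by linarith only [h2])
      rw [mss_prob, one_mul] at h4
      linarith only [h3, h4]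
    have h3 := (one_step μ hp hU1 (fun u => ρ * F.tw u + b) (σ + L) K hJ hD hH hla).trans
      (mul_le_mul_of_nonneg_right hθ (rpow_nonneg measureReal_nonneg la))
    have hr' : r ≤ exp (-(σ + L + j * L)) := by
      refine hr.trans (le_of_eq ?_)
      congr 1
      push_cast
      ring
    rw [hE, real_sum_smul hp]
    have h4 : ∀ u ∈ U, pw F.p u * (μ.map (fun y => ρ * F.rw u * y + (ρ * F.tw u + b))).real
        {x | t ≤ μ.real (closedBall x r)} ≤ θ ^ j / t ^ la *
          (pw F.p u * μ.real (closedBall (ρ * F.tw u + b) (K * exp (-(σ + L)))) ^ la) := by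
      intro u hu
      refine (mul_le_mul_of_nonneg_left
        (ih (σ + L) _ _ (hne u) (hU u hu).1 (hU u hu).2 hr') (hp u hu)).trans (le_of_eq ?_)
      ring
    refine (Finset.sum_le_sum h4).trans ?_
    rw [← Finset.mul_sum]
    refine (mul_le_mul_of_nonneg_left h3
      (div_nonneg (pow_nonneg hθ0 j) (rpow_nonneg ht.le la))).trans (le_of_eq ?_)
    ring

/-- The choice of the exponent. -/
theorem exists_exponent {c H B z : ℝ} (hc : 0 < c) (hg : log c + z < H) :
    ∃ la : ℝ, 0 < la ∧ c ^ la * exp (-(la * H) + la ^ 2 * B ^ 2) * exp (z * la) < 1 := by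
  have h1 : 0 < B ^ 2 + 1 := by positivity
  have h2 : 0 < H - log c - z := by linarith only [hg]
  refine ⟨(H - log c - z) / (B ^ 2 + 1), div_pos h2 h1, ?_⟩
  have h3 : (H - log c - z) / (B ^ 2 + 1) * (B ^ 2 + 1) = H - log c - z :=
    div_mul_cancel₀ _ h1.ne'
  have h4 := div_pos h2 h1
  generalize (H - log c - z) / (B ^ 2 + 1) = la at h3 h4 ⊢
  rw [rpow_def_of_pos hc, ← exp_add, ← exp_add, exp_lt_one_iff]
  have h5 : log c * la + (-(la * H) + la ^ 2 * B ^ 2) + z * la = -la ^ 2 := by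
    have h6 : H = la * (B ^ 2 + 1) + log c + z := by linarith only [h3]
    rw [h6]
    ring
  rw [h5, neg_lt_zero]
  exact pow_pos h4 2

theorem exists_scale {μ : Measure ℝ} (hg : Good μ) {α C β : ℝ} (hs : Slope μ α C) (hβ : β < α)
    (cM A L₀ : ℝ) : ∃ L : ℝ, L₀ ≤ L ∧ A + β * L < Hs μ (L - cM) := by
  have hε : 0 < (α - β) / 2 := by linarith only [hβ]
  obtain ⟨s₁, hs₁⟩ := hs.2 _ hε
  obtain ⟨L, hL⟩ := exists_ge_ge (max L₀ (cM + s₁))
    ((A + C + (α - (α - β) / 2) * (cM + s₁) + 1) / ((α - β) / 2))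
  obtain ⟨h1, h2⟩ := max_le_iff.1 hL.1
  refine ⟨L, h1, ?_⟩
  have h3 := hs₁ s₁ (L - cM - s₁) le_rfl (by linarith only [h2])
  have h4 : s₁ + (L - cM - s₁) = L - cM := by ring
  rw [h4] at h3
  have h5 := (div_le_iff₀ hε).1 hL.2
  have h6 := Hs_nonneg hg s₁
  linarith only [h3, h5, h6]

end DimLowAux

open DimLowAux Metric

theorem IFS.dim_low (F : IFS Λ) {μ : Measure ℝ} [IsProbabilityMeasure μ] (h : F.SelfSim μ)
    {α C : ℝ} (hs : Slope μ α C) : ENNReal.ofReal α ≤ lowerDim μ := by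
  refine ENNReal.le_of_forall_pos_nnreal_lt fun β hβ0 hβ => ?_
  have hβ' : (β : ℝ) < α := by
    rw [← ENNReal.ofReal_coe_nnreal] at hβ
    exact ((ENNReal.ofReal_lt_ofReal_iff').1 hβ).1
  obtain ⟨R, hR0, -, hR⟩ := F.exists_radius
  obtain ⟨cM, hcM, hc⟩ := F.exists_chi_bound
  obtain ⟨K, hK⟩ := exists_nat_ge (R + 1)
  have hK0 : (0 : ℝ) < K := by linarith only [hK, hR0]
  obtain ⟨L, hL, hH⟩ := exists_scale (F.good_of_selfSim h) hs hβ' cM
    (log (2 * (2 * K + 1)) + log 2 + log (2 * R + 3)) (max cM (log K))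
  obtain ⟨hL1, hL2⟩ := max_le_iff.1 hL
  have hL0 : 0 < L := hcM.trans_le hL1
  obtain ⟨T, hT⟩ := exists_nat_ge (R * exp L)
  have hKL : K * exp (-L) ≤ 1 := by
    rw [← exp_log hK0, ← exp_add, exp_le_one_iff]
    linarith only [hL2]
  obtain ⟨la, hla, hθ⟩ := exists_exponent (c := 2 * (2 * K + 1))
    (H := Hs μ (L - cM) - log 2 - log (2 * R + 3)) (B := log (2 * (2 * T + 1))) (z := β * L)
    (by positivity) (by linarith only [hH])
  obtain ⟨θ, hθe⟩ : ∃ θ : ℝ, (2 * (2 * K + 1)) ^ la *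
      exp (-(la * (Hs μ (L - cM) - log 2 - log (2 * R + 3))) +
        la ^ 2 * log (2 * (2 * T + 1)) ^ 2) = θ := ⟨_, rfl⟩
  have hθ0 : 0 ≤ θ := by
    rw [← hθe]
    positivity
  rw [hθe] at hθ
  have hq0 : 0 ≤ θ * exp (β * L * la) := mul_nonneg hθ0 (exp_pos _).le
  have h1 : ∀ N : ℕ, μ {x | exp (-(β * (N * L))) ≤ μ.real (closedBall x (exp (-(N * L))))} ≤
      ENNReal.ofReal ((θ * exp (β * L * la)) ^ N) := by
    intro N
    have h2 := bad_le F h hR0.le hR hc hL1 hK hKL hT (r := exp (-(N * L)))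
      (t := exp (-(β * (N * L)))) hla (exp_pos _) hθe.le N 0 1 0 one_ne_zero (by simp)
      (by simpa using hcM.le) (by rw [zero_add])
    have h3 : μ.map (fun y : ℝ => 1 * y + 0) = μ := by
      simp only [one_mul, add_zero, Measure.map_id']
    rw [h3] at h2
    rw [← ofReal_measureReal]
    refine ENNReal.ofReal_le_ofReal (h2.trans ?_)
    rw [mul_pow]
    refine mul_le_mul_of_nonneg_left ?_ (pow_nonneg hθ0 N)
    rw [div_le_iff₀ (rpow_pos_of_pos (exp_pos _) la), ← exp_mul, ← exp_nat_mul, ← exp_add]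
    refine (rpow_le_one measureReal_nonneg measureReal_le_one hla.le).trans (le_of_eq ?_)
    rw [← exp_zero]
    congr 1
    ring
  refine mass_dist μ hL0 hβ0 (ne_top_of_le_ne_top ?_ (ENNReal.tsum_le_tsum h1))
  rw [← ENNReal.ofReal_tsum_of_nonneg (fun N => pow_nonneg hq0 N)
    (summable_geometric_of_lt_one hq0 hθ)]
  exact ENNReal.ofReal_ne_top

end

end Vale.Agent.P114
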