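import Vale.Agent.P114.SelfSim

/-! # P114: the upper bound for the Hausdorff dimension -/

open MeasureTheory Real Set Polynomial
open scoped ENNReal

namespace Vale.Agent.P114

noncomputable section

variable {Λ : Type*} [Fintype Λ]

namespace DimUpAux

open Filter Topology Metric

theorem cover {μ : Measure ℝ} [IsProbabilityMeasure μ] (P : ℕ → Finset ℝ) (ρ : ℕ → ℝ)
    (hρ0 : ∀ k, 0 ≤ ρ k) (hanti : Antitone ρ) (hρ : Tendsto ρ atTop (𝓝 0)) {s C q c : ℝ}
    (hs : 0 < s) (hC : 0 ≤ C) (hq0 : 0 ≤ q) (hq : q < 1)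
    (hcard : ∀ k, (P k).card * (2 * ρ k) ^ s ≤ C * q ^ k) (hc : 0 < c)
    (hμ : ∀ k, ENNReal.ofReal c ≤ μ (⋃ x ∈ P k, closedBall x (ρ k))) :
    lowerDim μ ≤ ENNReal.ofReal s := by
  set E : ℕ → Set ℝ := fun k => ⋃ x ∈ P k, closedBall x (ρ k) with hE
  have hEm : ∀ k, MeasurableSet (E k) := fun k =>
    Finset.measurableSet_biUnion _ fun x _ => measurableSet_closedBall
  set U : ℕ → Set ℝ := fun N => ⋃ k, E (k + N) with hU
  have hUm : ∀ N, MeasurableSet (U N) := fun N => MeasurableSet.iUnion fun k => hEm _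
  have hUa : Antitone U := by
    intro a b hab x hx
    obtain ⟨k, hk⟩ := mem_iUnion.1 hx
    refine mem_iUnion.2 ⟨k + (b - a), ?_⟩
    rwa [show k + (b - a) + a = k + b by omega]
  have hpos : 0 < μ (⋂ N, U N) := by
    have hlim := tendsto_measure_iInter_atTop (μ := μ) (fun N => (hUm N).nullMeasurableSet) hUa
      ⟨0, measure_ne_top _ _⟩
    refine lt_of_lt_of_le (ENNReal.ofReal_pos.2 hc) (ge_of_tendsto' hlim fun N => ?_)
    refine (hμ N).trans (measure_mono ?_)
    intro x hx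
    exact mem_iUnion.2 ⟨0, by rwa [zero_add]⟩
  have hdim : dimH (⋂ N, U N) ≤ ENNReal.ofReal s := by
    refine dimH_le_of_hausdorffMeasure_ne_top (d := s.toNNReal) ?_
    rw [Real.coe_toNNReal _ hs.le]
    have hed : ∀ (x : ℝ) (k : ℕ), ediam (closedBall x (ρ k)) = ENNReal.ofReal (2 * ρ k) := by
      intro x k
      rw [Real.closedBall_eq_Icc, Real.ediam_Icc]
      congr 1
      ring
    have h1 := Measure.hausdorffMeasure_le_liminf_tsum (ι := fun N => Σ k : ℕ, P (k + N)) s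
      (⋂ N, U N) (l := atTop) (fun N => ENNReal.ofReal (2 * ρ N))
      (by simpa using ENNReal.tendsto_ofReal (hρ.const_mul 2))
      (fun N z => closedBall (z.2 : ℝ) (ρ (z.1 + N)))
      (Eventually.of_forall fun N z => by
        rw [hed]
        exact ENNReal.ofReal_le_ofReal (by linarith [hanti (Nat.le_add_left N z.1)]))
      (Eventually.of_forall fun N x hx => by
        obtain ⟨k, hk⟩ := mem_iUnion.1 (mem_iInter.1 hx N)
        obtain ⟨y, hy, hxy⟩ := mem_iUnion₂.1 hk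
        exact mem_iUnion.2 ⟨⟨k, ⟨y, hy⟩⟩, hxy⟩)
    have h2 : ∀ N, ∑' z : (Σ k : ℕ, P (k + N)), ediam (closedBall (z.2 : ℝ) (ρ (z.1 + N))) ^ s ≤
        ∑' k : ℕ, ENNReal.ofReal (C * q ^ k) := by
      intro N
      rw [ENNReal.tsum_sigma']
      refine ENNReal.tsum_le_tsum fun k => ?_
      simp only [hed]
      rw [tsum_fintype, Finset.sum_const, Finset.card_univ, Fintype.card_coe, nsmul_eq_mul,
        ENNReal.ofReal_rpow_of_nonneg (by linarith [hρ0 (k + N)]) hs.le,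
        ← ENNReal.ofReal_natCast, ← ENNReal.ofReal_mul (Nat.cast_nonneg _)]
      refine ENNReal.ofReal_le_ofReal ((hcard _).trans ?_)
      exact mul_le_mul_of_nonneg_left (pow_le_pow_of_le_one hq0 hq.le (Nat.le_add_right k N)) hC
    have h3 : ∑' k : ℕ, ENNReal.ofReal (C * q ^ k) ≠ ∞ := by
      rw [← ENNReal.ofReal_tsum_of_nonneg (fun k => by positivity)
        ((summable_geometric_of_lt_one hq0 hq).mul_left C)]
      exact ENNReal.ofReal_ne_top
    refine ne_top_of_le_ne_top h3 (h1.trans ?_)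
    exact liminf_le_of_frequently_le' (Frequently.of_forall h2)
  exact le_trans (iInf_le_of_le (⋂ N, U N) (iInf_le_of_le (MeasurableSet.iInter hUm)
    (iInf_le _ hpos))) hdim

/-- Good words of level `n`: many in weight, few in number of maps, strongly contracting. -/
theorem good (F : IFS Λ) {ε : ℝ} (hε : 0 < ε) : ∃ n0 : ℕ, ∀ n, n0 ≤ n → ∃ G : Finset (List Λ),
    G ⊆ words Λ n ∧ ε / (2 * (1 + ε)) ≤ ∑ w ∈ G, pw F.p w ∧
    ((img G F.tw).card : ℝ) ≤ exp ((1 + ε) * ((F.hh + ε) * n) + 1) ∧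
    ∀ w ∈ G, |F.rw w| ≤ exp (-((F.chi - ε) * n)) := by
  classical
  obtain ⟨V, hV, hvar⟩ := F.exists_var
  obtain ⟨N0, hN0⟩ := F.HG_le hε
  obtain ⟨N1, hN1⟩ := exists_nat_ge (V / ε ^ 2 / (ε / (2 * (1 + ε))))
  refine ⟨max (max N0 N1) 1, fun n hn => ?_⟩
  have hn0 : N0 ≤ n := le_trans (le_trans (le_max_left _ _) (le_max_left _ _)) hn
  have hn1 : (N1 : ℝ) ≤ n := Nat.cast_le.2 (le_trans (le_trans (le_max_right _ _)
    (le_max_left _ _)) hn)
  have hn2 : (0 : ℝ) < n := Nat.cast_pos.2 (le_trans (le_max_right _ _) hn)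
  set X : List Λ → ℝ × ℝ := fun w => (F.rw w, F.tw w) with hX
  set m : List Λ → ℝ := fun w => mass (words Λ n) (pw F.p) X (X w) with hm
  have hw0 : ∀ w ∈ words Λ n, 0 ≤ pw F.p w := fun w _ => (pw_pos F.p_pos w).le
  have hm0 : ∀ w ∈ words Λ n, 0 < m w := fun w hw =>
    lt_of_lt_of_le (pw_pos F.p_pos w) (Finset.single_le_sum (f := pw F.p)
      (fun v _ => (pw_pos F.p_pos v).le) (mem_fib.2 ⟨hw, rfl⟩))
  have hm1 : ∀ w, m w ≤ 1 := fun w => by
    rw [← sum_pw F.p_sum n]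
    exact Finset.sum_le_sum_of_subset_of_nonneg (fib_subset _ _ _) fun v hv _ => hw0 v hv
  have hH : F.HG n = ∑ w ∈ words Λ n, pw F.p w * (-log (m w)) := by
    rw [IFS.HG, entW_eq_sum, sum_pw F.p_sum, log_one]
    simp only [zero_sub]
    rfl
  have hH0 : 0 ≤ F.HG n := entW_nonneg hw0 _
  set T := (1 + ε) * F.HG n + 1 with hT
  have hT0 : 0 < T := by positivity
  set B1 := (words Λ n).filter (fun w => T < -log (m w)) with hB1
  set B2 := (words Λ n).filter (fun w => F.chiw w < (F.chi - ε) * n) with hB2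
  have h1 : ∑ w ∈ B1, pw F.p w ≤ 1 / (1 + ε) := by
    have : T * ∑ w ∈ B1, pw F.p w ≤ F.HG n := by
      rw [hH, Finset.mul_sum]
      refine le_trans (Finset.sum_le_sum fun w hw => ?_) (Finset.sum_le_sum_of_subset_of_nonneg
        (Finset.filter_subset _ _) fun w hw _ => mul_nonneg (hw0 w hw)
          (neg_nonneg.2 (log_nonpos (hm0 w hw).le (hm1 w))))
      rw [mul_comm]
      exact mul_le_mul_of_nonneg_left (Finset.mem_filter.1 hw).2.le (pw_pos F.p_pos w).le
    rw [le_div_iff₀ (by positivity)]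
    have h2 : T * ((∑ w ∈ B1, pw F.p w) * (1 + ε)) ≤ T * 1 := by nlinarith
    exact le_of_mul_le_mul_left h2 hT0
  have h2 : ∑ w ∈ B2, pw F.p w ≤ ε / (2 * (1 + ε)) := by
    have : (ε * n) ^ 2 * ∑ w ∈ B2, pw F.p w ≤ V * n := by
      refine le_trans ?_ (hvar n)
      rw [Finset.mul_sum]
      refine le_trans (Finset.sum_le_sum fun w hw => ?_) (Finset.sum_le_sum_of_subset_of_nonneg
        (Finset.filter_subset _ _) fun w _ _ => mul_nonneg (pw_pos F.p_pos w).le (sq_nonneg _))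
      rw [mul_comm]
      refine mul_le_mul_of_nonneg_left ?_ (pw_pos F.p_pos w).le
      rw [← neg_sq (F.chiw w - _)]
      exact pow_le_pow_left₀ (by positivity) (by linarith [(Finset.mem_filter.1 hw).2]) 2
    rw [div_le_iff₀ (by positivity), div_le_iff₀ (by positivity)] at hN1
    have h3 : V ≤ n * (ε / (2 * (1 + ε))) * ε ^ 2 := hN1.trans (by gcongr)
    have h4 : (ε * n) ^ 2 * ∑ w ∈ B2, pw F.p w ≤ (ε * n) ^ 2 * (ε / (2 * (1 + ε))) := by
      nlinarith
    exact le_of_mul_le_mul_left h4 (by positivity)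
  refine ⟨words Λ n \ (B1 ∪ B2), Finset.sdiff_subset, ?_, ?_, ?_⟩
  · have h3 := Finset.sum_sdiff (f := pw F.p) (s₁ := B1 ∪ B2) (s₂ := words Λ n)
      (Finset.union_subset (Finset.filter_subset _ _) (Finset.filter_subset _ _))
    have h4 := Finset.sum_union_inter (s₁ := B1) (s₂ := B2) (f := pw F.p)
    have h5 : 0 ≤ ∑ w ∈ B1 ∩ B2, pw F.p w := Finset.sum_nonneg fun w _ => (pw_pos F.p_pos w).le
    rw [sum_pw F.p_sum] at h3
    have h6 : 1 / (1 + ε) + 2 * (ε / (2 * (1 + ε))) = 1 := by field_simp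
    linarith
  · set G := words Λ n \ (B1 ∪ B2) with hG
    have h3 : (img G F.tw).card ≤ (img G X).card := by
      refine le_trans (Finset.card_le_card ?_) (Finset.card_image_le (f := Prod.snd))
      intro x hx
      obtain ⟨w, hw, rfl⟩ := mem_img.1 hx
      exact Finset.mem_image.2 ⟨X w, mem_img.2 ⟨w, hw, rfl⟩, rfl⟩
    have h4 : ((img G X).card : ℝ) * exp (-T) ≤ 1 := by
      rw [← nsmul_eq_mul, ← Finset.sum_const, ← sum_pw F.p_sum n, ← sum_mass _ _ X]
      refine le_trans (Finset.sum_le_sum fun b hb => ?_) (Finset.sum_le_sum_of_subset_of_nonneg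
        (s := img G X) (fun b hb => ?_) fun b _ _ => mass_nonneg hw0 X b)
      · obtain ⟨w, hw, rfl⟩ := mem_img.1 hb
        rw [hG, Finset.mem_sdiff, Finset.mem_union, not_or, hB1, Finset.mem_filter] at hw
        have h5 : -log (m w) ≤ T := not_lt.1 fun h => hw.2.1 ⟨hw.1, h⟩
        change _ ≤ m w
        rw [← exp_log (hm0 w hw.1)]
        exact exp_le_exp.2 (by linarith)
      · obtain ⟨w, hw, rfl⟩ := mem_img.1 hb
        exact mem_img.2 ⟨w, Finset.sdiff_subset hw, rfl⟩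
    rw [exp_neg, ← div_eq_mul_inv, div_le_one (exp_pos _)] at h4
    refine le_trans (Nat.cast_le.2 h3) (h4.trans (exp_le_exp.2 ?_))
    have := mul_le_mul_of_nonneg_left (hN0 n hn0) (show 0 ≤ 1 + ε by positivity)
    linarith
  · intro w hw
    rw [Finset.mem_sdiff, Finset.mem_union, not_or, hB2, Finset.mem_filter] at hw
    have h5 : (F.chi - ε) * n ≤ F.chiw w := not_lt.1 fun h => hw.2.2
      (Finset.mem_filter.2 ⟨hw.1, h⟩)
    rw [← exp_log (abs_pos.2 (F.rw_ne_zero w))]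
    rw [IFS.chiw] at h5
    exact exp_le_exp.2 (by linarith)

theorem le_of_lt (F : IFS Λ) {μ : Measure ℝ} [IsProbabilityMeasure μ] (h : F.SelfSim μ) {s : ℝ}
    (hs : F.hh / F.chi < s) : lowerDim μ ≤ ENNReal.ofReal s := by
  have hχ := F.chi_pos
  have hh := F.hh_nonneg
  have hs0 : 0 < s := lt_of_le_of_lt (by positivity) hs
  rw [div_lt_iff₀ hχ] at hs
  obtain ⟨ε, hε, hε1, hδ⟩ : ∃ ε : ℝ, 0 < ε ∧ ε < F.chi ∧
      0 < s * (F.chi - ε) - (1 + ε) * (F.hh + ε) := by
    have hc : Continuous (fun ε : ℝ => s * (F.chi - ε) - (1 + ε) * (F.hh + ε)) := by fun_prop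
    have h1 : ∀ᶠ ε in 𝓝 (0 : ℝ), 0 < s * (F.chi - ε) - (1 + ε) * (F.hh + ε) :=
      (hc.tendsto 0).eventually (lt_mem_nhds (by simpa using hs))
    have h2 : ∀ᶠ ε in 𝓝 (0 : ℝ), ε < F.chi := gt_mem_nhds hχ
    obtain ⟨ε, h3, h4⟩ := (((h1.and h2).filter_mono nhdsWithin_le_nhds).and
      (self_mem_nhdsWithin (a := (0 : ℝ)) (s := Ioi 0))).exists
    exact ⟨ε, h4, h3.2, h3.1⟩
  set δ := s * (F.chi - ε) - (1 + ε) * (F.hh + ε) with hδ'
  obtain ⟨n0, hn0⟩ := good F hε
  choose G hG1 hG2 hG3 hG4 using fun k : ℕ => hn0 (k + n0) (Nat.le_add_left _ _)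
  obtain ⟨R, hR0, -, hR⟩ := F.exists_radius
  have hsupp := F.support_of_selfSim h hR hR0.le
  have hχε : 0 < F.chi - ε := sub_pos.2 hε1
  refine cover (fun k => img (G k) F.tw) (fun k => R * exp (-((F.chi - ε) * (k + n0 : ℕ))))
    (fun k => by positivity) ?_ ?_ (C := exp 1 * (2 * R) ^ s) (q := exp (-δ))
    (c := ε / (2 * (1 + ε))) hs0 (by positivity) (exp_pos _).le
    (exp_lt_one_iff.2 (by linarith)) ?_ (by positivity) ?_
  · intro a b hab
    refine mul_le_mul_of_nonneg_left (exp_le_exp.2 (neg_le_neg ?_)) hR0.le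
    exact mul_le_mul_of_nonneg_left (Nat.cast_le.2 (Nat.add_le_add_right hab _)) hχε.le
  · rw [← mul_zero R]
    refine Tendsto.const_mul _ (tendsto_exp_neg_atTop_nhds_zero.comp ?_)
    exact Tendsto.const_mul_atTop hχε
      (tendsto_natCast_atTop_atTop.comp (tendsto_add_atTop_nat n0))
  · intro k
    rw [← mul_assoc, mul_rpow (by positivity) (exp_pos _).le, ← exp_mul, ← exp_nat_mul]
    calc _ ≤ exp ((1 + ε) * ((F.hh + ε) * (k + n0 : ℕ)) + 1) *
          ((2 * R) ^ s * exp (-((F.chi - ε) * (k + n0 : ℕ)) * s)) :=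
          mul_le_mul_of_nonneg_right (hG3 k) (by positivity)
      _ = exp 1 * (2 * R) ^ s * exp (-δ * (k + n0 : ℕ)) := by
          rw [mul_left_comm, ← exp_add, mul_comm (exp 1), mul_assoc ((2 * R) ^ s), ← exp_add]
          congr 2
          rw [hδ']
          ring
      _ ≤ _ := by
          refine mul_le_mul_of_nonneg_left (exp_le_exp.2 ?_) (by positivity)
          push_cast
          nlinarith [mul_nonneg hδ.le (Nat.cast_nonneg (α := ℝ) n0)]
  · intro k
    have hm : MeasurableSet (⋃ x ∈ img (G k) F.tw,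
        closedBall x (R * exp (-((F.chi - ε) * (k + n0 : ℕ))))) :=
      Finset.measurableSet_biUnion _ fun x _ => measurableSet_closedBall
    conv_rhs => rw [F.selfSim_words h (k + n0)]
    refine le_trans (ENNReal.ofReal_le_ofReal (hG2 k)) ?_
    rw [ENNReal.ofReal_sum_of_nonneg fun w _ => (pw_pos F.p_pos w).le]
    simp only [Measure.coe_finsetSum, Finset.sum_apply, Measure.smul_apply, smul_eq_mul]
    refine le_trans (Finset.sum_le_sum fun w hw => ?_) (Finset.sum_le_sum_of_subset (hG1 k))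
    rw [Measure.map_apply (SelfSimAux.meas_aff _ _) hm]
    refine le_mul_of_one_le_right' ?_
    rw [← (prob_compl_eq_zero_iff measurableSet_Icc).1 hsupp]
    refine measure_mono fun x hx => mem_iUnion₂.2 ⟨F.tw w, mem_img.2 ⟨w, hw, rfl⟩, ?_⟩
    rw [mem_closedBall, Real.dist_eq, add_sub_cancel_right, abs_mul, mul_comm]
    exact mul_le_mul (abs_le.2 hx) (hG4 k w hw) (abs_nonneg _) hR0.le

end DimUpAux

theorem IFS.dim_up (F : IFS Λ) {μ : Measure ℝ} [IsProbabilityMeasure μ] (h : F.SelfSim μ) :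
    lowerDim μ ≤ ENNReal.ofReal (min 1 (F.hh / F.chi)) := by
  rw [ENNReal.ofReal_min]
  refine le_min ?_ ?_
  · refine le_trans (iInf_le_of_le univ (iInf_le_of_le MeasurableSet.univ
      (iInf_le _ (by simp)))) ?_
    rw [Real.dimH_univ, ENNReal.ofReal_one]
  · refine ENNReal.le_of_forall_pos_le_add fun ε hε _ => ?_
    have h0 : 0 ≤ F.hh / F.chi := div_nonneg F.hh_nonneg F.chi_pos.le
    have := DimUpAux.le_of_lt F h (s := F.hh / F.chi + ε) (lt_add_of_pos_right _ hε)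
    rwa [ENNReal.ofReal_add h0 ε.coe_nonneg, ENNReal.ofReal_coe_nnreal] at this

end

end Vale.Agent.P114
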