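import Vale.Agent.P114.Defs

/-! # P114: minors, rank, Cramer relations, windows from elimination -/

open MeasureTheory Real Set Polynomial
open scoped ENNReal

namespace Vale.Agent.P114

noncomputable section

variable {A A' Λ : Type*} [CommRing A] [CommRing A']

theorem minor_zero (y : Fin 0 → Λ → A) (e : Fin 0 → Λ) : minor y e = 1 := by
  simp [minor]

theorem map_minor (φ : A →+* A') {k : ℕ} (y : Fin k → Λ → A) (e : Fin k → Λ) :
    φ (minor y e) = minor (fun i l => φ (y i l)) e := by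
  unfold minor
  rw [RingHom.map_det]
  rfl

/-- Laplace expansion along an extra first column `l`. -/
theorem minor_cons {k : ℕ} (y : Fin (k + 1) → Λ → A) (l : Λ) (e : Fin k → Λ) :
    minor y (Fin.cons l e) =
      ∑ i : Fin (k + 1), (-1) ^ (i : ℕ) * minor (fun j => y (i.succAbove j)) e * y i l := by
  unfold minor
  rw [Matrix.det_succ_column_zero]
  refine Finset.sum_congr rfl (fun i _ => ?_)
  rw [mul_right_comm]
  rfl

theorem injective_of_minor_ne_zero {k : ℕ} {y : Fin k → Λ → A} {e : Fin k → Λ}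
    (h : minor y e ≠ 0) : Function.Injective y ∧ Function.Injective e := by
  constructor
  · intro i j hij
    by_contra hne
    refine h (Matrix.det_zero_of_row_eq hne ?_)
    funext a
    simp [hij]
  · intro i j hij
    by_contra hne
    refine h (Matrix.det_zero_of_column_eq hne (fun a => ?_))
    simp [hij]

theorem ElimAux.down {R : Set (Λ → A)} {k : ℕ} (h : k + 1 ∈ rkSet R) : k ∈ rkSet R := by
  obtain ⟨y, hy, e, he⟩ := h
  rw [← Fin.cons_self_tail e, minor_cons] at he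
  obtain ⟨i, _, hi⟩ := Finset.exists_ne_zero_of_sum_ne_zero he
  exact ⟨fun j => y (i.succAbove j), fun j => hy _, Fin.tail e,
    right_ne_zero_of_mul (left_ne_zero_of_mul hi)⟩

theorem rkSet_down {R : Set (Λ → A)} {k k' : ℕ} (h : k ∈ rkSet R) (hk : k' ≤ k) :
    k' ∈ rkSet R := by
  induction k, hk using Nat.le_induction with
  | base => exact h
  | succ n _ ih => exact ih (ElimAux.down h)

theorem le_card_of_mem_rkSet [Fintype Λ] {R : Set (Λ → A)} {k : ℕ} (h : k ∈ rkSet R) :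
    k ≤ Fintype.card Λ := by
  obtain ⟨y, _, e, he⟩ := h
  simpa using Fintype.card_le_of_injective e (injective_of_minor_ne_zero he).2

theorem ElimAux.bdd [Fintype Λ] (R : Set (Λ → A)) : BddAbove (rkSet R) :=
  ⟨Fintype.card Λ, fun _ h => le_card_of_mem_rkSet h⟩

theorem rk_mem [Fintype Λ] [Nontrivial A] (R : Set (Λ → A)) : rk R ∈ rkSet R := by
  refine Nat.sSup_mem ⟨0, Fin.elim0, fun i => i.elim0, Fin.elim0, ?_⟩ (ElimAux.bdd R)
  rw [minor_zero]
  exact one_ne_zero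

theorem le_rk [Fintype Λ] {R : Set (Λ → A)} {k : ℕ} (h : k ∈ rkSet R) : k ≤ rk R := by
  exact le_csSup (ElimAux.bdd R) h

theorem rk_le_card [Fintype Λ] [Nontrivial A] (R : Set (Λ → A)) : rk R ≤ Fintype.card Λ := by
  exact le_card_of_mem_rkSet (rk_mem R)

theorem rk_mono [Fintype Λ] [Nontrivial A] {R R' : Set (Λ → A)} (h : R ⊆ R') :
    rk R ≤ rk R' := by
  obtain ⟨y, hy, e, he⟩ := rk_mem R
  exact le_rk ⟨y, fun i => h (hy i), e, he⟩

theorem minor_eq_zero_of_rk_lt [Fintype Λ] {R : Set (Λ → A)} {k : ℕ} (hk : rk R < k)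
    {y : Fin k → Λ → A} (hy : ∀ i, y i ∈ R) (e : Fin k → Λ) : minor y e = 0 := by
  by_contra h
  exact absurd (le_rk (R := R) ⟨y, hy, e, h⟩) (not_le.2 hk)

/-- Cramer's rule for a vector `z` against a tuple `b` when all bigger minors vanish. -/
theorem cramer_cons {k : ℕ} (z : Λ → A) (b : Fin k → Λ → A)
    (h : ∀ e' : Fin (k + 1) → Λ, minor (Fin.cons z b : Fin (k + 1) → Λ → A) e' = 0)
    (e : Fin k → Λ) (l : Λ) :
    minor b e * z l = ∑ i : Fin k, (-1) ^ (i : ℕ) *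
      minor (fun j => (Fin.cons z b : Fin (k + 1) → Λ → A) (i.succ.succAbove j)) e * b i l := by
  have h1 := h (Fin.cons l e)
  rw [minor_cons, Fin.sum_univ_succ] at h1
  simp only [Fin.val_zero, pow_zero, one_mul, Fin.succAbove_zero, Fin.cons_succ, Fin.cons_zero,
    Fin.val_succ, pow_succ, mul_neg, mul_one, neg_mul, Finset.sum_neg_distrib] at h1
  exact add_neg_eq_zero.1 h1

/-- Vectors that are fractional combinations of `k` vectors have rank at most `k`. -/
theorem rk_le_of_span [Fintype Λ] [IsDomain A] {R : Set (Λ → A)} {k : ℕ} (b : Fin k → Λ → A)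
    (h : ∀ z ∈ R, ∃ a : A, a ≠ 0 ∧ ∃ c : Fin k → A, ∀ l, a * z l = ∑ i, c i * b i l) :
    rk R ≤ k := by
  by_contra hk
  obtain ⟨y, hy, e, he⟩ := rkSet_down (rk_mem R) (Nat.succ_le_of_lt (not_le.1 hk))
  choose a ha c hc using fun i => h (y i) (hy i)
  have h1 := Matrix.det_mul_column a (Matrix.of fun i j => y i (e j))
  let C : Matrix (Fin (k + 1)) (Fin (k + 1)) A :=
    Matrix.of fun i j => (Fin.cons 0 (c i) : Fin (k + 1) → A) j
  let B : Matrix (Fin (k + 1)) (Fin (k + 1)) A :=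
    Matrix.of fun i j => (Fin.cons 0 (fun i' => b i' (e j)) : Fin (k + 1) → A) i
  have h2 : (Matrix.of fun i j => a i * (Matrix.of fun i j => y i (e j)) i j) = C * B := by
    ext i j
    simp [C, B, Matrix.mul_apply, Fin.sum_univ_succ, hc]
  have h3 : C.det = 0 := Matrix.det_eq_zero_of_column_eq_zero 0 (fun i => by simp [C])
  rw [h2, Matrix.det_mul, h3, zero_mul] at h1
  exact mul_ne_zero (Finset.prod_ne_zero_iff.2 (fun i _ => ha i)) he h1.symm

/-- A maximal family of pairwise unrelated points. -/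
theorem exists_net (V : Set ℝ) (rel : ℝ → ℝ → Prop) (hrefl : ∀ v, rel v v)
    (hsymm : ∀ v v', rel v v' → rel v' v) (d : ℕ)
    (h : ∀ f : Fin (d + 1) → ℝ, (∀ i, f i ∈ V) → ∃ i j, i ≠ j ∧ rel (f i) (f j)) :
    ∃ Y : Finset ℝ, Y.card ≤ d ∧ ∀ v ∈ V, ∃ y ∈ Y, rel v y := by
  classical
  by_contra hcon
  push Not at hcon
  have h1 : ∀ n, n ≤ d + 1 → ∃ Y : Finset ℝ, Y.card = n ∧ (∀ y ∈ Y, y ∈ V) ∧
      ∀ y ∈ Y, ∀ y' ∈ Y, y ≠ y' → ¬ rel y y' := by
    intro n
    induction n with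
    | zero => intro _; exact ⟨∅, rfl, by simp, by simp⟩
    | succ n ih =>
      intro hn
      obtain ⟨Y, hY, hV, hr⟩ := ih (by omega)
      obtain ⟨v, hv, hvr⟩ := hcon Y (by omega)
      have hvY : v ∉ Y := fun h2 => hvr v h2 (hrefl v)
      refine ⟨insert v Y, by rw [Finset.card_insert_of_notMem hvY, hY], ?_, ?_⟩
      · intro y hy
        rcases Finset.mem_insert.1 hy with rfl | hy
        · exact hv
        · exact hV y hy
      · intro y hy y' hy' hne
        rcases Finset.mem_insert.1 hy with h2 | h2 <;> rcases Finset.mem_insert.1 hy' with h3 | h3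
        · exact absurd (h2.trans h3.symm) hne
        · rw [h2]; exact hvr y' h3
        · rw [h3]; exact fun h4 => hvr y h2 (hsymm _ _ h4)
        · exact hr y h2 y' h3 hne
  obtain ⟨Y, hY, hV, hr⟩ := h1 (d + 1) le_rfl
  obtain ⟨i, j, hij, hrel⟩ := h (Y.orderEmbOfFin hY) (fun i => hV _ (Y.orderEmbOfFin_mem hY i))
  exact hr _ (Y.orderEmbOfFin_mem hY i) _ (Y.orderEmbOfFin_mem hY j)
    (fun h2 => hij ((Y.orderEmbOfFin hY).injective h2)) hrel

theorem ElimAux.two_big {k : ℕ} (x : Fin (k + 1) → ℝ) (hs : ∑ i, x i = 0) (h0 : x 0 ≠ 0) :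
    ∃ i j, i ≠ j ∧ x i ≠ 0 ∧ x j ≠ 0 ∧ |x i| ≤ k * |x j| ∧ |x j| ≤ |x i| := by
  obtain ⟨i, _, hi⟩ := Finset.exists_max_image Finset.univ (fun i => |x i|) Finset.univ_nonempty
  have hi0 : 0 < |x i| := (abs_pos.2 h0).trans_le (hi 0 (Finset.mem_univ _))
  have h1 : |x i| ≤ ∑ j ∈ Finset.univ.erase i, |x j| := by
    rw [← Finset.add_sum_erase _ _ (Finset.mem_univ i)] at hs
    rw [eq_neg_of_add_eq_zero_left hs, abs_neg]
    exact Finset.abs_sum_le_sum_abs _ _
  have hne : (Finset.univ.erase i).Nonempty := by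
    rw [Finset.nonempty_iff_ne_empty]
    intro h
    rw [h, Finset.sum_empty] at h1
    linarith
  obtain ⟨j, hj, hjm⟩ := Finset.exists_max_image _ (fun i => |x i|) hne
  have h2 := Finset.sum_le_card_nsmul _ _ _ hjm
  rw [Finset.card_erase_of_mem (Finset.mem_univ i), Finset.card_univ, Fintype.card_fin,
    Nat.add_sub_cancel, nsmul_eq_mul] at h2
  refine ⟨i, j, (Finset.ne_of_mem_erase hj).symm, abs_pos.1 hi0, fun h => ?_, h1.trans h2,
    hi j (Finset.mem_univ _)⟩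
  rw [h, abs_zero, mul_zero] at h2
  linarith

/-- Among `d + 1` vectors with nonzero values two are comparable up to minors. -/
theorem exists_comparable [Fintype Λ] (φ : A →+* ℝ) (t : Λ → ℝ)
    (y : Fin (Fintype.card Λ + 1) → Λ → A) (hy : ∀ i, ∑ l, φ (y i l) * t l ≠ 0) :
    ∃ i j, i ≠ j ∧ ∃ (k : ℕ) (τ τ' : Fin k → Fin (Fintype.card Λ + 1)) (e : Fin k → Λ),
      φ (minor (fun a => y (τ a)) e) ≠ 0 ∧ φ (minor (fun a => y (τ' a)) e) ≠ 0 ∧
      |φ (minor (fun a => y (τ a)) e)| * |∑ l, φ (y i l) * t l| ≤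
        Fintype.card Λ * (|φ (minor (fun a => y (τ' a)) e)| * |∑ l, φ (y j l) * t l|) ∧
      |φ (minor (fun a => y (τ' a)) e)| * |∑ l, φ (y j l) * t l| ≤
        |φ (minor (fun a => y (τ a)) e)| * |∑ l, φ (y i l) * t l| := by
  obtain ⟨y', hy'⟩ : ∃ y' : Fin (Fintype.card Λ + 1) → Λ → ℝ, y' = fun i l => φ (y i l) :=
    ⟨_, rfl⟩
  obtain ⟨z, hz, e, he⟩ := rk_mem (Set.range y')
  have hk := rk_le_card (Set.range y')
  have hzero := fun (w : Fin (rk (Set.range y') + 1) → Λ → ℝ) (hw : ∀ i, w i ∈ Set.range y') =>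
    minor_eq_zero_of_rk_lt (Nat.lt_succ_self _) hw
  generalize rk (Set.range y') = k at z hz e he hk hzero
  choose τ hτ using hz
  have hτi : Function.Injective τ := fun a b hab =>
    (injective_of_minor_ne_zero he).1 (by rw [← hτ a, ← hτ b, hab])
  have hns : ¬ Function.Surjective τ := fun h => by
    have := Fintype.card_le_of_surjective τ h
    simp only [Fintype.card_fin] at this
    omega
  obtain ⟨i0, hi0⟩ := not_forall.1 hns
  obtain ⟨σ, hσ⟩ : ∃ σ : Fin (k + 1) → Fin (Fintype.card Λ + 1), σ = Fin.cons i0 τ := ⟨_, rfl⟩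
  have hσi : Function.Injective σ := by
    rw [hσ]
    exact Fin.cons_injective_iff.2 ⟨hi0, hτi⟩
  have hm : ∀ i : Fin (k + 1), φ (minor (fun a => y (σ (i.succAbove a))) e) =
      minor (fun a => y' (σ (i.succAbove a))) e := by
    intro i
    rw [map_minor, hy']
  have hs : ∑ i : Fin (k + 1), (-1) ^ (i : ℕ) * (φ (minor (fun a => y (σ (i.succAbove a))) e) *
      ∑ l, φ (y (σ i) l) * t l) = 0 := by
    have h1 : ∀ l, ∑ i : Fin (k + 1), (-1) ^ (i : ℕ) *
        minor (fun a => y' (σ (i.succAbove a))) e * y' (σ i) l = 0 := by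
      intro l
      rw [← minor_cons (fun i => y' (σ i)) l e]
      exact hzero _ (fun i => ⟨σ i, rfl⟩) _
    simp only [hm, Finset.mul_sum]
    rw [Finset.sum_comm]
    refine Finset.sum_eq_zero (fun l _ => ?_)
    have h2 := congrArg (· * t l) (h1 l)
    simp only [zero_mul, Finset.sum_mul] at h2
    rw [← h2]
    refine Finset.sum_congr rfl (fun i _ => ?_)
    rw [hy']
    ring
  have h0 : (-1 : ℝ) ^ ((0 : Fin (k + 1)) : ℕ) *
      (φ (minor (fun a => y (σ ((0 : Fin (k + 1)).succAbove a))) e) *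
        ∑ l, φ (y (σ 0) l) * t l) ≠ 0 := by
    refine mul_ne_zero (pow_ne_zero _ (by norm_num)) (mul_ne_zero ?_ (hy _))
    rw [hm]
    have : (fun a => y' (σ ((0 : Fin (k + 1)).succAbove a))) = z := by
      funext a
      rw [hσ, Fin.succAbove_zero, Fin.cons_succ, hτ]
    rw [this]
    exact he
  obtain ⟨i, j, hij, hi, hj, h1, h2⟩ := ElimAux.two_big _ hs h0
  simp only [abs_mul, abs_pow, abs_neg, abs_one, one_pow, one_mul] at h1 h2
  refine ⟨σ i, σ j, fun h => hij (hσi h), k, fun a => σ (i.succAbove a),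
    fun a => σ (j.succAbove a), e, left_ne_zero_of_mul (right_ne_zero_of_mul hi),
    left_ne_zero_of_mul (right_ne_zero_of_mul hj), h1.trans ?_, h2⟩
  exact mul_le_mul_of_nonneg_right (by exact_mod_cast hk) (by positivity)

/-- Windows from a valuation estimate for the minors. -/
theorem w2_generic [Fintype Λ] (φ : A →+* ℝ) (t : Λ → ℝ) (R : Set (Λ → A)) (ord : A → ℕ)
    {J γ e : ℝ} (hJ : 0 ≤ J) (he : 0 ≤ e)
    (hval : ∀ (k : ℕ) (y : Fin k → Λ → A), (∀ i, y i ∈ R) → ∀ e' : Fin k → Λ,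
      φ (minor y e') ≠ 0 → (ord (minor y e') : ℝ) ≤ J ∧
        |-log (|φ (minor y e')|) - ord (minor y e') * γ| ≤ e) :
    W2 {v | ∃ y ∈ R, ∑ l, φ (y l) * t l ≠ 0 ∧ v = -log |∑ l, φ (y l) * t l|}
      (Fintype.card Λ) J γ (2 * e + log (Fintype.card Λ)) := by
  have hlog := log_natCast_nonneg (Fintype.card Λ)
  refine exists_net _ (fun v v' => ∃ j : ℤ, |(j : ℝ)| ≤ J ∧
    |v - v' - j * γ| ≤ 2 * e + log (Fintype.card Λ)) (fun v => ⟨0, by simpa using hJ, ?_⟩)
    (fun v v' h => ?_) _ (fun f hf => ?_)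
  · simp only [sub_self, Int.cast_zero, zero_mul, abs_zero]
    linarith
  · obtain ⟨j, h1, h2⟩ := h
    refine ⟨-j, by simpa using h1, ?_⟩
    rw [← abs_neg, Int.cast_neg]
    rwa [show -(v' - v - -(j : ℝ) * γ) = v - v' - j * γ by ring]
  · choose y hyR hy0 hyf using hf
    obtain ⟨i, j, hij, k, τ, τ', e', a1, a2, a3, a4⟩ := exists_comparable φ t y hy0
    obtain ⟨b1, b2⟩ := hval k _ (fun a => hyR (τ a)) e' a1
    obtain ⟨b3, b4⟩ := hval k _ (fun a => hyR (τ' a)) e' a2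
    have p1 := abs_pos.2 a1
    have p2 := abs_pos.2 a2
    have p3 := abs_pos.2 (hy0 i)
    have p4 := abs_pos.2 (hy0 j)
    have hd : (Fintype.card Λ : ℝ) ≠ 0 := by
      intro h
      rw [h, zero_mul] at a3
      linarith [mul_pos p1 p3]
    have c1 := log_le_log (mul_pos p1 p3) a3
    have c2 := log_le_log (mul_pos p2 p4) a4
    rw [log_mul hd (mul_pos p2 p4).ne', log_mul p1.ne' p3.ne', log_mul p2.ne' p4.ne'] at c1
    rw [log_mul p1.ne' p3.ne', log_mul p2.ne' p4.ne'] at c2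
    refine ⟨i, j, hij, (ord (minor (fun a => y (τ' a)) e') : ℤ) -
      (ord (minor (fun a => y (τ a)) e') : ℤ), ?_, ?_⟩
    · push_cast
      have n1 : (0 : ℝ) ≤ ord (minor (fun a => y (τ' a)) e') := Nat.cast_nonneg _
      have n2 : (0 : ℝ) ≤ ord (minor (fun a => y (τ a)) e') := Nat.cast_nonneg _
      rw [abs_le]
      constructor <;> linarith
    · push_cast
      rw [hyf i, hyf j]
      rw [abs_le] at b2 b4 ⊢
      constructor <;> linarith [b2.1, b2.2, b4.1, b4.2]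

theorem W2.mono {V V' : Set ℝ} {d : ℕ} {J J' γ e e' : ℝ} (h : W2 V d J γ e) (hV : V' ⊆ V)
    (hJ : J ≤ J') (he : e ≤ e') : W2 V' d J' γ e' := by
  obtain ⟨Y, hY, h1⟩ := h
  refine ⟨Y, hY, fun v hv => ?_⟩
  obtain ⟨y, hy, j, h2, h3⟩ := h1 v (hV hv)
  exact ⟨y, hy, j, h2.trans hJ, h3.trans he⟩

theorem W2.cov {V : Set ℝ} {d : ℕ} {γ e : ℝ} (h : W2 V d 0 γ e) : Cov V d e := by
  obtain ⟨Y, hY, h1⟩ := h
  refine ⟨Y, hY, fun v hv => ?_⟩
  obtain ⟨y, hy, j, h2, h3⟩ := h1 v hv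
  rw [abs_nonpos_iff.1 h2, zero_mul, sub_zero] at h3
  exact ⟨y, hy, h3⟩

theorem Cov.mono {V V' : Set ℝ} {d d' : ℕ} {e e' : ℝ} (h : Cov V d e) (hV : V' ⊆ V)
    (hd : d ≤ d') (he : e ≤ e') : Cov V' d' e' := by
  obtain ⟨Y, hY, h1⟩ := h
  refine ⟨Y, hY.trans hd, fun v hv => ?_⟩
  obtain ⟨y, hy, h3⟩ := h1 v (hV hv)
  exact ⟨y, hy, h3.trans he⟩

end

end Vale.Agent.P114
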