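import Vale.Agent.P114.Defs

/-! # P114: the unnormalised entropy `ent` of a weight vector -/

open MeasureTheory Real Set Polynomial
open scoped ENNReal

namespace Vale.Agent.P114

noncomputable section

variable {β γ ι : Type*}

theorem ent_eq_sum_log (S : Finset β) (a : β → ℝ) :
    ent S a = ∑ b ∈ S, a b * (log (∑ b' ∈ S, a b') - log (a b)) := by
  simp only [ent, negMulLog, mul_sub, Finset.sum_sub_distrib, ← Finset.sum_mul, neg_mul,
    Finset.sum_neg_distrib]
  ring

theorem ent_nonneg {S : Finset β} {a : β → ℝ} (ha : ∀ b ∈ S, 0 ≤ a b) : 0 ≤ ent S a := by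
  rw [ent_eq_sum_log]
  refine Finset.sum_nonneg fun b hb => ?_
  rcases (ha b hb).eq_or_lt with h | h
  · rw [← h, zero_mul]
  · exact mul_nonneg h.le (sub_nonneg.2 (log_le_log h (Finset.single_le_sum ha hb)))

theorem ent_congr {S : Finset β} {a a' : β → ℝ} (h : ∀ b ∈ S, a b = a' b) :
    ent S a = ent S a' := by
  rw [ent, ent, Finset.sum_congr rfl h, Finset.sum_congr rfl fun b hb => congrArg negMulLog (h b hb)]

theorem ent_of_card_le_one {S : Finset β} (a : β → ℝ) (hS : S.card ≤ 1) : ent S a = 0 := by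
  rcases S.eq_empty_or_nonempty with rfl | ⟨b, hb⟩
  · simp [ent]
  · obtain ⟨c, hc⟩ := Finset.card_eq_one.1 (le_antisymm hS (Finset.card_pos.2 ⟨b, hb⟩))
    simp [ent, hc]

/-- Gibbs inequality. -/
theorem ent_le_gibbs {S : Finset β} {a q : β → ℝ} (ha : ∀ b ∈ S, 0 ≤ a b)
    (hq0 : ∀ b ∈ S, 0 ≤ q b) (hq : ∀ b ∈ S, 0 < a b → 0 < q b) (hq1 : ∑ b ∈ S, q b ≤ 1) :
    ent S a ≤ ∑ b ∈ S, a b * (-log (q b)) := by
  rw [ent_eq_sum_log]
  set A := ∑ b ∈ S, a b with hA
  have A0 : 0 ≤ A := Finset.sum_nonneg ha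
  have h1 : ∀ b ∈ S, a b * (log A - log (a b)) ≤ a b * (-log (q b)) + (A * q b - a b) := by
    intro b hb
    rcases (ha b hb).eq_or_lt with h | h
    · rw [← h]
      simpa using mul_nonneg A0 (hq0 b hb)
    · have hA' : 0 < A := h.trans_le (Finset.single_le_sum ha hb)
      have hq' := hq b hb h
      have h2 := log_le_sub_one_of_pos (show 0 < A * q b / a b by positivity)
      rw [log_div (by positivity) h.ne', log_mul hA'.ne' hq'.ne'] at h2
      have h3 := mul_le_mul_of_nonneg_left h2 h.le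
      rw [mul_sub (a b) (_ / _), mul_div_cancel₀ _ h.ne'] at h3
      linarith
  refine (Finset.sum_le_sum h1).trans ?_
  rw [Finset.sum_add_distrib, Finset.sum_sub_distrib, ← Finset.mul_sum, ← hA]
  linarith [mul_le_mul_of_nonneg_left hq1 A0]

theorem ent_le_log_card {S : Finset β} {a : β → ℝ} (ha : ∀ b ∈ S, 0 ≤ a b) :
    ent S a ≤ (∑ b ∈ S, a b) * log S.card := by
  rcases S.eq_empty_or_nonempty with rfl | hS
  · simp [ent]
  have hc : (0 : ℝ) < S.card := Nat.cast_pos.2 hS.card_pos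
  refine (ent_le_gibbs (q := fun _ => (S.card : ℝ)⁻¹) ha (fun _ _ => by positivity)
    (fun _ _ _ => by positivity) ?_).trans (le_of_eq ?_)
  · rw [Finset.sum_const, nsmul_eq_mul, mul_inv_cancel₀ hc.ne']
  · rw [log_inv, neg_neg, Finset.sum_mul]

theorem ent_const_mul (S : Finset β) (a : β → ℝ) (c : ℝ) :
    ent S (fun b => c * a b) = c * ent S a := by
  simp only [ent, ← Finset.mul_sum, negMulLog_mul, Finset.sum_add_distrib, ← Finset.sum_mul]
  ring

/-- Superadditivity. -/
theorem ent_add_ge {S : Finset β} {a a' : β → ℝ} (ha : ∀ b ∈ S, 0 ≤ a b)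
    (ha' : ∀ b ∈ S, 0 ≤ a' b) : ent S a + ent S a' ≤ ent S (fun b => a b + a' b) := by
  set A := ∑ b ∈ S, (a b + a' b) with hA
  have hs : ∀ b ∈ S, 0 ≤ a b + a' b := fun b hb => add_nonneg (ha b hb) (ha' b hb)
  have A0 : 0 ≤ A := Finset.sum_nonneg hs
  have hp : ∀ b ∈ S, 0 < a b + a' b → 0 < (a b + a' b) / A := fun b hb h =>
    div_pos h (h.trans_le (Finset.single_le_sum hs hb))
  have h1 : ∑ b ∈ S, (a b + a' b) / A ≤ 1 := by
    rw [← Finset.sum_div]
    exact div_self_le_one _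
  have h2 := ent_le_gibbs (q := fun b => (a b + a' b) / A) ha
    (fun b hb => div_nonneg (hs b hb) A0) (fun b hb h => hp b hb (by linarith [ha' b hb])) h1
  have h3 := ent_le_gibbs (q := fun b => (a b + a' b) / A) ha'
    (fun b hb => div_nonneg (hs b hb) A0) (fun b hb h => hp b hb (by linarith [ha b hb])) h1
  refine (add_le_add h2 h3).trans (le_of_eq ?_)
  rw [ent_eq_sum_log, ← Finset.sum_add_distrib]
  refine Finset.sum_congr rfl fun b hb => ?_
  rw [← add_mul]
  rcases (hs b hb).eq_or_lt with h | h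
  · rw [← h, zero_mul, zero_mul]
  · rw [log_div h.ne' (h.trans_le (Finset.single_le_sum hs hb)).ne', neg_sub]

theorem ent_sum_ge {S : Finset β} (I : Finset ι) {a : ι → β → ℝ}
    (ha : ∀ i ∈ I, ∀ b ∈ S, 0 ≤ a i b) :
    ∑ i ∈ I, ent S (a i) ≤ ent S (fun b => ∑ i ∈ I, a i b) := by
  classical
  induction I using Finset.induction_on with
  | empty => simp [ent]
  | insert i I hi ih =>
    simp only [Finset.sum_insert hi]
    have h1 := fun j hj => ha j (Finset.mem_insert_of_mem hj)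
    exact (add_le_add_right (ih h1) _).trans (ent_add_ge (ha i (Finset.mem_insert_self _ _))
      fun b hb => Finset.sum_nonneg fun j hj => h1 j hj b hb)

theorem ent_mono {S : Finset β} {a a' : β → ℝ} (ha : ∀ b ∈ S, 0 ≤ a b)
    (h : ∀ b ∈ S, a b ≤ a' b) : ent S a ≤ ent S a' := by
  have h1 := ent_add_ge (a' := fun b => a' b - a b) ha fun b hb => sub_nonneg.2 (h b hb)
  have h2 := ent_nonneg (S := S) (a := fun b => a' b - a b) fun b hb => sub_nonneg.2 (h b hb)
  simp only [add_sub_cancel] at h1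
  linarith

theorem ent_subset {S T : Finset β} {a : β → ℝ} (hST : S ⊆ T)
    (h : ∀ b ∈ T, b ∉ S → a b = 0) : ent S a = ent T a := by
  rw [ent, ent, Finset.sum_subset hST h, Finset.sum_subset hST fun b hb hb' => by
    rw [h b hb hb', negMulLog_zero]]

theorem ent_le_of_subset {S T : Finset β} {a : β → ℝ} (hST : S ⊆ T)
    (ha : ∀ b ∈ T, 0 ≤ a b) : ent S a ≤ ent T a := by
  classical
  rw [ent_congr (S := S) (a' := fun b => if b ∈ S then a b else 0) fun b hb => (if_pos hb).symm,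
    ent_subset hST fun b _ hb => if_neg hb]
  refine ent_mono (fun b hb => ?_) fun b hb => ?_ <;> split_ifs
  exacts [ha b hb, le_rfl, le_rfl, ha b hb]

/-- Reindexing along a bijection between finsets. -/
theorem ent_bij {S : Finset β} {T : Finset γ} (e : β → γ) (a : γ → ℝ)
    (hmap : ∀ b ∈ S, e b ∈ T) (hinj : Set.InjOn e S) (hsurj : ∀ c ∈ T, ∃ b ∈ S, e b = c) :
    ent S (fun b => a (e b)) = ent T a := by
  have h : ∀ f : γ → ℝ, ∑ b ∈ S, f (e b) = ∑ c ∈ T, f c := fun f =>
    Finset.sum_nbij e hmap hinj (fun c hc => hsurj c hc) fun _ _ => rfl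
  rw [ent, ent, h, h fun c => negMulLog (a c)]

@[simp] theorem mem_fib {Ω : Type*} {S : Finset Ω} {X : Ω → β} {b : β} {ω : Ω} :
    ω ∈ fib S X b ↔ ω ∈ S ∧ X ω = b := by
  simp [fib]

@[simp] theorem mem_img {Ω : Type*} {S : Finset Ω} {X : Ω → β} {b : β} :
    b ∈ img S X ↔ ∃ ω ∈ S, X ω = b := by
  simp [img]

theorem fib_subset {Ω : Type*} (S : Finset Ω) (X : Ω → β) (b : β) : fib S X b ⊆ S := by
  exact fun ω h => (mem_fib.1 h).1

theorem sum_fib {Ω M : Type*} [AddCommMonoid M] (S : Finset Ω) (X : Ω → β) (g : Ω → M) :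
    ∑ b ∈ img S X, ∑ ω ∈ fib S X b, g ω = ∑ ω ∈ S, g ω := by
  classical
  unfold fib
  exact Finset.sum_fiberwise_of_maps_to (fun ω h => mem_img.2 ⟨ω, h, rfl⟩) g

theorem sum_mass {Ω : Type*} (S : Finset Ω) (w : Ω → ℝ) (X : Ω → β) :
    ∑ b ∈ img S X, mass S w X b = ∑ ω ∈ S, w ω := by
  exact sum_fib S X w

theorem mass_nonneg {Ω : Type*} {S : Finset Ω} {w : Ω → ℝ} (hw : ∀ ω ∈ S, 0 ≤ w ω)
    (X : Ω → β) (b : β) : 0 ≤ mass S w X b := by
  exact Finset.sum_nonneg fun ω h => hw ω (fib_subset _ _ _ h)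

/-- `entW` may be computed over any finset containing the image. -/
theorem entW_eq_ent {Ω : Type*} (S : Finset Ω) (w : Ω → ℝ) (X : Ω → β) {T : Finset β}
    (hT : ∀ ω ∈ S, X ω ∈ T) : entW S w X = ent T (mass S w X) := by
  refine ent_subset (fun b hb => ?_) fun b _ hb => Finset.sum_eq_zero fun ω h => ?_
  · obtain ⟨ω, h, rfl⟩ := mem_img.1 hb
    exact hT ω h
  · exact (hb (mem_img.2 ⟨ω, mem_fib.1 h⟩)).elim

/-- Chain rule along a function. -/
theorem ent_chain (S : Finset β) (a : β → ℝ) (f : β → γ) :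
    ent S a = entW S a f + ∑ c ∈ img S f, ent (fib S f c) a := by
  simp only [entW, ent, Finset.sum_sub_distrib, sum_mass, sum_fib S f fun b => negMulLog (a b)]
  simp only [mass]
  ring

/-- Chain rule on a product, by rows. -/
theorem ent_prod_left (S : Finset β) (T : Finset γ) (a : β → γ → ℝ) :
    ent (S ×ˢ T) (fun z => a z.1 z.2) =
      ent S (fun b => ∑ c ∈ T, a b c) + ∑ b ∈ S, ent T (a b) := by
  simp only [ent, Finset.sum_product, Finset.sum_sub_distrib]
  ring

/-- Chain rule on a product, by columns. -/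
theorem ent_prod_right (S : Finset β) (T : Finset γ) (a : β → γ → ℝ) :
    ent (S ×ˢ T) (fun z => a z.1 z.2) =
      ent T (fun c => ∑ b ∈ S, a b c) + ∑ c ∈ T, ent S (fun b => a b c) := by
  simp only [ent, Finset.sum_product_right, Finset.sum_sub_distrib]
  ring

/-- Entropy of a product of weights. -/
theorem ent_prod_mul (S : Finset β) (T : Finset γ) (a : β → ℝ) (b : γ → ℝ) :
    ent (S ×ˢ T) (fun z => a z.1 * b z.2) =
      (∑ c ∈ T, b c) * ent S a + (∑ c ∈ S, a c) * ent T b := by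
  rw [ent_prod_left S T fun x y => a x * b y]
  simp only [ent_const_mul, ← Finset.mul_sum, ← Finset.sum_mul]
  rw [← ent_const_mul S, ent_congr fun x _ => mul_comm (a x) _]

end

end Vale.Agent.P114
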