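import Vale.Agent.P114.Ent

/-! # P114: entropy and conditional entropy of variables on a weighted finite set -/

open MeasureTheory Real Set Polynomial
open scoped ENNReal

namespace Vale.Agent.P114

noncomputable section

variable {Ω Ω' β γ δ : Type*} {S : Finset Ω} {w : Ω → ℝ}

theorem entW_eq_sum (S : Finset Ω) (w : Ω → ℝ) (X : Ω → β) :
    entW S w X = ∑ ω ∈ S, w ω * (log (∑ ω' ∈ S, w ω') - log (mass S w X (X ω))) := by
  rw [entW, ent_eq_sum_log, sum_mass,
    ← sum_fib S X fun ω => w ω * (log (∑ ω' ∈ S, w ω') - log (mass S w X (X ω)))]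
  refine Finset.sum_congr rfl fun b _ => ?_
  rw [mass, Finset.sum_mul]
  refine Finset.sum_congr rfl fun ω h => ?_
  rw [(mem_fib.1 h).2, mass]

theorem entW_nonneg (hw : ∀ ω ∈ S, 0 ≤ w ω) (X : Ω → β) : 0 ≤ entW S w X := by
  exact ent_nonneg fun b _ => mass_nonneg hw X b

theorem entW_le_log_card (hw : ∀ ω ∈ S, 0 ≤ w ω) (X : Ω → β) {n : ℕ}
    (hn : (img S X).card ≤ n) : entW S w X ≤ (∑ ω ∈ S, w ω) * log n := by
  refine (ent_le_log_card fun b _ => mass_nonneg hw X b).trans ?_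
  rw [sum_mass]
  refine mul_le_mul_of_nonneg_left ?_ (Finset.sum_nonneg hw)
  rcases (img S X).card.eq_zero_or_pos with h | h
  · rw [h, Nat.cast_zero, log_zero]
    exact log_natCast_nonneg n
  · exact log_le_log (Nat.cast_pos.2 h) (Nat.cast_le.2 hn)

theorem entW_le_gibbs (hw : ∀ ω ∈ S, 0 ≤ w ω) (X : Ω → β) (q : β → ℝ)
    (hq : ∀ ω ∈ S, 0 < q (X ω)) (hq1 : ∑ b ∈ img S X, q b ≤ 1) :
    entW S w X ≤ ∑ ω ∈ S, w ω * (-log (q (X ω))) := by
  have h1 : ∀ b ∈ img S X, 0 < q b := fun b hb => by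
    obtain ⟨ω, h, rfl⟩ := mem_img.1 hb
    exact hq ω h
  refine (ent_le_gibbs (fun b _ => mass_nonneg hw X b) (fun b hb => (h1 b hb).le)
    (fun b hb _ => h1 b hb) hq1).trans (le_of_eq ?_)
  rw [← sum_fib S X fun ω => w ω * (-log (q (X ω)))]
  refine Finset.sum_congr rfl fun b _ => ?_
  rw [mass, Finset.sum_mul]
  exact Finset.sum_congr rfl fun ω h => by rw [(mem_fib.1 h).2]

theorem entW_congr_w {w' : Ω → ℝ} (h : ∀ ω ∈ S, w ω = w' ω) (X : Ω → β) :
    entW S w X = entW S w' X := by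
  exact ent_congr fun b _ => Finset.sum_congr rfl fun ω hω => h ω (fib_subset _ _ _ hω)

/-- Entropy only depends on the partition. -/
theorem entW_congr (w : Ω → ℝ) {X : Ω → β} {Y : Ω → γ}
    (h : ∀ ω ∈ S, ∀ ω' ∈ S, X ω = X ω' ↔ Y ω = Y ω') : entW S w X = entW S w Y := by
  rw [entW_eq_sum, entW_eq_sum]
  refine Finset.sum_congr rfl fun ω hω => ?_
  have : fib S X (X ω) = fib S Y (Y ω) := Finset.ext fun ω' => by
    rw [mem_fib, mem_fib]
    exact and_congr_right fun h' => h ω' h' ω hω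
  rw [mass, mass, this]

/-- A function of `Y` has less entropy than `Y`. -/
theorem entW_mono (hw : ∀ ω ∈ S, 0 ≤ w ω) {X : Ω → β} {Y : Ω → γ}
    (h : ∀ ω ∈ S, ∀ ω' ∈ S, Y ω = Y ω' → X ω = X ω') : entW S w X ≤ entW S w Y := by
  rw [entW_eq_sum, entW_eq_sum]
  refine Finset.sum_le_sum fun ω hω => ?_
  rcases (hw ω hω).eq_or_lt with h0 | h0
  · rw [← h0, zero_mul, zero_mul]
  refine mul_le_mul_of_nonneg_left (sub_le_sub_left (log_le_log ?_ ?_) _) h0.le
  · exact h0.trans_le (Finset.single_le_sum (fun ω' h' => hw ω' (fib_subset _ _ _ h'))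
      (mem_fib.2 ⟨hω, rfl⟩))
  · exact Finset.sum_le_sum_of_subset_of_nonneg (fun ω' h' => mem_fib.2 ⟨(mem_fib.1 h').1,
      h ω' (mem_fib.1 h').1 ω hω (mem_fib.1 h').2⟩) fun ω' h' _ => hw ω' (fib_subset _ _ _ h')

theorem entW_of_injOn (w : Ω → ℝ) {X : Ω → β} (h : Set.InjOn X S) : entW S w X = ent S w := by
  rw [entW_eq_sum, ent_eq_sum_log]
  refine Finset.sum_congr rfl fun ω hω => ?_
  have : fib S X (X ω) = {ω} := Finset.ext fun ω' => by
    rw [mem_fib, Finset.mem_singleton]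
    exact ⟨fun h' => h h'.1 hω h'.2, fun h' => by rw [h']; exact ⟨hω, rfl⟩⟩
  rw [mass, this, Finset.sum_singleton]

theorem entW_le_ent (hw : ∀ ω ∈ S, 0 ≤ w ω) (X : Ω → β) : entW S w X ≤ ent S w := by
  rw [← entW_of_injOn w (X := id) (Set.injOn_id _)]
  exact entW_mono hw fun ω _ ω' _ h => congrArg X h

theorem entW_const_mul (S : Finset Ω) (w : Ω → ℝ) (X : Ω → β) (c : ℝ) :
    entW S (fun ω => c * w ω) X = c * entW S w X := by
  rw [entW, entW, ← ent_const_mul]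
  exact ent_congr fun b _ => by rw [mass, mass, Finset.mul_sum]

/-- Reindexing along a bijection between finsets. -/
theorem entW_bij {S' : Finset Ω'} (e : Ω' → Ω) (w : Ω → ℝ) (X : Ω → β)
    (hmap : ∀ ω ∈ S', e ω ∈ S) (hinj : Set.InjOn e S') (hsurj : ∀ ω ∈ S, ∃ ω' ∈ S', e ω' = ω) :
    entW S' (fun ω => w (e ω)) (fun ω => X (e ω)) = entW S w X := by
  have h : ∀ f : Ω → ℝ, ∑ ω ∈ S', f (e ω) = ∑ ω ∈ S, f ω := fun f =>
    Finset.sum_nbij e hmap hinj (fun c hc => hsurj c hc) fun _ _ => rfl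
  have h2 : ∀ b, mass S' (fun ω => w (e ω)) (fun ω => X (e ω)) b = mass S w X b := fun b => by
    classical
    simp only [mass, fib, Finset.sum_filter]
    exact h fun ω => if X ω = b then w ω else 0
  simp only [entW_eq_sum, h2]
  rw [h w, h fun ω => w ω * (log (∑ ω' ∈ S, w ω') - log (mass S w X (X ω)))]

theorem entW_le_of_subset {S' : Finset Ω} (hS : S' ⊆ S) (hw : ∀ ω ∈ S, 0 ≤ w ω) (X : Ω → β) :
    entW S' w X ≤ entW S w X := by
  rw [entW_eq_ent S' w X (T := img S X) fun ω h => mem_img.2 ⟨ω, hS h, rfl⟩]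
  exact ent_mono (fun b _ => mass_nonneg (fun ω h => hw ω (hS h)) X b) fun b _ =>
    Finset.sum_le_sum_of_subset_of_nonneg
      (fun ω h => mem_fib.2 ⟨hS (mem_fib.1 h).1, (mem_fib.1 h).2⟩)
      fun ω h _ => hw ω (fib_subset _ _ _ h)

theorem condW_eq_sum (S : Finset Ω) (w : Ω → ℝ) (X : Ω → β) (Y : Ω → γ) :
    condW S w X Y = ∑ c ∈ img S Y, entW (fib S Y c) w X := by
  simp only [condW, entW_eq_sum, ← Finset.sum_sub_distrib]
  rw [← sum_fib S Y]
  refine Finset.sum_congr rfl fun c _ => Finset.sum_congr rfl fun ω h => ?_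
  have h1 : fib (fib S Y c) X (X ω) = fib S (fun ω => (X ω, Y ω)) (X ω, Y ω) :=
    Finset.ext fun ω' => by
      simp only [mem_fib, Prod.mk.injEq, (mem_fib.1 h).2]
      tauto
  simp only [mass, h1, (mem_fib.1 h).2]
  ring

theorem condW_nonneg (hw : ∀ ω ∈ S, 0 ≤ w ω) (X : Ω → β) (Y : Ω → γ) : 0 ≤ condW S w X Y := by
  rw [condW_eq_sum]
  exact Finset.sum_nonneg fun c _ => entW_nonneg (fun ω h => hw ω (fib_subset _ _ _ h)) X

theorem condW_le_entW (hw : ∀ ω ∈ S, 0 ≤ w ω) (X : Ω → β) (Y : Ω → γ) :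
    condW S w X Y ≤ entW S w X := by
  rw [condW_eq_sum, entW]
  have h1 := ent_sum_ge (S := img S X) (img S Y) (a := fun c => mass (fib S Y c) w X)
    fun c _ b _ => mass_nonneg (fun ω h => hw ω (fib_subset _ _ _ h)) X b
  refine le_trans (le_of_eq (Finset.sum_congr rfl fun c _ => entW_eq_ent _ _ _ fun ω h =>
    mem_img.2 ⟨ω, fib_subset _ _ _ h, rfl⟩)) (h1.trans (le_of_eq (ent_congr fun b _ => ?_)))
  classical
  simp only [mass]
  simp only [fib, Finset.sum_filter (p := fun ω => X ω = b)]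
  exact sum_fib S Y fun ω => if X ω = b then w ω else 0

/-- Conditional entropies split along a function of the condition. -/
theorem EntWAux.condW_split (w : Ω → ℝ) (X : Ω → β) {Y : Ω → γ} {Z : Ω → δ}
    (h : ∀ ω ∈ S, ∀ ω' ∈ S, Z ω = Z ω' → Y ω = Y ω') :
    condW S w X Z = ∑ c ∈ img S Y, condW (fib S Y c) w X Z := by
  have h1 := condW_eq_sum S w (fun ω => (X ω, Z ω)) Y
  have h2 := condW_eq_sum S w Z Y
  have h3 : entW S w (fun ω => ((X ω, Z ω), Y ω)) = entW S w (fun ω => (X ω, Z ω)) :=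
    entW_congr w fun ω hω ω' hω' => by
      simp only [Prod.mk.injEq]
      exact ⟨fun h' => h'.1, fun h' => ⟨h', h ω hω ω' hω' h'.2⟩⟩
  have h4 : entW S w (fun ω => (Z ω, Y ω)) = entW S w Z :=
    entW_congr w fun ω hω ω' hω' => by
      simp only [Prod.mk.injEq]
      exact ⟨fun h' => h'.1, fun h' => ⟨h', h ω hω ω' hω' h'⟩⟩
  simp only [condW] at h1 h2 ⊢
  rw [Finset.sum_sub_distrib]
  linarith

/-- Conditioning on more decreases entropy (`Y` is a function of `Z`). -/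
theorem condW_mono_right (hw : ∀ ω ∈ S, 0 ≤ w ω) (X : Ω → β) {Y : Ω → γ} {Z : Ω → δ}
    (h : ∀ ω ∈ S, ∀ ω' ∈ S, Z ω = Z ω' → Y ω = Y ω') : condW S w X Z ≤ condW S w X Y := by
  rw [EntWAux.condW_split w X h, condW_eq_sum S w X Y]
  exact Finset.sum_le_sum fun c _ => condW_le_entW (fun ω h => hw ω (fib_subset _ _ _ h)) X Z

/-- `X` is a function of `(X', Y)`. -/
theorem condW_mono_left (hw : ∀ ω ∈ S, 0 ≤ w ω) {X : Ω → β} {X' : Ω → δ} {Y : Ω → γ}
    (h : ∀ ω ∈ S, ∀ ω' ∈ S, X' ω = X' ω' → Y ω = Y ω' → X ω = X ω') :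
    condW S w X Y ≤ condW S w X' Y := by
  refine sub_le_sub_right (entW_mono hw fun ω hω ω' hω' h' => ?_) _
  simp only [Prod.mk.injEq] at h' ⊢
  exact ⟨h ω hω ω' hω' h'.1 h'.2, h'.2⟩

theorem condW_le_log (hw : ∀ ω ∈ S, 0 ≤ w ω) (X : Ω → β) (Y : Ω → γ) {n : ℕ}
    (hn : ∀ c, (img (fib S Y c) X).card ≤ n) : condW S w X Y ≤ (∑ ω ∈ S, w ω) * log n := by
  rw [condW_eq_sum, ← sum_fib S Y w, Finset.sum_mul]
  exact Finset.sum_le_sum fun c _ =>
    entW_le_log_card (fun ω h => hw ω (fib_subset _ _ _ h)) X (hn c)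

theorem condW_pair (S : Finset Ω) (w : Ω → ℝ) (X : Ω → β) (X' : Ω → δ) (Y : Ω → γ) :
    condW S w (fun ω => (X ω, X' ω)) Y = condW S w X Y + condW S w X' (fun ω => (X ω, Y ω)) := by
  have h : entW S w (fun ω => ((X ω, X' ω), Y ω)) = entW S w (fun ω => (X' ω, X ω, Y ω)) :=
    entW_congr w fun ω _ ω' _ => by
      simp only [Prod.mk.injEq]
      tauto
  simp only [condW]
  linarith

theorem condW_le_of_subset {S' : Finset Ω} (hS : S' ⊆ S) (hw : ∀ ω ∈ S, 0 ≤ w ω)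
    (X : Ω → β) (Y : Ω → γ) : condW S' w X Y ≤ condW S w X Y := by
  rw [condW_eq_sum, condW_eq_sum]
  have h0 : ∀ c, ∀ ω ∈ fib S Y c, 0 ≤ w ω := fun c ω h => hw ω (fib_subset _ _ _ h)
  refine (Finset.sum_le_sum fun c _ => entW_le_of_subset (S := fib S Y c)
    (fun ω h => mem_fib.2 ⟨hS (mem_fib.1 h).1, (mem_fib.1 h).2⟩) (h0 c) X).trans ?_
  refine Finset.sum_le_sum_of_subset_of_nonneg (fun c hc => ?_) fun c _ _ => entW_nonneg (h0 c) X
  obtain ⟨ω, h, rfl⟩ := mem_img.1 hc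
  exact mem_img.2 ⟨ω, hS h, rfl⟩

theorem EntWAux.sum_event (S : Finset Ω) (P : Ω → Prop) [DecidablePred P] (G : Finset Ω → ℝ)
    (hG : G ∅ = 0) : ∑ c ∈ img S (fun ω => decide (P ω)), G (fib S (fun ω => decide (P ω)) c) =
      G (S.filter P) + G (S.filter (fun ω => ¬ P ω)) := by
  rw [Finset.sum_subset (Finset.subset_univ _) fun c _ hc => ?_, Fintype.sum_bool]
  · congr 2 <;> ext ω <;> simp
  · rw [← hG]
    congr 1
    exact Finset.eq_empty_of_forall_notMem fun ω h => hc (mem_img.2 ⟨ω, mem_fib.1 h⟩)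

theorem EntWAux.card_bool (S : Finset Ω) (c : Ω → Bool) : (img S c).card ≤ 2 :=
  (Finset.card_le_univ _).trans_eq Fintype.card_bool

/-- Splitting along an event costs at most `log 2`. -/
theorem entW_le_split (hw : ∀ ω ∈ S, 0 ≤ w ω) (X : Ω → β) (P : Ω → Prop) [DecidablePred P] :
    entW S w X ≤ (∑ ω ∈ S, w ω) * log 2 + entW (S.filter P) w X +
      entW (S.filter (fun ω => ¬ P ω)) w X := by
  have h1 := condW_eq_sum S w X fun ω => decide (P ω)
  rw [EntWAux.sum_event S P (fun T => entW T w X) (by simp [entW, ent, img]), condW] at h1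
  have h2 := entW_le_log_card hw _ (EntWAux.card_bool S fun ω => decide (P ω))
  have h3 := entW_mono hw (X := X) (Y := fun ω => (X ω, decide (P ω)))
    fun ω _ ω' _ h => (Prod.mk.inj h).1
  push_cast at h2
  linarith

theorem condW_le_split (hw : ∀ ω ∈ S, 0 ≤ w ω) (X : Ω → β) (Y : Ω → γ) (P : Ω → Prop)
    [DecidablePred P] :
    condW S w X Y ≤ (∑ ω ∈ S, w ω) * log 2 + condW (S.filter P) w X Y +
      condW (S.filter (fun ω => ¬ P ω)) w X Y := by
  have h1 := EntWAux.condW_split (S := S) w X (Y := fun ω => decide (P ω))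
    (Z := fun ω => (decide (P ω), Y ω)) fun ω _ ω' _ h => (Prod.mk.inj h).1
  rw [EntWAux.sum_event S P (fun T => condW T w X fun ω => (decide (P ω), Y ω))
    (by simp [condW, entW, ent, img])] at h1
  have h2 := condW_le_log hw (fun ω => decide (P ω)) Y fun c => EntWAux.card_bool _ _
  have h3 := condW_mono_left hw (X := X) (X' := fun ω => (decide (P ω), X ω)) (Y := Y)
    fun ω _ ω' _ h _ => (Prod.mk.inj h).2
  have h4 := condW_mono_right (S := S.filter P) (fun ω h => hw ω (Finset.mem_filter.1 h).1) X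
    (Y := Y) (Z := fun ω => (decide (P ω), Y ω)) fun ω _ ω' _ h => (Prod.mk.inj h).2
  have h5 := condW_mono_right (S := S.filter fun ω => ¬ P ω)
    (fun ω h => hw ω (Finset.mem_filter.1 h).1) X
    (Y := Y) (Z := fun ω => (decide (P ω), Y ω)) fun ω _ ω' _ h => (Prod.mk.inj h).2
  rw [condW_pair] at h3
  push_cast at h2
  linarith

/-- The inequality behind the block argument:
`H(c) - H(c | V) - H(c | Z) ≤ H(Z) - H(Z | V)`. -/
theorem info_transfer (hw : ∀ ω ∈ S, 0 ≤ w ω) (Z : Ω → β) (c : Ω → γ) (V : Ω → δ) :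
    entW S w c - condW S w c V - condW S w c Z ≤ entW S w Z - condW S w Z V := by
  have h1 := condW_le_entW hw c Z
  have h2 := condW_mono_right hw Z (Y := c) (Z := fun ω => (c ω, V ω))
    fun ω _ ω' _ h => (Prod.mk.inj h).1
  have h3 := condW_mono_left hw (X := Z) (X' := fun ω => (c ω, Z ω)) (Y := V)
    fun ω _ ω' _ h _ => (Prod.mk.inj h).2
  rw [condW_pair] at h3
  have h4 : entW S w (fun ω => (c ω, Z ω)) = entW S w (fun ω => (Z ω, c ω)) :=
    entW_congr w fun ω _ ω' _ => by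
      simp only [Prod.mk.injEq]
      tauto
  have h5 : condW S w c Z = entW S w (fun ω => (c ω, Z ω)) - entW S w Z := rfl
  have h6 : condW S w Z c = entW S w (fun ω => (Z ω, c ω)) - entW S w c := rfl
  linarith

end

end Vale.Agent.P114
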