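import Vale.Agent.P114.HsInfo

/-! # P114: random mantissa: counting, decoding, numerics -/

open MeasureTheory Real Set Polynomial
open scoped ENNReal

namespace Vale.Agent.P114

noncomputable section

namespace GBcoreAux

theorem exp_sub_ge {a b : ℝ} (hb : 0 ≤ b) (hab : b ≤ a) : a - b ≤ exp a - exp b := by
  have h1 := add_one_le_exp (a - b)
  have h2 : exp a = exp b * exp (a - b) := by rw [← exp_add, add_sub_cancel]
  have h3 := one_le_exp hb
  nlinarith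

open Classical in
theorem count_one {θ : ℝ} {b : ℕ} (hEQ : EQd θ b) {τ : ℝ} (hτ : 0 < τ) (Y D : ℝ) (hD : 1 ≤ |D|)
    (c : ℤ) : (((Finset.range b).filter (fun i : ℕ =>
      |⌊Y + D * exp (τ * Int.fract (i * θ))⌋ - c| ≤ 1)).card : ℝ) ≤ b * (3 / (τ * |D|)) + 3 := by
  have hl : 0 ≤ 3 / (τ * |D|) := by positivity
  set I := (Finset.range b).filter (fun i : ℕ =>
      |⌊Y + D * exp (τ * Int.fract (i * θ))⌋ - c| ≤ 1) with hI
  rcases I.eq_empty_or_nonempty with h | h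
  · rw [h, Finset.card_empty, Nat.cast_zero]
    positivity
  obtain ⟨i0, hi0, hmin⟩ := Finset.exists_min_image I (fun i : ℕ => Int.fract (i * θ)) h
  refine le_trans ?_ (hEQ (Int.fract (i0 * θ)) _ hl)
  refine Nat.cast_le.2 (Finset.card_le_card fun i hi => ?_)
  obtain ⟨h1, h2⟩ := Finset.mem_filter.1 hi
  have h3 := (Finset.mem_filter.1 hi0).2
  refine Finset.mem_filter.2 ⟨h1, hmin i hi, ?_⟩
  have key : ∀ z : ℝ, |⌊z⌋ - c| ≤ 1 → (c : ℝ) - 1 ≤ z ∧ z ≤ c + 2 := by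
    intro z hz
    obtain ⟨a1, a2⟩ := abs_le.1 hz
    have a3 : (c : ℝ) - 1 ≤ (⌊z⌋ : ℝ) := by exact_mod_cast (by omega : c - 1 ≤ ⌊z⌋)
    have a4 : (⌊z⌋ : ℝ) ≤ c + 1 := by exact_mod_cast (by omega : ⌊z⌋ ≤ c + 1)
    exact ⟨a3.trans (Int.floor_le z), by linarith [Int.lt_floor_add_one z]⟩
  have k1 := key _ h2
  have k2 := key _ h3
  have h4 := exp_sub_ge (mul_nonneg hτ.le (Int.fract_nonneg (i0 * θ)))
    (mul_le_mul_of_nonneg_left (hmin i hi) hτ.le)
  have h5 : 0 ≤ exp (τ * Int.fract (i * θ)) - exp (τ * Int.fract (i0 * θ)) :=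
    le_trans (by nlinarith [hmin i hi]) h4
  have h6 : |D| * (exp (τ * Int.fract (i * θ)) - exp (τ * Int.fract (i0 * θ))) ≤ 3 := by
    rw [← abs_of_nonneg h5, ← abs_mul, abs_le]
    constructor <;> linarith [k1.1, k1.2, k2.1, k2.2]
  have h7 := mul_le_mul_of_nonneg_left h4 (abs_nonneg D)
  rw [← sub_le_iff_le_add', le_div_iff₀ (by positivity)]
  linarith

theorem ind01 (A : Set ℝ) (z : ℝ) : 0 ≤ A.indicator (1 : ℝ → ℝ) z :=
  indicator_nonneg (fun _ _ => zero_le_one) z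

open Classical in
theorem sum_ind (A : Set ℝ) (b : ℕ) (z : ℕ → ℝ) :
    ∑ i ∈ Finset.range b, A.indicator (1 : ℝ → ℝ) (z i) =
      (((Finset.range b).filter (fun i => z i ∈ A)).card : ℝ) := by
  rw [Finset.card_filter, Nat.cast_sum]
  refine Finset.sum_congr rfl fun i _ => ?_
  by_cases h : z i ∈ A
  · rw [indicator_of_mem h, if_pos h, Nat.cast_one, Pi.one_apply]
  · rw [indicator_of_notMem h, if_neg h, Nat.cast_zero]

open Classical in
theorem point {J : Finset ℤ} {n : ℤ → ℝ} (hn : ∀ j ∈ J, 0 < n j) (hn1 : ∑ j ∈ J, n j = 1)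
    (x : ℤ → ℝ) (b : ℕ) (ρs : ℕ → ℝ) (G Gp : Set ℝ) {η : ℝ} (hη0 : 0 < η) (hη1 : η ≤ 1)
    {j : ℤ} (hj : j ∈ J) (y : ℝ)
    (hcount : ∀ j' ∈ J, j ≠ j' →
      (((Finset.range b).filter (fun i => y + (x j - x j') / ρs i ∈ Gp)).card : ℝ) ≤ η * b) :
    b * (G.indicator (fun _ => psi (2 * √η) (n j)) y - √η * (1 - n j)) ≤
      ∑ i ∈ Finset.range b, Psi J n x (ρs i) G Gp (√η) j y := by
  have hκ : 0 < √η := sqrt_pos.2 hη0
  have hκ2 : √η * √η = η := mul_self_sqrt hη0.le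
  have hκ1 : √η ≤ 1 := sqrt_le_one.2 hη1
  have hs : ∑ j' ∈ J.erase j, n j' = 1 - n j := by
    rw [← hn1, ← Finset.sum_erase_add J n hj]
    ring
  have hn0 : ∀ j' ∈ J.erase j, 0 ≤ n j' := fun j' h => (hn j' (Finset.mem_of_mem_erase h)).le
  have h1n : 0 ≤ 1 - n j := hs ▸ Finset.sum_nonneg hn0
  set c : ℕ → ℝ := fun i =>
    ∑ j' ∈ J.erase j, n j' * Gp.indicator (1 : ℝ → ℝ) (y + (x j - x j') / ρs i) with hc
  have hc0 : ∀ i, 0 ≤ c i := fun i =>
    Finset.sum_nonneg fun j' h => mul_nonneg (hn0 j' h) (ind01 _ _)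
  have hcs : ∑ i ∈ Finset.range b, c i ≤ η * b * (1 - n j) := by
    rw [hc, Finset.sum_comm, ← hs, Finset.mul_sum]
    refine Finset.sum_le_sum fun j' h => ?_
    rw [← Finset.mul_sum, sum_ind, mul_comm]
    exact mul_le_mul_of_nonneg_right
      (hcount j' (Finset.mem_of_mem_erase h) (Finset.ne_of_mem_erase h).symm) (hn0 j' h)
  have hb0 : (0 : ℝ) ≤ b := Nat.cast_nonneg b
  by_cases hy : y ∈ G
  · rw [indicator_of_mem hy]
    have hA : 0 < n j + 2 * √η * (1 - n j) := add_pos_of_pos_of_nonneg (hn j hj) (by positivity)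
    set A := n j + 2 * √η * (1 - n j) with hA'
    have h2 : ∀ i ∈ Finset.range b, -log A - (c i - √η * (1 - n j)) / A ≤
        Psi J n x (ρs i) G Gp (√η) j y := by
      intro i _
      have e : ∑ j' ∈ J.erase j, n j' * (√η + Gp.indicator (1 : ℝ → ℝ)
          (y + (x j - x j') / ρs i)) = √η * (1 - n j) + c i := by
        rw [← hs, Finset.mul_sum, hc, ← Finset.sum_add_distrib]
        exact Finset.sum_congr rfl fun j' _ => by ring
      rw [Psi, if_pos hy, e]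
      have ha : 0 < n j + (√η * (1 - n j) + c i) :=
        add_pos_of_pos_of_nonneg (hn j hj) (add_nonneg (by positivity) (hc0 i))
      have h3 := log_le_sub_one_of_pos (div_pos ha hA)
      rw [log_div ha.ne' hA.ne'] at h3
      have h4 : (n j + (√η * (1 - n j) + c i)) / A - 1 = (c i - √η * (1 - n j)) / A := by
        rw [div_sub_one hA.ne', hA']
        congr 1
        ring
      linarith
    refine le_trans ?_ (Finset.sum_le_sum h2)
    rw [Finset.sum_sub_distrib, ← Finset.sum_div, Finset.sum_sub_distrib, Finset.sum_const,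
      Finset.sum_const, Finset.card_range, nsmul_eq_mul, nsmul_eq_mul]
    have h5 : η * b * (1 - n j) ≤ b * (√η * (1 - n j)) := by
      have h6 : η ≤ √η := by nlinarith
      have h7 := mul_le_mul_of_nonneg_right h6 (mul_nonneg hb0 h1n)
      linarith
    have h8 : (∑ i ∈ Finset.range b, c i - b * (√η * (1 - n j))) / A ≤ 0 :=
      div_nonpos_of_nonpos_of_nonneg (by linarith) hA.le
    have h9 : 0 ≤ b * (√η * (1 - n j)) := by positivity
    have e2 : psi (2 * √η) (n j) = -log A := rfl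
    rw [e2]
    linarith
  · rw [indicator_of_notMem hy]
    have h2 : ∀ i ∈ Finset.range b, Psi J n x (ρs i) G Gp (√η) j y = -c i / √η := by
      intro i _
      rw [Psi, if_neg hy]
    rw [Finset.sum_congr rfl h2, ← Finset.sum_div, Finset.sum_neg_distrib, le_div_iff₀ hκ]
    have e : b * (0 - √η * (1 - n j)) * √η = -(√η * √η * b * (1 - n j)) := by ring
    rw [e, hκ2]
    linarith

theorem psi_ge {ζ n : ℝ} (hζ0 : 0 < ζ) (hζ : ζ ≤ 1 / 4) (hn : 0 < n) (hn1 : n ≤ 1) :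
    1 - n ≤ 2 * psi ζ n := by
  have h1 : 0 < n + ζ * (1 - n) := add_pos_of_pos_of_nonneg hn (mul_nonneg hζ0.le (by linarith))
  have h2 := log_le_sub_one_of_pos h1
  have h3 := mul_le_mul_of_nonneg_right hζ (show 0 ≤ 1 - n by linarith)
  unfold psi
  linarith

theorem psi_sqrt {ζ n m : ℝ} (hζ0 : 0 < ζ) (hn : 0 < n) (hn1 : n ≤ 1) (hm : 0 < m)
    (h : n + ζ * (1 - n) ≤ √m) : -log m ≤ 2 * psi ζ n := by
  have h1 : 0 < n + ζ * (1 - n) := add_pos_of_pos_of_nonneg hn (mul_nonneg hζ0.le (by linarith))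
  have h2 := log_le_log h1 h
  rw [log_sqrt hm.le] at h2
  unfold psi
  linarith

theorem nlog_le {n : ℝ} (hn : 0 < n) : n * -log n ≤ √n := by
  have hu : 0 < √n := sqrt_pos.2 hn
  have h1 := log_le_sub_one_of_pos (show 0 < (√n)⁻¹ / 2 by positivity)
  rw [log_div (by positivity) two_ne_zero, log_inv, log_sqrt hn.le] at h1
  have h2 : -log n ≤ (√n)⁻¹ := by linarith [log_two_lt_d9]
  have h3 := mul_le_mul_of_nonneg_left h2 hn.le
  rwa [← div_eq_mul_inv, div_sqrt] at h3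

theorem num_one {ζ θ0 n : ℝ} (hθ0 : 0 < θ0) (hθζ : θ0 ≤ ζ) (hζ : ζ ≤ 1 / 4) (hn : 0 < n)
    (hn1 : n ≤ 1) : n * -log n ≤ 2 * (log θ0 / log ζ) * (n * psi ζ n) + √θ0 := by
  have hζ0 : 0 < ζ := hθ0.trans_le hθζ
  have hl : log ζ < 0 := log_neg hζ0 (by linarith)
  have hr : 1 ≤ log θ0 / log ζ := by
    rw [le_div_iff_of_neg hl, one_mul]
    exact log_le_log hθ0 hθζ
  have hp : 0 ≤ psi ζ n := by linarith [psi_ge hζ0 hζ hn hn1]
  have hs := sqrt_nonneg θ0
  set r := log θ0 / log ζ with hr'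
  rcases le_total n θ0 with h | h
  · have h1 := (nlog_le hn).trans (sqrt_le_sqrt h)
    have h2 : 0 ≤ 2 * r * (n * psi ζ n) := by positivity
    linarith
  have key : -log n ≤ r * (2 * psi ζ n) := by
    rcases le_total ζ n with h' | h'
    · have hu : 0 < √n := sqrt_pos.2 hn
      have hu1 : √n ≤ 1 := sqrt_le_one.2 hn1
      have hu2 : √n * √n = n := mul_self_sqrt hn.le
      have h3 : ζ * (1 + √n) ≤ √n := by
        rcases le_total (√n) (1 / 2) with h4 | h4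
        · have h5 := mul_le_mul_of_nonneg_right h' (show 0 ≤ 1 + √n by positivity)
          nlinarith
        · nlinarith
      have h6 : n + ζ * (1 - n) ≤ √n := by
        have h7 := mul_le_mul_of_nonneg_right h3 (show 0 ≤ 1 - √n by linarith)
        nlinarith
      exact (psi_sqrt hζ0 hn hn1 hn h6).trans (le_mul_of_one_le_left (by linarith) hr)
    · have h3 : n + ζ * (1 - n) ≤ √ζ := by
        refine le_trans (by nlinarith : _ ≤ 2 * ζ) (le_sqrt_of_sq_le (by nlinarith))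
      have h4 := mul_le_mul_of_nonneg_left (psi_sqrt hζ0 hn hn1 hζ0 h3) (by linarith : 0 ≤ r)
      have h5 : r * -log ζ = -log θ0 := by
        rw [hr', mul_neg, div_mul_cancel₀ _ hl.ne]
      linarith [log_le_log hθ0 h]
  have h8 := mul_le_mul_of_nonneg_left key hn.le
  linarith

end GBcoreAux

open Classical in
theorem gb_count {θ : ℝ} {b : ℕ} (hb : 1 ≤ b) (hEQ : EQd θ b) {G : Set ℤ} {M Km : ℕ}
    (hM : 2 ≤ M) {γ : ℝ} (hγ0 : 0 ≤ γ) (hγ1 : γ ≤ 1) (hG : Sparse G M γ Km) {τ : ℝ} (hτ : 0 < τ)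
    (hτM : exp τ ≤ M) (Y D : ℝ) (hD : 1 ≤ |D|) (hDK : 4 * (M : ℝ) ^ 2 * |D| ≤ (M : ℝ) ^ Km) :
    (((Finset.range b).filter (fun i : ℕ =>
        ∃ c ∈ G, |⌊Y + D * exp (τ * Int.fract (i * θ))⌋ - c| ≤ 1)).card : ℝ) ≤
      24 * (M : ℝ) ^ 2 * (|D| ^ (γ - 1) / τ + |D| / b) * b := by
  have hM' : (2 : ℝ) ≤ M := by exact_mod_cast hM
  have hLM : 2 ≤ |D| * M := by nlinarith
  obtain ⟨k, hk1, hk2⟩ := exists_nat_pow_near (x := 2 * (|D| * M) + 3) (y := (M : ℝ))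
    (by linarith) (by linarith)
  have hk3 : (M : ℝ) ^ (k + 1) ≤ 4 * (M : ℝ) ^ 2 * |D| := by
    have h1 := mul_le_mul_of_nonneg_right (hk1.trans (by linarith : _ ≤ 4 * (|D| * M)))
      (show (0 : ℝ) ≤ M by linarith)
    rw [pow_succ]
    linarith
  have hk4 : k + 1 ≤ Km := (pow_le_pow_iff_right₀ (by linarith)).1 (hk3.trans hDK)
  set a : ℤ := ⌊Y - |D| * M⌋ - 1 with ha
  set T := (Finset.Ico a (a + (M : ℤ) ^ (k + 1))).filter (fun c => c ∈ G) with hT
  have hT1 := hG (k + 1) hk4 a T fun c hc =>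
    ⟨(Finset.mem_filter.1 hc).2, Finset.mem_Ico.1 (Finset.mem_filter.1 hc).1⟩
  have hT2 : (T.card : ℝ) ≤ 8 * (M : ℝ) ^ 2 * |D| ^ γ := by
    refine hT1.trans ?_
    rw [mul_comm γ, rpow_natCast_mul (by linarith)]
    have h1 := rpow_le_rpow (by positivity) hk3 hγ0
    rw [mul_rpow (by positivity) (abs_nonneg D)] at h1
    have h2 : (4 * (M : ℝ) ^ 2) ^ γ ≤ 4 * (M : ℝ) ^ 2 := by
      have h3 := rpow_le_rpow_of_exponent_le (show 1 ≤ 4 * (M : ℝ) ^ 2 by nlinarith) hγ1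
      rwa [rpow_one] at h3
    have h4 := mul_le_mul_of_nonneg_right h2 (rpow_nonneg (abs_nonneg D) γ)
    linarith
  have hsub : (Finset.range b).filter (fun i : ℕ =>
      ∃ c ∈ G, |⌊Y + D * exp (τ * Int.fract (i * θ))⌋ - c| ≤ 1) ⊆
      T.biUnion fun c => (Finset.range b).filter (fun i : ℕ =>
        |⌊Y + D * exp (τ * Int.fract (i * θ))⌋ - c| ≤ 1) := by
    intro i hi
    obtain ⟨h1, c, hc, h2⟩ := Finset.mem_filter.1 hi
    refine Finset.mem_biUnion.2 ⟨c, Finset.mem_filter.2 ⟨Finset.mem_Ico.2 ?_, hc⟩,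
      Finset.mem_filter.2 ⟨h1, h2⟩⟩
    have h3 : exp (τ * Int.fract (i * θ)) ≤ M :=
      (exp_le_exp.2 (mul_le_of_le_one_right hτ.le (Int.fract_lt_one _).le)).trans hτM
    have h4 : |D * exp (τ * Int.fract (i * θ))| ≤ |D| * M := by
      rw [abs_mul, abs_of_pos (exp_pos _)]
      exact mul_le_mul_of_nonneg_left h3 (abs_nonneg D)
    obtain ⟨h5, h6⟩ := abs_le.1 h4
    obtain ⟨h7, h8⟩ := abs_le.1 h2
    have h9 : ⌊Y - |D| * M⌋ ≤ ⌊Y + D * exp (τ * Int.fract (i * θ))⌋ :=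
      Int.floor_le_floor (by linarith)
    refine ⟨by omega, ?_⟩
    have h10 : (c : ℝ) ≤ (⌊Y + D * exp (τ * Int.fract (i * θ))⌋ : ℝ) + 1 := by
      exact_mod_cast (by omega : c ≤ ⌊Y + D * exp (τ * Int.fract (i * θ))⌋ + 1)
    have h11 := Int.floor_le (Y + D * exp (τ * Int.fract (i * θ)))
    have h12 := Int.lt_floor_add_one (Y - |D| * M)
    have h13 : (c : ℝ) < (⌊Y - |D| * M⌋ : ℝ) - 1 + (M : ℝ) ^ (k + 1) := by linarith
    exact_mod_cast h13
  have h1 := (Finset.card_le_card hsub).trans Finset.card_biUnion_le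
  have h2 := (Nat.cast_le (α := ℝ)).2 h1
  rw [Nat.cast_sum] at h2
  have h3 := h2.trans (Finset.sum_le_sum fun c _ => GBcoreAux.count_one hEQ hτ Y D hD c)
  rw [Finset.sum_const, nsmul_eq_mul] at h3
  refine h3.trans ((mul_le_mul_of_nonneg_right hT2 (by positivity)).trans ?_)
  have hb' : (0 : ℝ) < b := by exact_mod_cast hb
  have hD0 : 0 < |D| := by linarith
  have h4 : |D| ^ γ ≤ |D| := by
    have h5 := rpow_le_rpow_of_exponent_le hD hγ1
    rwa [rpow_one] at h5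
  have e1 : 8 * (M : ℝ) ^ 2 * |D| ^ γ * (b * (3 / (τ * |D|)) + 3) =
      24 * (M : ℝ) ^ 2 * (|D| ^ γ / |D| / τ * b + |D| ^ γ) := by
    field_simp
    ring
  have e2 : 24 * (M : ℝ) ^ 2 * (|D| ^ (γ - 1) / τ + |D| / b) * b =
      24 * (M : ℝ) ^ 2 * (|D| ^ γ / |D| / τ * b + |D|) := by
    rw [rpow_sub_one hD0.ne']
    field_simp
  rw [e1, e2]
  exact mul_le_mul_of_nonneg_left (by linarith) (by positivity)

open Classical in
theorem gb_core {μ : Measure ℝ} (hμ : Good μ) [IsProbabilityMeasure μ] {J : Finset ℤ}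
    {n : ℤ → ℝ} (hn : ∀ j ∈ J, 0 < n j) (hn1 : ∑ j ∈ J, n j = 1) (x : ℤ → ℝ) {b : ℕ}
    (hb : 1 ≤ b) (ρs : ℕ → ℝ) (hρ : ∀ i < b, ρs i ≠ 0) (s : ℝ) {G Gp : Set ℝ}
    (hG : MeasurableSet G) (hGp : MeasurableSet Gp)
    (hnear : ∀ i < b, ∀ y y', y' ∈ G → |y - y'| ≤ exp (-s) / |ρs i| → y ∈ Gp)
    {η : ℝ} (hη0 : 0 < η) (hη1 : η ≤ 1)
    (hcount : ∀ y, ∀ j ∈ J, ∀ j' ∈ J, j ≠ j' →
      (((Finset.range b).filter (fun i => y + (x j - x j') / ρs i ∈ Gp)).card : ℝ) ≤ η * b) :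
    μ.real G * ∑ j ∈ J, n j * psi (2 * √η) (n j) - √η * ∑ j ∈ J, n j * (1 - n j) ≤
      (∑ i ∈ Finset.range b, info (atom J n x) (scl (ρs i) μ) s) / b := by
  have hκ : 0 < √η := sqrt_pos.2 hη0
  have hb' : (0 : ℝ) < b := by exact_mod_cast hb
  have h1 := Finset.sum_le_sum fun i (hi : i ∈ Finset.range b) =>
    gmi hμ hn hn1 x (hρ i (Finset.mem_range.1 hi)) s hG hGp (hnear i (Finset.mem_range.1 hi)) hκ
      (sqrt_le_one.2 hη1)
  rw [le_div_iff₀ hb']
  refine le_trans ?_ h1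
  rw [Finset.sum_comm, Finset.mul_sum, Finset.mul_sum, ← Finset.sum_sub_distrib, Finset.sum_mul]
  refine Finset.sum_le_sum fun j hj => ?_
  have hi : ∀ i ∈ Finset.range b, Integrable (Psi J n x (ρs i) G Gp (√η) j) μ := fun i _ =>
    HsInfoAux.integrable_Psi μ hn x (ρs i) hG hGp hκ hj
  have hc : Integrable (G.indicator fun _ : ℝ => psi (2 * √η) (n j)) μ :=
    (integrable_const _).indicator hG
  have h2 := integral_mono ((hc.sub (integrable_const (√η * (1 - n j)))).const_mul (b : ℝ))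
    (integrable_finsetSum _ hi)
    fun y => GBcoreAux.point hn hn1 x b ρs G Gp hη0 hη1 hj y (hcount y j hj)
  simp only [Pi.sub_apply] at h2
  rw [integral_const_mul, integral_sub hc (integrable_const _), integral_indicator_const _ hG,
    integral_const, probReal_univ, one_smul, smul_eq_mul, integral_finsetSum _ hi] at h2
  rw [← Finset.mul_sum]
  refine le_trans (le_of_eq ?_) (mul_le_mul_of_nonneg_left h2 (hn j hj).le)
  ring

theorem gb_num {J : Finset ℤ} {n : ℤ → ℝ} (hn : ∀ j ∈ J, 0 < n j) (hn1 : ∑ j ∈ J, n j = 1)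
    {ζ θ0 : ℝ} (hθ0 : 0 < θ0) (hθζ : θ0 ≤ ζ) (hζ : ζ ≤ 1 / 4) :
    ent J n ≤ 2 * (log θ0 / log ζ) * ∑ j ∈ J, n j * psi ζ (n j) + J.card * √θ0 ∧
      ∑ j ∈ J, n j * (1 - n j) ≤ 2 * ∑ j ∈ J, n j * psi ζ (n j) := by
  have hle : ∀ j ∈ J, n j ≤ 1 := fun j hj =>
    hn1 ▸ Finset.single_le_sum (fun i hi => (hn i hi).le) hj
  constructor
  · rw [ent_eq_sum_log, hn1, log_one, Finset.mul_sum, ← nsmul_eq_mul, ← Finset.sum_const,
      ← Finset.sum_add_distrib]
    refine Finset.sum_le_sum fun j hj => ?_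
    rw [zero_sub]
    exact GBcoreAux.num_one hθ0 hθζ hζ (hn j hj) (hle j hj)
  · rw [Finset.mul_sum]
    refine Finset.sum_le_sum fun j hj => ?_
    have h1 := mul_le_mul_of_nonneg_left
      (GBcoreAux.psi_ge (hθ0.trans_le hθζ) hζ (hn j hj) (hle j hj)) (hn j hj).le
    linarith

end

end Vale.Agent.P114
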