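import Vale.Agent.P114.GS
import Vale.Agent.P114.GBcore

/-! # P114: auxiliary lemmas for the linear information bound -/

open MeasureTheory Real Set Polynomial
open scoped ENNReal

namespace Vale.Agent.P114

noncomputable section

namespace GBAux

theorem abs_floor_sub_le {a b : ℝ} (h : |a - b| ≤ 1) : |⌊a⌋ - ⌊b⌋| ≤ 1 := by
  rw [abs_le] at h ⊢
  constructor
  · have : ⌊b⌋ ≤ ⌊a + 1⌋ := Int.floor_le_floor (by linarith)
    rw [Int.floor_add_one] at this; omega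
  · have : ⌊a⌋ ≤ ⌊b + 1⌋ := Int.floor_le_floor (by linarith)
    rw [Int.floor_add_one] at this; omega

/-- One level of the grid. -/
theorem level {μ : Measure ℝ} (hμ : Good μ) [IsProbabilityMeasure μ] {J : Finset ℤ}
    {n : ℤ → ℝ} (hn : ∀ j ∈ J, 0 < n j) (hn1 : ∑ j ∈ J, n j = 1) (x : ℤ → ℝ) {θ : ℝ} {b : ℕ}
    (hb : 1 ≤ b) (hEQ : EQd θ b) {G : Set ℤ} {M Km : ℕ} (hM : 2 ≤ M) {γ : ℝ} (hγ0 : 0 ≤ γ)
    (hγ1 : γ ≤ 1) (hG : Sparse G M γ Km) {τ : ℝ} (hτ : 0 < τ) (hτM : exp τ ≤ M)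
    {σ sf ρ0 lo hi η : ℝ} (hρ0 : ρ0 ≠ 0) (h1 : σ ≤ sf + log |ρ0| - τ)
    (h2 : sf + log |ρ0| - τ ≤ σ + log M)
    (hsep : ∀ j ∈ J, ∀ j' ∈ J, j ≠ j' → lo ≤ |x j - x j'| * exp sf ∧ |x j - x j'| * exp sf ≤ hi)
    (hlo : (M : ℝ) ^ 2 ≤ lo) (hhi : 4 * (M : ℝ) ^ 2 * hi ≤ (M : ℝ) ^ Km) (hη0 : 0 < η)
    (hη1 : η ≤ 1)
    (hη : ∀ L : ℝ, lo / (M : ℝ) ^ 2 ≤ L → L ≤ hi →
      24 * (M : ℝ) ^ 2 * (L ^ (γ - 1) / τ + L / b) ≤ η) :
    μ.real {y | cell σ 0 y ∈ G} * ∑ j ∈ J, n j * psi (2 * √η) (n j) -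
        √η * ∑ j ∈ J, n j * (1 - n j) ≤
      (∑ i ∈ Finset.range b,
        info (atom J n x) (scl (ρ0 * exp (-(τ * Int.fract (i * θ)))) μ) sf) / b := by
  classical
  have hM0 : (0 : ℝ) < M := by exact_mod_cast (by omega : 0 < M)
  have hρ : 0 < |ρ0| := abs_pos.2 hρ0
  refine gb_core hμ hn hn1 x hb (fun i => ρ0 * exp (-(τ * Int.fract (i * θ))))
    (fun i _ => mul_ne_zero hρ0 (exp_ne_zero _)) sf
    (G := {y | cell σ 0 y ∈ G}) (Gp := {y | ∃ c ∈ G, |cell σ 0 y - c| ≤ 1})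
    (measurable_cell σ 0 (MeasurableSet.of_discrete (s := G)))
    (measurable_cell σ 0 (MeasurableSet.of_discrete (s := {k | ∃ c ∈ G, |k - c| ≤ 1})))
    ?_ hη0 hη1 ?_
  · intro i _ y y' hy' hyy
    refine ⟨_, hy', abs_floor_sub_le ?_⟩
    have e1 : y * exp σ + 0 - (y' * exp σ + 0) = (y - y') * exp σ := by ring
    rw [e1, abs_mul, abs_of_pos (exp_pos σ)]
    refine (mul_le_mul_of_nonneg_right hyy (exp_pos σ).le).trans ?_
    have hf : τ * Int.fract (i * θ) ≤ τ := by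
      have := Int.fract_lt_one ((i : ℝ) * θ); nlinarith
    rw [abs_mul, abs_of_pos (exp_pos _), ← exp_log hρ, ← exp_add, ← exp_sub, ← exp_add,
      exp_le_one_iff]
    linarith
  · intro y j hj j' hj' hjj
    obtain ⟨hl, hh⟩ := hsep j hj j' hj' hjj
    set D := (x j - x j') * exp σ / ρ0 with hD
    have hDabs : |D| = |x j - x j'| * exp sf * exp (σ - sf - log |ρ0|) := by
      rw [hD, abs_div, abs_mul, abs_of_pos (exp_pos _), mul_assoc, ← exp_add, mul_div_assoc]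
      congr 1
      rw [div_eq_iff hρ.ne']
      nth_rewrite 2 [← exp_log hρ]
      rw [← exp_add]; congr 1; ring
    have hlo0 : 0 < lo := lt_of_lt_of_le (by positivity) hlo
    have he1 : exp (σ - sf - log |ρ0|) ≤ 1 := by rw [exp_le_one_iff]; linarith
    have he2 : 1 / (M : ℝ) ^ 2 ≤ exp (σ - sf - log |ρ0|) := by
      have hτ' : τ ≤ log M := (le_log_iff_exp_le hM0).2 hτM
      have : 1 / (M : ℝ) ^ 2 = exp (-(2 * log M)) := by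
        rw [exp_neg, one_div]; congr 1
        rw [show 2 * log (M : ℝ) = log M + log M by ring, exp_add, exp_log hM0, sq]
      rw [this, exp_le_exp]; linarith
    have hD1 : lo / (M : ℝ) ^ 2 ≤ |D| := by
      rw [hDabs, div_eq_mul_one_div]
      exact mul_le_mul hl he2 (by positivity) (hlo0.le.trans hl)
    have hD2 : |D| ≤ hi := by
      rw [hDabs]
      calc _ ≤ |x j - x j'| * exp sf * 1 := mul_le_mul_of_nonneg_left he1 (hlo0.le.trans hl)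
        _ ≤ hi := by rw [mul_one]; exact hh
    have hD3 : 1 ≤ |D| := le_trans (by rw [le_div_iff₀ (by positivity)]; linarith) hD1
    have hc := gb_count hb hEQ hM hγ0 hγ1 hG hτ hτM (y * exp σ) D hD3
      (le_trans (mul_le_mul_of_nonneg_left hD2 (by positivity)) hhi)
    refine le_trans (le_of_eq ?_) (hc.trans
      (mul_le_mul_of_nonneg_right (hη _ hD1 hD2) (Nat.cast_nonneg _)))
    congr 2
    ext i
    have e2 : (y + (x j - x j') / (ρ0 * exp (-(τ * Int.fract (i * θ))))) * exp σ + 0 =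
        y * exp σ + D * exp (τ * Int.fract (i * θ)) := by
      rw [hD, exp_neg]; field_simp; ring
    simp only [Finset.mem_filter, mem_setOf_eq, cell, e2]

theorem pow_log_bounds {b : ℕ} (hb : 1 ≤ b) :
    ((2 : ℝ) ^ (Nat.log 2 b / 4)) ^ 4 ≤ b ∧ (b : ℝ) ≤ 16 * ((2 : ℝ) ^ (Nat.log 2 b / 4)) ^ 4 := by
  have h1 : 2 ^ Nat.log 2 b ≤ b := Nat.pow_log_le_self 2 (by omega)
  have h2 : b < 2 ^ (Nat.log 2 b + 1) := Nat.lt_pow_succ_log_self (by norm_num) b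
  constructor
  · rw [← pow_mul]
    have : 2 ^ (Nat.log 2 b / 4 * 4) ≤ b :=
      le_trans (Nat.pow_le_pow_right (by norm_num) (Nat.div_mul_le_self _ _)) h1
    exact_mod_cast this
  · rw [← pow_mul]
    have : b ≤ 16 * 2 ^ (Nat.log 2 b / 4 * 4) := by
      have h3 : Nat.log 2 b + 1 ≤ 4 + Nat.log 2 b / 4 * 4 := by omega
      calc b ≤ 2 ^ (Nat.log 2 b + 1) := h2.le
        _ ≤ 2 ^ (4 + Nat.log 2 b / 4 * 4) := Nat.pow_le_pow_right (by norm_num) h3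
        _ = _ := by rw [pow_add]; norm_num
    exact_mod_cast this

theorem ev_rpow_le {c e : ℝ} (hc : 0 < c) (he : 0 < e) :
    ∀ᶠ b : ℕ in Filter.atTop, (b : ℝ) ^ (-c) ≤ e :=
  (((tendsto_rpow_neg_atTop hc).comp tendsto_natCast_atTop_atTop).eventually
    (ge_mem_nhds he))

theorem root_bounds {b : ℕ} (hb : 1 ≤ b) :
    (2 : ℝ) ^ (Nat.log 2 b / 4) ≤ (b : ℝ) ^ (1 / 4 : ℝ) ∧
      (b : ℝ) ^ (1 / 4 : ℝ) ≤ 2 * 2 ^ (Nat.log 2 b / 4) ∧ ((b : ℝ) ^ (1 / 4 : ℝ)) ^ 4 = b := by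
  have hb0 : (0 : ℝ) < b := by exact_mod_cast (by omega : 0 < b)
  obtain ⟨hP1, hP2⟩ := pow_log_bounds hb
  have hz0 : 0 < (b : ℝ) ^ (1 / 4 : ℝ) := rpow_pos_of_pos hb0 _
  have hz4 : ((b : ℝ) ^ (1 / 4 : ℝ)) ^ 4 = b := by
    rw [← rpow_natCast, ← rpow_mul hb0.le]; norm_num
  refine ⟨?_, ?_, hz4⟩
  · rw [← pow_le_pow_iff_left₀ (by positivity) hz0.le (by norm_num : 4 ≠ 0), hz4]; exact hP1
  · rw [← pow_le_pow_iff_left₀ hz0.le (by positivity) (by norm_num : 4 ≠ 0), hz4]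
    refine hP2.trans (le_of_eq ?_)
    rw [mul_pow]; norm_num

theorem side_floor {q z P b K0 K2 C1 fl : ℝ} (hz : z ^ 4 = b) (hz2 : 2 ≤ z ^ 2)
    (hPz : P ≤ z) (hK0 : K0 ≤ P) (hz1 : 1 ≤ z) (hK2 : 0 ≤ K2) (hC1 : 0 ≤ C1)
    (hq2 : 2 * (C1 * (K2 + 7) + 1) ≤ q * z ^ 2) (hfl : q * b < fl + 1) :
    C1 * (2 * K0 + K2 + 4 + 1) ≤ fl ∧ q * b / 2 ≤ fl := by
  have hC0 : 0 ≤ C1 * (K2 + 7) := by positivity
  have hqb : q * b = q * z ^ 2 * z ^ 2 := by rw [← hz]; ring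
  have h2 : 2 * 2 ≤ q * z ^ 2 * z ^ 2 := mul_le_mul (by linarith) hz2 (by norm_num) (by linarith)
  have h3 : q * b / 2 ≤ fl := by linarith
  refine ⟨le_trans ?_ h3, h3⟩
  have hzz : z ≤ z ^ 2 := by nlinarith
  have e0 : K2 * 1 ≤ K2 * z ^ 2 := mul_le_mul_of_nonneg_left (by linarith) hK2
  have e1 : 2 * K0 + K2 + 4 + 1 ≤ (K2 + 7) * z ^ 2 := by linarith
  calc C1 * (2 * K0 + K2 + 4 + 1) ≤ C1 * ((K2 + 7) * z ^ 2) := mul_le_mul_of_nonneg_left e1 hC1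
    _ = (C1 * (K2 + 7)) * z ^ 2 := by ring
    _ ≤ q * z ^ 2 / 2 * z ^ 2 := mul_le_mul_of_nonneg_right (by linarith) (by positivity)
    _ = q * b / 2 := by rw [hqb]; ring

theorem side_count {b : ℝ} (hb1 : 1 ≤ b) {M γ τ P T L : ℝ} (hM1 : 1 ≤ M) (hγ0 : 0 ≤ γ)
    (hγ1 : γ < 1) (hτ : 0 < τ) (hT : 0 < T) (hP : 0 < P) (hPz : P ≤ b ^ (1 / 4 : ℝ))
    (hzP : b ^ (1 / 4 : ℝ) ≤ 2 * P) (hL1 : P / M ^ 2 ≤ L) (hL2 : L ≤ P ^ 2 * T)
    (h3 : b ^ (-(2 * ((1 - γ) / 16))) ≤ 1 / (4 * (24 * M ^ 2 * (2 * M ^ 2 / τ + T)))) :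
    24 * M ^ 2 * (L ^ (γ - 1) / τ + L / b) ≤ (b ^ (-((1 - γ) / 16)) / 2) ^ 2 := by
  have hb0 : 0 < b := by linarith
  have hM0 : 0 < M := by linarith
  have hz0 : 0 < b ^ (1 / 4 : ℝ) := rpow_pos_of_pos hb0 _
  have hzc : (b ^ (1 / 4 : ℝ)) ^ (γ - 1) = b ^ (-(4 * ((1 - γ) / 16))) := by
    rw [← rpow_mul hb0.le]; congr 1; ring
  have hA : L ^ (γ - 1) ≤ 2 * M ^ 2 * b ^ (-(4 * ((1 - γ) / 16))) := by
    have h6 : b ^ (1 / 4 : ℝ) / (2 * M ^ 2) ≤ L := by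
      refine le_trans ?_ hL1
      rw [div_le_iff₀ (by positivity)]
      calc _ ≤ 2 * P := hzP
        _ = _ := by field_simp
    refine (rpow_le_rpow_of_nonpos (by positivity) h6 (by linarith)).trans ?_
    rw [div_rpow hz0.le (by positivity), hzc, div_eq_mul_inv, mul_comm,
      ← rpow_neg (by positivity)]
    refine mul_le_mul_of_nonneg_right ?_ (by positivity)
    have h7 : (1 : ℝ) ≤ 2 * M ^ 2 := by nlinarith
    calc _ ≤ (2 * M ^ 2) ^ (1 : ℝ) := rpow_le_rpow_of_exponent_le h7 (by linarith)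
      _ = _ := rpow_one _
  have hB : L / b ≤ T * b ^ (-(4 * ((1 - γ) / 16))) := by
    have h8 : b ^ (-(1 / 2) : ℝ) ≤ b ^ (-(4 * ((1 - γ) / 16))) :=
      rpow_le_rpow_of_exponent_le hb1 (by linarith)
    refine le_trans ?_ (mul_le_mul_of_nonneg_left h8 hT.le)
    have e4 : P ^ 2 ≤ (b ^ (1 / 4 : ℝ)) ^ 2 := pow_le_pow_left₀ hP.le hPz 2
    have e6 : (b ^ (1 / 4 : ℝ)) ^ 2 = b ^ (-(1 / 2) : ℝ) * b := by
      rw [← rpow_natCast, ← rpow_mul hb0.le, ← rpow_add_one hb0.ne']; norm_num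
    rw [div_le_iff₀ hb0]
    calc L ≤ P ^ 2 * T := hL2
      _ ≤ (b ^ (1 / 4 : ℝ)) ^ 2 * T := mul_le_mul_of_nonneg_right e4 hT.le
      _ = _ := by rw [e6]; ring
  have e5 : b ^ (-(4 * ((1 - γ) / 16))) =
      b ^ (-(2 * ((1 - γ) / 16))) * (b ^ (-((1 - γ) / 16))) ^ 2 := by
    rw [← rpow_natCast, ← rpow_mul hb0.le, ← rpow_add hb0]; congr 1; push_cast; ring
  generalize b ^ (-((1 - γ) / 16)) = y at *
  generalize b ^ (-(2 * ((1 - γ) / 16))) = y2 at *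
  generalize b ^ (-(4 * ((1 - γ) / 16))) = y4 at *
  calc _ ≤ 24 * M ^ 2 * (2 * M ^ 2 * y4 / τ + T * y4) := by gcongr
    _ = (24 * M ^ 2 * (2 * M ^ 2 / τ + T)) * y2 * y ^ 2 := by rw [e5]; ring
    _ ≤ (24 * M ^ 2 * (2 * M ^ 2 / τ + T)) * (1 / (4 * (24 * M ^ 2 * (2 * M ^ 2 / τ + T)))) *
        y ^ 2 := by gcongr
    _ = _ := by field_simp; norm_num

/-- The asymptotic side conditions. -/
theorem side {M : ℕ} (hM : 2 ≤ M) {γ τ c q : ℝ} (hγ0 : 0 ≤ γ) (hγ1 : γ < 1) (hτ : 0 < τ)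
    (hc : 0 < c) (hq : 0 < q) (C1 K2 : ℕ) :
    ∀ᶠ b : ℕ in Filter.atTop, 1 ≤ b ∧
      C1 * (2 * (Nat.log 2 b / 4) + K2 + 4 + 1) ≤ ⌊q * b⌋₊ ∧ q * b / 2 ≤ ⌊q * b⌋₊ ∧
      (b : ℝ) ^ (-((1 - γ) / 16)) ≤ 1 / 4 ∧ (b : ℝ) ^ (-((1 - γ) / 16)) ≤ c / 2 ∧
      (M : ℝ) ^ 2 ≤ 2 ^ (Nat.log 2 b / 4) ∧ 2 ^ (Nat.log 2 b / 4) + 1 ≤ b ∧
      ∀ L : ℝ, 2 ^ (Nat.log 2 b / 4) / (M : ℝ) ^ 2 ≤ L →
        L ≤ 2 ^ (2 * (Nat.log 2 b / 4) + K2) →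
        24 * (M : ℝ) ^ 2 * (L ^ (γ - 1) / τ + L / b) ≤ ((b : ℝ) ^ (-((1 - γ) / 16)) / 2) ^ 2 := by
  have hM0 : (0 : ℝ) < M := by exact_mod_cast (by omega : 0 < M)
  have hM1 : (1 : ℝ) ≤ M := by exact_mod_cast (by omega : 1 ≤ M)
  have hc10 : 0 < (1 - γ) / 16 := by linarith
  filter_upwards [Filter.eventually_ge_atTop 4, ev_rpow_le hc10 (by norm_num : (0 : ℝ) < 1 / 4),
    ev_rpow_le hc10 (half_pos hc), ev_rpow_le (c := 2 * ((1 - γ) / 16))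
      (e := 1 / (4 * (24 * (M : ℝ) ^ 2 * (2 * (M : ℝ) ^ 2 / τ + 2 ^ K2)))) (by positivity)
      (by positivity),
    ev_rpow_le (c := 1 / 4) (e := 1 / (2 * (M : ℝ) ^ 2)) (by norm_num) (by positivity),
    ev_rpow_le (c := 1 / 2) (e := q / (2 * (C1 * (K2 + 7) + 1))) (by norm_num) (by positivity)]
    with b hb4 h1 h2 h3 h4 h5
  have hb1 : 1 ≤ b := by omega
  have hb0 : (0 : ℝ) < b := by exact_mod_cast (by omega : 0 < b)
  have hb4' : (4 : ℝ) ≤ b := by exact_mod_cast hb4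
  obtain ⟨hPz, hzP, hz4⟩ := root_bounds hb1
  have hzz : (b : ℝ) ^ (-(1 / 2) : ℝ) = 1 / ((b : ℝ) ^ (1 / 4 : ℝ)) ^ 2 := by
    rw [← rpow_natCast, ← rpow_mul hb0.le, rpow_neg hb0.le, one_div, one_div]; norm_num
  have hz' : (b : ℝ) ^ (-(1 / 4) : ℝ) = 1 / (b : ℝ) ^ (1 / 4 : ℝ) := by
    rw [rpow_neg hb0.le, one_div (_ ^ _)]
  rw [hzz] at h5
  rw [hz'] at h4
  have hcount := fun (L : ℝ) => side_count (b := b) (M := M) (γ := γ) (τ := τ)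
    (P := 2 ^ (Nat.log 2 b / 4)) (T := 2 ^ K2) (L := L) (by linarith) hM1 hγ0 hγ1 hτ
    (by positivity) (by positivity) hPz hzP
  have hK0P : ((Nat.log 2 b / 4 : ℕ) : ℝ) ≤ 2 ^ (Nat.log 2 b / 4) := by
    exact_mod_cast (Nat.lt_two_pow_self (n := Nat.log 2 b / 4)).le
  have hP0 : (1 : ℝ) ≤ 2 ^ (Nat.log 2 b / 4) := one_le_pow₀ (by norm_num)
  have e3 : (2 : ℝ) ^ (2 * (Nat.log 2 b / 4) + K2) = (2 ^ (Nat.log 2 b / 4)) ^ 2 * 2 ^ K2 := by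
    rw [pow_add, pow_mul']
  generalize Nat.log 2 b / 4 = K0 at *
  generalize (b : ℝ) ^ (1 / 4 : ℝ) = z at *
  have hz1 : 1 ≤ z := hP0.trans hPz
  have hz2 : 2 ≤ z ^ 2 := by
    by_contra hlt
    push Not at hlt
    have : z ^ 2 * z ^ 2 < 2 * 2 := mul_lt_mul'' hlt hlt (by positivity) (by positivity)
    linarith
  have hq2 : 2 * (C1 * (K2 + 7) + 1) ≤ q * z ^ 2 := by
    rw [div_le_div_iff₀ (by positivity) (by positivity)] at h5; linarith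
  obtain ⟨f1, f2⟩ := side_floor hz4 hz2 hPz hK0P hz1 (Nat.cast_nonneg K2) (Nat.cast_nonneg C1) hq2
    (Nat.lt_floor_add_one (q * b))
  refine ⟨hb1, by exact_mod_cast f1, f2, h1, h2, ?_, ?_,
    fun L hL1 hL2 => hcount L hL1 (e3 ▸ hL2) h3⟩
  · rw [div_le_div_iff₀ (by positivity) (by positivity)] at h4; linarith
  · have : ((2 ^ K0 + 1 : ℕ) : ℝ) ≤ b := by
      push_cast
      have h9 : z ≤ z ^ 2 := by nlinarith
      have h10 : 2 * z ^ 2 ≤ z ^ 2 * z ^ 2 := mul_le_mul_of_nonneg_right hz2 (by positivity)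
      linarith
    exact_mod_cast this

end GBAux

end

end Vale.Agent.P114
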