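import Vale.Agent.P114.HsGrid

/-! # P114: sparse sets of heavy cells (rising sun) -/

open MeasureTheory Real Set Polynomial
open scoped ENNReal

namespace Vale.Agent.P114

noncomputable section

/-- Rising sun: `a` is nondecreasing, `k` is bad if some jump into `k` is steep. -/
theorem rising_sun (a : ℕ → ℝ) (ha : Monotone a) {θ : ℝ} (hθ : 0 < θ) (Km N : ℕ)
    (bad : Finset ℕ) (hbad : ∀ k ∈ bad, Km ≤ k ∧ k ≤ N ∧ ∃ J, 1 ≤ J ∧ J ≤ Km ∧
      θ * J < a k - a (k - J)) :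
    θ * bad.card ≤ a N - a 0 := by
  induction N using Nat.strong_induction_on generalizing bad with
  | _ N ih =>
    rcases bad.eq_empty_or_nonempty with rfl | hne
    · simpa using ha (Nat.zero_le N)
    obtain ⟨h1, h2, J, h3, h4, h5⟩ := hbad _ (bad.max'_mem hne)
    have h6 := ih (bad.max' hne - J) (by omega) (bad.filter fun k => k ≤ bad.max' hne - J)
      fun k hk => ⟨(hbad k (Finset.mem_filter.1 hk).1).1, (Finset.mem_filter.1 hk).2,
        (hbad k (Finset.mem_filter.1 hk).1).2.2⟩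
    have h7 : bad.card ≤ (bad.filter fun k => k ≤ bad.max' hne - J).card + J := by
      refine (Finset.card_le_card (t := (bad.filter fun k => k ≤ bad.max' hne - J) ∪
        Finset.Ioc (bad.max' hne - J) (bad.max' hne)) fun k hk => ?_).trans
        ((Finset.card_union_le _ _).trans ?_)
      · have := bad.le_max' k hk
        rw [Finset.mem_union, Finset.mem_filter, Finset.mem_Ioc]
        by_cases h : k ≤ bad.max' hne - J
        · exact Or.inl ⟨hk, h⟩
        · exact Or.inr ⟨by omega, this⟩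
      · rw [Nat.card_Ioc]
        omega
    have h8 : (bad.card : ℝ) ≤ (bad.filter fun k => k ≤ bad.max' hne - J).card + J := by
      exact_mod_cast h7
    have h9 := mul_le_mul_of_nonneg_left h8 hθ.le
    linarith [ha h2]

namespace GSAux

variable {μ : Measure ℝ}

theorem nest {M : ℕ} (hM : 0 < M) (σ y : ℝ) {k J : ℕ} (hJ : J ≤ k) :
    cell (σ + (k - J : ℕ) * log M) 0 y = cell (σ + k * log M) 0 y / (M : ℤ) ^ J := by
  obtain ⟨k, rfl⟩ := Nat.exists_eq_add_of_le' hJ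
  have hM' : (0 : ℝ) < M := by exact_mod_cast hM
  rw [Nat.add_sub_cancel, cell, cell, ← Nat.cast_pow, ← Int.floor_div_natCast, add_zero, add_zero,
    Nat.cast_add, add_mul, ← add_assoc, exp_add _ (J * log M), exp_nat_mul, exp_log hM',
    Nat.cast_pow, ← mul_assoc, mul_div_cancel_right₀ _ (by positivity)]

/-- Mass of a cell of level `k`. -/
def mk (μ : Measure ℝ) (M : ℕ) (σ : ℝ) (k : ℕ) (c : ℤ) : ℝ :=
  μ.real (cell (σ + k * log M) 0 ⁻¹' {c})

theorem sum_mk_le [IsFiniteMeasure μ] {M : ℕ} (hM : 0 < M) (σ : ℝ) {k J : ℕ} (hJ : J ≤ k)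
    {T : Finset ℤ} {d : ℤ} (hT : ∀ c ∈ T, c / (M : ℤ) ^ J = d) :
    ∑ c ∈ T, mk μ M σ k c ≤ mk μ M σ (k - J) d := by
  unfold mk
  rw [sum_measureReal_preimage_singleton T fun c _ => measurable_cell _ _ (measurableSet_singleton c)]
  refine measureReal_mono fun y hy => ?_
  rw [mem_preimage, mem_singleton_iff, nest hM σ y hJ]
  exact hT _ hy

theorem mk_le [IsFiniteMeasure μ] {M : ℕ} (hM : 0 < M) (σ : ℝ) {k J : ℕ} (hJ : J ≤ k) (c : ℤ) :
    mk μ M σ k c ≤ mk μ M σ (k - J) (c / (M : ℤ) ^ J) := by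
  simpa using sum_mk_le (μ := μ) hM σ hJ (T := {c}) (d := c / (M : ℤ) ^ J) (by simp)

/-- The heavy cells. -/
def GG (μ : Measure ℝ) (M : ℕ) (γ σ : ℝ) (Km k : ℕ) : Set ℤ :=
  {c | Km ≤ k ∧ 0 < mk μ M σ k c ∧
    ∀ J ≤ Km, mk μ M σ (k - J) (c / (M : ℤ) ^ J) ≤ (M : ℝ) ^ (γ * J) * mk μ M σ k c}

theorem sparse [IsFiniteMeasure μ] {M : ℕ} (hM : 0 < M) (γ σ : ℝ) (Km k : ℕ) :
    Sparse (GG μ M γ σ Km k) M γ Km := by
  intro J hJ a T hT
  have hM' : (0 : ℤ) < (M : ℤ) ^ J := by positivity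
  have key : ∀ d : ℤ, ((T.filter fun c => c / (M : ℤ) ^ J = d).card : ℝ) ≤ (M : ℝ) ^ (γ * J) := by
    intro d
    rcases (T.filter fun c => c / (M : ℤ) ^ J = d).eq_empty_or_nonempty with h | ⟨c, hc⟩
    · rw [h, Finset.card_empty, Nat.cast_zero]
      positivity
    rw [Finset.mem_filter] at hc
    have hk := hJ.trans (hT c hc.1).1.1
    have h1 := (hT c hc.1).1.2.1.trans_le (mk_le (μ := μ) hM σ hk c)
    rw [hc.2] at h1
    have h2 := sum_mk_le (μ := μ) hM σ hk (T := T.filter fun c => c / (M : ℤ) ^ J = d)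
      fun c hc => (Finset.mem_filter.1 hc).2
    have h3 := Finset.card_nsmul_le_sum (T.filter fun c => c / (M : ℤ) ^ J = d)
      (fun c => (M : ℝ) ^ (γ * J) * mk μ M σ k c) (mk μ M σ (k - J) d) fun c hc => by
        rw [Finset.mem_filter] at hc
        exact hc.2 ▸ (hT c hc.1).1.2.2 J hJ
    rw [← Finset.mul_sum, nsmul_eq_mul] at h3
    exact le_of_mul_le_mul_right (h3.trans (mul_le_mul_of_nonneg_left h2 (by positivity))) h1
  have h1 : T.card ≤ (T.filter fun c => c / (M : ℤ) ^ J = a / (M : ℤ) ^ J).card +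
      (T.filter fun c => c / (M : ℤ) ^ J = a / (M : ℤ) ^ J + 1).card := by
    refine (Finset.card_le_card fun c hc => ?_).trans (Finset.card_union_le _ _)
    have h2 := Int.ediv_le_ediv hM' (hT c hc).2.1
    have h3 := Int.ediv_le_ediv hM' (hT c hc).2.2.le
    rw [Int.add_ediv_of_dvd_right dvd_rfl, Int.ediv_self hM'.ne'] at h3
    simp only [Finset.mem_union, Finset.mem_filter, hc, true_and]
    omega
  have h2 : (T.card : ℝ) ≤ (T.filter fun c => c / (M : ℤ) ^ J = a / (M : ℤ) ^ J).card +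
      (T.filter fun c => c / (M : ℤ) ^ J = a / (M : ℤ) ^ J + 1).card := by exact_mod_cast h1
  linarith [key (a / (M : ℤ) ^ J), key (a / (M : ℤ) ^ J + 1)]

theorem integrable_cell (hμ : Good μ) (s : ℝ) (G : ℤ → ℝ) :
    Integrable (fun y => G (cell s 0 y)) μ := by
  have := hμ.fin
  obtain ⟨F, hF⟩ := hμ.exists_cells s 0
  refine Integrable.of_bound (C := ∑ j ∈ F, ‖G j‖)
    (Measurable.of_discrete.comp (measurable_cell s 0)).aestronglyMeasurable ?_
  filter_upwards [show ∀ᵐ y ∂μ, cell s 0 y ∈ F from hF s 0 le_rfl (by simp)] with y hy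
  exact Finset.single_le_sum (f := fun j => ‖G j‖) (fun _ _ => norm_nonneg _) hy

theorem integral_log (hμ : Good μ) [IsProbabilityMeasure μ] (M : ℕ) (σ : ℝ) (k : ℕ) :
    ∫ y, -log (mk μ M σ k (cell (σ + k * log M) 0 y)) ∂μ = Hu μ (σ + k * log M) 0 := by
  obtain ⟨F, hF⟩ := hμ.exists_cells (σ + k * log M) 0
  have h := hF _ 0 le_rfl (by simp)
  rw [integral_comp_cell hμ (measurable_cell _ _) h fun c => -log (mk μ M σ k c), Hu,
    Hc_eq_ent hμ (measurable_cell _ _) h, ent, sum_real_preimage hμ (measurable_cell _ _) h,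
    mss_prob]
  simp [negMulLog, mk]

theorem ae_pos [IsFiniteMeasure μ] (M : ℕ) (σ : ℝ) :
    ∀ᵐ y ∂μ, ∀ k : ℕ, 0 < mk μ M σ k (cell (σ + k * log M) 0 y) := by
  refine ae_all_iff.2 fun k => ?_
  have h : ∀ c : ℤ, ∀ᵐ y ∂μ, cell (σ + k * log M) 0 y = c → 0 < mk μ M σ k c := fun c => by
    rcases (measureReal_nonneg : 0 ≤ mk μ M σ k c).eq_or_lt with h | h
    · have := measure_eq_zero_iff_ae_notMem.1 ((measureReal_eq_zero_iff).1 h.symm)
      filter_upwards [this] with y hy h' using absurd h' hy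
    · exact ae_of_all _ fun _ _ => h
  filter_upwards [ae_all_iff.2 h] with y hy using hy _ rfl

theorem pointwise [IsFiniteMeasure μ] {M : ℕ} (hM : 2 ≤ M) {γ : ℝ} (hγ : 0 < γ) (σ : ℝ)
    (Km n1 : ℕ) {y : ℝ} (hy : ∀ k : ℕ, 0 < mk μ M σ k (cell (σ + k * log M) 0 y)) :
    γ * log M * (n1 - ∑ k ∈ Finset.Ico Km (Km + n1),
      (GG μ M γ σ Km k).indicator 1 (cell (σ + k * log M) 0 y)) ≤
      -log (mk μ M σ (Km + n1) (cell (σ + (Km + n1 : ℕ) * log M) 0 y)) -
        -log (mk μ M σ 0 (cell (σ + (0 : ℕ) * log M) 0 y)) := by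
  classical
  have hM0 : 0 < M := by omega
  have hM1 : (1 : ℝ) < M := by exact_mod_cast hM
  refine le_of_eq_of_le ?_ (rising_sun (fun k => -log (mk μ M σ k (cell (σ + k * log M) 0 y)))
    (fun k k' h => ?_) (mul_pos hγ (log_pos hM1)) Km (Km + n1)
    ((Finset.Ico Km (Km + n1)).filter fun k => cell (σ + k * log M) 0 y ∉ GG μ M γ σ Km k)
    fun k hk => ?_)
  · congr 1
    have := Finset.card_filter_add_card_filter_not (s := Finset.Ico Km (Km + n1))
      fun k : ℕ => cell (σ + k * log M) 0 y ∈ GG μ M γ σ Km k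
    rw [Nat.card_Ico, Nat.add_sub_cancel_left] at this
    simp only [indicator, Pi.one_apply, Finset.sum_boole]
    rw [sub_eq_iff_eq_add', ← Nat.cast_add, this]
  · have := mk_le (μ := μ) hM0 σ (Nat.sub_le k' k) (cell (σ + k' * log M) 0 y)
    rw [← nest hM0 σ y (Nat.sub_le k' k), Nat.sub_sub_self h] at this
    exact neg_le_neg (log_le_log (hy k') this)
  · rw [Finset.mem_filter, Finset.mem_Ico] at hk
    refine ⟨hk.1.1, hk.1.2.le, ?_⟩
    by_contra hc
    refine hk.2 ⟨hk.1.1, hy k, fun J hJ => ?_⟩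
    rcases Nat.eq_zero_or_pos J with rfl | h0
    · simp
    have h1 := not_lt.1 fun h => hc ⟨J, h0, hJ, h⟩
    rw [← nest hM0 σ y (hJ.trans hk.1.1), ← log_le_log_iff (hy _)
      (mul_pos (by positivity) (hy k)), log_mul (by positivity) (hy k).ne',
      log_rpow (by positivity)]
    linarith

end GSAux

open GSAux in
theorem gs {μ : Measure ℝ} (hμ : Good μ) [IsProbabilityMeasure μ] {α C γ : ℝ} (hα0 : 0 ≤ α)
    (hU : ∀ s x : ℝ, 0 ≤ x → Hs μ (s + x) - Hs μ s ≤ α * x + C) (hγ : α < γ) {M : ℕ}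
    (hM : 2 ≤ M) :
    ∃ c : ℝ, 0 < c ∧ ∃ C1 : ℕ, ∀ Km n1 : ℕ, C1 * (Km + 1) ≤ n1 → ∀ σ : ℝ, ∃ G : ℕ → Set ℤ,
      (∀ k, Sparse (G k) M γ Km) ∧
      c * n1 ≤ ∑ k ∈ Finset.Ico Km (Km + n1), μ.real {y | cell (σ + k * log M) 0 y ∈ G k} := by
  have hγ0 : 0 < γ := hα0.trans_lt hγ
  have hL : 0 < log (M : ℝ) := log_pos (by exact_mod_cast hM)
  have hd : 0 < (γ - α) * log M / 2 := by have := sub_pos.2 hγ; positivity
  obtain ⟨C1, hC1⟩ := exists_nat_ge ((α * log M + (|C| + 2)) / ((γ - α) * log M / 2))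
  refine ⟨(γ - α) / (2 * γ), div_pos (sub_pos.2 hγ) (by positivity), C1, fun Km n1 hn σ =>
    ⟨GG μ M γ σ Km, sparse (by omega) γ σ Km, ?_⟩⟩
  have hI : ∀ k : ℕ, Integrable (fun y => (GG μ M γ σ Km k).indicator (1 : ℤ → ℝ)
      (cell (σ + k * log M) 0 y)) μ := fun k => integrable_cell hμ _ _
  have h1 := integral_mono_ae (((integrable_const _).sub (integrable_finsetSum _ fun k _ =>
    hI k)).const_mul (γ * log M)) ((integrable_cell hμ _ fun c => -log (mk μ M σ (Km + n1) c)).sub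
      (integrable_cell hμ _ fun c => -log (mk μ M σ 0 c)))
    ((ae_pos M σ).mono fun y hy => pointwise hM hγ0 σ Km n1 hy)
  simp only [Pi.sub_apply] at h1
  rw [integral_const_mul, integral_sub (integrable_const _) (integrable_finsetSum _ fun k _ => hI k),
    integral_sub (integrable_cell hμ _ fun c => -log (mk μ M σ (Km + n1) c))
      (integrable_cell hμ _ fun c => -log (mk μ M σ 0 c)), integral_log hμ, integral_log hμ,
    integral_finsetSum _ fun k _ => hI k, integral_const, probReal_univ, one_smul, Nat.cast_zero,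
    zero_mul, add_zero] at h1
  have h2 : ∀ k : ℕ, ∫ y, (GG μ M γ σ Km k).indicator (1 : ℤ → ℝ) (cell (σ + k * log M) 0 y) ∂μ =
      μ.real {y | cell (σ + k * log M) 0 y ∈ GG μ M γ σ Km k} := fun k =>
    integral_indicator_one (measurable_cell _ _ (MeasurableSet.of_discrete (s := GG μ M γ σ Km k)))
  simp only [h2] at h1
  have h3 := Hu_le_Hs hμ (σ + (Km + n1 : ℕ) * log M) 0
  have h4 := Hs_le_Hu hμ σ 0
  have h5 := hU σ ((Km + n1 : ℕ) * log M) (by positivity)
  rw [mss_prob, one_mul] at h3 h4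
  have h6 : (C1 : ℝ) * (Km + 1) ≤ n1 := by exact_mod_cast hn
  rw [div_le_iff₀ hd] at hC1
  have h7 := mul_le_mul_of_nonneg_right hC1 (show (0 : ℝ) ≤ Km + 1 by positivity)
  have h8 := mul_le_mul_of_nonneg_right h6 hd.le
  have h9 : 0 ≤ α * log M := by positivity
  have h10 : 0 ≤ (|C| + 2) * Km := by positivity
  refine le_of_mul_le_mul_left ?_ (mul_pos hγ0 hL)
  rw [show γ * log M * ((γ - α) / (2 * γ) * n1) = n1 * ((γ - α) * log M / 2) by field_simp]
  push_cast at h1 h3 h5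
  linarith [le_abs_self C, log_two_lt_d9]

end

end Vale.Agent.P114
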