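import Vale.Agent.P114.Liou

/-! # P114: values of controlled polynomials at a real point -/

open MeasureTheory Real Set Polynomial
open scoped ENNReal

namespace Vale.Agent.P114

noncomputable section

namespace ValAux

lemma ev_log (K : ℝ) : ∃ m0 : ℕ, ∀ m, m0 ≤ m → K ≤ log m ∧ 1 ≤ log m ∧ (1 : ℝ) ≤ m := by
  have h := tendsto_log_atTop.comp tendsto_natCast_atTop_atTop
  exact Filter.eventually_atTop.1 ((h.eventually_ge_atTop K).and ((h.eventually_ge_atTop 1).and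
    (tendsto_natCast_atTop_atTop.eventually_ge_atTop 1)))

lemma eval_map (P : ℤ[X]) (z : ℂ) : (P.map (Int.castRingHom ℂ)).eval z = aeval z P := by
  rw [Polynomial.eval_map, aeval_def]
  rfl

lemma abs_aeval (P : ℤ[X]) (x : ℝ) : |aeval x P| = ‖aeval (x : ℂ) P‖ := by
  rw [← Complex.coe_algebraMap, aeval_algebraMap_apply, Complex.coe_algebraMap, Complex.norm_real,
    norm_eq_abs]

lemma le_fz {K t : ℝ} {m : ℕ} (h9 : 9 * K ≤ log m) (hL : 1 ≤ log m)
    (h : t ≤ K * (m * log m ^ 4)) : t ≤ fz m / 9 := by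
  have := mul_le_mul_of_nonneg_right h9 (by positivity : 0 ≤ m * log m ^ 4)
  rw [fz]
  nlinarith

lemma abs_log_le {x K : ℝ} (hx : x ∈ Ioo (0 : ℝ) 1) {C m : ℕ} {P : ℤ[X]} (hP : InB C m P)
    (hne : aeval x P ≠ 0) (h9 : 9 * (K + C) ≤ log m) (hL : 1 ≤ log m) (hm : (1 : ℝ) ≤ m)
    (hK : 0 ≤ K) (h : exp (-(K * (m * log m ^ 4))) ≤ |aeval x P|) :
    |log (|aeval x P|)| ≤ fz m / 9 := by
  have h0 := abs_pos.2 hne
  have h1 := (le_log_iff_exp_le h0).2 h
  have h2 := log_le_log h0 ((abs_aeval_le_l1 P (abs_le.2 ⟨by linarith [hx.1], hx.2.le⟩)).trans hP.2)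
  have h3 : log m ≤ m * log m ^ 4 :=
    (le_self_pow₀ hL (by norm_num)).trans (le_mul_of_one_le_left (by positivity) hm)
  rw [log_pow] at h2
  have h4 := mul_le_mul_of_nonneg_left h3 (Nat.cast_nonneg (α := ℝ) C)
  have h5 : 0 ≤ K * (m * log m ^ 4) := by positivity
  have h6 : 0 ≤ C * (m * log m ^ 4) := by positivity
  refine le_fz h9 hL (abs_le.2 ⟨?_, ?_⟩) <;> nlinarith

lemma prod_lower (x : ℂ) (p : ℂ → Prop) [DecidablePred p] {a b : ℝ} (s : Multiset ℂ)
    (h : ∀ z ∈ s, exp (-((if p z then a else 0) + b)) ≤ ‖x - z‖) :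
    exp (-(a * Multiset.card (s.filter p) + b * Multiset.card s)) ≤
      ‖(s.map fun z => x - z).prod‖ := by
  induction s using Multiset.induction_on with
  | empty => simp
  | cons z s ih =>
    rw [Multiset.map_cons, Multiset.prod_cons, norm_mul]
    refine le_trans (le_of_eq ?_) (mul_le_mul (h z (Multiset.mem_cons_self _ _))
      (ih fun w hw => h w (Multiset.mem_cons_of_mem hw)) (exp_pos _).le (norm_nonneg _))
    rw [← exp_add]
    congr 1
    by_cases hz : p z <;> simp [hz] <;> ring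

lemma liou_exp {η : ℂ} {P₀ P : ℤ[X]} (h0 : P₀ ≠ 0) (hroot : aeval η P₀ = 0)
    (hP : aeval η P ≠ 0) {α β d₀ d : ℝ} (hα : l1 P ≤ exp α) (hβ : l1 P₀ ≤ exp β) (hα0 : 0 ≤ α)
    (hβ0 : 0 ≤ β) (hd₀ : (P₀.natDegree : ℝ) ≤ d₀) (hd : (P.natDegree : ℝ) ≤ d) :
    exp (-(d₀ * α + d * β)) ≤ ‖aeval η P‖ := by
  have k : ∀ {l a e : ℝ} {n : ℕ}, 0 ≤ l → l ≤ exp a → 0 ≤ a → (n : ℝ) ≤ e →
      l ^ n ≤ exp (e * a) := fun h1 h2 h3 h4 => (pow_le_pow_left₀ h1 h2 _).trans (by
    rw [← exp_nat_mul]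
    exact exp_le_exp.2 (mul_le_mul_of_nonneg_right h4 h3))
  rw [exp_neg, exp_add, inv_le_iff_one_le_mul₀' (by positivity), mul_comm, ← mul_assoc]
  exact (liou h0 hroot hP).trans (mul_le_mul (mul_le_mul_of_nonneg_left
    (k (l1_nonneg _) hα hα0 hd₀) (norm_nonneg _)) (k (l1_nonneg _) hβ hβ0 hd)
    (pow_nonneg (l1_nonneg _) _) (by positivity))

lemma l1_hasse (P : ℤ[X]) (i : ℕ) : l1 (hasseDeriv i P) ≤ P.natDegree.choose i * l1 P := by
  rw [l1_eq_sum_range _ (n := P.natDegree + 1)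
    (by have := natDegree_hasseDeriv_le P i; omega),
    l1_eq_sum_range P (n := i + (P.natDegree + 1)) (by omega), Finset.sum_range_add _ i, mul_add,
    Finset.mul_sum (Finset.range (P.natDegree + 1))]
  refine le_add_of_nonneg_of_le (by positivity) (Finset.sum_le_sum fun k _ => ?_)
  rw [hasseDeriv_coeff, add_comm i k]
  push_cast
  rw [abs_mul, Nat.abs_cast]
  by_cases h : k + i ≤ P.natDegree
  · exact mul_le_mul_of_nonneg_right (Nat.cast_le.2 (Nat.choose_le_choose i h)) (abs_nonneg _)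
  · simp [coeff_eq_zero_of_natDegree_lt (not_le.1 h)]

lemma taylor_coeff (P : ℤ[X]) (η : ℂ) (i : ℕ) :
    (taylor η (P.map (Int.castRingHom ℂ))).coeff i = aeval η (hasseDeriv i P) := by
  rw [Polynomial.taylor_coeff, ← eval_map]
  congr 1
  ext k
  simp [hasseDeriv_coeff]

lemma hasse_ord_ne {P : ℤ[X]} (hP : P ≠ 0) (η : ℂ) : aeval η (hasseDeriv (ordAt η P) P) ≠ 0 := by
  rw [← taylor_coeff, ordAt, rootMultiplicity_eq_natTrailingDegree, ← taylor_apply]
  refine mt trailingCoeff_eq_zero.1 ?_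
  rw [taylor_eq_zero]
  exact (Polynomial.map_ne_zero_iff Int.cast_injective).2 hP

lemma taylor_est (P : ℤ[X]) {η z : ℂ} (hη : ‖η‖ ≤ 1) (hδ : ‖z - η‖ ≤ 1) :
    ‖aeval z P - aeval η (hasseDeriv (ordAt η P) P) * (z - η) ^ ordAt η P‖ ≤
      2 ^ P.natDegree * l1 P * ‖z - η‖ ^ (ordAt η P + 1) := by
  set T := taylor η (P.map (Int.castRingHom ℂ)) with hT
  have hj : ordAt η P = T.natTrailingDegree := by
    rw [ordAt, rootMultiplicity_eq_natTrailingDegree, ← taylor_apply]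
  have hd : T.natDegree ≤ P.natDegree := by
    rw [hT, natDegree_taylor]
    exact natDegree_map_le
  have hjn : ordAt η P ∈ Finset.range (P.natDegree + 1) := by
    rw [hj, Finset.mem_range_succ_iff]
    exact (natTrailingDegree_le_natDegree _).trans hd
  rw [← eval_map, ← taylor_eval_sub η, ← hT, eval_eq_sum_range' (Nat.lt_succ_of_le hd),
    ← Finset.add_sum_erase _ _ hjn, ← taylor_coeff, ← hT, add_sub_cancel_left]
  refine (norm_sum_le_of_le _ (n := fun i => (P.natDegree.choose i : ℝ) *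
    (l1 P * ‖z - η‖ ^ (ordAt η P + 1))) fun i hi => ?_).trans ?_
  · rcases lt_or_gt_of_ne (Finset.ne_of_mem_erase hi) with h | h
    · rw [coeff_eq_zero_of_lt_natTrailingDegree (hj ▸ h), zero_mul, norm_zero]
      have := l1_nonneg P
      positivity
    · rw [norm_mul, norm_pow, hT, taylor_coeff, ← mul_assoc]
      exact mul_le_mul ((norm_aeval_le_l1 _ hη).trans (l1_hasse P i))
        (pow_le_pow_of_le_one (norm_nonneg _) hδ h) (by positivity)
        (mul_nonneg (by positivity) (l1_nonneg P))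
  · rw [← Finset.sum_mul, mul_assoc]
    refine mul_le_mul_of_nonneg_right ?_ (mul_nonneg (l1_nonneg P) (by positivity))
    exact_mod_cast (Finset.sum_le_sum_of_subset (Finset.erase_subset _ _)).trans_eq
      (Nat.sum_range_choose _)

lemma log_close {v w : ℂ} (hw : w ≠ 0) (h : ‖v - w‖ ≤ exp (-1) * ‖w‖) :
    |log ‖v‖ - log ‖w‖| ≤ 1 := by
  have h0 := norm_pos_iff.2 hw
  have e1 : exp (-1) ≤ 1 / 2 := by
    rw [exp_neg, one_div]
    exact inv_anti₀ two_pos (by linarith [add_one_le_exp 1])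
  have e2 := mul_le_mul_of_nonneg_right e1 h0.le
  have e3 := mul_le_mul_of_nonneg_right (add_one_le_exp 1) h0.le
  have k := abs_le.1 ((abs_norm_sub_norm_le v w).trans h)
  have k1 : log (exp (-1) * ‖w‖) ≤ log ‖v‖ := log_le_log (by positivity) (by linarith)
  have k2 : log ‖v‖ ≤ log (exp 1 * ‖w‖) := log_le_log (by linarith) (by linarith)
  rw [log_mul (exp_pos _).ne' h0.ne', log_exp] at k1 k2
  exact abs_le.2 ⟨by linarith, by linarith⟩

end ValAux

/-- No root nearby: the first alternative. -/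
theorem alt1_of_far {x : ℝ} (hx : x ∈ Ioo (0 : ℝ) 1) (C : ℕ) : ∃ m0 : ℕ, ∀ m, m0 ≤ m →
    (∀ (P : ℤ[X]) (η : ℂ), InB C m P → P ≠ 0 → aeval η P = 0 →
      exp (-(m * log m ^ 3)) ≤ ‖(x : ℂ) - η‖) → Alt1 x C m := by
  classical
  have hρ0 : 0 < (1 + x) / 2 := by linarith [hx.1]
  obtain ⟨c, hc, hz⟩ := zc hρ0 (by linarith [hx.2] : (1 + x) / 2 < 1) 0
  set κ := min x ((1 - x) / 2) with hκ
  have hκ0 : 0 < κ := lt_min hx.1 (by linarith [hx.2])
  have hκ1 : 0 ≤ -log κ := neg_nonneg.2 (log_nonpos hκ0.le ((min_le_left _ _).trans hx.2.le))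
  obtain ⟨m0, hm0⟩ := ValAux.ev_log (9 * (c * (1 + C) + -log κ * C + C))
  refine ⟨m0, fun m hm hfar P hP hne => ?_⟩
  obtain ⟨h9, hL, hm1⟩ := hm0 m hm
  have hP0 : P ≠ 0 := by rintro rfl; simp at hne
  refine ValAux.abs_log_le hx hP hne h9 hL hm1 (by positivity) ?_
  have hB : (1 : ℝ) ≤ (m : ℝ) ^ C := one_le_pow₀ hm1
  have h1 := hz P _ hP0 hB fun i => by simpa using (abs_coeff_le_l1 P _).trans hP.2
  have h2 : (Multiset.card (P.map (Int.castRingHom ℂ)).roots : ℝ) ≤ C * m := by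
    exact_mod_cast (card_roots' _).trans (natDegree_map_le.trans hP.1)
  have hinj : Function.Injective (Int.castRingHom ℂ) := Int.cast_injective
  have h3 := ValAux.prod_lower (x : ℂ) (fun z => z ≠ 0 ∧ ‖z‖ ≤ (1 + x) / 2)
    (a := m * log m ^ 3) (b := -log κ) (P.map (Int.castRingHom ℂ)).roots fun z hz => by
      split_ifs with h
      · refine le_trans (exp_le_exp.2 (by linarith)) (hfar P z hP hP0 ?_)
        simpa [aeval_def, eval_map] using (isRoot_of_mem_roots hz).eq_zero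
      · rw [zero_add, neg_neg, exp_log hκ0]
        by_cases h0 : z = 0
        · rw [h0, sub_zero, Complex.norm_real, norm_of_nonneg hx.1.le]
          exact min_le_left _ _
        · have := norm_sub_norm_le z (z - x)
          rw [sub_sub_cancel, Complex.norm_real, norm_of_nonneg hx.1.le, norm_sub_rev] at this
          exact (min_le_right _ _).trans (by linarith [not_le.1 fun h' => h ⟨h0, h'⟩])
  have h4 : (1 : ℝ) ≤ ‖(P.map (Int.castRingHom ℂ)).leadingCoeff‖ := by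
    rw [leadingCoeff_map_of_injective hinj, eq_intCast, Complex.norm_intCast]
    exact_mod_cast Int.one_le_abs (leadingCoeff_ne_zero.2 hP0)
  rw [ValAux.abs_aeval, ← ValAux.eval_map, (IsAlgClosed.splits _).eval_eq_prod_roots, norm_mul]
  refine le_trans (exp_le_exp.2 (neg_le_neg ?_)) (h3.trans (le_mul_of_one_le_left (norm_nonneg _) h4))
  rw [log_pow] at h1
  have k1 : c * (1 + C * log m) ≤ c * (1 + C) * log m := by nlinarith
  have k2 : (m : ℝ) ≤ m * log m ^ 4 := le_mul_of_one_le_right (by positivity) (one_le_pow₀ hL)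
  have k3 := mul_le_mul_of_nonneg_left (h1.trans k1) (by positivity : 0 ≤ m * log m ^ 3)
  have k4 := mul_le_mul_of_nonneg_left h2 hκ1
  have k5 := mul_le_mul_of_nonneg_left k2 (by positivity : 0 ≤ -log κ * C)
  nlinarith

theorem goodL_of_algebraic {x : ℝ} (hx : x ∈ Ioo (0 : ℝ) 1) (halg : IsAlgebraic ℤ x) :
    GoodL x := by
  obtain ⟨P₀, h0, hroot⟩ := halg
  intro C
  have hl := log_nonneg (one_le_l1 h0)
  obtain ⟨m0, hm0⟩ := ValAux.ev_log (9 * (P₀.natDegree * C + C * log (l1 P₀) + C))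
  refine ⟨m0, fun m hm P hP hne => ?_⟩
  obtain ⟨h9, hL, hm1⟩ := hm0 m hm
  refine ValAux.abs_log_le hx hP hne h9 hL hm1 (by positivity) ?_
  have k := ValAux.liou_exp (η := x) (P := P) h0
    (by rw [← norm_eq_zero, ← ValAux.abs_aeval, hroot, abs_zero])
    (by rwa [← norm_ne_zero_iff, ← ValAux.abs_aeval, abs_ne_zero]) (α := C * log m)
    (β := log (l1 P₀)) (d := C * m) (by rw [exp_nat_mul, exp_log (by linarith)]; exact hP.2)
    (by rw [exp_log (by linarith [one_le_l1 h0])]) (by positivity) hl le_rfl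
    (by exact_mod_cast hP.1)
  rw [ValAux.abs_aeval]
  refine le_trans (exp_le_exp.2 (neg_le_neg ?_)) k
  have k2 : (m : ℝ) ≤ m * log m ^ 4 := le_mul_of_one_le_right (by positivity) (one_le_pow₀ hL)
  have k3 : log m ≤ m * log m ^ 4 :=
    (le_self_pow₀ hL (by norm_num)).trans (le_mul_of_one_le_left (by positivity) hm1)
  have k4 := mul_le_mul_of_nonneg_left k2 (by positivity : 0 ≤ C * log (l1 P₀))
  have k5 := mul_le_mul_of_nonneg_left k3 (by positivity : (0 : ℝ) ≤ P₀.natDegree * C)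
  nlinarith

/-- A root nearby: the second alternative. -/
theorem alt2_of_near {x : ℝ} (hx : x ∈ Ioo (0 : ℝ) 1) (htr : Transcendental ℤ x) (C : ℕ) :
    ∃ C' : ℝ, 0 ≤ C' ∧ ∃ m0 : ℕ, ∀ m, m0 ≤ m → ∀ (P₀ : ℤ[X]) (η : ℂ), InB C m P₀ → P₀ ≠ 0 →
      aeval η P₀ = 0 → ‖(x : ℂ) - η‖ < exp (-(m * log m ^ 3)) →
      η ≠ 0 ∧ ‖η‖ ≤ (1 + x) / 2 ∧ 0 < -log ‖(x : ℂ) - η‖ ∧
        Alt2 x C C' m η (-log ‖(x : ℂ) - η‖) := by
  have hρ0 : 0 < (1 + x) / 2 := by linarith [hx.1]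
  obtain ⟨c, hc, hz⟩ := ordAt_le hρ0 (by linarith [hx.2] : (1 + x) / 2 < 1) 0
  set κ := min x ((1 - x) / 2) with hκ
  have hκ0 : 0 < κ := lt_min hx.1 (by linarith [hx.2])
  obtain ⟨α, hα⟩ : ∃ α : ℝ, α = c * (1 + C) * (1 + C) + C := ⟨_, rfl⟩
  obtain ⟨K, hK⟩ : ∃ K : ℝ, K = C * α + C * C := ⟨_, rfl⟩
  have hα0 : 0 ≤ α := by rw [hα]; positivity
  have hK0 : 0 ≤ K := by rw [hK]; positivity
  obtain ⟨m0, hm0⟩ := ValAux.ev_log (max (-log κ) (9 * (K + α + 2 * C + 1)))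
  refine ⟨c * (1 + C), by positivity, m0, fun m hm P₀ η hP₀ h0 hroot hnear => ?_⟩
  obtain ⟨h9, hL, hm1⟩ := hm0 m hm
  obtain ⟨h8, h9⟩ := max_le_iff.1 h9
  have hδ0 : 0 < ‖(x : ℂ) - η‖ := by
    refine norm_pos_iff.2 (sub_ne_zero.2 ?_)
    rintro rfl
    refine htr ⟨P₀, h0, ?_⟩
    rwa [← abs_eq_zero, ValAux.abs_aeval, norm_eq_zero]
  have k0 : log m ≤ log m ^ 2 := le_self_pow₀ hL (by norm_num)
  have k1 : log m ^ 2 ≤ m * log m ^ 2 := le_mul_of_one_le_left (by positivity) hm1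
  have k2 : (m : ℝ) ≤ m * log m ^ 2 := le_mul_of_one_le_right (by positivity) (one_le_pow₀ hL)
  have k3 : m * log m ^ 2 ≤ m * log m ^ 3 := by gcongr; norm_num
  have hlt := (log_lt_iff_lt_exp hδ0).2 hnear
  have hδκ : ‖(x : ℂ) - η‖ < κ := by
    rw [← exp_log hκ0]
    exact hnear.trans_le (exp_le_exp.2 (by linarith))
  have hxn : ‖(x : ℂ)‖ = x := by rw [Complex.norm_real, norm_of_nonneg hx.1.le]
  have hη0 : η ≠ 0 := by
    rintro rfl
    rw [sub_zero, hxn] at hδκ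
    exact absurd (min_le_left _ _) (not_le.2 hδκ)
  have hη : ‖η‖ ≤ (1 + x) / 2 := by
    have := norm_sub_le (x : ℂ) (x - η)
    rw [sub_sub_cancel, hxn] at this
    linarith [hδκ.trans_le (min_le_right _ _)]
  have hη1 : ‖η‖ ≤ 1 := by linarith [hx.2]
  refine ⟨hη0, hη, by linarith, fun P hP hP0 => ?_⟩
  have hj := hz P _ hP0 (one_le_pow₀ hm1 : (1 : ℝ) ≤ (m : ℝ) ^ C)
    (fun i => by simpa using (abs_coeff_le_l1 P _).trans hP.2) η hη0 hη
  rw [log_pow] at hj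
  replace hj : (ordAt η P : ℝ) ≤ c * (1 + C) * log m := hj.trans (by
    linarith [mul_le_mul_of_nonneg_left hL hc.le])
  refine ⟨fun h => htr ⟨P, hP0, h⟩, hj, ?_⟩
  have hmC : (m : ℝ) ^ C = exp (C * log m) := by rw [exp_nat_mul, exp_log (by linarith)]
  have hn : (P.natDegree : ℝ) ≤ C * m := by exact_mod_cast hP.1
  have hQ : l1 (hasseDeriv (ordAt η P) P) ≤ exp (α * log m ^ 2) := by
    have a1 : (P.natDegree : ℝ) ≤ exp ((1 + C) * log m) := by
      rw [add_mul, exp_add, one_mul, exp_log (by linarith), mul_comm]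
      refine hn.trans (mul_le_mul_of_nonneg_right ?_ (by positivity))
      linarith [add_one_le_exp (C * log m), mul_le_mul_of_nonneg_left hL (Nat.cast_nonneg (α := ℝ) C)]
    have a2 : (P.natDegree.choose (ordAt η P) : ℝ) ≤ exp (ordAt η P * ((1 + C) * log m)) := by
      rw [exp_nat_mul]
      exact le_trans (by exact_mod_cast Nat.choose_le_pow _ _)
        (pow_le_pow_left₀ (by positivity) a1 _)
    refine (ValAux.l1_hasse P _).trans ((mul_le_mul a2 (hP.2.trans_eq hmC) (l1_nonneg _)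
      (by positivity)).trans ?_)
    rw [← exp_add, exp_le_exp, hα]
    linarith [mul_le_mul_of_nonneg_right hj (by positivity : 0 ≤ (1 + C) * log m),
      mul_le_mul_of_nonneg_left k0 (Nat.cast_nonneg (α := ℝ) C)]
  have ha := ValAux.hasse_ord_ne hP0 η
  have hlow : exp (-(K * (m * log m ^ 2))) ≤ ‖aeval η (hasseDeriv (ordAt η P) P)‖ := by
    refine le_trans (exp_le_exp.2 (neg_le_neg ?_)) (ValAux.liou_exp h0 hroot ha hQ
      (hP₀.2.trans_eq hmC) (by positivity) (by positivity) (d₀ := C * m) (d := C * m)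
      (by exact_mod_cast hP₀.1) (le_trans (Nat.cast_le.2
        ((natDegree_hasseDeriv_le P _).trans (Nat.sub_le _ _))) hn))
    rw [hK]
    linarith [mul_le_mul_of_nonneg_left k0 (by positivity : (0 : ℝ) ≤ C * m * C)]
  have hup := (norm_aeval_le_l1 _ hη1).trans hQ
  have htail : 2 ^ P.natDegree * l1 P * ‖(x : ℂ) - η‖ ≤
      exp (-1) * exp (-(K * (m * log m ^ 2))) := by
    have a1 : (2 : ℝ) ^ P.natDegree ≤ exp (C * m) :=
      (pow_le_pow_left₀ zero_le_two (by linarith [add_one_le_exp 1] : (2 : ℝ) ≤ exp 1) _).trans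
        (by rw [← exp_nat_mul, mul_one]; exact exp_le_exp.2 hn)
    refine (mul_le_mul (mul_le_mul a1 (hP.2.trans_eq hmC) (l1_nonneg _) (by positivity))
      hnear.le hδ0.le (by positivity)).trans ?_
    rw [← exp_add, ← exp_add, ← exp_add, exp_le_exp]
    linarith [mul_le_mul_of_nonneg_right h9 (by positivity : 0 ≤ m * log m ^ 2),
      mul_le_mul_of_nonneg_left k2 (Nat.cast_nonneg (α := ℝ) C),
      mul_le_mul_of_nonneg_left (k0.trans k1) (Nat.cast_nonneg (α := ℝ) C),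
      (by positivity : 0 ≤ (K + α + 2 * C + 1) * (m * log m ^ 2)),
      (by positivity : 0 ≤ α * (m * log m ^ 2))]
  have hclose := ValAux.log_close (mul_ne_zero ha (pow_ne_zero (ordAt η P) (norm_pos_iff.1 hδ0)))
    ((ValAux.taylor_est P hη1 (hnear.le.trans (exp_le_one_iff.2 (by linarith)))).trans (by
      rw [pow_succ', ← mul_assoc, norm_mul, norm_pow, ← mul_assoc]
      exact mul_le_mul_of_nonneg_right (htail.trans
        (mul_le_mul_of_nonneg_left hlow (exp_pos _).le)) (by positivity)))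
  have ha0 := norm_pos_iff.2 ha
  rw [norm_mul, norm_pow, log_mul ha0.ne' (by positivity), log_pow, ← ValAux.abs_aeval] at hclose
  have b1 := (le_log_iff_exp_le ha0).2 hlow
  have b2 := (log_le_iff_le_exp ha0).2 hup
  have b3 : m * log m ^ 2 ≤ m * log m ^ 4 := by gcongr; norm_num
  have b4 := mul_le_mul_of_nonneg_left b3 hK0
  have b5 := mul_le_mul_of_nonneg_left (k1.trans b3) hα0
  have b6 : 0 ≤ K * (m * log m ^ 4) := by positivity
  have b7 : 0 ≤ α * (m * log m ^ 4) := by positivity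
  have b8 : 0 ≤ C * (m * log m ^ 4) := by positivity
  obtain ⟨c1, c2⟩ := abs_le.1 hclose
  refine ValAux.le_fz h9 hL (abs_le.2 ⟨?_, ?_⟩) <;> linarith

theorem val {x : ℝ} (hx : x ∈ Ioo (0 : ℝ) 1) (C : ℕ) :
    ∃ C' : ℝ, 0 ≤ C' ∧ ∃ m0 : ℕ, ∀ m, m0 ≤ m → Alt1 x C m ∨
      ∃ (η : ℂ) (γ : ℝ), η ≠ 0 ∧ ‖η‖ ≤ (1 + x) / 2 ∧ 0 < γ ∧ Alt2 x C C' m η γ := by
  by_cases halg : IsAlgebraic ℤ x
  · obtain ⟨m0, h⟩ := goodL_of_algebraic hx halg C
    exact ⟨0, le_rfl, m0, fun m hm => Or.inl (h m hm)⟩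
  obtain ⟨C', hC', m1, h1⟩ := alt2_of_near hx halg C
  obtain ⟨m0, h0⟩ := alt1_of_far hx C
  refine ⟨C', hC', max m0 m1, fun m hm => ?_⟩
  by_cases h : ∀ (P : ℤ[X]) (η : ℂ), InB C m P → P ≠ 0 → aeval η P = 0 →
      exp (-(m * log m ^ 3)) ≤ ‖(x : ℂ) - η‖
  · exact Or.inl (h0 m (le_of_max_le_left hm) h)
  · push Not at h
    obtain ⟨P, η, a, b, c, d⟩ := h
    exact Or.inr ⟨η, _, h1 m (le_of_max_le_right hm) P η a b c d⟩

end

end Vale.Agent.P114
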