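import Vale.Agent.P114.Layer
import Vale.Agent.P114.D2
import Vale.Agent.P114.Val

/-! # P114: the theorem for a good base -/

open MeasureTheory Real Set Polynomial
open scoped ENNReal

namespace Vale.Agent.P114

noncomputable section

variable {Λ : Type*} [Fintype Λ]

theorem fz_nonneg (m : ℕ) : 0 ≤ fz m :=
  mul_nonneg (Nat.cast_nonneg _) (pow_nonneg (Real.log_natCast_nonneg m) _)

theorem Shape.exists_bound (sh : Shape Λ) : ∃ a : ℕ, ∀ i, sh.a i ≤ a :=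
  ⟨∑ i, sh.a i, fun i => Finset.single_le_sum (f := sh.a) (fun _ _ => Nat.zero_le _)
    (Finset.mem_univ i)⟩

theorem Shape.thmM_good (sh : Shape Λ) {x : ℝ} (hx : x ∈ Ioo (0 : ℝ) 1) (hg : GoodL x)
    (t : Λ → ℝ) {μ : Measure ℝ} [IsProbabilityMeasure μ] (h : (sh.ifs x hx t).SelfSim μ)
    {α C : ℝ} (hs : Slope μ α C) (hα0 : 0 ≤ α) (hα : α < 1) :
    (sh.ifs x hx t).hh ≤ α * (sh.ifs x hx t).chi := by
  by_contra hlt
  push Not at hlt
  set F := sh.ifs x hx t with hF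
  obtain ⟨ε, hε, δ, hδ, m0, hR⟩ := F.Rm_lower (fun _ => ()) h hs hα0 hlt (fun _ _ => rfl)
  obtain ⟨a, ha⟩ := sh.exists_bound
  obtain ⟨C0, hC0⟩ := exists_InB_minor Λ a
  obtain ⟨m1, hm1⟩ := hg C0
  obtain ⟨m2, hm2⟩ := sh.w2_of_alt1 (β := Unit) hx t ha hC0
  have hW : ∀ m, max m0 (max m1 m2) ≤ m →
      W2 (F.VV (fun _ => ()) m) (Fintype.card Λ) 0 1 (fz m) := fun m hm =>
    hm2 m (by omega) (hm1 m (by omega)) _
  refine F.layer h hs hα (fun _ => ()) (fun _ _ _ _ => rfl) hε hδ (Fintype.card Λ)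
    (Fintype.card Λ) (max m0 (max m1 m2)) 0 (fun m hm => hR m (by omega))
    (fun m hm => ⟨1, one_pos, by simpa using hW m hm⟩) (fun m hm => ?_)
  obtain ⟨s, hs1, hs2⟩ := F.exists_Rm_eq_zero (fun _ => ()) ε m ((F.chi + ε) * m)
  refine ⟨s, hs1, by rw [hs2]; positivity, (hW m hm).cov.mono inter_subset_left le_rfl ?_⟩
  linarith [fz_nonneg m]

end

end Vale.Agent.P114
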