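import Vale.Agent.P114.EntW

/-! # P114: grid entropies of good measures, basic properties -/

open MeasureTheory Real Set Polynomial
open scoped ENNReal

namespace Vale.Agent.P114

noncomputable section

variable {Ω ι : Type*} {ν ν' η μ : Measure ℝ}

theorem Good.zero : Good 0 := by
  exact ⟨inferInstance, 0, rfl⟩
theorem HsBasicAux.mono {ν : Measure ℝ} {R R' : ℝ} (h : ν (Icc (-R) R)ᶜ = 0) (hR : R ≤ R') :
    ν (Icc (-R') R')ᶜ = 0 :=
  measure_mono_null (compl_subset_compl.2 (Icc_subset_Icc (neg_le_neg hR) hR)) h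

theorem HsBasicAux.null {ν : Measure ℝ} {A B : Set ℝ} (h : ν Aᶜ = 0) (hAB : ∀ x ∈ A, x ∈ B) :
    ν Bᶜ = 0 :=
  measure_mono_null (compl_subset_compl.2 hAB) h

theorem HsBasicAux.null' {ν : Measure ℝ} {A : Set ℝ} {c : ℝ → ℤ} {F : Finset ℤ} (h : ν Aᶜ = 0)
    (hAB : ∀ x ∈ A, c x ∈ F) : ν {x | c x ∉ F} = 0 :=
  HsBasicAux.null (B := {x | c x ∈ F}) h hAB

theorem HsBasicAux.null_image {ν : Measure ℝ} {c : ℝ → ℤ} {F : Finset ℤ}
    (h : ν {x | c x ∉ F} = 0) (G : ℤ → ℤ) : ν {x | G (c x) ∉ F.image G} = 0 :=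
  HsBasicAux.null' (A := {x | c x ∈ F}) h fun _ hx => Finset.mem_image_of_mem G hx

theorem Good.add (h : Good ν) (h' : Good ν') : Good (ν + ν') := by
  obtain ⟨_, R, hR⟩ := h
  obtain ⟨_, R', hR'⟩ := h'
  refine ⟨inferInstance, max R R', ?_⟩
  rw [Measure.add_apply, HsBasicAux.mono hR (le_max_left _ _),
    HsBasicAux.mono hR' (le_max_right _ _), add_zero]
theorem Good.sum {I : Finset ι} {m : ι → Measure ℝ} (h : ∀ i ∈ I, Good (m i)) :
    Good (∑ i ∈ I, m i) := by
  exact Finset.sum_induction m Good (fun _ _ => Good.add) Good.zero h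
theorem Good.smul (h : Good ν) (c : ℝ) : Good (ENNReal.ofReal c • ν) := by
  obtain ⟨_, R, hR⟩ := h
  refine ⟨⟨?_⟩, R, by rw [Measure.smul_apply, hR, smul_zero]⟩
  rw [Measure.smul_apply, smul_eq_mul]
  exact ENNReal.mul_lt_top ENNReal.ofReal_lt_top (measure_lt_top _ _)
theorem Good.map_affine (h : Good ν) (a b : ℝ) : Good (ν.map (fun x => a * x + b)) := by
  obtain ⟨_, R, hR⟩ := h
  refine ⟨inferInstance, |a| * R + |b|, ?_⟩
  rw [Measure.map_apply (by fun_prop) measurableSet_Icc.compl, preimage_compl]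
  refine HsBasicAux.null hR fun x hx' => ?_
  have h1 : |a * x + b| ≤ |a| * R + |b| := (abs_add_le _ _).trans (by
    rw [abs_mul]
    exact add_le_add_left (mul_le_mul_of_nonneg_left (abs_le.2 hx') (abs_nonneg _)) _)
  exact abs_le.1 h1
theorem Good.scl (h : Good ν) (a : ℝ) : Good (scl a ν) := by
  simpa [P114.scl] using h.map_affine a 0
theorem Good.dirac (x : ℝ) : Good (Measure.dirac x) := by
  refine ⟨inferInstance, |x|, ?_⟩
  rw [Measure.dirac_apply' _ measurableSet_Icc.compl, indicator_of_notMem]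
  exact fun h => h (abs_le.1 le_rfl)
theorem Good.atom (S : Finset Ω) (w t : Ω → ℝ) : Good (atom S w t) := by
  exact Good.sum fun ω _ => (Good.dirac _).smul _
theorem Good.conv (h : Good ν) (h' : Good η) : Good (ν ∗ η) := by
  obtain ⟨_, R, hR⟩ := h
  obtain ⟨_, R', hR'⟩ := h'
  refine ⟨inferInstance, R + R', ?_⟩
  rw [Measure.conv, Measure.map_apply (by fun_prop) measurableSet_Icc.compl]
  refine measure_mono_null (t := (Icc (-R) R)ᶜ ×ˢ univ ∪ univ ×ˢ (Icc (-R') R')ᶜ)
    (fun z hz => ?_) (measure_union_null ?_ ?_)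
  · by_contra h
    simp only [mem_union, mem_prod, mem_compl_iff, mem_univ, and_true, true_and, not_or,
      not_not] at h
    exact hz ⟨by linarith [h.1.1, h.2.1], by linarith [h.1.2, h.2.2]⟩
  · rw [Measure.prod_prod, hR, zero_mul]
  · rw [Measure.prod_prod, hR', mul_zero]
theorem Good.restrict (h : Good ν) (A : Set ℝ) : Good (ν.restrict A) := by
  obtain ⟨_, R, hR⟩ := h
  exact ⟨inferInstance, R, le_zero_iff.1 ((Measure.restrict_apply_le _ _).trans hR.le)⟩

instance isProbabilityMeasure_scl (a : ℝ) (μ : Measure ℝ) [IsProbabilityMeasure μ] :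
    IsProbabilityMeasure (scl a μ) := by
  exact Measure.isProbabilityMeasure_map (by fun_prop)

theorem mss_nonneg (ν : Measure ℝ) : 0 ≤ mss ν := by
  exact measureReal_nonneg
theorem mss_prob (μ : Measure ℝ) [IsProbabilityMeasure μ] : mss μ = 1 := by
  exact probReal_univ
theorem mss_add (h : Good ν) (h' : Good ν') : mss (ν + ν') = mss ν + mss ν' := by
  have := h.fin
  have := h'.fin
  exact measureReal_add_apply
theorem mss_sum {I : Finset ι} {m : ι → Measure ℝ} (h : ∀ i ∈ I, Good (m i)) :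
    mss (∑ i ∈ I, m i) = ∑ i ∈ I, mss (m i) := by
  simp only [mss, Measure.real, Measure.finsetSum_apply]
  exact ENNReal.toReal_sum fun i hi => by
    have := (h i hi).fin
    exact measure_ne_top _ _
theorem mss_smul (ν : Measure ℝ) {c : ℝ} (hc : 0 ≤ c) :
    mss (ENNReal.ofReal c • ν) = c * mss ν := by
  simp only [mss, Measure.real, Measure.smul_apply, smul_eq_mul, ENNReal.toReal_mul,
    ENNReal.toReal_ofReal hc]
theorem mss_map_affine (ν : Measure ℝ) (a b : ℝ) :
    mss (ν.map (fun x => a * x + b)) = mss ν := by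
  simp only [mss, Measure.real]
  rw [Measure.map_apply (by fun_prop) MeasurableSet.univ, preimage_univ]
theorem mss_atom {S : Finset Ω} {w : Ω → ℝ} (hw : ∀ ω ∈ S, 0 ≤ w ω) (t : Ω → ℝ) :
    mss (atom S w t) = ∑ ω ∈ S, w ω := by
  rw [atom, mss_sum fun ω _ => (Good.dirac _).smul _]
  exact Finset.sum_congr rfl fun ω h => by rw [mss_smul _ (hw ω h), mss_prob, mul_one]
theorem mss_conv (h : Good ν) (h' : Good η) : mss (ν ∗ η) = mss ν * mss η := by
  have := h.fin
  have := h'.fin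
  simp only [mss, Measure.real, Measure.conv]
  rw [Measure.map_apply (by fun_prop) MeasurableSet.univ, preimage_univ, ← univ_prod_univ,
    Measure.prod_prod, ENNReal.toReal_mul]

theorem measurable_cell (s u : ℝ) : Measurable (cell s u) := by
  exact Int.measurable_floor.comp (by fun_prop)

/-- Finitely many cells carry all the mass, uniformly for `s ≤ s₀` and `|u| ≤ U`. -/
theorem Good.exists_cells (h : Good ν) (s₀ U : ℝ) : ∃ F : Finset ℤ, ∀ s u : ℝ, s ≤ s₀ → |u| ≤ U →
    ν {x | cell s u x ∉ F} = 0 := by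
  obtain ⟨_, R, hR⟩ := h
  refine ⟨Finset.Icc ⌊-(R * exp s₀ + U)⌋ ⌊R * exp s₀ + U⌋, fun s u hs hu => ?_⟩
  refine HsBasicAux.null' hR fun x hx' => ?_
  have h1 : |x * exp s + u| ≤ R * exp s₀ + U := (abs_add_le _ _).trans (add_le_add (by
    rw [abs_mul, abs_of_pos (exp_pos s)]
    exact mul_le_mul (abs_le.2 hx') (exp_le_exp.2 hs) (exp_pos s).le
      ((abs_nonneg x).trans (abs_le.2 hx'))) hu)
  exact Finset.mem_Icc.2 ⟨Int.floor_mono (abs_le.1 h1).1, Int.floor_mono (abs_le.1 h1).2⟩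

theorem sum_real_preimage (h : Good ν) {c : ℝ → ℤ} (hc : Measurable c) {F : Finset ℤ}
    (hF : ν {x | c x ∉ F} = 0) : ∑ k ∈ F, ν.real (c ⁻¹' {k}) = mss ν := by
  have := h.fin
  rw [sum_measureReal_preimage_singleton F fun k _ => hc (measurableSet_singleton k)]
  exact measureReal_congr (ae_eq_univ.2 hF)

theorem HsBasicAux.real_eq_zero {c : ℝ → ℤ} {F : Finset ℤ} (hF : ν {x | c x ∉ F} = 0) {k : ℤ}
    (hk : k ∉ F) : ν.real (c ⁻¹' {k}) = 0 := by
  have h : ν (c ⁻¹' {k}) = 0 := measure_mono_null (fun x hx => by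
    rw [mem_preimage, mem_singleton_iff] at hx
    rw [mem_ofPred_eq, hx]
    exact hk) hF
  rw [Measure.real, h]
  rfl

theorem Hc_eq_ent (h : Good ν) {c : ℝ → ℤ} (hc : Measurable c) {F : Finset ℤ}
    (hF : ν {x | c x ∉ F} = 0) : Hc ν c = ent F (fun k => ν.real (c ⁻¹' {k})) := by
  rw [Hc, ent, sum_real_preimage h hc hF, tsum_eq_sum fun k hk => by
    rw [HsBasicAux.real_eq_zero hF hk, negMulLog_zero]]

/-- Integrals of functions of the cell are finite sums. -/
theorem integral_comp_cell (h : Good ν) {c : ℝ → ℤ} (hc : Measurable c) {F : Finset ℤ}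
    (hF : ν {x | c x ∉ F} = 0) (G : ℤ → ℝ) :
    ∫ x, G (c x) ∂ν = ∑ k ∈ F, ν.real (c ⁻¹' {k}) * G k := by
  have := h.fin
  have h1 : (fun x => G (c x)) =ᵐ[ν] fun x => ∑ k ∈ F, (c ⁻¹' {k}).indicator (fun _ => G k) x := by
    filter_upwards [show ∀ᵐ x ∂ν, c x ∈ F from hF] with x hx
    rw [Finset.sum_eq_single_of_mem (c x) hx fun k _ hk => by simp [hk.symm]]
    simp
  rw [integral_congr_ae h1, integral_finsetSum _ fun k _ =>
    (integrable_const _).indicator (hc (measurableSet_singleton k))]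
  exact Finset.sum_congr rfl fun k _ => by
    rw [integral_indicator_const _ (hc (measurableSet_singleton k)), smul_eq_mul]

theorem HsBasicAux.atom_real {S : Finset Ω} {w : Ω → ℝ} (hw : ∀ ω ∈ S, 0 ≤ w ω) (t : Ω → ℝ)
    {c : ℝ → ℤ} (hc : Measurable c) (k : ℤ) :
    (atom S w t).real (c ⁻¹' {k}) = mass S w (fun ω => c (t ω)) k := by
  classical
  simp only [atom, Measure.real, Measure.finsetSum_apply, Measure.smul_apply, smul_eq_mul,
    Measure.dirac_apply' _ (hc (measurableSet_singleton k)), mass, fib, Finset.sum_filter]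
  rw [ENNReal.toReal_sum fun ω _ => ENNReal.mul_ne_top ENNReal.ofReal_ne_top (by
    rw [indicator]; split_ifs <;> simp)]
  refine Finset.sum_congr rfl fun ω h => ?_
  by_cases h' : c (t ω) = k <;> simp [indicator, h', hw ω h]

theorem Hc_atom {S : Finset Ω} {w : Ω → ℝ} (hw : ∀ ω ∈ S, 0 ≤ w ω) (t : Ω → ℝ) {c : ℝ → ℤ}
    (hc : Measurable c) : Hc (atom S w t) c = entW S w (fun ω => c (t ω)) := by
  rw [Hc_eq_ent (Good.atom S w t) hc (F := img S fun ω => c (t ω)) ?_, entW]
  · exact ent_congr fun k _ => HsBasicAux.atom_real hw t hc k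
  · rw [atom, Measure.finsetSum_apply]
    refine Finset.sum_eq_zero fun ω h => ?_
    rw [Measure.smul_apply, Measure.dirac_apply, indicator_of_notMem, smul_zero]
    exact fun h' => h' (mem_img.2 ⟨ω, h, rfl⟩)

theorem Hu_atom {S : Finset Ω} {w : Ω → ℝ} (hw : ∀ ω ∈ S, 0 ≤ w ω) (t : Ω → ℝ) (s u : ℝ) :
    Hu (atom S w t) s u = entW S w (fun ω => cell s u (t ω)) := by
  exact Hc_atom hw t (measurable_cell s u)

theorem Hu_nonneg (h : Good ν) (s u : ℝ) : 0 ≤ Hu ν s u := by
  obtain ⟨F, hF⟩ := h.exists_cells s |u|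
  rw [Hu, Hc_eq_ent h (measurable_cell s u) (hF s u le_rfl le_rfl)]
  exact ent_nonneg fun _ _ => measureReal_nonneg

theorem HsBasicAux.Hc_le_card (h : Good ν) {c : ℝ → ℤ} (hc : Measurable c) {F : Finset ℤ}
    (hF : ν {x | c x ∉ F} = 0) : 0 ≤ Hc ν c ∧ Hc ν c ≤ mss ν * log F.card := by
  rw [Hc_eq_ent h hc hF, ← sum_real_preimage h hc hF]
  exact ⟨ent_nonneg fun _ _ => measureReal_nonneg, ent_le_log_card fun _ _ => measureReal_nonneg⟩

theorem Hu_le_diam (h : Good ν) {a L : ℝ} (hL : 0 ≤ L) (hν : ν (Icc a (a + L))ᶜ = 0) (s u : ℝ) :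
    Hu ν s u ≤ mss ν * log (L * exp s + 2) := by
  have h0 := mul_nonneg hL (exp_pos s).le
  have h1 : cell s u a ≤ cell s u (a + L) := Int.floor_mono (by nlinarith)
  refine (HsBasicAux.Hc_le_card h (measurable_cell s u)
    (F := Finset.Icc (cell s u a) (cell s u (a + L))) ?_).2.trans ?_
  · refine HsBasicAux.null' hν fun x hx' => Finset.mem_Icc.2 ⟨?_, ?_⟩
    · exact Int.floor_mono (by nlinarith [hx'.1, exp_pos s])
    · exact Int.floor_mono (by nlinarith [hx'.2, exp_pos s])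
  · refine mul_le_mul_of_nonneg_left (log_le_log (Nat.cast_pos.2 (Finset.card_pos.2
      ⟨_, Finset.left_mem_Icc.2 h1⟩)) ?_) (mss_nonneg ν)
    have h2 : ((Finset.Icc (cell s u a) (cell s u (a + L))).card : ℤ) =
        cell s u (a + L) + 1 - cell s u a := Int.card_Icc_of_le _ _ (by omega)
    have h3 : ((Finset.Icc (cell s u a) (cell s u (a + L))).card : ℝ) =
        cell s u (a + L) + 1 - cell s u a := by exact_mod_cast h2
    rw [h3, cell, cell]
    linarith [Int.floor_le ((a + L) * exp s + u), Int.lt_floor_add_one (a * exp s + u)]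

theorem HsBasicAux.meas0 (h : Good ν) (G : ℤ → ℤ) (k : ℤ) : Measurable fun z : ℝ × ℝ =>
    negMulLog (ν.real ((fun x => G (cell z.1 z.2 x)) ⁻¹' {k})) := by
  have := h.fin
  have hG : Measurable G := measurable_from_top
  have h3 : Measurable fun y : (ℝ × ℝ) × ℝ => y.2 * exp y.1.1 + y.1.2 := by fun_prop
  have h2 : Measurable fun y : (ℝ × ℝ) × ℝ => G (cell y.1.1 y.1.2 y.2) :=
    hG.comp (Int.measurable_floor.comp h3)
  have h4 : Measurable fun z : ℝ × ℝ => ν ((fun x => G (cell z.1 z.2 x)) ⁻¹' {k}) :=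
    measurable_measure_prodMk_left (ν := ν) (h2 (measurableSet_singleton k))
  exact continuous_negMulLog.measurable.comp h4.ennreal_toReal

theorem HsBasicAux.meas_tsum {X : Type*} [MeasurableSpace X] {f : ℤ → X → ℝ}
    (hf : ∀ k, Measurable (f k)) (h : ∀ z, ∃ F : Finset ℤ, ∀ k ∉ F, f k z = 0) :
    Measurable fun z => ∑' k, f k z := by
  refine measurable_of_tendsto_metrizable
    (f := fun (n : ℕ) z => ∑ k ∈ Finset.Icc (-n : ℤ) n, f k z)
    (fun n => Finset.measurable_sum _ fun k _ => hf k) (tendsto_pi_nhds.2 fun z => ?_)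
  obtain ⟨F, hF⟩ := h z
  obtain ⟨N, hN⟩ := (F.image Int.natAbs).bddAbove
  refine tendsto_atTop_of_eventually_const (i₀ := N) fun n hn =>
    (tsum_eq_sum fun k hk => hF k fun hk' => hk ?_).symm
  have h3 : k.natAbs ≤ N := hN (Finset.mem_coe.2 (Finset.mem_image_of_mem _ hk'))
  exact Finset.mem_Icc.2 ⟨by omega, by omega⟩

theorem HsBasicAux.meas (h : Good ν) (G : ℤ → ℤ) :
    Measurable (fun z : ℝ × ℝ => Hc ν (fun x => G (cell z.1 z.2 x))) := by
  refine (HsBasicAux.meas_tsum (HsBasicAux.meas0 h G) fun z => ?_).sub_const _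
  obtain ⟨F, hF⟩ := h.exists_cells z.1 |z.2|
  exact ⟨F.image G, fun k hk => by
    rw [HsBasicAux.real_eq_zero (HsBasicAux.null_image (hF _ _ le_rfl le_rfl) G) hk,
      negMulLog_zero]⟩

theorem HsBasicAux.intInt {f : ℝ → ℝ} (hf : Measurable f) {a b C : ℝ}
    (h : ∀ x ∈ uIoc a b, |f x| ≤ C) : IntervalIntegrable f volume a b :=
  intervalIntegrable_iff.2 (Measure.integrableOn_of_bounded (M := C) measure_Ioc_lt_top.ne
    hf.aestronglyMeasurable ((ae_restrict_iff' measurableSet_uIoc).2 (ae_of_all _ h)))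

theorem measurable_Hu (h : Good ν) : Measurable (fun z : ℝ × ℝ => Hu ν z.1 z.2) := by
  exact HsBasicAux.meas h id

/-- Joint measurability for functions of the cell index. -/
theorem measurable_Hc_comp (h : Good ν) (G : ℤ → ℤ) (s : ℝ) :
    Measurable (fun u : ℝ => Hc ν (fun x => G (cell s u x))) := by
  have h1 := (HsBasicAux.meas h G).comp (measurable_prodMk_left (x := s))
  exact h1

theorem intervalIntegrable_Hc_comp (h : Good ν) (G : ℤ → ℤ) (s a b : ℝ) :
    IntervalIntegrable (fun u : ℝ => Hc ν (fun x => G (cell s u x))) volume a b := by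
  obtain ⟨F, hF⟩ := h.exists_cells s (max |a| |b|)
  refine HsBasicAux.intInt (measurable_Hc_comp h G s) (C := mss ν * log (F.image G).card)
    fun u hu => ?_
  have h1 : |u| ≤ max |a| |b| := by
    rcases mem_uIoc.1 hu with h' | h'
    · exact abs_le_max_abs_abs h'.1.le h'.2
    · exact (abs_le_max_abs_abs h'.1.le h'.2).trans_eq (max_comm _ _)
  have h2 := HsBasicAux.Hc_le_card h (c := fun x => G (cell s u x))
    ((measurable_from_top (f := G)).comp (measurable_cell s u)) (F := F.image G)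
    (HsBasicAux.null_image (hF s u le_rfl h1) G)
  rw [abs_of_nonneg h2.1]
  exact h2.2

theorem intervalIntegrable_Hu (h : Good ν) (s a b : ℝ) :
    IntervalIntegrable (Hu ν s) volume a b := by
  exact intervalIntegrable_Hc_comp h id s a b

theorem measurable_Hs (h : Good ν) : Measurable (Hs ν) := by
  unfold Hs
  simp only [intervalIntegral.integral_of_le zero_le_one]
  exact ((measurable_Hu h).stronglyMeasurable.integral_prod_right'
    (ν := volume.restrict (Ioc (0 : ℝ) 1))).measurable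

theorem Hs_nonneg (h : Good ν) (s : ℝ) : 0 ≤ Hs ν s := by
  exact intervalIntegral.integral_nonneg zero_le_one fun u _ => Hu_nonneg h s u

theorem Hs_le_diam (h : Good ν) {a L : ℝ} (hL : 0 ≤ L) (hν : ν (Icc a (a + L))ᶜ = 0) (s : ℝ) :
    Hs ν s ≤ mss ν * log (L * exp s + 2) := by
  refine (intervalIntegral.integral_mono_on zero_le_one (intervalIntegrable_Hu h s 0 1)
    intervalIntegrable_const fun u _ => Hu_le_diam h hL hν s u).trans (le_of_eq ?_)
  simp

theorem intervalIntegrable_Hs (h : Good ν) (a b : ℝ) : IntervalIntegrable (Hs ν) volume a b := by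
  obtain ⟨R, hR⟩ := h.bdd
  have h1 : ν (Icc (-|R|) (-|R| + 2 * |R|))ᶜ = 0 := by
    rw [show -|R| + 2 * |R| = |R| by ring]
    exact HsBasicAux.mono hR (le_abs_self R)
  refine HsBasicAux.intInt (measurable_Hs h) (C := mss ν * log (2 * |R| * exp (max a b) + 2))
    fun s hs => ?_
  rw [abs_of_nonneg (Hs_nonneg h s)]
  refine (Hs_le_diam h (by positivity) h1 s).trans (mul_le_mul_of_nonneg_left
    (log_le_log (by positivity) ?_) (mss_nonneg ν))
  gcongr
  exact hs.2

theorem Hs_zero (s : ℝ) : Hs 0 s = 0 := by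
  simp [Hs, Hu, Hc, mss]

end

end Vale.Agent.P114
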