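import Vale.Agent.P114.HsSuper

/-! # P114: the integral Jensen inequality behind the convolution bounds -/

open MeasureTheory Real Set
open scoped ENNReal

namespace Vale.Agent.P114.HsConvAux

open HsSuperAux

noncomputable section

variable {ν η : Measure ℝ}

theorem jensen {β : Type*} (ν : Measure ℝ) (T : Finset β) {a : ℝ → β → ℝ}
    (h0 : ∀ x k, 0 ≤ a x k) (hi : ∀ k, Integrable (fun x => a x k) ν) :
    ∃ g : ℝ → ℝ, Integrable g ν ∧ (∀ᵐ x ∂ν, ent T (a x) ≤ g x) ∧
      ∫ x, g x ∂ν = ent T (fun k => ∫ x, a x k ∂ν) := by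
  obtain ⟨A, hA⟩ : ∃ A : β → ℝ, A = fun k => ∫ x, a x k ∂ν := ⟨_, rfl⟩
  have hAk : ∀ k, A k = ∫ x, a x k ∂ν := fun k => by rw [hA]
  have hA0 : ∀ k, 0 ≤ A k := fun k => by
    rw [hAk]; exact integral_nonneg (fun x => h0 x k)
  have hS0 : 0 ≤ ∑ k ∈ T, A k := Finset.sum_nonneg (fun k _ => hA0 k)
  have hpos : ∀ k ∈ T, 0 < A k → 0 < ∑ k ∈ T, A k := fun k hk h =>
    h.trans_le (Finset.single_le_sum (fun k _ => hA0 k) hk)
  rw [← hA]
  refine ⟨fun x => ∑ k ∈ T, a x k * (-log (A k / ∑ k ∈ T, A k)),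
    integrable_finsetSum _ (fun k _ => (hi k).mul_const _), ?_, ?_⟩
  · have h1 : ∀ᵐ x ∂ν, ∀ k ∈ T, A k = 0 → a x k = 0 := by
      rw [Filter.eventually_all_finset]
      intro k _
      by_cases hk : A k = 0
      · have h2 := (integral_eq_zero_iff_of_nonneg (fun x => h0 x k) (hi k)).1
          ((hAk k).symm.trans hk)
        filter_upwards [h2] with x hx _ using hx
      · exact Filter.Eventually.of_forall (fun x h => absurd h hk)
    filter_upwards [h1] with x hx
    refine ent_le_gibbs (fun k _ => h0 x k) (fun k _ => div_nonneg (hA0 k) hS0)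
      (fun k hk h => ?_) ?_
    · have h2 : 0 < A k := lt_of_le_of_ne (hA0 k) (fun h3 => h.ne' (hx k hk h3.symm))
      exact div_pos h2 (hpos k hk h2)
    · rw [← Finset.sum_div]
      exact div_self_le_one _
  · rw [integral_finsetSum _ (fun k _ => (hi k).mul_const _), ent_eq_sum_log]
    refine Finset.sum_congr rfl (fun k hk => ?_)
    rw [integral_mul_const, ← hAk]
    rcases (hA0 k).eq_or_lt with h | h
    · rw [← h, zero_mul, zero_mul]
    · rw [log_div h.ne' (hpos k hk h).ne', neg_sub]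

/-- The translate of `η`. -/
def sh (η : Measure ℝ) (x : ℝ) : Measure ℝ := η.map (fun y => x + y)

theorem good_sh (h : Good η) (x : ℝ) : Good (sh η x) := by
  have := h.map_affine 1 x
  simp only [one_mul, add_comm] at this ⊢
  unfold sh
  simpa only [add_comm] using this

theorem sh_apply (η : Measure ℝ) (x : ℝ) {B : Set ℝ} (hB : MeasurableSet B) :
    sh η x B = η (Prod.mk x ⁻¹' ((fun z : ℝ × ℝ => z.1 + z.2) ⁻¹' B)) := by
  unfold sh
  rw [Measure.map_apply (by fun_prop) hB]
  rfl

theorem conv_apply (h' : Good η) {B : Set ℝ} (hB : MeasurableSet B) :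
    (ν ∗ η) B = ∫⁻ x, sh η x B ∂ν := by
  have := h'.fin
  rw [Measure.conv, Measure.map_apply (by fun_prop) hB,
    Measure.prod_apply (measurable_add hB)]
  simp only [sh_apply η _ hB]

theorem meas_sh (h' : Good η) {B : Set ℝ} (hB : MeasurableSet B) :
    Measurable (fun x => sh η x B) := by
  have := h'.fin
  simp only [sh_apply η _ hB]
  exact measurable_measure_prodMk_left (measurable_add hB)

theorem mss_sh (η : Measure ℝ) (x : ℝ) : mss (sh η x) = mss η := by
  unfold mss sh
  rw [map_measureReal_apply (by fun_prop) MeasurableSet.univ, preimage_univ]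

theorem int_sh (h : Good ν) (h' : Good η) {B : Set ℝ} (hB : MeasurableSet B) :
    Integrable (fun x => (sh η x).real B) ν := by
  have := h.fin
  refine Integrable.of_bound (meas_sh h' hB).ennreal_toReal.aestronglyMeasurable (mss η)
    (Filter.Eventually.of_forall (fun x => ?_))
  have := (good_sh h' x).fin
  rw [Real.norm_eq_abs, abs_of_nonneg measureReal_nonneg, ← mss_sh η x]
  exact measureReal_mono (subset_univ _)

theorem conv_real (h' : Good η) {B : Set ℝ} (hB : MeasurableSet B) :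
    (ν ∗ η).real B = ∫ x, (sh η x).real B ∂ν := by
  simp only [measureReal_def]
  rw [conv_apply h' hB, integral_toReal (meas_sh h' hB).aemeasurable]
  refine Filter.Eventually.of_forall (fun x => ?_)
  have := (good_sh h' x).fin
  exact measure_lt_top _ _

theorem Hc_sh (η : Measure ℝ) (x : ℝ) {c : ℝ → ℤ} (hc : Measurable c) :
    Hc (sh η x) c = Hc η (fun y => c (x + y)) := by
  unfold Hc
  rw [mss_sh]
  congr 1
  refine tsum_congr (fun k => ?_)
  unfold sh
  rw [map_measureReal_apply (by fun_prop) (hc (measurableSet_singleton k))]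
  rfl

theorem cell_add (s u x y : ℝ) : cell s u (x + y) = cell s (u + x * exp s) y := by
  unfold cell
  congr 1
  ring

/-- The conditional entropy of the cell given a function of it. -/
def D (ν : Measure ℝ) (s : ℝ) (G : ℤ → ℤ) (u : ℝ) : ℝ :=
  Hu ν s u - Hc ν (fun x => G (cell s u x))

theorem D_sh (η : Measure ℝ) (s : ℝ) (G : ℤ → ℤ) (u x : ℝ) :
    D (sh η x) s G u = D η s G (u + x * exp s) := by
  unfold D Hu
  rw [Hc_sh η x (measurable_cell s u),
    Hc_sh η x (c := fun y => G (cell s u y))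
      ((measurable_of_countable G).comp (measurable_cell s u))]
  simp only [cell_add]

theorem meas_D (h : Good η) (s : ℝ) (G : ℤ → ℤ) : Measurable (D η s G) :=
  (measurable_Hc_comp h id s).sub (measurable_Hc_comp h G s)

theorem D_jensen (h : Good ν) (h' : Good η) (s : ℝ) (G : ℤ → ℤ) (u : ℝ) :
    ∫ x, D (sh η x) s G u ∂ν ≤ D (ν ∗ η) s G u := by
  obtain ⟨F, hF⟩ := cells (h.conv h') s u
  have hm : MeasurableSet {x | cell s u x ∉ F} :=
    measurable_cell s u (MeasurableSet.of_discrete (s := {j : ℤ | j ∉ F}))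
  have hae : ∀ᵐ x ∂ν, sh η x {y | cell s u y ∉ F} = 0 := by
    have h1 := hF
    rw [conv_apply h' hm, lintegral_eq_zero_iff (meas_sh h' hm)] at h1
    exact h1
  have hk : ∀ j : ℤ, MeasurableSet (cell s u ⁻¹' {j}) := fun j =>
    measurable_cell s u (measurableSet_singleton j)
  choose g g1 g2 g3 using fun k => jensen ν (fib F G k)
    (a := fun x j => (sh η x).real (cell s u ⁻¹' {j})) (fun _ _ => measureReal_nonneg)
    (fun j => int_sh h h' (hk j))
  have h2 : D (ν ∗ η) s G u = ∫ x, ∑ k ∈ img F G, g k x ∂ν := by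
    unfold D Hu
    rw [integral_finsetSum _ (fun k _ => g1 k),
      Hc_sub_Hc_comp (h.conv h') (measurable_cell s u) hF G]
    simp only [g3, conv_real h' (hk _)]
  rw [h2]
  refine integral_mono_of_nonneg
    (Filter.Eventually.of_forall (fun x => D_nonneg (good_sh h' x) s u G))
    (integrable_finsetSum _ (fun k _ => g1 k)) ?_
  have h3 : ∀ᵐ x ∂ν, ∀ k ∈ img F G,
      ent (fib F G k) (fun j => (sh η x).real (cell s u ⁻¹' {j})) ≤ g k x := by
    rw [Filter.eventually_all_finset]
    exact fun k _ => g2 k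
  filter_upwards [hae, h3] with x hx1 hx2
  unfold D Hu
  rw [Hc_sub_Hc_comp (good_sh h' x) (measurable_cell s u) hx1 G]
  exact Finset.sum_le_sum hx2

theorem intInt_D' (h : Good ν) (s : ℝ) (G : ℤ → ℤ) : IntervalIntegrable (D ν s G) volume 0 1 :=
  (intervalIntegrable_Hu h _ 0 1).sub (intervalIntegrable_Hc_comp h G _ 0 1)

theorem key (h : Good ν) (h' : Good η) (s : ℝ) (G : ℤ → ℤ) {C : ℝ}
    (hC : ∀ u, D η s G u ≤ C) :
    Integrable (fun x => ∫ u in (0 : ℝ)..1, D (sh η x) s G u) ν ∧
      ∫ x, (∫ u in (0 : ℝ)..1, D (sh η x) s G u) ∂ν ≤ ∫ u in (0 : ℝ)..1, D (ν ∗ η) s G u := by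
  have := h.fin
  have hi : Integrable (Function.uncurry (fun u x : ℝ => D (sh η x) s G u))
      ((volume.restrict (Ioc (0 : ℝ) 1)).prod ν) := by
    have hm : Measurable (Function.uncurry (fun u x : ℝ => D (sh η x) s G u)) := by
      have h1 : Function.uncurry (fun u x : ℝ => D (sh η x) s G u) =
          D η s G ∘ (fun z : ℝ × ℝ => z.1 + z.2 * exp s) := by
        funext z
        exact D_sh η s G z.1 z.2
      rw [h1]
      exact (meas_D h' s G).comp (by fun_prop)
    refine Integrable.of_bound hm.aestronglyMeasurable C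
      (Filter.Eventually.of_forall (fun z => ?_))
    have h0 : 0 ≤ D (sh η z.2) s G z.1 := D_nonneg (good_sh h' z.2) s z.1 G
    show ‖D (sh η z.2) s G z.1‖ ≤ C
    rw [Real.norm_eq_abs, abs_of_nonneg h0, D_sh]
    exact hC _
  simp only [intervalIntegral.integral_of_le zero_le_one]
  refine ⟨hi.integral_prod_right, ?_⟩
  rw [← integral_integral_swap hi]
  exact integral_mono hi.integral_prod_left (intInt_D' (h.conv h') s G).1
    (fun u => D_jensen h h' s G u)

theorem D_zero (h : Good ν) (s u : ℝ) : D ν s (fun _ => 0) u = Hu ν s u := by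
  unfold D
  rw [Hc_eq_ent h measurable_const (F := {0}) (by simp), ent_of_card_le_one _ (by simp), sub_zero]

theorem Hu_bdd (h : Good η) (s : ℝ) : ∃ C, ∀ u, Hu η s u ≤ C := by
  obtain ⟨R, hR⟩ := h.bdd
  have h1 : η (Icc (-|R|) (-|R| + 2 * |R|))ᶜ = 0 := by
    refine HsBasicAux.null hR (fun x hx => ⟨?_, ?_⟩)
    · linarith [hx.1, le_abs_self R]
    · linarith [hx.2, le_abs_self R]
  exact ⟨_, fun u => Hu_le_diam h (by positivity) h1 s u⟩

theorem split (h : Good ν) {c : ℝ → ℤ} (hc : Measurable c) {F : Finset ℤ}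
    (hF : ν {x | c x ∉ F} = 0) : ∑ i ∈ F, ν.restrict (c ⁻¹' {i}) = ν := by
  have _ := h
  rw [← Measure.sum_coe_finset F (fun i => ν.restrict (c ⁻¹' {i})),
    ← Measure.restrict_biUnion_finset (s := fun i => c ⁻¹' {i}) ?_
      (fun i => hc (measurableSet_singleton i))]
  · refine Measure.restrict_eq_self_of_ae_mem ?_
    rw [ae_iff]
    refine measure_mono_null (fun x hx => ?_) hF
    intro h1
    exact hx (mem_biUnion (show c x ∈ (F : Set ℤ) from h1) rfl)
  · intro i _ j _ hij
    exact Disjoint.preimage c (disjoint_singleton.2 hij)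

theorem conv_supp (h' : Good η) {a b a' b' : ℝ} (h1 : ν (Icc a b)ᶜ = 0)
    (h2 : η (Icc a' b')ᶜ = 0) : (ν ∗ η) (Icc (a + a') (b + b'))ᶜ = 0 := by
  have := h'.fin
  rw [Measure.conv, Measure.map_apply (by fun_prop) measurableSet_Icc.compl]
  refine measure_mono_null (t := (Icc a b)ᶜ ×ˢ univ ∪ univ ×ˢ (Icc a' b')ᶜ)
    (fun z hz => ?_) (measure_union_null ?_ ?_)
  · by_contra h
    simp only [mem_union, mem_prod, mem_compl_iff, mem_univ, and_true, true_and, not_or,
      not_not] at h
    exact hz ⟨by linarith [h.1.1, h.2.1], by linarith [h.1.2, h.2.2]⟩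
  · rw [Measure.prod_prod, h1, zero_mul]
  · rw [Measure.prod_prod, h2, mul_zero]

theorem cell_supp (ν : Measure ℝ) (s : ℝ) (i : ℤ) :
    ν.restrict (cell s 0 ⁻¹' {i}) (Icc (i * exp (-s)) (i * exp (-s) + exp (-s)))ᶜ = 0 := by
  rw [Measure.restrict_apply measurableSet_Icc.compl]
  refine measure_mono_null (t := ∅) (fun x hx => hx.1 ?_) measure_empty
  have h1 : ⌊x * exp s + 0⌋ = i := hx.2
  rw [add_zero, Int.floor_eq_iff] at h1
  have h2 : x = x * exp s * exp (-s) := by
    rw [mul_assoc, ← exp_add, add_neg_cancel, exp_zero, mul_one]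
  have h3 := exp_pos (-s)
  have h4 := mul_le_mul_of_nonneg_right h1.1 h3.le
  have h5 := mul_le_mul_of_nonneg_right h1.2.le h3.le
  constructor <;> linarith

theorem piece_le (h : Good ν) (h' : Good η) (s : ℝ) (i j : ℤ) :
    Hs (ν.restrict (cell s 0 ⁻¹' {i}) ∗ η.restrict (cell s 0 ⁻¹' {j})) s ≤
      ν.real (cell s 0 ⁻¹' {i}) * η.real (cell s 0 ⁻¹' {j}) * (2 * log 2) := by
  have h1 := conv_supp (h'.restrict _) (cell_supp ν s i) (cell_supp η s j)
  have h2 : i * exp (-s) + exp (-s) + (j * exp (-s) + exp (-s)) =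
      i * exp (-s) + j * exp (-s) + 2 * exp (-s) := by ring
  rw [h2] at h1
  have h3 := Hs_le_diam ((h.restrict _).conv (h'.restrict _)) (by positivity) h1 s
  have h4 : 2 * exp (-s) * exp s + 2 = 2 ^ 2 := by
    rw [mul_assoc, ← exp_add, neg_add_cancel, exp_zero]
    norm_num
  rw [h4, log_pow, mss_conv (h.restrict _) (h'.restrict _)] at h3
  simpa [mss] using h3

end

end Vale.Agent.P114.HsConvAux
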