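import Vale.Agent.P114.HsSuper
import Vale.Agent.P114.HsConvAux

/-! # P114: convolutions, information and gain -/

open MeasureTheory Real Set Polynomial
open scoped ENNReal

namespace Vale.Agent.P114

noncomputable section

variable {Ω ι : Type*} {ν ν' η μ : Measure ℝ}

theorem HsConvAux.sum_conv' {I : Finset ι} {m : ι → Measure ℝ} (hm : ∀ i ∈ I, Good (m i))
    (h : Good η) : (∑ i ∈ I, m i) ∗ η = ∑ i ∈ I, m i ∗ η := by
  classical
  have := h.fin
  induction I using Finset.induction_on with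
  | empty => simp
  | insert j I hj ih =>
    have h1 : ∀ i ∈ I, Good (m i) := fun i hi => hm i (Finset.mem_insert_of_mem hi)
    have := (hm j (Finset.mem_insert_self _ _)).fin
    have := (Good.sum h1).fin
    rw [Finset.sum_insert hj, Finset.sum_insert hj, Measure.add_conv, ih h1]

open HsConvAux HsSuperAux

theorem atom_conv (S : Finset Ω) (w t : Ω → ℝ) (h : Good η) :
    atom S w t ∗ η = ∑ ω ∈ S, ENNReal.ofReal (w ω) • η.map (fun x => t ω + x) := by
  have := h.fin
  unfold atom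
  rw [sum_conv' (fun ω _ => (Good.dirac _).smul _) h]
  refine Finset.sum_congr rfl (fun ω _ => ?_)
  rw [Measure.conv_smul_left, Measure.dirac_conv]

theorem atom_conv_scl (S : Finset Ω) (w t : Ω → ℝ) (h : Good μ) (ρ : ℝ) :
    atom S w t ∗ scl ρ μ = ∑ ω ∈ S, ENNReal.ofReal (w ω) • μ.map (fun x => ρ * x + t ω) := by
  rw [atom_conv S w t (h.scl ρ)]
  refine Finset.sum_congr rfl (fun ω _ => ?_)
  unfold scl
  rw [Measure.map_map (by fun_prop) (by fun_prop)]
  congr 2
  funext x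
  simp [add_comm]

theorem sum_conv {I : Finset ι} {m : ι → Measure ℝ} (hm : ∀ i ∈ I, Good (m i)) (h : Good η) :
    (∑ i ∈ I, m i) ∗ η = ∑ i ∈ I, m i ∗ η := by
  exact sum_conv' hm h

theorem conv_sum {I : Finset ι} {m : ι → Measure ℝ} (hm : ∀ i ∈ I, Good (m i)) (h : Good ν) :
    ν ∗ (∑ i ∈ I, m i) = ∑ i ∈ I, ν ∗ m i := by
  have := h.fin
  have := (Good.sum hm).fin
  rw [Measure.conv_comm, sum_conv hm h]
  refine Finset.sum_congr rfl (fun i hi => ?_)
  have := (hm i hi).fin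
  exact Measure.conv_comm _ _

theorem conv_smul_ofReal (h : Good ν) (h' : Good η) (c : ℝ) :
    ν ∗ (ENNReal.ofReal c • η) = ENNReal.ofReal c • (ν ∗ η) := by
  have _ := h
  have := h'.fin
  exact Measure.conv_smul_right _ _ _

theorem conv_map_add (h : Good ν) (h' : Good η) (b : ℝ) :
    ν ∗ (η.map (fun x => b + x)) = (ν ∗ η).map (fun x => b + x) := by
  have := h.fin
  have := h'.fin
  rw [← Measure.dirac_conv, ← Measure.dirac_conv, ← Measure.conv_assoc, ← Measure.conv_assoc,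
    Measure.conv_comm ν]

/-- Convolution does not decrease the entropy (integral Jensen inequality). -/
theorem Hs_conv_ge (h : Good ν) (h' : Good η) (s : ℝ) : mss ν * Hs η s ≤ Hs (ν ∗ η) s := by
  have := h.fin
  obtain ⟨C, hC⟩ := Hu_bdd h' s
  have h1 := (key h h' s (fun _ => 0) (C := C) (fun u => by rw [D_zero h']; exact hC u)).2
  have h2 : ∀ x, ∫ u in (0 : ℝ)..1, D (sh η x) s (fun _ => 0) u = Hs η s := by
    intro x
    simp only [D_zero (good_sh h' x)]
    exact Hs_map_add h' x s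
  simp only [h2, D_zero (h.conv h'), integral_const, smul_eq_mul] at h1
  exact h1

theorem Hk_conv_ge (h : Good ν) (h' : Good η) (s : ℝ) (K : ℕ) :
    mss ν * Hk η s K ≤ Hk (ν ∗ η) s K := by
  have := h.fin
  have hM : 0 < 2 ^ K := by positivity
  have hk := fun a : ℕ => key h h' (s + K * log 2) (fun j => (j + a) / ((2 ^ K : ℕ) : ℤ))
    (fun u => D_le h' _ u a hM)
  have h2 : ∀ x, Hk η s K = (∑ a ∈ Finset.range (2 ^ K), ∫ u in (0 : ℝ)..1,
      D (sh η x) (s + K * log 2) (fun j => (j + a) / ((2 ^ K : ℕ) : ℤ)) u) / (2 ^ K : ℕ) := by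
    intro x
    have h3 : Hk (sh η x) s K = Hk η s K := by
      unfold Hk sh
      rw [Hs_map_add h', Hs_map_add h']
    rw [← h3, Hk_eq_avg (good_sh h' x)]
    rfl
  have h4 : mss ν * Hk η s K = ∫ _x, Hk η s K ∂ν := by
    rw [integral_const, smul_eq_mul]
    rfl
  rw [h4, integral_congr_ae (Filter.Eventually.of_forall h2), integral_div,
    integral_finsetSum _ (fun a _ => (hk a).1), Hk_eq_avg (h.conv h')]
  exact div_le_div_of_nonneg_right (Finset.sum_le_sum (fun a _ => (hk a).2)) (Nat.cast_nonneg _)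

theorem Hs_conv_ge' (h : Good ν) (h' : Good η) (s : ℝ) : mss η * Hs ν s ≤ Hs (ν ∗ η) s := by
  have := h.fin
  have := h'.fin
  rw [Measure.conv_comm]
  exact Hs_conv_ge h' h s

theorem Hk_conv_ge' (h : Good ν) (h' : Good η) (s : ℝ) (K : ℕ) :
    mss η * Hk ν s K ≤ Hk (ν ∗ η) s K := by
  have := h.fin
  have := h'.fin
  rw [Measure.conv_comm]
  exact Hk_conv_ge h' h s K

/-- Entropy of a sum of independent variables. -/
theorem Hs_conv_le (h : Good ν) (h' : Good η) [IsProbabilityMeasure η] (s : ℝ) :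
    Hs (ν ∗ η) s ≤ Hs ν s + mss ν * (Hs η s + 4) := by
  obtain ⟨F, hF⟩ := cells h s 0
  obtain ⟨F', hF'⟩ := cells h' s 0
  have hc := measurable_cell s 0
  have e1 : ν ∗ η = ∑ z ∈ F ×ˢ F',
      ν.restrict (cell s 0 ⁻¹' {z.1}) ∗ η.restrict (cell s 0 ⁻¹' {z.2}) := by
    rw [Finset.sum_product]
    conv_lhs => rw [← split h hc hF, sum_conv (fun i _ => h.restrict _) h']
    refine Finset.sum_congr rfl (fun i _ => ?_)
    conv_lhs => rw [← split h' hc hF', conv_sum (fun i _ => h'.restrict _) (h.restrict _)]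
  have e2 := Hs_sum_le (I := F ×ˢ F')
    (m := fun z => ν.restrict (cell s 0 ⁻¹' {z.1}) ∗ η.restrict (cell s 0 ⁻¹' {z.2}))
    (fun z _ => (h.restrict _).conv (h'.restrict _)) s
  have e3 : ∀ z : ℤ × ℤ, mss (ν.restrict (cell s 0 ⁻¹' {z.1}) ∗ η.restrict (cell s 0 ⁻¹' {z.2})) =
      ν.real (cell s 0 ⁻¹' {z.1}) * η.real (cell s 0 ⁻¹' {z.2}) := by
    intro z
    rw [mss_conv (h.restrict _) (h'.restrict _)]
    simp [mss]
  simp only [e3] at e2
  rw [← e1, ent_prod_mul F F' (fun i => ν.real (cell s 0 ⁻¹' {i}))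
    (fun i => η.real (cell s 0 ⁻¹' {i})), sum_real_preimage h hc hF, sum_real_preimage h' hc hF',
    ← Hc_eq_ent h hc hF, ← Hc_eq_ent h' hc hF', mss_prob η] at e2
  have e4 := Finset.sum_le_sum (fun z (_ : z ∈ F ×ˢ F') => piece_le h h' s z.1 z.2)
  rw [← Finset.sum_mul, ← Finset.sum_mul_sum F F' (fun i => ν.real (cell s 0 ⁻¹' {i}))
    (fun i => η.real (cell s 0 ⁻¹' {i})) |>.trans (Finset.sum_product' _ _ _).symm,
    sum_real_preimage h hc hF, sum_real_preimage h' hc hF', mss_prob η] at e4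
  have e5 := Hu_le_Hs h s 0
  have e6 := Hu_le_Hs h' s 0
  rw [mss_prob η] at e6
  have e7 := mul_le_mul_of_nonneg_left e6 (mss_nonneg ν)
  have e8 : log 2 ≤ 1 := by linarith [log_two_lt_d9]
  have e9 := mul_le_mul_of_nonneg_left e8 (mss_nonneg ν)
  unfold Hu at e5 e7
  linarith

theorem gain_eq (ν η : Measure ℝ) (s : ℝ) (K : ℕ) :
    gain ν η s K = info ν η (s + K * log 2) - info ν η s := by
  unfold gain info Hk
  ring

theorem gain_add_scale (ν η : Measure ℝ) (s : ℝ) (K K' : ℕ) :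
    gain ν η s (K + K') = gain ν η s K + gain ν η (s + K * log 2) K' := by
  have : s + ((K + K' : ℕ) : ℝ) * log 2 = s + K * log 2 + K' * log 2 := by
    push_cast
    ring
  rw [gain_eq, gain_eq, gain_eq, this]
  ring

theorem sup_info (h : Good η) (s : ℝ) : Sup (fun ν => info ν η s) := by
  have := h.fin
  refine ⟨fun ν hν => sub_nonneg.2 (Hs_conv_ge hν h s), fun ν₁ ν₂ h1 h2 => ?_,
    fun c ν hc hν => ?_⟩
  · have := h1.fin
    have := h2.fin
    have h3 := Hs_add_ge (h1.conv h) (h2.conv h) s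
    unfold info
    rw [Measure.add_conv, mss_add h1 h2]
    linarith
  · unfold info
    rw [Measure.conv_smul_left, Hs_smul (hν.conv h) hc, mss_smul ν hc]
    ring

theorem sup_gain (h : Good η) (s : ℝ) (K : ℕ) : Sup (fun ν => gain ν η s K) := by
  have := h.fin
  refine ⟨fun ν hν => sub_nonneg.2 (Hk_conv_ge hν h s K), fun ν₁ ν₂ h1 h2 => ?_,
    fun c ν hc hν => ?_⟩
  · have := h1.fin
    have := h2.fin
    have h3 := Hk_add_ge (h1.conv h) (h2.conv h) s K
    unfold gain
    rw [Measure.add_conv, mss_add h1 h2]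
    linarith
  · unfold gain
    rw [Measure.conv_smul_left, Hk_smul (hν.conv h) hc, mss_smul ν hc]
    ring

end

end Vale.Agent.P114
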