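import Vale.Agent.P114.HsBasic

/-! # P114: comparison of grids, affine invariance, nested grids, atoms -/

open MeasureTheory Real Set Polynomial
open scoped ENNReal

namespace Vale.Agent.P114

noncomputable section

variable {Ω ι : Type*} {ν ν' η μ : Measure ℝ}

theorem HsGridAux.sum_inter (h : Good ν) {c : ℝ → ℤ} (hc : Measurable c) {F : Finset ℤ}
    (hF : ν {x | c x ∉ F} = 0) (A : Set ℝ) : ∑ k ∈ F, ν.real (c ⁻¹' {k} ∩ A) = ν.real A := by
  have h1 := sum_real_preimage (h.restrict A) hc (F := F)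
    (le_zero_iff.1 ((Measure.restrict_apply_le _ _).trans hF.le))
  simp only [mss, measureReal_restrict_apply (hc (measurableSet_singleton _)),
    measureReal_restrict_apply MeasurableSet.univ, univ_inter] at h1
  exact h1

theorem HsGridAux.Hc_le (h : Good ν) {c c' : ℝ → ℤ} (hc : Measurable c) (hc' : Measurable c')
    {F F' : Finset ℤ} (hF : ν {x | c x ∉ F} = 0) (hF' : ν {x | c' x ∉ F'} = 0) (T : ℤ → Finset ℤ)
    (hT : ∀ x, c x ∈ T (c' x)) {B : ℝ} (hB : ∀ k, log (T k).card ≤ B) :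
    Hc ν c ≤ Hc ν c' + mss ν * B := by
  have h1 := ent_prod_left F F' fun k k' => ν.real (c ⁻¹' {k} ∩ c' ⁻¹' {k'})
  have h2 := ent_prod_right F F' fun k k' => ν.real (c ⁻¹' {k} ∩ c' ⁻¹' {k'})
  simp only [HsGridAux.sum_inter h hc hF] at h2
  simp only [inter_comm (c ⁻¹' _), HsGridAux.sum_inter h hc' hF'] at h1
  simp only [inter_comm (c' ⁻¹' _)] at h1
  have h3 : 0 ≤ ∑ k ∈ F, ent F' fun k' => ν.real (c ⁻¹' {k} ∩ c' ⁻¹' {k'}) :=
    Finset.sum_nonneg fun _ _ => ent_nonneg fun _ _ => measureReal_nonneg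
  have h4 : ∑ k' ∈ F', (ent F fun k => ν.real (c ⁻¹' {k} ∩ c' ⁻¹' {k'})) ≤ mss ν * B := by
    rw [← sum_real_preimage h hc' hF', Finset.sum_mul]
    refine Finset.sum_le_sum fun k' _ => ?_
    have hr := h.restrict (c' ⁻¹' {k'})
    have h5 := Hc_eq_ent hr hc (F := F)
      (le_zero_iff.1 ((Measure.restrict_apply_le _ _).trans hF.le))
    have h6 := (HsBasicAux.Hc_le_card hr hc (F := T k') (by
      rw [Measure.restrict_apply' (hc' (measurableSet_singleton _))]
      refine measure_mono_null (fun x hx => ?_) measure_empty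
      have h7 : c' x = k' := hx.2
      exact hx.1 (h7 ▸ hT x))).2
    simp only [measureReal_restrict_apply (hc (measurableSet_singleton _))] at h5
    rw [h5, mss, measureReal_restrict_apply MeasurableSet.univ, univ_inter] at h6
    exact h6.trans (mul_le_mul_of_nonneg_left (hB k') measureReal_nonneg)
  rw [Hc_eq_ent h hc hF, Hc_eq_ent h hc' hF']
  linarith

theorem HsGridAux.Hu_le (h : Good ν) (s s' u u' : ℝ) {B : ℝ}
    (hB : ∀ y : ℝ, log ((⌊y + exp (s - s')⌋ : ℝ) + 1 - ⌊y⌋) ≤ B) :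
    Hu ν s u ≤ Hu ν s' u' + mss ν * B := by
  obtain ⟨F, hF⟩ := h.exists_cells s |u|
  obtain ⟨F', hF'⟩ := h.exists_cells s' |u'|
  have h0 := exp_pos (s - s')
  refine HsGridAux.Hc_le h (measurable_cell s u) (measurable_cell s' u') (hF s u le_rfl le_rfl)
    (hF' s' u' le_rfl le_rfl) (fun k => Finset.Icc ⌊(k - u') * exp (s - s') + u⌋
      ⌊(k - u') * exp (s - s') + u + exp (s - s')⌋) (fun x => ?_) fun k => ?_
  · have h1 : x * exp s = x * exp s' * exp (s - s') := by
      rw [mul_assoc, ← exp_add, add_sub_cancel]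
    have h2 := mul_le_mul_of_nonneg_right (Int.floor_le (x * exp s' + u')) h0.le
    have h3 := mul_le_mul_of_nonneg_right (Int.lt_floor_add_one (x * exp s' + u')).le h0.le
    unfold cell
    exact Finset.mem_Icc.2 ⟨Int.floor_mono (by linarith), Int.floor_mono (by linarith)⟩
  · refine le_trans (le_of_eq (congrArg log ?_)) (hB ((k - u') * exp (s - s') + u))
    have h1 : ⌊(k - u') * exp (s - s') + u⌋ ≤ ⌊(k - u') * exp (s - s') + u + exp (s - s')⌋ :=
      Int.floor_mono (by linarith)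
    exact_mod_cast Int.card_Icc_of_le _ _ (by omega)

/-- A coarser grid has at most `log 2` more entropy. -/
theorem Hu_mono (h : Good ν) {s s' : ℝ} (hs : s ≤ s') (u u' : ℝ) :
    Hu ν s u ≤ Hu ν s' u' + mss ν * log 2 := by
  refine HsGridAux.Hu_le h s s' u u' fun y => ?_
  have h0 := exp_pos (s - s')
  have h1 : ⌊y⌋ ≤ ⌊y + exp (s - s')⌋ := Int.floor_mono (by linarith)
  have h2 : ⌊y + exp (s - s')⌋ ≤ ⌊y⌋ + 1 := by
    rw [← Int.floor_add_one]
    exact Int.floor_mono (by linarith [exp_le_one_iff.2 (sub_nonpos.2 hs)])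
  have h3 : (⌊y⌋ : ℝ) ≤ ⌊y + exp (s - s')⌋ := by exact_mod_cast h1
  have h4 : (⌊y + exp (s - s')⌋ : ℝ) ≤ ⌊y⌋ + 1 := by exact_mod_cast h2
  exact log_le_log (by linarith) (by linarith)

/-- A finer grid has at most `s' - s + 2` more entropy. -/
theorem Hu_lip (h : Good ν) {s s' : ℝ} (hs : s ≤ s') (u u' : ℝ) :
    Hu ν s' u' ≤ Hu ν s u + mss ν * (s' - s + 2) := by
  refine HsGridAux.Hu_le h s' s u' u fun y => ?_
  have h0 := one_le_exp (sub_nonneg.2 hs)
  have h1 : ⌊y⌋ ≤ ⌊y + exp (s' - s)⌋ := Int.floor_mono (by linarith)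
  have h3 : (⌊y⌋ : ℝ) ≤ ⌊y + exp (s' - s)⌋ := by exact_mod_cast h1
  rw [log_le_iff_le_exp (by linarith), exp_add]
  have h4 := mul_le_mul_of_nonneg_left (add_one_le_exp 2) (exp_pos (s' - s)).le
  linarith [Int.floor_le (y + exp (s' - s)), Int.lt_floor_add_one y]

theorem HsGridAux.int_mono {f g : ℝ → ℝ} {C : ℝ} (hf : IntervalIntegrable f volume 0 1)
    (hg : IntervalIntegrable g volume 0 1) (h : ∀ u, f u ≤ g u + C) :
    ∫ u in (0 : ℝ)..1, f u ≤ (∫ u in (0 : ℝ)..1, g u) + C := by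
  refine (intervalIntegral.integral_mono_on zero_le_one hf (hg.add intervalIntegrable_const)
    fun u _ => h u).trans (le_of_eq ?_)
  rw [intervalIntegral.integral_add hg intervalIntegrable_const]
  simp

theorem Hu_le_Hs (h : Good ν) (s u : ℝ) : Hu ν s u ≤ Hs ν s + mss ν * log 2 := by
  simpa [Hs] using HsGridAux.int_mono intervalIntegrable_const (intervalIntegrable_Hu h s 0 1)
    fun u' => Hu_mono h le_rfl u u'

theorem Hs_le_Hu (h : Good ν) (s u : ℝ) : Hs ν s ≤ Hu ν s u + mss ν * log 2 := by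
  simpa [Hs] using HsGridAux.int_mono (intervalIntegrable_Hu h s 0 1) intervalIntegrable_const
    fun u' => Hu_mono h le_rfl u' u

theorem Hs_mono (h : Good ν) {s s' : ℝ} (hs : s ≤ s') : Hs ν s ≤ Hs ν s' + mss ν * log 2 := by
  exact HsGridAux.int_mono (intervalIntegrable_Hu h s 0 1) (intervalIntegrable_Hu h s' 0 1)
    fun u => Hu_mono h hs u u

theorem Hs_lip (h : Good ν) {s s' : ℝ} (hs : s ≤ s') :
    Hs ν s' ≤ Hs ν s + mss ν * (s' - s + 2) := by
  exact HsGridAux.int_mono (intervalIntegrable_Hu h s' 0 1) (intervalIntegrable_Hu h s 0 1)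
    fun u => Hu_lip h hs u u

theorem HsGridAux.Hc_equiv (ν : Measure ℝ) (c : ℝ → ℤ) (e : ℤ ≃ ℤ) :
    Hc ν (fun x => e (c x)) = Hc ν c := by
  unfold Hc
  rw [← e.tsum_eq]
  congr 2
  funext k
  congr 2
  ext x
  simp

theorem HsGridAux.Hc_congr {c c' : ℝ → ℤ} (h : c =ᵐ[ν] c') : Hc ν c = Hc ν c' := by
  unfold Hc
  congr 2
  funext k
  rw [measureReal_congr (h.preimage {k})]

theorem HsGridAux.Hc_map (ν : Measure ℝ) {f : ℝ → ℝ} (hf : Measurable f) {c : ℝ → ℤ}
    (hc : Measurable c) : Hc (ν.map f) c = Hc ν (fun x => c (f x)) := by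
  simp only [Hc, mss, map_measureReal_apply hf (hc (measurableSet_singleton _)),
    map_measureReal_apply hf MeasurableSet.univ, preimage_univ]
  rfl

theorem Hu_add_int (ν : Measure ℝ) (s u : ℝ) (k : ℤ) : Hu ν s (u + k) = Hu ν s u := by
  rw [Hu, Hu, ← HsGridAux.Hc_equiv ν (cell s u) (Equiv.addRight k)]
  congr 1
  funext x
  simp [cell, ← add_assoc]

theorem integral_Hu_shift (h : Good ν) (s v : ℝ) : ∫ u in (0 : ℝ)..1, Hu ν s (u + v) = Hs ν s := by
  have _ := h
  have h1 : Function.Periodic (Hu ν s) 1 := fun u => by simpa using Hu_add_int ν s u 1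
  rw [intervalIntegral.integral_comp_add_right (Hu ν s) v, zero_add, add_comm,
    h1.intervalIntegral_add_eq v 0, zero_add, Hs]

theorem HsGridAux.refl (h : Good ν) (s w : ℝ) :
    ∫ u in (0 : ℝ)..1, Hc ν (fun x => ⌊-(x * exp s) + (u + w)⌋) = Hs ν s := by
  have := h.fin
  have h1 := Measure.countable_meas_level_set_pos (μ := ν)
    (g := fun x => Int.fract (x * exp s - w)) (by fun_prop)
  have h2 : ∫ u in (0 : ℝ)..1, Hc ν (fun x => ⌊-(x * exp s) + (u + w)⌋) =
      ∫ u in (0 : ℝ)..1, Hu ν s (1 - u + (-1 - w)) := by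
    refine intervalIntegral.integral_congr_ae ?_
    filter_upwards [h1.ae_notMem volume, (countable_singleton (1 : ℝ)).ae_notMem volume]
      with u hu hu1 hu2
    rw [uIoc_of_le zero_le_one] at hu2
    rw [Hu, ← HsGridAux.Hc_equiv ν (cell s _) ((Equiv.addRight 1).trans (Equiv.neg ℤ))]
    refine HsGridAux.Hc_congr ?_
    filter_upwards [measure_eq_zero_iff_ae_notMem.1 (le_zero_iff.1 (not_lt.1 hu))] with x hx
    have h3 : x * exp s + (1 - u + (-1 - w)) ∉ range (Int.cast : ℤ → ℝ) := fun ⟨z, hz⟩ =>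
      hx (Int.fract_eq_iff.2 ⟨hu2.1.le, lt_of_le_of_ne hu2.2 hu1, z, by linarith⟩)
    rw [show -(x * exp s) + (u + w) = -(x * exp s + (1 - u + (-1 - w))) by ring, Int.floor_neg,
      (Int.ceil_eq_floor_add_one_iff_notMem _).2 h3]
    rfl
  rw [h2, intervalIntegral.integral_comp_sub_left (fun u => Hu ν s (u + (-1 - w))) 1, sub_self,
    sub_zero, integral_Hu_shift h]

/-- Affine invariance (reflections included). -/
theorem Hs_map_affine (h : Good ν) {a : ℝ} (ha : a ≠ 0) (b s : ℝ) :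
    Hs (ν.map (fun x => a * x + b)) s = Hs ν (s + log |a|) := by
  have h1 : ∀ u, Hu (ν.map (fun x => a * x + b)) s u =
      Hc ν fun x => ⌊a * x * exp s + (u + b * exp s)⌋ := fun u => by
    rw [Hu, HsGridAux.Hc_map ν (by fun_prop) (measurable_cell s u)]
    congr 1
    funext x
    rw [cell]
    congr 1
    ring
  have h2 : exp (s + log |a|) = exp s * |a| := by rw [exp_add, exp_log (abs_pos.2 ha)]
  rw [Hs]
  simp only [h1]
  rcases ha.lt_or_gt with h3 | h3
  · rw [← HsGridAux.refl h _ (b * exp s), h2, abs_of_neg h3]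
    congr 1
    funext u
    congr 1
    funext x
    congr 1
    ring
  · rw [← integral_Hu_shift h _ (b * exp s)]
    congr 1
    funext u
    rw [Hu]
    congr 1
    funext x
    rw [cell, h2, abs_of_pos h3]
    congr 1
    ring

theorem Hs_scl (h : Good ν) {a : ℝ} (ha : a ≠ 0) (s : ℝ) : Hs (scl a ν) s = Hs ν (s + log |a|) := by
  simpa [scl] using Hs_map_affine h ha 0 s

theorem Hs_map_add (h : Good ν) (b s : ℝ) : Hs (ν.map (fun x => b + x)) s = Hs ν s := by
  simpa [add_comm] using Hs_map_affine h one_ne_zero b s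

theorem Hk_map_affine (h : Good ν) {a : ℝ} (ha : a ≠ 0) (b s : ℝ) (K : ℕ) :
    Hk (ν.map (fun x => a * x + b)) s K = Hk ν (s + log |a|) K := by
  rw [Hk, Hk, Hs_map_affine h ha, Hs_map_affine h ha, add_right_comm]

theorem Hk_scl (h : Good ν) {a : ℝ} (ha : a ≠ 0) (s : ℝ) (K : ℕ) :
    Hk (scl a ν) s K = Hk ν (s + log |a|) K := by
  rw [Hk, Hk, Hs_scl h ha, Hs_scl h ha, add_right_comm]

/-- Unions of `M` consecutive fine cells with a uniform alignment form the coarse grid. -/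
theorem Hs_nested (h : Good ν) (s : ℝ) {M : ℕ} (hM : 0 < M) :
    Hs ν s = (∑ a ∈ Finset.range M, ∫ u in (0 : ℝ)..1,
      Hc ν (fun x => (cell (s + log M) u x + a) / (M : ℤ))) / M := by
  have hM' : (0 : ℝ) < M := Nat.cast_pos.2 hM
  have h1 : ∀ a : ℕ, ∫ u in (0 : ℝ)..1, Hc ν (fun x => (cell (s + log M) u x + a) / (M : ℤ)) =
      M * ∫ u in (a / M : ℝ)..((a + 1 : ℕ) / M : ℝ), Hu ν s u := fun a => by
    have h2 := intervalIntegral.integral_comp_div_add (a := 0) (b := 1) (Hu ν s) hM'.ne' (a / M)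
    rw [zero_div, zero_add, ← add_div, add_comm (1 : ℝ), smul_eq_mul] at h2
    rw [Nat.cast_succ, ← h2]
    congr 1
    funext u
    rw [Hu]
    congr 1
    funext x
    rw [cell, cell, ← Int.floor_add_natCast, ← Int.floor_div_natCast, exp_add, exp_log hM']
    congr 1
    field_simp
    ring
  simp only [h1, ← Finset.mul_sum]
  rw [intervalIntegral.sum_integral_adjacent_intervals (a := fun k : ℕ => (k / M : ℝ))
    fun k _ => intervalIntegrable_Hu h s _ _, mul_div_cancel_left₀ _ hM'.ne', div_self hM'.ne',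
    Nat.cast_zero, zero_div, Hs]

theorem Hk_eq_sum (ν : Measure ℝ) (s : ℝ) (K : ℕ) :
    Hk ν s K = ∑ i ∈ Finset.range K, Hk ν (s + i * log 2) 1 := by
  have h := Finset.sum_range_sub (fun i : ℕ => Hs ν (s + i * log 2)) K
  simp only [Nat.cast_zero, zero_mul, add_zero] at h
  rw [Hk, ← h]
  refine Finset.sum_congr rfl fun i _ => ?_
  rw [Hk, Nat.cast_succ, add_mul, add_assoc, Nat.cast_one]

theorem Hs_atom_le {S : Finset Ω} {w : Ω → ℝ} (hw : ∀ ω ∈ S, 0 ≤ w ω) (t : Ω → ℝ) (s : ℝ) :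
    Hs (atom S w t) s ≤ entW S w t := by
  have h := HsGridAux.int_mono (C := 0) (intervalIntegrable_Hu (Good.atom S w t) s 0 1)
    (intervalIntegrable_const (c := entW S w t)) fun u => by
      rw [Hu_atom hw, add_zero]
      exact entW_mono hw fun ω _ ω' _ h => congrArg _ h
  simpa [Hs] using h

theorem Hs_atom_sep {S : Finset Ω} {w : Ω → ℝ} (hw : ∀ ω ∈ S, 0 ≤ w ω) (t : Ω → ℝ) (s : ℝ)
    (hsep : ∀ ω ∈ S, ∀ ω' ∈ S, t ω ≠ t ω' → exp (-s) ≤ |t ω - t ω'|) :
    Hs (atom S w t) s = entW S w t := by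
  have h : ∀ u, Hu (atom S w t) s u = entW S w t := fun u => by
    rw [Hu_atom hw]
    refine entW_congr w fun ω hω ω' hω' => ⟨fun h => by_contra fun h' => ?_, congrArg _⟩
    have h1 := Int.abs_sub_lt_one_of_floor_eq_floor h
    have h2 := mul_le_mul_of_nonneg_right (hsep ω hω ω' hω' h') (exp_pos s).le
    rw [add_sub_add_right_eq_sub, ← sub_mul, abs_mul, abs_of_pos (exp_pos s)] at h1
    rw [← exp_add, neg_add_cancel, exp_zero] at h2
    linarith
  simp [Hs, h]

end

end Vale.Agent.P114
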