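import Vale.Agent.P114.HsConv

/-! # P114: the information at one offset of the grid -/

open MeasureTheory Real Set
open scoped ENNReal

namespace Vale.Agent.P114.HsInfoAux

noncomputable section

variable {Ω τ : Type*} {η : Measure ℝ}

theorem good_map_add (h : Good η) (b : ℝ) : Good (η.map (fun x => b + x)) := by
  have h1 : (fun x : ℝ => b + x) = fun x => 1 * x + b := by
    funext x
    ring
  rw [h1]
  exact h.map_affine 1 b

theorem mss_map_add (η : Measure ℝ) (b : ℝ) : mss (η.map (fun x => b + x)) = mss η := by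
  have h1 : (fun x : ℝ => b + x) = fun x => 1 * x + b := by
    funext x
    ring
  rw [h1]
  exact mss_map_affine η 1 b

theorem measurable_cell_add (s u b : ℝ) : Measurable (fun y => cell s u (b + y)) :=
  (measurable_cell s u).comp (measurable_const_add b)

theorem measurableSet_notMem {c : ℝ → ℤ} (hc : Measurable c) (F : Finset ℤ) :
    MeasurableSet {x | c x ∉ F} :=
  hc (MeasurableSet.of_discrete (s := {k : ℤ | k ∉ F}))

theorem map_add_notMem (η : Measure ℝ) (s u b : ℝ) (F : Finset ℤ) :
    (η.map (fun x => b + x)) {x | cell s u x ∉ F} = η {y | cell s u (b + y) ∉ F} := by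
  rw [Measure.map_apply (measurable_const_add b) (measurableSet_notMem (measurable_cell s u) F)]
  rfl

theorem map_add_real (η : Measure ℝ) (s u b : ℝ) (k : ℤ) :
    (η.map (fun x => b + x)).real (cell s u ⁻¹' {k}) =
      η.real ((fun y => cell s u (b + y)) ⁻¹' {k}) := by
  rw [measureReal_def, measureReal_def, Measure.map_apply (measurable_const_add b)
    (measurable_cell s u (MeasurableSet.singleton k))]
  rfl

/-- One finite set of cells for a finite family of translates. -/
theorem exists_cells_fam (h : Good η) (T : Finset τ) (b : τ → ℝ) (s u : ℝ) :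
    ∃ F : Finset ℤ, ∀ t ∈ T, η {y | cell s u (b t + y) ∉ F} = 0 := by
  classical
  have h1 : ∀ t, ∃ F : Finset ℤ, η {y | cell s u (b t + y) ∉ F} = 0 := by
    intro t
    obtain ⟨F, hF⟩ := (good_map_add h (b t)).exists_cells s |u|
    exact ⟨F, by rw [← map_add_notMem]; exact hF s u le_rfl le_rfl⟩
  choose F hF using h1
  refine ⟨T.biUnion F, fun t ht => measure_mono_null (fun y hy => ?_) (hF t)⟩
  exact fun hy' => hy (Finset.mem_biUnion.2 ⟨t, ht, hy'⟩)

/-- The information seen by the grid with offset `u`. -/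
def dInfo (S : Finset Ω) (n x : Ω → ℝ) (η : Measure ℝ) (s u : ℝ) : ℝ :=
  Hu (atom S n x ∗ η) s u - ∑ j ∈ S, n j * Hu (η.map (fun y => x j + y)) s u

theorem intervalIntegrable_dInfo (h : Good η) (S : Finset Ω) (n x : Ω → ℝ) (s v : ℝ) :
    IntervalIntegrable (fun u => dInfo S n x η s (u + v)) volume 0 1 := by
  have h1 : ∀ {ν : Measure ℝ}, Good ν →
      IntervalIntegrable (fun u => Hu ν s (u + v)) volume 0 1 := by
    intro ν hν
    have h2 := (intervalIntegrable_Hu hν s v (1 + v)).comp_add_right v
    simpa using h2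
  unfold dInfo
  refine (h1 ((Good.atom S n x).conv h)).sub ?_
  have h3 := IntervalIntegrable.sum S
    (f := fun j u => n j * Hu (η.map (fun y => x j + y)) s (u + v)) (μ := volume) (a := 0) (b := 1)
    fun j _ => (h1 (good_map_add h (x j))).const_mul (n j)
  refine h3.congr ?_
  intro u _
  simp only [Finset.sum_apply]

theorem integral_dInfo (h : Good η) {S : Finset Ω} {n : Ω → ℝ} (hn : ∀ j ∈ S, 0 ≤ n j)
    (x : Ω → ℝ) (s v : ℝ) :
    ∫ u in (0 : ℝ)..1, dInfo S n x η s (u + v) = info (atom S n x) η s := by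
  have h1 : ∀ {ν : Measure ℝ}, Good ν →
      IntervalIntegrable (fun u => Hu ν s (u + v)) volume 0 1 := by
    intro ν hν
    have h2 := (intervalIntegrable_Hu hν s v (1 + v)).comp_add_right v
    simpa using h2
  have h3 : IntervalIntegrable
      (fun u => ∑ j ∈ S, n j * Hu (η.map (fun y => x j + y)) s (u + v)) volume 0 1 := by
    have h4 := IntervalIntegrable.sum S
      (f := fun j u => n j * Hu (η.map (fun y => x j + y)) s (u + v)) (μ := volume) (a := 0)
      (b := 1) fun j _ => (h1 (good_map_add h (x j))).const_mul (n j)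
    refine h4.congr ?_
    intro u _
    simp only [Finset.sum_apply]
  unfold dInfo info
  rw [intervalIntegral.integral_sub (h1 ((Good.atom S n x).conv h)) h3,
    intervalIntegral.integral_finsetSum
      (fun j _ => (h1 (good_map_add h (x j))).const_mul (n j)),
    integral_Hu_shift ((Good.atom S n x).conv h), mss_atom hn, Finset.sum_mul]
  congr 1
  refine Finset.sum_congr rfl fun j _ => ?_
  rw [intervalIntegral.integral_const_mul, integral_Hu_shift (good_map_add h (x j)),
    Hs_map_add h]

/-- The chain rule form of the information at one offset. -/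
theorem dInfo_eq (h : Good η) (h1 : mss η = 1) {S : Finset Ω} {n : Ω → ℝ}
    (hn : ∀ j ∈ S, 0 ≤ n j) (x : Ω → ℝ) (s u : ℝ) {F : Finset ℤ}
    (hF : ∀ j ∈ S, η {y | cell s u (x j + y) ∉ F} = 0) :
    dInfo S n x η s u = ent S n -
      ∑ k ∈ F, ent S (fun j => n j * η.real ((fun y => cell s u (x j + y)) ⁻¹' {k})) := by
  have hF' : ∀ j ∈ S, (η.map (fun y => x j + y)) {z | cell s u z ∉ F} = 0 := fun j hj => by
    rw [map_add_notMem]
    exact hF j hj
  have h2 := Hc_sum_chain (I := S)
    (m := fun j => ENNReal.ofReal (n j) • η.map (fun y => x j + y))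
    (fun j _ => (good_map_add h (x j)).smul (n j)) (measurable_cell s u) (F := F)
    (fun j hj => by rw [Measure.smul_apply, hF' j hj, smul_zero])
  have h3 : ent S (fun j => mss (ENNReal.ofReal (n j) • η.map (fun y => x j + y))) = ent S n :=
    ent_congr fun j hj => by rw [mss_smul _ (hn j hj), mss_map_add, h1, mul_one]
  have h4 : ∑ j ∈ S, Hc (ENNReal.ofReal (n j) • η.map (fun y => x j + y)) (cell s u) =
      ∑ j ∈ S, n j * Hu (η.map (fun y => x j + y)) s u :=
    Finset.sum_congr rfl fun j hj =>
      Hc_smul (good_map_add h (x j)) (measurable_cell s u) (hF' j hj) (hn j hj)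
  have h5 : ∑ k ∈ F, ent S (fun j =>
        (ENNReal.ofReal (n j) • η.map (fun y => x j + y)).real (cell s u ⁻¹' {k})) =
      ∑ k ∈ F, ent S (fun j => n j * η.real ((fun y => cell s u (x j + y)) ⁻¹' {k})) := by
    refine Finset.sum_congr rfl fun k _ => ent_congr fun j hj => ?_
    rw [measureReal_ennreal_smul_apply, ENNReal.toReal_ofReal (hn j hj), map_add_real]
  rw [h3, h4, h5, ← atom_conv S n x h] at h2
  unfold dInfo Hu
  unfold Hu at h2
  linarith only [h2]

theorem integrable_comp_cell (h : Good η) {c : ℝ → ℤ} (hc : Measurable c) {F : Finset ℤ}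
    (hF : η {x | c x ∉ F} = 0) (G : ℤ → ℝ) : Integrable (fun x => G (c x)) η := by
  have := h.fin
  refine Integrable.of_bound ((measurable_of_countable G).comp hc).aestronglyMeasurable
    (∑ k ∈ F, ‖G k‖) ?_
  have h1 : ∀ᵐ x ∂η, c x ∈ F := by
    rw [ae_iff]
    exact hF
  filter_upwards [h1] with x hx
  exact Finset.single_le_sum (f := fun k => ‖G k‖) (fun k _ => norm_nonneg _) hx

theorem cell_mono (s u : ℝ) {a b : ℝ} (h : a ≤ b) : cell s u a ≤ cell s u b := by
  unfold cell
  exact Int.floor_mono (by nlinarith [exp_pos s])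

theorem abs_sub_lt_of_cell_eq {s u a b : ℝ} (h : cell s u a = cell s u b) :
    |a - b| ≤ exp (-s) := by
  unfold cell at h
  have h1 := Int.abs_sub_lt_one_of_floor_eq_floor h
  have h2 : a * exp s + u - (b * exp s + u) = (a - b) * exp s := by ring
  rw [h2, abs_mul, abs_of_pos (exp_pos s)] at h1
  rw [exp_neg, ← one_div, le_div_iff₀ (exp_pos s)]
  exact h1.le

/-- The number of grid points in a moving interval averages to its length. -/
theorem integral_floor_sub (z d : ℝ) :
    ∫ u in (0 : ℝ)..1, ((⌊z + d + u⌋ : ℝ) - (⌊z + u⌋ : ℝ)) = d := by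
  have hp : Function.Periodic (Int.fract : ℝ → ℝ) 1 := fun x => Int.fract_add_one x
  have hi : ∀ a b : ℝ, IntervalIntegrable (Int.fract : ℝ → ℝ) volume a b := by
    intro a b
    refine IntervalIntegrable.mono_fun' (g := fun _ => (1 : ℝ)) intervalIntegrable_const
      measurable_fract.aestronglyMeasurable (Filter.Eventually.of_forall fun x => ?_)
    show ‖Int.fract x‖ ≤ 1
    rw [Real.norm_eq_abs, abs_of_nonneg (Int.fract_nonneg x)]
    exact (Int.fract_lt_one x).le
  have hi' : ∀ w : ℝ, IntervalIntegrable (fun u => Int.fract (w + u)) volume 0 1 := by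
    intro w
    have h2 := (hi w (w + 1)).comp_add_left w
    simpa using h2
  have he : ∀ w : ℝ, ∫ u in (0 : ℝ)..1, Int.fract (w + u) = ∫ u in (0 : ℝ)..1, Int.fract u := by
    intro w
    rw [intervalIntegral.integral_comp_add_left (fun u => Int.fract u) w, add_zero,
      hp.intervalIntegral_add_eq w 0, zero_add]
  have h1 : (fun u : ℝ => ((⌊z + d + u⌋ : ℝ) - (⌊z + u⌋ : ℝ))) =
      fun u => d + (Int.fract (z + u) - Int.fract (z + d + u)) := by
    funext u
    simp only [Int.fract]
    ring
  rw [h1, intervalIntegral.integral_add intervalIntegrable_const ((hi' z).sub (hi' (z + d))),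
    intervalIntegral.integral_sub (hi' z) (hi' (z + d)), he z, he (z + d)]
  simp

end

end Vale.Agent.P114.HsInfoAux
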