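import Vale.Agent.P114.HsConv
import Vale.Agent.P114.HsInfoAux

/-! # P114: three bounds on the averaged mutual information -/

open MeasureTheory Real Set Polynomial
open scoped ENNReal

namespace Vale.Agent.P114

noncomputable section

variable {Ω Ω' : Type*} {η μ : Measure ℝ}

namespace HsInfoAux

/-- Number of grid points between `a + y` and `a + l + y`. -/
def jump (s a l u y : ℝ) : ℝ := (cell s u (a + l + y) : ℝ) - (cell s u (a + y) : ℝ)

theorem measurable_jump (s a l : ℝ) : Measurable (fun z : ℝ × ℝ => jump s a l z.1 z.2) := by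
  have h1 : ∀ b : ℝ, Measurable (fun z : ℝ × ℝ => (cell s z.1 (b + z.2) : ℝ)) := by
    intro b
    have h2 : Measurable (fun z : ℝ × ℝ => (b + z.2) * exp s + z.1) := by fun_prop
    exact (measurable_of_countable (fun k : ℤ => (k : ℝ))).comp (Int.measurable_floor.comp h2)
  exact (h1 (a + l)).sub (h1 a)

theorem jump_nonneg (s a : ℝ) {l : ℝ} (hl : 0 ≤ l) (u y : ℝ) : 0 ≤ jump s a l u y := by
  have h1 := cell_mono s u (show a + y ≤ a + l + y by linarith)
  unfold jump
  rw [sub_nonneg]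
  exact_mod_cast h1

theorem jump_le (s a l u y : ℝ) : jump s a l u y ≤ l * exp s + 1 := by
  unfold jump cell
  have h1 := Int.floor_le ((a + l + y) * exp s + u)
  have h2 := Int.lt_floor_add_one ((a + y) * exp s + u)
  have h3 : (a + l + y) * exp s = (a + y) * exp s + l * exp s := by ring
  linarith only [h1, h2, h3]

theorem integrable_jump (η : Measure ℝ) [IsProbabilityMeasure η] (s a : ℝ) {l : ℝ}
    (hl : 0 ≤ l) : Integrable (Function.uncurry (jump s a l))
      ((volume.restrict (Ioc (0 : ℝ) 1)).prod η) := by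
  refine Integrable.of_bound (measurable_jump s a l).aestronglyMeasurable (l * exp s + 1)
    (Filter.Eventually.of_forall fun z => ?_)
  show ‖jump s a l z.1 z.2‖ ≤ _
  rw [Real.norm_eq_abs, abs_of_nonneg (jump_nonneg s a hl _ _)]
  exact jump_le s a l _ _

theorem integral_jump (η : Measure ℝ) [IsProbabilityMeasure η] (s a : ℝ) {l : ℝ} (hl : 0 ≤ l) :
    ∫ u in (0 : ℝ)..1, ∫ y, jump s a l u y ∂η = l * exp s := by
  rw [intervalIntegral.integral_of_le zero_le_one,
    integral_integral_swap (integrable_jump η s a hl)]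
  have h1 : ∀ y, ∫ u in Ioc (0 : ℝ) 1, jump s a l u y = l * exp s := by
    intro y
    rw [← intervalIntegral.integral_of_le zero_le_one,
      ← integral_floor_sub ((a + y) * exp s) (l * exp s)]
    refine intervalIntegral.integral_congr fun u _ => ?_
    have h2 : (a + l + y) * exp s = (a + y) * exp s + l * exp s := by ring
    simp only [jump, cell, h2]
  simp only [h1, integral_const, probReal_univ, smul_eq_mul, one_mul]

theorem dInfo_le_jump (h : Good η) [IsProbabilityMeasure η] {S : Finset Ω} {n : Ω → ℝ}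
    (hn : ∀ j ∈ S, 0 ≤ n j) (x : Ω → ℝ) {a l : ℝ} (hl : 0 ≤ l)
    (hx : ∀ j ∈ S, a ≤ x j ∧ x j ≤ a + l) (s u : ℝ) :
    dInfo S n x η s u ≤ ent S n * ∫ y, jump s a l u y ∂η := by
  classical
  obtain ⟨F₁, hF₁⟩ := exists_cells_fam h S x s u
  obtain ⟨F₂, hF₂⟩ := exists_cells_fam h ({()} : Finset Unit) (fun _ => a) s u
  have hF : ∀ j ∈ S, η {y | cell s u (x j + y) ∉ F₁ ∪ F₂} = 0 := fun j hj =>
    measure_mono_null (fun y hy hy' => hy (Finset.mem_union_left _ hy')) (hF₁ j hj)
  have hFa : η {y | cell s u (a + y) ∉ F₁ ∪ F₂} = 0 :=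
    measure_mono_null (fun y hy hy' => hy (Finset.mem_union_right _ hy'))
      (hF₂ () (Finset.mem_singleton_self _))
  rw [dInfo_eq h (mss_prob η) hn x s u hF]
  set B : Set ℝ := {y | cell s u (a + l + y) = cell s u (a + y)} with hB
  have hBm : MeasurableSet B :=
    measurableSet_eq_fun (measurable_cell_add s u (a + l)) (measurable_cell_add s u a)
  have h1 : ∑ k ∈ F₁ ∪ F₂, (η.restrict B).real ((fun y => cell s u (a + y)) ⁻¹' {k}) =
      η.real B := by
    rw [sum_real_preimage (h.restrict B) (measurable_cell_add s u a)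
      (le_antisymm ((Measure.restrict_apply_le _ _).trans hFa.le) zero_le), mss,
      measureReal_restrict_apply_univ]
  have h2 : ∀ k, (η.restrict B).real ((fun y => cell s u (a + y)) ⁻¹' {k}) * ent S n ≤
      ent S (fun j => n j * η.real ((fun y => cell s u (x j + y)) ⁻¹' {k})) := by
    intro k
    rw [← ent_const_mul]
    refine ent_mono (fun j hj => mul_nonneg measureReal_nonneg (hn j hj)) fun j hj => ?_
    rw [mul_comm]
    refine mul_le_mul_of_nonneg_left ?_ (hn j hj)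
    rw [measureReal_restrict_apply (measurable_cell_add s u a (MeasurableSet.singleton k))]
    refine measureReal_mono fun y hy => ?_
    have h3 : cell s u (a + y) = k := hy.1
    have h4 : cell s u (a + l + y) = cell s u (a + y) := hy.2
    have h5 := cell_mono s u (show a + y ≤ x j + y by linarith only [(hx j hj).1])
    have h6 := cell_mono s u (show x j + y ≤ a + l + y by linarith only [(hx j hj).2])
    show cell s u (x j + y) = k
    omega
  have h3 := Finset.sum_le_sum fun k (_ : k ∈ F₁ ∪ F₂) => h2 k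
  rw [← Finset.sum_mul, h1] at h3
  have h4 : η.real Bᶜ ≤ ∫ y, jump s a l u y ∂η := by
    rw [← integral_indicator_one hBm.compl]
    have hi : Integrable (fun y => jump s a l u y) η := by
      refine Integrable.of_bound
        ((measurable_jump s a l).comp measurable_prodMk_left).aestronglyMeasurable
        (l * exp s + 1) (Filter.Eventually.of_forall fun y => ?_)
      rw [Real.norm_eq_abs, abs_of_nonneg (jump_nonneg s a hl _ _)]
      exact jump_le s a l _ _
    refine integral_mono ((integrable_const (1 : ℝ)).indicator hBm.compl) hi fun y => ?_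
    by_cases hy : y ∈ Bᶜ
    · rw [indicator_of_mem hy]
      have h5 := cell_mono s u (show a + y ≤ a + l + y by linarith only [hl])
      have h6 : cell s u (a + l + y) ≠ cell s u (a + y) := hy
      have h7 : cell s u (a + y) + 1 ≤ cell s u (a + l + y) := by omega
      have h8 : (cell s u (a + y) : ℝ) + 1 ≤ cell s u (a + l + y) := by exact_mod_cast h7
      show (1 : ℝ) ≤ jump s a l u y
      unfold jump
      linarith only [h8]
    · rw [indicator_of_notMem hy]
      exact jump_nonneg s a hl u y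
  rw [probReal_compl_eq_one_sub hBm] at h4
  have h5 := mul_le_mul_of_nonneg_left h4 (ent_nonneg hn)
  nlinarith only [h3, h5]

theorem conv_real (h : Good η) {I : Finset Ω'} {m : Ω' → ℝ} (hm : ∀ i ∈ I, 0 ≤ m i)
    (y : Ω' → ℝ) {A : Set ℝ} (hA : MeasurableSet A) :
    (atom I m y ∗ η).real A = ∑ i ∈ I, m i * η.real ((fun z => y i + z) ⁻¹' A) := by
  have := h.fin
  rw [atom_conv I m y h, measureReal_def, Measure.finsetSum_apply, ENNReal.toReal_sum]
  · refine Finset.sum_congr rfl fun i hi => ?_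
    rw [Measure.smul_apply, smul_eq_mul, ENNReal.toReal_mul, ENNReal.toReal_ofReal (hm i hi),
      Measure.map_apply (measurable_const_add _) hA, measureReal_def]
  · intro i _
    rw [Measure.smul_apply, smul_eq_mul]
    exact ENNReal.mul_ne_top ENNReal.ofReal_ne_top (measure_ne_top _ _)

theorem cell_shift (s u a b y : ℝ) : cell s u (a + (b + y)) = cell s (u + b * exp s) (a + y) := by
  unfold cell
  congr 1
  ring

theorem dInfo_submod (h : Good η) [IsProbabilityMeasure η] {S : Finset Ω} {n : Ω → ℝ}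
    (hn : ∀ j ∈ S, 0 ≤ n j) (x : Ω → ℝ) {I : Finset Ω'} {m : Ω' → ℝ} (hm : ∀ i ∈ I, 0 ≤ m i)
    (hm1 : ∑ i ∈ I, m i = 1) (y : Ω' → ℝ) (s u : ℝ) :
    dInfo S n x (atom I m y ∗ η) s u ≤ ∑ i ∈ I, m i * dInfo S n x η s (u + y i * exp s) := by
  obtain ⟨F, hF⟩ := exists_cells_fam h (S ×ˢ I) (fun z => x z.1 + y z.2) s u
  have hF1 : ∀ i ∈ I, ∀ j ∈ S, η {z | cell s (u + y i * exp s) (x j + z) ∉ F} = 0 := by
    intro i hi j hj
    have h1 := hF (j, i) (Finset.mem_product.2 ⟨hj, hi⟩)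
    simp only [add_assoc, cell_shift] at h1
    exact h1
  have hg : Good (atom I m y ∗ η) := (Good.atom I m y).conv h
  have hF2 : ∀ j ∈ S, (atom I m y ∗ η) {z | cell s u (x j + z) ∉ F} = 0 := by
    intro j hj
    rw [atom_conv I m y h, Measure.finsetSum_apply]
    refine Finset.sum_eq_zero fun i hi => ?_
    rw [Measure.smul_apply, Measure.map_apply (measurable_const_add _)
      (measurableSet_notMem (measurable_cell_add s u (x j)) F)]
    have h1 := hF1 i hi j hj
    simp only [← cell_shift] at h1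
    show ENNReal.ofReal (m i) • η {z | cell s u (x j + (y i + z)) ∉ F} = 0
    rw [h1, smul_zero]
  have hm2 : mss (atom I m y ∗ η) = 1 := by
    rw [mss_conv (Good.atom I m y) h, mss_atom hm, hm1, mss_prob, mul_one]
  have hs : ∑ i ∈ I, m i * dInfo S n x η s (u + y i * exp s) = ∑ i ∈ I, m i * (ent S n -
      ∑ k ∈ F, ent S (fun j => n j *
        η.real ((fun z => cell s (u + y i * exp s) (x j + z)) ⁻¹' {k}))) :=
    Finset.sum_congr rfl fun i hi => by rw [dInfo_eq h (mss_prob η) hn x s _ (hF1 i hi)]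
  rw [dInfo_eq hg hm2 hn x s u hF2, hs]
  simp only [mul_sub, Finset.sum_sub_distrib, ← Finset.sum_mul, hm1, one_mul, Finset.mul_sum]
  rw [Finset.sum_comm]
  refine sub_le_sub_left (Finset.sum_le_sum fun k _ => ?_) _
  simp only [← ent_const_mul]
  refine (ent_sum_ge I fun i hi j hj =>
    mul_nonneg (hm i hi) (mul_nonneg (hn j hj) measureReal_nonneg)).trans (le_of_eq ?_)
  refine ent_congr fun j _ => ?_
  rw [conv_real h hm y (measurable_cell_add s u (x j) (MeasurableSet.singleton k)),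
    Finset.mul_sum]
  refine Finset.sum_congr rfl fun i _ => ?_
  have h1 : (fun z => y i + z) ⁻¹' ((fun z => cell s u (x j + z)) ⁻¹' {k}) =
      (fun z => cell s (u + y i * exp s) (x j + z)) ⁻¹' {k} := by
    ext z
    simp only [mem_preimage, cell_shift]
  rw [h1]
  ring

open Classical in
/-- The decoding weight. -/
def qd (x : ℤ → ℝ) (ρ s u : ℝ) (G : Set ℝ) (κ : ℝ) (k j : ℤ) : ℝ :=
  if ∃ y' ∈ G, cell s u (x j + ρ * y') = k then 1 else κ

theorem qd_bounds (x : ℤ → ℝ) (ρ s u : ℝ) (G : Set ℝ) {κ : ℝ} (hκ1 : κ ≤ 1) (k j : ℤ) :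
    κ ≤ qd x ρ s u G κ k j ∧ qd x ρ s u G κ k j ≤ 1 := by
  unfold qd
  split_ifs
  exacts [⟨hκ1, le_rfl⟩, ⟨le_rfl, hκ1⟩]

theorem qd_cases (x : ℤ → ℝ) {ρ : ℝ} (hρ : ρ ≠ 0) (s u : ℝ) {G Gp : Set ℝ}
    (hnear : ∀ y y', y' ∈ G → |y - y'| ≤ exp (-s) / |ρ| → y ∈ Gp) (κ : ℝ) (j j' : ℤ) (y : ℝ) :
    qd x ρ s u G κ (cell s u (x j + ρ * y)) j' = κ ∨
      Gp.indicator (1 : ℝ → ℝ) (y + (x j - x j') / ρ) = 1 := by
  by_cases hq : ∃ y' ∈ G, cell s u (x j' + ρ * y') = cell s u (x j + ρ * y)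
  · right
    obtain ⟨y', hy', hc⟩ := hq
    have h1 := abs_sub_lt_of_cell_eq hc.symm
    have h2 : x j + ρ * y - (x j' + ρ * y') = ρ * (y + (x j - x j') / ρ - y') := by
      field_simp
      ring
    rw [h2, abs_mul, mul_comm, ← le_div_iff₀ (abs_pos.2 hρ)] at h1
    rw [indicator_of_mem (hnear _ y' hy' h1), Pi.one_apply]
  · left
    unfold qd
    rw [if_neg hq]

theorem Psi_le {J : Finset ℤ} {n : ℤ → ℝ} (hn : ∀ j ∈ J, 0 < n j) (hn1 : ∑ j ∈ J, n j = 1)
    (x : ℤ → ℝ) {ρ : ℝ} (hρ : ρ ≠ 0) (s u : ℝ) {G Gp : Set ℝ}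
    (hnear : ∀ y y', y' ∈ G → |y - y'| ≤ exp (-s) / |ρ| → y ∈ Gp) {κ : ℝ} (hκ0 : 0 < κ)
    (hκ1 : κ ≤ 1) {j : ℤ} (hj : j ∈ J) (y : ℝ) :
    Psi J n x ρ G Gp κ j y ≤ log (qd x ρ s u G κ (cell s u (x j + ρ * y)) j) -
      log (∑ j' ∈ J, n j' * qd x ρ s u G κ (cell s u (x j + ρ * y)) j') := by
  have hb := qd_bounds x ρ s u G hκ1 (cell s u (x j + ρ * y))
  have hc := fun j' => qd_cases x hρ s u hnear κ j j' y
  have hI : ∀ z, 0 ≤ Gp.indicator (1 : ℝ → ℝ) z := fun z =>
    indicator_nonneg (fun _ _ => zero_le_one) z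
  have hq1 : y ∈ G → qd x ρ s u G κ (cell s u (x j + ρ * y)) j = 1 := fun hy => by
    unfold qd
    rw [if_pos ⟨y, hy, rfl⟩]
  generalize qd x ρ s u G κ (cell s u (x j + ρ * y)) = q at hb hc hq1 ⊢
  have hZ : 0 < ∑ j' ∈ J, n j' * q j' :=
    Finset.sum_pos (fun j' hj' => mul_pos (hn j' hj') (hκ0.trans_le (hb j').1)) ⟨j, hj⟩
  unfold Psi
  split_ifs with hy
  · rw [hq1 hy, log_one, zero_sub, neg_le_neg_iff]
    refine log_le_log hZ ?_
    rw [← Finset.add_sum_erase J _ hj, hq1 hy, mul_one]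
    refine add_le_add le_rfl (Finset.sum_le_sum fun j' hj' => ?_)
    refine mul_le_mul_of_nonneg_left ?_ (hn j' (Finset.mem_of_mem_erase hj')).le
    rcases hc j' with h1 | h1
    · linarith only [h1, hI (y + (x j - x j') / ρ)]
    · linarith only [h1, hκ0, (hb j').2]
  · have hqj : 0 < q j := hκ0.trans_le (hb j).1
    rw [← neg_sub, ← log_div hZ.ne' hqj.ne', neg_div, neg_le_neg_iff]
    refine (log_le_sub_one_of_pos (div_pos hZ hqj)).trans ?_
    rw [← hn1, Finset.sum_div, ← Finset.sum_sub_distrib, ← Finset.add_sum_erase J _ hj,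
      mul_div_assoc, div_self hqj.ne', mul_one, sub_self, zero_add, Finset.sum_div]
    refine Finset.sum_le_sum fun j' hj' => ?_
    have h0 := (hn j' (Finset.mem_of_mem_erase hj')).le
    rw [mul_div_assoc, mul_div_assoc, ← mul_sub_one]
    refine mul_le_mul_of_nonneg_left ?_ h0
    rcases hc j' with h1 | h1
    · have h2 : q j' / q j ≤ 1 := by
        rw [div_le_one hqj, h1]
        exact (hb j).1
      have h3 := div_nonneg (hI (y + (x j - x j') / ρ)) hκ0.le
      linarith only [h2, h3]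
    · have h2 : q j' / q j ≤ 1 / κ := div_le_div₀ zero_le_one (hb j').2 hκ0 (hb j).1
      rw [h1]
      linarith only [h2]

theorem integrable_Psi (μ : Measure ℝ) [IsProbabilityMeasure μ] {J : Finset ℤ} {n : ℤ → ℝ}
    (hn : ∀ j ∈ J, 0 < n j) (x : ℤ → ℝ) (ρ : ℝ) {G Gp : Set ℝ} (hG : MeasurableSet G)
    (hGp : MeasurableSet Gp) {κ : ℝ} (hκ0 : 0 < κ) {j : ℤ} (hj : j ∈ J) :
    Integrable (Psi J n x ρ G Gp κ j) μ := by
  classical
  have hI : ∀ z, 0 ≤ Gp.indicator (1 : ℝ → ℝ) z ∧ Gp.indicator (1 : ℝ → ℝ) z ≤ 1 := fun z => by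
    by_cases hz : z ∈ Gp
    · rw [indicator_of_mem hz]
      exact ⟨zero_le_one, le_rfl⟩
    · rw [indicator_of_notMem hz]
      exact ⟨le_rfl, zero_le_one⟩
  have hm : ∀ j', Measurable (fun y => Gp.indicator (1 : ℝ → ℝ) (y + (x j - x j') / ρ)) :=
    fun j' => (measurable_one.indicator hGp).comp (measurable_add_const _)
  have hi : ∀ j', Integrable (fun y => Gp.indicator (1 : ℝ → ℝ) (y + (x j - x j') / ρ)) μ :=
    fun j' => Integrable.of_bound (hm j').aestronglyMeasurable 1
      (Filter.Eventually.of_forall fun y => by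
        rw [Real.norm_eq_abs, abs_of_nonneg (hI _).1]
        exact (hI _).2)
  have h1 : Integrable (fun y => -log (n j + ∑ j' ∈ J.erase j,
      n j' * (κ + Gp.indicator (1 : ℝ → ℝ) (y + (x j - x j') / ρ)))) μ := by
    have h2 : Measurable (fun y => -log (n j + ∑ j' ∈ J.erase j,
        n j' * (κ + Gp.indicator (1 : ℝ → ℝ) (y + (x j - x j') / ρ)))) :=
      ((Finset.measurable_sum _ fun j' _ =>
        ((hm j').const_add κ).const_mul (n j')).const_add (n j)).log.neg
    refine Integrable.of_bound h2.aestronglyMeasurable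
      (|log (n j)| + |log (n j + ∑ j' ∈ J.erase j, n j' * (κ + 1))|)
      (Filter.Eventually.of_forall fun y => ?_)
    have h3 : 0 ≤ ∑ j' ∈ J.erase j,
        n j' * (κ + Gp.indicator (1 : ℝ → ℝ) (y + (x j - x j') / ρ)) :=
      Finset.sum_nonneg fun j' hj' => mul_nonneg (hn j' (Finset.mem_of_mem_erase hj')).le
        (add_nonneg hκ0.le (hI _).1)
    have h4 : ∑ j' ∈ J.erase j, n j' * (κ + Gp.indicator (1 : ℝ → ℝ) (y + (x j - x j') / ρ)) ≤
        ∑ j' ∈ J.erase j, n j' * (κ + 1) :=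
      Finset.sum_le_sum fun j' hj' => mul_le_mul_of_nonneg_left
        (add_le_add le_rfl (hI _).2) (hn j' (Finset.mem_of_mem_erase hj')).le
    have h5 := log_le_log (hn j hj) (le_add_of_nonneg_right h3)
    have h6 := log_le_log (add_pos_of_pos_of_nonneg (hn j hj) h3) (add_le_add le_rfl h4)
    rw [Real.norm_eq_abs, abs_neg, abs_le]
    constructor
    · linarith only [h5, neg_abs_le (log (n j)),
        abs_nonneg (log (n j + ∑ j' ∈ J.erase j, n j' * (κ + 1)))]
    · linarith only [h6, le_abs_self (log (n j + ∑ j' ∈ J.erase j, n j' * (κ + 1))),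
        abs_nonneg (log (n j))]
  have h2 : Integrable (fun y => -(∑ j' ∈ J.erase j,
      n j' * Gp.indicator (1 : ℝ → ℝ) (y + (x j - x j') / ρ)) / κ) μ :=
    (integrable_finsetSum _ fun j' _ => (hi j').const_mul (n j')).neg.div_const κ
  refine (Integrable.piecewise hG h1.integrableOn h2.integrableOn).congr
    (Filter.Eventually.of_forall fun y => ?_)
  unfold Psi
  by_cases hy : y ∈ G
  · rw [piecewise_eq_of_mem _ _ _ hy, if_pos hy]
  · rw [piecewise_eq_of_notMem _ _ _ hy, if_neg hy]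

theorem gmi_one (h : Good μ) [IsProbabilityMeasure μ] {J : Finset ℤ} {n : ℤ → ℝ}
    (hn : ∀ j ∈ J, 0 < n j) (hn1 : ∑ j ∈ J, n j = 1) (x : ℤ → ℝ) {ρ : ℝ} (hρ : ρ ≠ 0) (s : ℝ)
    {G Gp : Set ℝ} (hG : MeasurableSet G) (hGp : MeasurableSet Gp)
    (hnear : ∀ y y', y' ∈ G → |y - y'| ≤ exp (-s) / |ρ| → y ∈ Gp) {κ : ℝ} (hκ0 : 0 < κ)
    (hκ1 : κ ≤ 1) (u : ℝ) :
    ∑ j ∈ J, n j * ∫ y, Psi J n x ρ G Gp κ j y ∂μ ≤ dInfo J n x (scl ρ μ) s u := by
  obtain ⟨F, hF⟩ := exists_cells_fam (h.scl ρ) J x s u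
  have hc : ∀ j, Measurable (fun y => cell s u (x j + ρ * y)) := fun j =>
    (measurable_cell_add s u (x j)).comp (measurable_const_mul ρ)
  have hF' : ∀ j ∈ J, μ {y | cell s u (x j + ρ * y) ∉ F} = 0 := by
    intro j hj
    have h1 := hF j hj
    rw [scl, Measure.map_apply (measurable_const_mul ρ)
      (measurableSet_notMem (measurable_cell_add s u (x j)) F)] at h1
    exact h1
  have hP : ∀ j k, (scl ρ μ).real ((fun y => cell s u (x j + y)) ⁻¹' {k}) =
      μ.real ((fun y => cell s u (x j + ρ * y)) ⁻¹' {k}) := by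
    intro j k
    rw [measureReal_def, measureReal_def, scl, Measure.map_apply (measurable_const_mul ρ)
      (measurable_cell_add s u (x j) (MeasurableSet.singleton k))]
    rfl
  rw [dInfo_eq (h.scl ρ) (mss_prob _) (fun j hj => (hn j hj).le) x s u hF]
  simp only [hP]
  have hne : J.Nonempty := by
    rcases J.eq_empty_or_nonempty with rfl | hJ
    · simp at hn1
    · exact hJ
  have hq : ∀ k j, 0 < qd x ρ s u G κ k j := fun k j =>
    hκ0.trans_le (qd_bounds x ρ s u G hκ1 k j).1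
  have hZ : ∀ k, 0 < ∑ j' ∈ J, n j' * qd x ρ s u G κ k j' := fun k =>
    Finset.sum_pos (fun j' hj' => mul_pos (hn j' hj') (hq k j')) hne
  have h1 : ∀ k, ent J (fun j => n j * μ.real ((fun y => cell s u (x j + ρ * y)) ⁻¹' {k})) ≤
      ∑ j ∈ J, n j * μ.real ((fun y => cell s u (x j + ρ * y)) ⁻¹' {k}) *
        (-log (n j * qd x ρ s u G κ k j / ∑ j' ∈ J, n j' * qd x ρ s u G κ k j')) := by
    intro k
    refine ent_le_gibbs (fun j hj => mul_nonneg (hn j hj).le measureReal_nonneg)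
      (fun j hj => (div_pos (mul_pos (hn j hj) (hq k j)) (hZ k)).le)
      (fun j hj _ => div_pos (mul_pos (hn j hj) (hq k j)) (hZ k)) ?_
    rw [← Finset.sum_div, div_self (hZ k).ne']
  have h2 := Finset.sum_le_sum fun k (_ : k ∈ F) => h1 k
  rw [Finset.sum_comm] at h2
  have h3 : ent J n = ∑ j ∈ J, n j * (-log (n j)) := by
    rw [ent_eq_sum_log, hn1, log_one]
    simp only [zero_sub]
  have h4 : ∀ j ∈ J, n j * ∫ y, Psi J n x ρ G Gp κ j y ∂μ ≤ n j * (-log (n j)) -
      ∑ k ∈ F, n j * μ.real ((fun y => cell s u (x j + ρ * y)) ⁻¹' {k}) *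
        (-log (n j * qd x ρ s u G κ k j / ∑ j' ∈ J, n j' * qd x ρ s u G κ k j')) := by
    intro j hj
    simp only [mul_assoc]
    rw [← Finset.mul_sum, ← mul_sub]
    refine mul_le_mul_of_nonneg_left ?_ (hn j hj).le
    have h5 := integral_mono (integrable_Psi μ hn x ρ hG hGp hκ0 hj)
      (integrable_comp_cell h (hc j) (hF' j hj) (fun k => log (qd x ρ s u G κ k j) -
        log (∑ j' ∈ J, n j' * qd x ρ s u G κ k j')))
      (fun y => Psi_le hn hn1 x hρ s u hnear hκ0 hκ1 hj y)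
    rw [integral_comp_cell h (hc j) (hF' j hj) (fun k => log (qd x ρ s u G κ k j) -
      log (∑ j' ∈ J, n j' * qd x ρ s u G κ k j'))] at h5
    refine h5.trans (le_of_eq ?_)
    have h6 := sum_real_preimage h (hc j) (hF' j hj)
    rw [mss_prob] at h6
    rw [← one_mul (-log (n j)), ← h6, Finset.sum_mul, ← Finset.sum_sub_distrib]
    refine Finset.sum_congr rfl fun k _ => ?_
    rw [log_div (mul_pos (hn j hj) (hq k j)).ne' (hZ k).ne', log_mul (hn j hj).ne' (hq k j).ne']
    ring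
  have h5 := Finset.sum_le_sum h4
  rw [Finset.sum_sub_distrib, ← h3] at h5
  linarith only [h2, h5]

end HsInfoAux

open HsInfoAux

/-- A signal living in an interval of length `l` is invisible at coarse scales. -/
theorem info_le_diam (h : Good η) [IsProbabilityMeasure η] {S : Finset Ω} {n : Ω → ℝ}
    (hn : ∀ j ∈ S, 0 ≤ n j) (x : Ω → ℝ) {l : ℝ} (hl : 0 ≤ l)
    (hx : ∀ j ∈ S, ∀ j' ∈ S, |x j - x j'| ≤ l) (s : ℝ) :
    info (atom S n x) η s ≤ l * exp s * ent S n := by
  obtain ⟨a, ha⟩ : ∃ a : ℝ, ∀ j ∈ S, a ≤ x j ∧ x j ≤ a + l := by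
    rcases S.eq_empty_or_nonempty with rfl | hS
    · exact ⟨0, fun j hj => absurd hj (Finset.notMem_empty j)⟩
    · obtain ⟨j₀, hj₀, h0⟩ := S.exists_min_image x hS
      refine ⟨x j₀, fun j hj => ⟨h0 j hj, ?_⟩⟩
      linarith only [(abs_le.1 (hx j hj j₀ hj₀)).2]
  have h1 : IntervalIntegrable (fun u => ∫ y, jump s a l u y ∂η) volume 0 1 :=
    (intervalIntegrable_iff_integrableOn_Ioc_of_le zero_le_one).2
      (integrable_jump η s a hl).integral_prod_left
  rw [← integral_dInfo h hn x s 0, ← integral_jump η s a hl, mul_comm,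
    ← intervalIntegral.integral_const_mul]
  refine intervalIntegral.integral_mono_on zero_le_one (intervalIntegrable_dInfo h S n x s 0)
    (h1.const_mul _) fun u _ => ?_
  rw [add_zero]
  exact dInfo_le_jump h hn x hl ha s u

/-- More independent noise gives less information. -/
theorem info_submod (h : Good η) [IsProbabilityMeasure η] {S : Finset Ω} {n : Ω → ℝ}
    (hn : ∀ j ∈ S, 0 ≤ n j) (x : Ω → ℝ) {I : Finset Ω'} {m : Ω' → ℝ} (hm : ∀ i ∈ I, 0 ≤ m i)
    (hm1 : ∑ i ∈ I, m i = 1) (y : Ω' → ℝ) (s : ℝ) :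
    info (atom S n x) (atom I m y ∗ η) s ≤ info (atom S n x) η s := by
  have hg : Good (atom I m y ∗ η) := (Good.atom I m y).conv h
  have h1 : ∀ i ∈ I, IntervalIntegrable
      (fun u => m i * dInfo S n x η s (u + y i * exp s)) volume 0 1 := fun i _ =>
    (intervalIntegrable_dInfo h S n x s (y i * exp s)).const_mul _
  have h2 : info (atom S n x) η s =
      ∫ u in (0 : ℝ)..1, ∑ i ∈ I, m i * dInfo S n x η s (u + y i * exp s) := by
    rw [intervalIntegral.integral_finsetSum h1]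
    simp only [intervalIntegral.integral_const_mul, integral_dInfo h hn x s]
    rw [← Finset.sum_mul, hm1, one_mul]
  have h3 : IntervalIntegrable
      (fun u => ∑ i ∈ I, m i * dInfo S n x η s (u + y i * exp s)) volume 0 1 := by
    refine (IntervalIntegrable.sum I h1).congr ?_
    intro u _
    simp only [Finset.sum_apply]
  rw [h2, ← integral_dInfo hg hn x s 0]
  refine intervalIntegral.integral_mono_on zero_le_one (intervalIntegrable_dInfo hg S n x s 0)
    h3 fun u _ => ?_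
  rw [add_zero]
  exact dInfo_submod h hn x hm hm1 y s u

/-- Decoding bound (generalised mutual information). -/
theorem gmi (h : Good μ) [IsProbabilityMeasure μ] {J : Finset ℤ} {n : ℤ → ℝ}
    (hn : ∀ j ∈ J, 0 < n j) (hn1 : ∑ j ∈ J, n j = 1) (x : ℤ → ℝ) {ρ : ℝ} (hρ : ρ ≠ 0) (s : ℝ)
    {G Gp : Set ℝ} (hG : MeasurableSet G) (hGp : MeasurableSet Gp)
    (hnear : ∀ y y', y' ∈ G → |y - y'| ≤ exp (-s) / |ρ| → y ∈ Gp) {κ : ℝ} (hκ0 : 0 < κ)
    (hκ1 : κ ≤ 1) :
    ∑ j ∈ J, n j * ∫ y, Psi J n x ρ G Gp κ j y ∂μ ≤ info (atom J n x) (scl ρ μ) s := by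
  rw [← integral_dInfo (h.scl ρ) (fun j hj => (hn j hj).le) x s 0]
  have h1 := intervalIntegral.integral_mono_on (μ := volume) zero_le_one
    (intervalIntegrable_const (c := ∑ j ∈ J, n j * ∫ y, Psi J n x ρ G Gp κ j y ∂μ))
    (intervalIntegrable_dInfo (h.scl ρ) J n x s 0)
    fun u _ => gmi_one h hn hn1 x hρ s hG hGp hnear hκ0 hκ1 (u + 0)
  rw [intervalIntegral.integral_const, sub_zero, one_smul] at h1
  exact h1

end

end Vale.Agent.P114
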