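import Vale.Agent.P114.HsGrid

/-! # P114: superadditivity, mixing bound, the chain identity -/

open MeasureTheory Real Set Polynomial
open scoped ENNReal

namespace Vale.Agent.P114

noncomputable section

variable {Ω ι : Type*} {ν ν' η μ : Measure ℝ}

namespace HsSuperAux

theorem real_sum {I : Finset ι} {m : ι → Measure ℝ} (h : ∀ i ∈ I, Good (m i)) (A : Set ℝ) :
    (∑ i ∈ I, m i).real A = ∑ i ∈ I, (m i).real A := by
  simp only [measureReal_def]
  rw [Measure.finsetSum_apply, ENNReal.toReal_sum]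
  intro i hi
  have := (h i hi).fin
  exact measure_ne_top _ _

theorem real_add (h : Good ν) (h' : Good ν') (A : Set ℝ) :
    (ν + ν').real A = ν.real A + ν'.real A := by
  have := h.fin
  have := h'.fin
  exact measureReal_add_apply

theorem null_of_sum {I : Finset ι} {m : ι → Measure ℝ} {A : Set ℝ}
    (h : (∑ i ∈ I, m i) A = 0) : ∀ i ∈ I, m i A = 0 := by
  rw [Measure.finsetSum_apply] at h
  exact Finset.sum_eq_zero_iff.1 h

theorem null_sum {I : Finset ι} {m : ι → Measure ℝ} {A : Set ℝ}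
    (h : ∀ i ∈ I, m i A = 0) : (∑ i ∈ I, m i) A = 0 := by
  rw [Measure.finsetSum_apply]
  exact Finset.sum_eq_zero h

theorem cells (h : Good ν) (s u : ℝ) : ∃ F : Finset ℤ, ν {x | cell s u x ∉ F} = 0 := by
  obtain ⟨F, hF⟩ := h.exists_cells s |u|
  exact ⟨F, hF s u le_rfl le_rfl⟩

theorem sum_le {Γ : Measure ℝ → ℝ} (h0 : Γ 0 = 0)
    (ha : ∀ ν₁ ν₂, Good ν₁ → Good ν₂ → Γ ν₁ + Γ ν₂ ≤ Γ (ν₁ + ν₂)) {I : Finset ι}
    {m : ι → Measure ℝ} (hm : ∀ i ∈ I, Good (m i)) : ∑ i ∈ I, Γ (m i) ≤ Γ (∑ i ∈ I, m i) := by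
  classical
  induction I using Finset.induction_on with
  | empty => simp [h0]
  | insert j I hj ih =>
    rw [Finset.sum_insert hj, Finset.sum_insert hj]
    have h1 : ∀ i ∈ I, Good (m i) := fun i hi => hm i (Finset.mem_insert_of_mem hi)
    have h2 := ha _ _ (hm j (Finset.mem_insert_self _ _)) (Good.sum h1)
    linarith [ih h1]

theorem intInt_sum {I : Finset ι} {f : ι → ℝ → ℝ}
    (h : ∀ i ∈ I, IntervalIntegrable (f i) volume 0 1) :
    IntervalIntegrable (fun u => ∑ i ∈ I, f i u) volume 0 1 := by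
  have := IntervalIntegrable.sum I h
  rwa [Finset.sum_fn] at this

end HsSuperAux

open HsSuperAux

theorem Hc_smul (h : Good ν) {c : ℝ → ℤ} (hc : Measurable c) {F : Finset ℤ}
    (hF : ν {x | c x ∉ F} = 0) {a : ℝ} (ha : 0 ≤ a) :
    Hc (ENNReal.ofReal a • ν) c = a * Hc ν c := by
  have hF' : (ENNReal.ofReal a • ν) {x | c x ∉ F} = 0 := by
    rw [Measure.smul_apply, hF, smul_zero]
  rw [Hc_eq_ent (h.smul a) hc hF', Hc_eq_ent h hc hF, ← ent_const_mul]
  refine ent_congr (fun k _ => ?_)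
  rw [measureReal_ennreal_smul_apply, ENNReal.toReal_ofReal ha]

theorem Hs_smul (h : Good ν) {a : ℝ} (ha : 0 ≤ a) (s : ℝ) :
    Hs (ENNReal.ofReal a • ν) s = a * Hs ν s := by
  unfold Hs
  rw [← intervalIntegral.integral_const_mul]
  refine intervalIntegral.integral_congr (fun u _ => ?_)
  obtain ⟨F, hF⟩ := cells h s u
  exact Hc_smul h (measurable_cell s u) hF ha

theorem Hk_smul (h : Good ν) {a : ℝ} (ha : 0 ≤ a) (s : ℝ) (K : ℕ) :
    Hk (ENNReal.ofReal a • ν) s K = a * Hk ν s K := by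
  unfold Hk
  rw [Hs_smul h ha, Hs_smul h ha, mul_sub]

/-- The two chain rules for the pair (component, cell). -/
theorem Hc_sum_chain {I : Finset ι} {m : ι → Measure ℝ} (h : ∀ i ∈ I, Good (m i))
    {c : ℝ → ℤ} (hc : Measurable c) {F : Finset ℤ} (hF : ∀ i ∈ I, m i {x | c x ∉ F} = 0) :
    Hc (∑ i ∈ I, m i) c + ∑ k ∈ F, ent I (fun i => (m i).real (c ⁻¹' {k})) =
      ent I (fun i => mss (m i)) + ∑ i ∈ I, Hc (m i) c := by
  have h1 := ent_prod_left I F (fun i k => (m i).real (c ⁻¹' {k}))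
  have h2 := ent_prod_right I F (fun i k => (m i).real (c ⁻¹' {k}))
  rw [Hc_eq_ent (Good.sum h) hc (null_sum hF)]
  simp only [real_sum h]
  rw [← h2, h1, ent_congr (fun i hi => sum_real_preimage (h i hi) hc (hF i hi)),
    Finset.sum_congr rfl (fun i hi => Hc_eq_ent (h i hi) hc (hF i hi))]

theorem Hs_sum_ge {I : Finset ι} {m : ι → Measure ℝ} (h : ∀ i ∈ I, Good (m i)) (s : ℝ) :
    ∑ i ∈ I, Hs (m i) s ≤ Hs (∑ i ∈ I, m i) s := by
  unfold Hs
  rw [← intervalIntegral.integral_finsetSum (fun i hi => intervalIntegrable_Hu (h i hi) s 0 1)]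
  refine intervalIntegral.integral_mono_on zero_le_one
    (intInt_sum (fun i hi => intervalIntegrable_Hu (h i hi) s 0 1))
    (intervalIntegrable_Hu (Good.sum h) s 0 1) (fun u _ => ?_)
  obtain ⟨F, hF⟩ := cells (Good.sum h) s u
  unfold Hu
  rw [Hc_eq_ent (Good.sum h) (measurable_cell s u) hF, Finset.sum_congr rfl
    (fun i hi => Hc_eq_ent (h i hi) (measurable_cell s u) (null_of_sum hF i hi))]
  simp only [real_sum h]
  exact ent_sum_ge I (fun _ _ _ _ => measureReal_nonneg)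

theorem Hs_add_ge (h : Good ν) (h' : Good ν') (s : ℝ) : Hs ν s + Hs ν' s ≤ Hs (ν + ν') s := by
  have := Hs_sum_ge (I := Finset.univ) (m := fun b : Bool => if b then ν else ν')
    (fun b _ => by cases b <;> simpa) s
  simpa using this

/-- Mixing raises the entropy by at most the entropy of the weights. -/
theorem Hs_sum_le {I : Finset ι} {m : ι → Measure ℝ} (h : ∀ i ∈ I, Good (m i)) (s : ℝ) :
    Hs (∑ i ∈ I, m i) s ≤ ent I (fun i => mss (m i)) + ∑ i ∈ I, Hs (m i) s := by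
  have h0 : ent I (fun i => mss (m i)) = ∫ _ in (0 : ℝ)..1, ent I (fun i => mss (m i)) := by
    simp
  have hi := intInt_sum (fun i hi => intervalIntegrable_Hu (h i hi) s 0 1)
  unfold Hs
  rw [← intervalIntegral.integral_finsetSum (fun i hi => intervalIntegrable_Hu (h i hi) s 0 1),
    h0, ← intervalIntegral.integral_add intervalIntegrable_const hi]
  refine intervalIntegral.integral_mono_on zero_le_one
    (intervalIntegrable_Hu (Good.sum h) s 0 1) (intervalIntegrable_const.add hi) (fun u _ => ?_)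
  obtain ⟨F, hF⟩ := cells (Good.sum h) s u
  have h1 := Hc_sum_chain h (measurable_cell s u) (null_of_sum hF)
  have h2 : 0 ≤ ∑ k ∈ F, ent I (fun i => (m i).real (cell s u ⁻¹' {k})) :=
    Finset.sum_nonneg (fun _ _ => ent_nonneg (fun _ _ => measureReal_nonneg))
  unfold Hu
  linarith

/-- The entropy between nested grids as an average of conditional entropies. -/
theorem Hk_eq_avg (h : Good ν) (s : ℝ) (K : ℕ) :
    Hk ν s K = (∑ a ∈ Finset.range (2 ^ K), ∫ u in (0 : ℝ)..1,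
      (Hu ν (s + K * log 2) u -
        Hc ν (fun x => (cell (s + K * log 2) u x + a) / ((2 ^ K : ℕ) : ℤ)))) / (2 ^ K : ℕ) := by
  have hM : 0 < 2 ^ K := by positivity
  have hl : log ((2 ^ K : ℕ) : ℝ) = K * log 2 := by
    rw [Nat.cast_pow, log_pow]; norm_num
  have h1 := Hs_nested h s hM
  rw [hl] at h1
  have h2 : ∀ a : ℕ, ∫ u in (0 : ℝ)..1, (Hu ν (s + K * log 2) u -
      Hc ν (fun x => (cell (s + K * log 2) u x + a) / ((2 ^ K : ℕ) : ℤ))) =
      Hs ν (s + K * log 2) - ∫ u in (0 : ℝ)..1,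
        Hc ν (fun x => (cell (s + K * log 2) u x + a) / ((2 ^ K : ℕ) : ℤ)) := fun a =>
    intervalIntegral.integral_sub (intervalIntegrable_Hu h _ 0 1)
      (intervalIntegrable_Hc_comp h (fun j => (j + a) / ((2 ^ K : ℕ) : ℤ)) _ 0 1)
  simp only [h2]
  have hM' : ((2 ^ K : ℕ) : ℝ) ≠ 0 := by exact_mod_cast hM.ne'
  rw [Finset.sum_sub_distrib, Finset.sum_const, Finset.card_range, nsmul_eq_mul, sub_div,
    mul_div_cancel_left₀ _ hM', ← h1]
  rfl

/-- One conditional entropy written as a sum over the coarse cells. -/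
theorem Hc_sub_Hc_comp (h : Good ν) {c : ℝ → ℤ} (hc : Measurable c) {F : Finset ℤ}
    (hF : ν {x | c x ∉ F} = 0) (G : ℤ → ℤ) :
    Hc ν c - Hc ν (fun x => G (c x)) =
      ∑ k ∈ img F G, ent (fib F G k) (fun j => ν.real (c ⁻¹' {j})) := by
  classical
  have hc' : Measurable (fun x => G (c x)) := (measurable_of_countable G).comp hc
  have hF' : ν {x | G (c x) ∉ img F G} = 0 := by
    refine measure_mono_null (fun x hx => ?_) hF
    exact fun h1 => hx (mem_img.2 ⟨c x, h1, rfl⟩)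
  have h1 : ∀ k, ν.real ((fun x => G (c x)) ⁻¹' {k}) =
      mass F (fun j => ν.real (c ⁻¹' {j})) G k := by
    intro k
    have h2 := integral_comp_cell h hc hF (fun j => if G j = k then 1 else 0)
    have h3 : (fun x => if G (c x) = k then (1 : ℝ) else 0) =
        ((fun x => G (c x)) ⁻¹' {k}).indicator 1 := by
      funext x
      simp [Set.indicator_apply]
    rw [h3, integral_indicator_one (hc' (measurableSet_singleton k))] at h2
    rw [h2]
    unfold mass fib
    rw [Finset.sum_filter]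
    refine Finset.sum_congr rfl (fun j _ => ?_)
    split_ifs <;> simp
  rw [Hc_eq_ent h hc hF, Hc_eq_ent h hc' hF', ent_chain F _ G]
  simp only [h1]
  unfold entW
  ring

namespace HsSuperAux

theorem intInt_D (h : Good ν) (s : ℝ) (a M : ℤ) : IntervalIntegrable
    (fun u => Hu ν s u - Hc ν (fun x => (cell s u x + a) / M)) volume 0 1 :=
  (intervalIntegrable_Hu h _ 0 1).sub (intervalIntegrable_Hc_comp h (fun j => (j + a) / M) _ 0 1)

theorem D_nonneg (h : Good ν) (s u : ℝ) (G : ℤ → ℤ) :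
    0 ≤ Hu ν s u - Hc ν (fun x => G (cell s u x)) := by
  obtain ⟨F, hF⟩ := cells h s u
  unfold Hu
  rw [Hc_sub_Hc_comp h (measurable_cell s u) hF G]
  exact Finset.sum_nonneg (fun _ _ => ent_nonneg (fun _ _ => measureReal_nonneg))

theorem D_le (h : Good ν) (s u : ℝ) (a : ℤ) {M : ℕ} (hM : 0 < M) :
    Hu ν s u - Hc ν (fun x => (cell s u x + a) / (M : ℤ)) ≤ mss ν * log M := by
  obtain ⟨F, hF⟩ := cells h s u
  unfold Hu
  rw [Hc_sub_Hc_comp h (measurable_cell s u) hF (fun j => (j + a) / (M : ℤ)),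
    ← sum_real_preimage h (measurable_cell s u) hF,
    ← sum_fib F (fun j => (j + a) / (M : ℤ)), Finset.sum_mul]
  refine Finset.sum_le_sum (fun k _ => (ent_le_log_card (fun _ _ => measureReal_nonneg)).trans ?_)
  refine mul_le_mul_of_nonneg_left ?_ (Finset.sum_nonneg (fun _ _ => measureReal_nonneg))
  have hM' : (0 : ℤ) < M := by exact_mod_cast hM
  have hsub : fib F (fun j => (j + a) / (M : ℤ)) k ⊆ Finset.Ico (k * M - a) (k * M - a + M) := by
    intro j hj
    have h1 : (j + a) / (M : ℤ) = k := (mem_fib.1 hj).2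
    have h2 := Int.emod_nonneg (j + a) hM'.ne'
    have h3 := Int.emod_lt_of_pos (j + a) hM'
    have h4 := Int.ediv_mul_add_emod (j + a) M
    rw [h1] at h4
    rw [Finset.mem_Ico]
    constructor <;> linarith
  have hcard := Finset.card_le_card hsub
  rw [Int.card_Ico, add_sub_cancel_left, Int.toNat_natCast] at hcard
  rcases Nat.eq_zero_or_pos (fib F (fun j => (j + a) / (M : ℤ)) k).card with h0 | h0
  · rw [h0, Nat.cast_zero, log_zero]
    exact log_natCast_nonneg M
  · exact log_le_log (by exact_mod_cast h0) (by exact_mod_cast hcard)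

theorem D_add (h : Good ν) (h' : Good ν') (s u : ℝ) (G : ℤ → ℤ) :
    (Hu ν s u - Hc ν (fun x => G (cell s u x))) + (Hu ν' s u - Hc ν' (fun x => G (cell s u x))) ≤
      Hu (ν + ν') s u - Hc (ν + ν') (fun x => G (cell s u x)) := by
  obtain ⟨F, hF⟩ := cells (h.add h') s u
  have hF2 := hF
  rw [Measure.add_apply, add_eq_zero] at hF2
  unfold Hu
  rw [Hc_sub_Hc_comp h (measurable_cell s u) hF2.1 G,
    Hc_sub_Hc_comp h' (measurable_cell s u) hF2.2 G,
    Hc_sub_Hc_comp (h.add h') (measurable_cell s u) hF G, ← Finset.sum_add_distrib]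
  simp only [real_add h h']
  exact Finset.sum_le_sum (fun k _ =>
    ent_add_ge (fun _ _ => measureReal_nonneg) (fun _ _ => measureReal_nonneg))

end HsSuperAux

theorem Hk_nonneg (h : Good ν) (s : ℝ) (K : ℕ) : 0 ≤ Hk ν s K := by
  rw [Hk_eq_avg h]
  refine div_nonneg (Finset.sum_nonneg (fun a _ => ?_)) (Nat.cast_nonneg _)
  exact intervalIntegral.integral_nonneg zero_le_one (fun u _ =>
    D_nonneg h _ u (fun j => (j + a) / ((2 ^ K : ℕ) : ℤ)))

theorem Hk_le (h : Good ν) (s : ℝ) (K : ℕ) : Hk ν s K ≤ mss ν * (K * log 2) := by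
  have hM : 0 < 2 ^ K := by positivity
  have hl : log ((2 ^ K : ℕ) : ℝ) = K * log 2 := by
    rw [Nat.cast_pow, log_pow]; norm_num
  have hM' : (0 : ℝ) < ((2 ^ K : ℕ) : ℝ) := by exact_mod_cast hM
  rw [Hk_eq_avg h, div_le_iff₀ hM', ← hl]
  have h1 : ∀ a ∈ Finset.range (2 ^ K), ∫ u in (0 : ℝ)..1, (Hu ν (s + log ((2 ^ K : ℕ) : ℝ)) u -
      Hc ν (fun x => (cell (s + log ((2 ^ K : ℕ) : ℝ)) u x + a) / ((2 ^ K : ℕ) : ℤ))) ≤
      mss ν * log ((2 ^ K : ℕ) : ℝ) := by
    intro a _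
    have := intervalIntegral.integral_mono_on zero_le_one (intInt_D h _ a _)
      intervalIntegrable_const (fun u _ => D_le h (s + log ((2 ^ K : ℕ) : ℝ)) u a hM)
    simpa only [intervalIntegral.integral_const, sub_zero, one_smul] using this
  have h2 := Finset.sum_le_card_nsmul _ _ _ h1
  rw [Finset.card_range, nsmul_eq_mul, mul_comm] at h2
  exact h2

theorem Hk_add_ge (h : Good ν) (h' : Good ν') (s : ℝ) (K : ℕ) :
    Hk ν s K + Hk ν' s K ≤ Hk (ν + ν') s K := by
  rw [Hk_eq_avg h, Hk_eq_avg h', Hk_eq_avg (h.add h'), ← add_div, ← Finset.sum_add_distrib]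
  refine div_le_div_of_nonneg_right (Finset.sum_le_sum (fun a _ => ?_)) (Nat.cast_nonneg _)
  rw [← intervalIntegral.integral_add (intInt_D h _ a _) (intInt_D h' _ a _)]
  exact intervalIntegral.integral_mono_on zero_le_one ((intInt_D h _ a _).add (intInt_D h' _ a _))
    (intInt_D (h.add h') _ a _)
    (fun u _ => D_add h h' _ u (fun j => (j + a) / ((2 ^ K : ℕ) : ℤ)))

theorem Hk_sum_ge {I : Finset ι} {m : ι → Measure ℝ} (h : ∀ i ∈ I, Good (m i)) (s : ℝ) (K : ℕ) :
    ∑ i ∈ I, Hk (m i) s K ≤ Hk (∑ i ∈ I, m i) s K := by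
  refine sum_le (Γ := fun ν => Hk ν s K) ?_ (fun _ _ h1 h2 => Hk_add_ge h1 h2 s K) h
  simp [Hk, Hs_zero]

theorem measurable_Hk (h : Good ν) (K : ℕ) : Measurable (fun s => Hk ν s K) := by
  unfold Hk
  exact ((measurable_Hs h).comp (measurable_id.add_const _)).sub (measurable_Hs h)

namespace Sup

variable {Γ : Measure ℝ → ℝ}

theorem map_zero (h : Sup Γ) : Γ 0 = 0 := by
  have := h.smul 0 0 le_rfl Good.zero
  simpa using this

theorem sum_le (h : Sup Γ) {I : Finset ι} {m : ι → Measure ℝ} (hm : ∀ i ∈ I, Good (m i)) :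
    ∑ i ∈ I, Γ (m i) ≤ Γ (∑ i ∈ I, m i) := by
  exact HsSuperAux.sum_le h.map_zero h.add hm

theorem le_add (h : Sup Γ) (h1 : Good ν) (h2 : Good ν') : Γ ν ≤ Γ (ν + ν') := by
  linarith [h.add _ _ h1 h2, h.nonneg _ h2]

/-- Restricting the atoms or lowering the weights does not increase the functional. -/
theorem atom_mono (h : Sup Γ) {S S' : Finset Ω} {w w' : Ω → ℝ} (t : Ω → ℝ) (hS : S' ⊆ S)
    (hw' : ∀ ω ∈ S', 0 ≤ w' ω) (hw : ∀ ω ∈ S, 0 ≤ w ω) (hle : ∀ ω ∈ S', w' ω ≤ w ω) :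
    Γ (atom S' w' t) ≤ Γ (atom S w t) := by
  classical
  have h1 : atom S w t =
      atom S' w' t + atom S (fun ω => if ω ∈ S' then w ω - w' ω else w ω) t := by
    have h2 : atom S' w' t = atom S (fun ω => if ω ∈ S' then w' ω else 0) t := by
      unfold atom
      rw [← Finset.sum_subset hS (fun ω _ hω => by simp [hω])]
      exact Finset.sum_congr rfl (fun ω hω => by simp only [if_pos hω])
    rw [h2]
    unfold atom
    rw [← Finset.sum_add_distrib]
    refine Finset.sum_congr rfl (fun ω _ => ?_)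
    rw [← add_smul]
    congr 1
    beta_reduce
    split_ifs with hω
    · rw [← ENNReal.ofReal_add (hw' ω hω) (sub_nonneg.2 (hle ω hω)), add_sub_cancel]
    · simp
  have _ := hw
  rw [h1]
  exact h.le_add (Good.atom _ _ _) (Good.atom _ _ _)

theorem sum_atom_fib_le {β : Type*} (h : Sup Γ) (S : Finset Ω) (w t : Ω → ℝ) (X : Ω → β) :
    ∑ b ∈ img S X, Γ (atom (fib S X b) w t) ≤ Γ (atom S w t) := by
  have h1 := h.sum_le (I := img S X) (m := fun b => atom (fib S X b) w t)
    (fun _ _ => Good.atom _ _ _)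
  have h2 : ∑ b ∈ img S X, atom (fib S X b) w t = atom S w t :=
    sum_fib S X (fun ω => ENNReal.ofReal (w ω) • Measure.dirac (t ω))
  rwa [h2] at h1

end Sup

theorem sup_zero : Sup (fun _ => 0) := by
  exact ⟨fun _ _ => le_rfl, fun _ _ _ _ => by simp, fun _ _ _ _ => by simp⟩

theorem sup_Hs (s : ℝ) : Sup (fun ν => Hs ν s) := by
  exact ⟨fun _ h => Hs_nonneg h s, fun _ _ h h' => Hs_add_ge h h' s,
    fun _ _ hc h => Hs_smul h hc s⟩

theorem sup_Hk (s : ℝ) (K : ℕ) : Sup (fun ν => Hk ν s K) := by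
  exact ⟨fun _ h => Hk_nonneg h s K, fun _ _ h h' => Hk_add_ge h h' s K,
    fun _ _ hc h => Hk_smul h hc s K⟩

theorem atom_const_mul (S : Finset Ω) (w t : Ω → ℝ) {c : ℝ} (hc : 0 ≤ c) :
    atom S (fun ω => c * w ω) t = ENNReal.ofReal c • atom S w t := by
  unfold atom
  rw [Finset.smul_sum]
  refine Finset.sum_congr rfl (fun ω _ => ?_)
  rw [ENNReal.ofReal_mul hc, mul_smul]

theorem sum_atom_fib {β : Type*} (S : Finset Ω) (w t : Ω → ℝ) (X : Ω → β) :
    ∑ b ∈ img S X, atom (fib S X b) w t = atom S w t := by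
  exact sum_fib S X (fun ω => ENNReal.ofReal (w ω) • Measure.dirac (t ω))

end

end Vale.Agent.P114
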