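import Vale.Agent.P114.HsSuper

/-! # P114: reduction to well separated atoms -/

open MeasureTheory Real Set Polynomial
open scoped ENNReal

namespace Vale.Agent.P114

noncomputable section

variable {Ω : Type*}

namespace RedAux

theorem sample_step {Γ : Measure ℝ → ℝ} (hΓ : Sup Γ) {ρ : Measure ℝ} (hρ : Good ρ)
    {T : Finset Ω} (hT : T.Nonempty) {w : Ω → ℝ} (hw : ∀ ω ∈ T, 0 ≤ w ω) (t : Ω → ℝ) {γ : ℝ}
    (h : ∀ ω ∈ T, γ ≤ Γ (ρ + ENNReal.ofReal (∑ ω' ∈ T, w ω') • Measure.dirac (t ω))) :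
    γ ≤ Γ (ρ + atom T w t) := by
  obtain ⟨n, hn⟩ : ∃ n, n = ∑ ω' ∈ T, w ω' := ⟨_, rfl⟩
  rw [← hn] at h
  have hn0 : 0 ≤ n := by rw [hn]; exact Finset.sum_nonneg hw
  rcases hn0.eq_or_lt with h0 | hpos
  · obtain ⟨ω, hω⟩ := hT
    have h1 := h ω hω
    rw [← h0, ENNReal.ofReal_zero, zero_smul, add_zero] at h1
    exact h1.trans (hΓ.le_add hρ (Good.atom T w t))
  · have hg : ∀ ω, Good (ρ + ENNReal.ofReal n • Measure.dirac (t ω)) := fun ω =>
      hρ.add ((Good.dirac _).smul _)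
    have hq : ∀ ω ∈ T, 0 ≤ w ω / n := fun ω hω => div_nonneg (hw ω hω) hn0
    have hs : ∑ ω ∈ T, w ω / n = 1 := by rw [← Finset.sum_div, ← hn, div_self hpos.ne']
    have e : ∑ ω ∈ T, ENNReal.ofReal (w ω / n) • (ρ + ENNReal.ofReal n • Measure.dirac (t ω)) =
        ρ + atom T w t := by
      simp only [smul_add, Finset.sum_add_distrib]
      congr 1
      · rw [← Finset.sum_smul, ← ENNReal.ofReal_sum_of_nonneg hq, hs, ENNReal.ofReal_one,
          one_smul]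
      · refine Finset.sum_congr rfl fun ω hω => ?_
        rw [smul_smul, ← ENNReal.ofReal_mul (hq ω hω), div_mul_cancel₀ _ hpos.ne']
    have h1 := hΓ.sum_le (I := T)
      (m := fun ω => ENNReal.ofReal (w ω / n) • (ρ + ENNReal.ofReal n • Measure.dirac (t ω)))
      fun ω _ => (hg ω).smul _
    rw [e] at h1
    refine le_trans ?_ h1
    calc γ = ∑ ω ∈ T, w ω / n * γ := by rw [← Finset.sum_mul, hs, one_mul]
      _ ≤ _ := Finset.sum_le_sum fun ω hω => by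
        rw [hΓ.smul _ _ (hq ω hω) (hg ω)]
        exact mul_le_mul_of_nonneg_left (h ω hω) (hq ω hω)

theorem sample_ind {Γ : Measure ℝ → ℝ} (hΓ : Sup Γ) {S : Finset Ω} {w : Ω → ℝ}
    (hw : ∀ ω ∈ S, 0 ≤ w ω) (t : Ω → ℝ) (c : Ω → ℤ) (γ : ℝ) (J : Finset ℤ) :
    J ⊆ img S c → ∀ ρ : Measure ℝ, Good ρ →
      (∀ x : ℤ → ℝ, (∀ j ∈ J, ∃ ω ∈ fib S c j, x j = t ω) →
        γ ≤ Γ (ρ + atom J (mass S w c) x)) →
      γ ≤ Γ (ρ + ∑ j ∈ J, atom (fib S c j) w t) := by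
  induction J using Finset.induction_on with
  | empty =>
    intro _ ρ _ h
    simpa [atom] using h (fun _ => 0) (by simp)
  | insert j0 J hj0 ih =>
    intro hJ ρ hρ h
    rw [Finset.sum_insert hj0, add_comm (atom (fib S c j0) w t), ← add_assoc]
    have hne : (fib S c j0).Nonempty := by
      obtain ⟨ω, hω, e⟩ := mem_img.1 (hJ (Finset.mem_insert_self j0 J))
      exact ⟨ω, mem_fib.2 ⟨hω, e⟩⟩
    refine sample_step hΓ (hρ.add (Good.sum fun j _ => Good.atom _ _ _)) hne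
      (fun ω hω => hw ω (fib_subset _ _ _ hω)) t fun ω hω => ?_
    rw [add_right_comm]
    refine ih ((Finset.subset_insert j0 J).trans hJ) _ (hρ.add ((Good.dirac _).smul _))
      fun x hx => ?_
    have h1 := h (Function.update x j0 (t ω)) (by
      intro j hj
      rcases Finset.mem_insert.1 hj with rfl | hj
      · exact ⟨ω, hω, by simp⟩
      · have hne : j ≠ j0 := fun e => hj0 (e ▸ hj)
        rw [Function.update_of_ne hne]
        exact hx j hj)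
    have e : atom (insert j0 J) (mass S w c) (Function.update x j0 (t ω)) =
        ENNReal.ofReal (∑ ω' ∈ fib S c j0, w ω') • Measure.dirac (t ω) +
          atom J (mass S w c) x := by
      unfold atom
      rw [Finset.sum_insert hj0, Function.update_self]
      congr 1
      refine Finset.sum_congr rfl fun j hj => ?_
      have hne : j ≠ j0 := fun e => hj0 (e ▸ hj)
      rw [Function.update_of_ne hne]
    rwa [e, ← add_assoc] at h1

theorem entW_const {β : Type*} {S : Finset Ω} (w : Ω → ℝ) {X : Ω → β}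
    (h : ∀ ω ∈ S, ∀ ω' ∈ S, X ω = X ω') : entW S w X = 0 := by
  refine ent_of_card_le_one _ (Finset.card_le_one.2 fun a ha b hb => ?_)
  obtain ⟨ω, hω, rfl⟩ := mem_img.1 ha
  obtain ⟨ω', hω', rfl⟩ := mem_img.1 hb
  exact h ω hω ω' hω'

/-- The marker of the cells off the core. -/
def mark (core : ℤ → Prop) [DecidablePred core] (y : ℤ) : Option ℤ :=
  if core y then none else some y

theorem entW_le_mark {S : Finset Ω} {w : Ω → ℝ} (hw : ∀ ω ∈ S, 0 ≤ w ω) (c : Ω → ℤ)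
    (core : ℤ → Prop) [DecidablePred core] (g : ℤ → ℤ) :
    entW S w (fun ω => g (c ω)) ≤ entW S w (fun ω => mark core (c ω)) +
      entW (S.filter (fun ω => core (c ω))) w (fun ω => g (c ω)) := by
  classical
  have h1 : entW S w (fun ω => g (c ω)) ≤ entW S w (fun ω => (g (c ω), mark core (c ω))) :=
    entW_mono hw fun ω _ ω' _ h => congrArg Prod.fst h
  have h2 := condW_eq_sum S w (fun ω => g (c ω)) (fun ω => mark core (c ω))
  have hE : 0 ≤ entW (S.filter (fun ω => core (c ω))) w (fun ω => g (c ω)) :=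
    entW_nonneg (fun ω hω => hw ω (Finset.mem_filter.1 hω).1) _
  have h3 : ∀ z ∈ img S (fun ω => mark core (c ω)),
      entW (fib S (fun ω => mark core (c ω)) z) w (fun ω => g (c ω)) =
        if z = none then entW (S.filter (fun ω => core (c ω))) w (fun ω => g (c ω)) else 0 := by
    intro z _
    split_ifs with hz
    · congr 1
      ext ω
      rw [mem_fib, Finset.mem_filter, hz]
      unfold mark
      by_cases hc : core (c ω) <;> simp [hc]
    · refine entW_const w fun ω hω ω' hω' => ?_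
      have e1 := (mem_fib.1 hω).2
      have e2 := (mem_fib.1 hω').2
      unfold mark at e1 e2
      by_cases hc : core (c ω)
      · exact absurd (by simpa [hc] using e1.symm) hz
      · by_cases hc' : core (c ω')
        · exact absurd (by simpa [hc'] using e2.symm) hz
        · simp only [hc, hc', if_false] at e1 e2
          have : c ω = c ω' := Option.some.inj (e1.trans e2.symm)
          rw [this]
  rw [Finset.sum_congr rfl h3, Finset.sum_ite_eq'] at h2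
  unfold condW at h2
  split_ifs at h2 <;> linarith

/-- Information content of a point. -/
def ell (S : Finset Ω) (w : Ω → ℝ) (c : Ω → ℤ) (ω : Ω) : ℝ :=
  log (∑ ω' ∈ S, w ω') - log (mass S w c (c ω))

theorem le_mass {S : Finset Ω} {w : Ω → ℝ} (hw : ∀ ω ∈ S, 0 ≤ w ω) (c : Ω → ℤ) {ω : Ω}
    (hω : ω ∈ S) : w ω ≤ mass S w c (c ω) :=
  Finset.single_le_sum (f := w) (fun ω' hω' => hw ω' (fib_subset _ _ _ hω'))
    (mem_fib.2 ⟨hω, rfl⟩)

theorem mul_ell_ge {S : Finset Ω} {w : Ω → ℝ} (hw : ∀ ω ∈ S, 0 ≤ w ω) (c : Ω → ℤ) {ω : Ω}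
    (hω : ω ∈ S) {k : ℝ} (hk : 0 < k) (h : k * mass S w c (c ω) ≤ ∑ ω' ∈ S, w ω') :
    w ω * log k ≤ w ω * ell S w c ω := by
  rcases (hw ω hω).eq_or_lt with h0 | hpos
  · rw [← h0, zero_mul, zero_mul]
  · have hm : 0 < mass S w c (c ω) := hpos.trans_le (le_mass hw c hω)
    refine mul_le_mul_of_nonneg_left ?_ hpos.le
    have := log_le_log (mul_pos hk hm) h
    rw [log_mul hk.ne' hm.ne'] at this
    unfold ell
    linarith

theorem mul_ell_nonneg {S : Finset Ω} {w : Ω → ℝ} (hw : ∀ ω ∈ S, 0 ≤ w ω) (c : Ω → ℤ) {ω : Ω}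
    (hω : ω ∈ S) : 0 ≤ w ω * ell S w c ω := by
  have := mul_ell_ge hw c hω one_pos (by
    rw [one_mul]
    exact Finset.sum_le_sum_of_subset_of_nonneg (fib_subset _ _ _) fun ω' h _ => hw ω' h)
  simpa using this

theorem exists_heavy {S : Finset Ω} {w : Ω → ℝ} (hw : ∀ ω ∈ S, 0 ≤ w ω) (c : Ω → ℤ) :
    ∃ y : ℤ, ∀ ω ∈ S, c ω ≠ y → w ω ≤ 2 * (w ω * ell S w c ω) := by
  classical
  have hl : (1 : ℝ) / 2 ≤ log 2 := by
    have := Real.log_two_gt_d9
    linarith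
  have key : ∀ ω ∈ S, 2 * mass S w c (c ω) ≤ ∑ ω' ∈ S, w ω' → w ω ≤ 2 * (w ω * ell S w c ω) := by
    intro ω hω h
    have h1 := mul_ell_ge hw c hω two_pos h
    have h2 := mul_le_mul_of_nonneg_left hl (hw ω hω)
    linarith
  by_cases hy : ∃ y : ℤ, ∑ ω' ∈ S, w ω' < 2 * mass S w c y
  · obtain ⟨y, hy⟩ := hy
    refine ⟨y, fun ω hω hne => key ω hω ?_⟩
    have hd : Disjoint (fib S c (c ω)) (fib S c y) := by
      rw [Finset.disjoint_left]
      intro a ha hb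
      exact hne ((mem_fib.1 ha).2.symm.trans (mem_fib.1 hb).2)
    have h1 : mass S w c (c ω) + mass S w c y ≤ ∑ ω' ∈ S, w ω' := by
      unfold mass
      rw [← Finset.sum_union hd]
      exact Finset.sum_le_sum_of_subset_of_nonneg
        (Finset.union_subset (fib_subset _ _ _) (fib_subset _ _ _)) fun ω' h _ => hw ω' h
    linarith
  · exact ⟨0, fun ω hω _ => key ω hω (not_lt.1 fun h => hy ⟨_, h⟩)⟩

theorem mul_log_sub_le {P N : ℝ} (hP : 0 ≤ P) (hN : P ≤ N) : P * (log N - log P) ≤ N - P := by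
  rcases hP.eq_or_lt with h0 | hpos
  · rw [← h0, zero_mul]
    linarith
  · have hN0 : 0 < N := hpos.trans_le hN
    have h1 := log_le_sub_one_of_pos (div_pos hN0 hpos)
    rw [log_div hN0.ne' hpos.ne'] at h1
    have h2 := mul_le_mul_of_nonneg_left h1 hP
    have h3 : P * (N / P - 1) = N - P := by field_simp
    linarith

theorem entW_mark_le {S : Finset Ω} {w : Ω → ℝ} (hw : ∀ ω ∈ S, 0 ≤ w ω) (c : Ω → ℤ)
    (core : ℤ → Prop) [DecidablePred core] :
    entW S w (fun ω => mark core (c ω)) ≤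
      ∑ ω ∈ S.filter (fun ω => ¬ core (c ω)), (w ω * ell S w c ω + w ω) := by
  rw [entW_eq_sum, ← Finset.sum_filter_add_sum_filter_not S (fun ω => core (c ω))]
  have h1 : ∀ ω ∈ S.filter (fun ω => core (c ω)),
      w ω * (log (∑ ω' ∈ S, w ω') - log (mass S w (fun ω => mark core (c ω)) (mark core (c ω)))) =
      w ω * (log (∑ ω' ∈ S, w ω') - log (∑ ω' ∈ S.filter (fun ω => core (c ω)), w ω')) := by
    intro ω hω
    have hc := (Finset.mem_filter.1 hω).2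
    have : fib S (fun ω => mark core (c ω)) (mark core (c ω)) = S.filter (fun ω => core (c ω)) := by
      ext ω'
      rw [mem_fib, Finset.mem_filter]
      unfold mark
      by_cases hc' : core (c ω') <;> simp [hc, hc']
    rw [mass, this]
  have h2 : ∀ ω ∈ S.filter (fun ω => ¬ core (c ω)),
      w ω * (log (∑ ω' ∈ S, w ω') - log (mass S w (fun ω => mark core (c ω)) (mark core (c ω)))) =
      w ω * ell S w c ω := by
    intro ω hω
    have hc := (Finset.mem_filter.1 hω).2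
    have : fib S (fun ω => mark core (c ω)) (mark core (c ω)) = fib S c (c ω) := by
      ext ω'
      rw [mem_fib, mem_fib]
      unfold mark
      by_cases hc' : core (c ω')
      · have : c ω' ≠ c ω := fun e => hc (e ▸ hc')
        simp [hc, hc', this]
      · simp [hc, hc']
    rw [ell, mass, mass, this]
  rw [Finset.sum_congr rfl h1, Finset.sum_congr rfl h2, ← Finset.sum_mul, Finset.sum_add_distrib]
  have h3 := Finset.sum_filter_add_sum_filter_not S (fun ω => core (c ω)) w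
  have h4 : 0 ≤ ∑ ω ∈ S.filter (fun ω => core (c ω)), w ω :=
    Finset.sum_nonneg fun ω hω => hw ω (Finset.mem_filter.1 hω).1
  have h5 : 0 ≤ ∑ ω ∈ S.filter (fun ω => ¬ core (c ω)), w ω :=
    Finset.sum_nonneg fun ω hω => hw ω (Finset.mem_filter.1 hω).1
  have h6 := mul_log_sub_le h4 (N := ∑ ω' ∈ S, w ω') (by linarith)
  linarith

theorem entW_mark_le' {S : Finset Ω} {w : Ω → ℝ} (hw : ∀ ω ∈ S, 0 ≤ w ω) (c : Ω → ℤ)
    (core : ℤ → Prop) [DecidablePred core] {y : ℤ}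
    (hy : ∀ ω ∈ S, c ω ≠ y → w ω ≤ 2 * (w ω * ell S w c ω)) :
    entW S w (fun ω => mark core (c ω)) ≤
      ∑ ω ∈ S, 3 * (w ω * ell S w c ω) * (if core (c ω) then 0 else 1) +
        entW S w c * (if core y then 0 else 1) := by
  have h0 : 0 ≤ ∑ ω ∈ S, 3 * (w ω * ell S w c ω) * (if core (c ω) then 0 else 1) :=
    Finset.sum_nonneg fun ω hω => mul_nonneg
      (mul_nonneg (by norm_num) (mul_ell_nonneg hw c hω)) (by split_ifs <;> norm_num)
  by_cases hc : core y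
  · rw [if_pos hc, mul_zero, add_zero]
    refine (entW_mark_le hw c core).trans ?_
    rw [Finset.sum_filter]
    refine Finset.sum_le_sum fun ω hω => ?_
    by_cases hc' : core (c ω)
    · simp [hc']
    · have := hy ω hω fun e => hc' (e ▸ hc)
      rw [if_pos hc', if_neg hc']
      linarith
  · rw [if_neg hc, mul_one]
    have : entW S w (fun ω => mark core (c ω)) ≤ entW S w c :=
      entW_mono hw fun ω _ ω' _ h => by rw [h]
    linarith

theorem count_off (y : ℤ) {M : ℕ} :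
    ∑ a ∈ Finset.range M,
      (if (y + a) % (M : ℤ) ≠ 0 ∧ (y + a) % (M : ℤ) ≠ M - 1 then (0 : ℝ) else 1) ≤ 2 := by
  have h1 : ∑ a ∈ Finset.range M,
      (if (y + a) % (M : ℤ) ≠ 0 ∧ (y + a) % (M : ℤ) ≠ M - 1 then (0 : ℝ) else 1) =
      (((Finset.range M).filter
        (fun a : ℕ => ¬ ((y + a) % (M : ℤ) ≠ 0 ∧ (y + a) % (M : ℤ) ≠ M - 1))).card : ℝ) := by
    rw [Finset.card_filter]
    push_cast
    refine Finset.sum_congr rfl fun a _ => ?_
    split_ifs <;> rfl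
  rw [h1]
  have h2 : ((Finset.range M).filter
      (fun a : ℕ => ¬ ((y + a) % (M : ℤ) ≠ 0 ∧ (y + a) % (M : ℤ) ≠ M - 1))).card ≤
      ({0, (M : ℤ) - 1} : Finset ℤ).card := by
    refine Finset.card_le_card_of_injOn (fun a : ℕ => (y + a) % (M : ℤ)) ?_ ?_
    · intro a ha
      have := (Finset.mem_filter.1 (Finset.mem_coe.1 ha)).2
      simp only [Finset.coe_insert, Finset.coe_singleton, mem_insert_iff, mem_singleton_iff]
      tauto
    · intro a ha a' ha' h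
      have h1 := Finset.mem_range.1 (Finset.mem_filter.1 (Finset.mem_coe.1 ha)).1
      have h2 := Finset.mem_range.1 (Finset.mem_filter.1 (Finset.mem_coe.1 ha')).1
      have h3 : (M : ℤ) ∣ (y + a) - (y + a') :=
        Int.dvd_of_emod_eq_zero (Int.emod_eq_emod_iff_emod_sub_eq_zero.1 h)
      have h4 := Int.eq_zero_of_abs_lt_dvd h3 (by rw [abs_lt]; constructor <;> omega)
      omega
  have h3 : ({0, (M : ℤ) - 1} : Finset ℤ).card ≤ 2 := Finset.card_le_two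
  exact_mod_cast h2.trans h3

theorem fibre_bound {S : Finset Ω} {w : Ω → ℝ} (hw : ∀ ω ∈ S, 0 ≤ w ω) (c : Ω → ℤ) (M : ℕ) :
    ∑ a ∈ Finset.range M, entW S w (fun ω => (c ω + a) / (M : ℤ)) ≤
      ∑ a ∈ Finset.range M,
        entW (S.filter (fun ω => (c ω + a) % (M : ℤ) ≠ 0 ∧ (c ω + a) % (M : ℤ) ≠ M - 1)) w
          (fun ω => (c ω + a) / (M : ℤ)) + 8 * entW S w c := by
  obtain ⟨y, hy⟩ := exists_heavy hw c
  have h1 : ∀ a ∈ Finset.range M, entW S w (fun ω => (c ω + a) / (M : ℤ)) ≤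
      entW (S.filter (fun ω => (c ω + a) % (M : ℤ) ≠ 0 ∧ (c ω + a) % (M : ℤ) ≠ M - 1)) w
          (fun ω => (c ω + a) / (M : ℤ)) +
        (∑ ω ∈ S, 3 * (w ω * ell S w c ω) *
          (if (c ω + a) % (M : ℤ) ≠ 0 ∧ (c ω + a) % (M : ℤ) ≠ M - 1 then 0 else 1) +
        entW S w c * (if (y + a) % (M : ℤ) ≠ 0 ∧ (y + a) % (M : ℤ) ≠ M - 1 then 0 else 1)) := by
    intro a _
    have e1 := entW_le_mark hw c (fun z => (z + a) % (M : ℤ) ≠ 0 ∧ (z + a) % (M : ℤ) ≠ M - 1)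
      (fun z => (z + a) / (M : ℤ))
    have e2 := entW_mark_le' hw c
      (fun z => (z + a) % (M : ℤ) ≠ 0 ∧ (z + a) % (M : ℤ) ≠ M - 1) hy
    linarith
  have h2 := Finset.sum_le_sum h1
  rw [Finset.sum_add_distrib, Finset.sum_add_distrib, ← Finset.mul_sum, Finset.sum_comm] at h2
  have h3 := mul_le_mul_of_nonneg_left (count_off y (M := M)) (entW_nonneg hw c)
  have h4 : ∑ ω ∈ S, ∑ a ∈ Finset.range M, 3 * (w ω * ell S w c ω) *
      (if (c ω + a) % (M : ℤ) ≠ 0 ∧ (c ω + a) % (M : ℤ) ≠ M - 1 then (0 : ℝ) else 1) ≤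
      ∑ ω ∈ S, 6 * (w ω * ell S w c ω) := by
    refine Finset.sum_le_sum fun ω hω => ?_
    rw [← Finset.mul_sum]
    have := mul_le_mul_of_nonneg_left (count_off (c ω) (M := M)) (mul_ell_nonneg hw c hω)
    linarith
  have h5 : ∑ ω ∈ S, 6 * (w ω * ell S w c ω) = 6 * entW S w c := by
    rw [← Finset.mul_sum, entW_eq_sum]
    rfl
  linarith

theorem condW_filter {β γ : Type*} (S : Finset Ω) (w : Ω → ℝ) (X : Ω → β) (B : Ω → γ)
    (P : Ω → Prop) [DecidablePred P] :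
    condW (S.filter P) w X B = ∑ b ∈ img S B, entW ((fib S B b).filter P) w X := by
  have e : ∀ b, fib (S.filter P) B b = (fib S B b).filter P := by
    intro b
    ext ω
    simp only [mem_fib, Finset.mem_filter]
    tauto
  rw [condW_eq_sum]
  simp only [e]
  refine Finset.sum_subset (fun b hb => ?_) fun b _ hb => ?_
  · obtain ⟨ω, hω, h⟩ := mem_img.1 hb
    exact mem_img.2 ⟨ω, (Finset.mem_filter.1 hω).1, h⟩
  · refine entW_const w fun ω hω _ _ => ?_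
    rw [← e] at hω
    exact absurd (mem_img.2 ⟨ω, (mem_fib.1 hω).1, (mem_fib.1 hω).2⟩) hb

end RedAux

open RedAux

/-- Sampling one atom from every group. -/
theorem Sup.sample {Γ : Measure ℝ → ℝ} (hΓ : Sup Γ) {S : Finset Ω} {w : Ω → ℝ}
    (hw : ∀ ω ∈ S, 0 ≤ w ω) (t : Ω → ℝ) (c : Ω → ℤ) (γ : ℝ)
    (h : ∀ x : ℤ → ℝ, (∀ j ∈ img S c, ∃ ω ∈ fib S c j, x j = t ω) →
      γ ≤ Γ (atom (img S c) (mass S w c) x)) :
    γ ≤ Γ (atom S w t) := by
  have := sample_ind hΓ hw t c γ (img S c) (Finset.Subset.refl _) 0 Good.zero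
    (fun x hx => by rw [zero_add]; exact h x hx)
  rwa [zero_add, sum_atom_fib] at this

/-- The discrete inequality. `c` is the fine cell, `(c + a1) / M1` the middle symbol,
`(c + a0) / M0` the coarse cell; the core omits the first and last fine cell of a symbol. -/
theorem red_discrete {S : Finset Ω} {w : Ω → ℝ} (hw : ∀ ω ∈ S, 0 ≤ w ω) (c : Ω → ℤ)
    (B : Ω → ℤ) (hB : ∀ ω ∈ S, ∀ ω' ∈ S, c ω = c ω' → B ω = B ω') {M1 : ℕ} (hM1 : 0 < M1) :
    (∑ a1 ∈ Finset.range M1, (entW S w (fun ω => (c ω + a1) / (M1 : ℤ)) - entW S w B)) / M1 ≤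
      (∑ a1 ∈ Finset.range M1,
        condW (S.filter (fun ω => (c ω + a1) % (M1 : ℤ) ≠ 0 ∧ (c ω + a1) % (M1 : ℤ) ≠ M1 - 1)) w
          (fun ω => (c ω + a1) / (M1 : ℤ)) B) / M1 +
      8 / M1 * (entW S w c - entW S w B) := by
  have hM : (0 : ℝ) < M1 := by exact_mod_cast hM1
  have h1 : ∀ a1 ∈ Finset.range M1, entW S w (fun ω => (c ω + a1) / (M1 : ℤ)) - entW S w B ≤
      ∑ b ∈ img S B, entW (fib S B b) w (fun ω => (c ω + a1) / (M1 : ℤ)) := by
    intro a1 _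
    rw [← condW_eq_sum]
    have : entW S w (fun ω => (c ω + a1) / (M1 : ℤ)) ≤
        entW S w (fun ω => ((c ω + a1) / (M1 : ℤ), B ω)) :=
      entW_mono hw fun ω _ ω' _ h => congrArg Prod.fst h
    unfold condW
    linarith
  have h2 : entW S w c - entW S w B = ∑ b ∈ img S B, entW (fib S B b) w c := by
    rw [← condW_eq_sum]
    have : entW S w c = entW S w (fun ω => (c ω, B ω)) :=
      entW_congr w fun ω hω ω' hω' =>
        ⟨fun h => Prod.ext h (hB ω hω ω' hω' h), fun h => congrArg Prod.fst h⟩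
    unfold condW
    rw [this]
  have h3 := Finset.sum_le_sum h1
  rw [Finset.sum_comm] at h3
  have h4 := Finset.sum_le_sum fun b (_ : b ∈ img S B) =>
    fibre_bound (S := fib S B b) (fun ω hω => hw ω (fib_subset _ _ _ hω)) c M1
  rw [Finset.sum_add_distrib, ← Finset.mul_sum, ← h2] at h4
  have h5 := h3.trans h4
  rw [Finset.sum_comm] at h5
  simp only [condW_filter]
  have h6 := div_le_div_of_nonneg_right h5 hM.le
  rw [add_div] at h6
  have h7 : 8 * (entW S w c - entW S w B) / M1 = 8 / M1 * (entW S w c - entW S w B) := by ring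
  linarith

namespace RedAux

theorem two_le_abs {z z' M : ℤ} (hM : 0 < M) (hne : z / M ≠ z' / M) (hz : z % M ≠ M - 1)
    (hz' : z' % M ≠ M - 1) : 2 ≤ |z - z'| := by
  have key : ∀ a : ℤ, a % M ≠ M - 1 → (a + 1) / M = a / M := by
    intro a ha
    have h1 := Int.emod_add_mul_ediv a M
    have h2 := Int.emod_nonneg a hM.ne'
    have h3 := Int.emod_lt_of_pos a hM
    exact ((Int.ediv_emod_unique (a := a + 1) (r := a % M + 1) (q := a / M) hM).2
      ⟨by linarith, by linarith, by omega⟩).1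
  by_contra hlt
  have h1 : |z - z'| < 2 := not_le.1 hlt
  rw [abs_lt] at h1
  have : z = z' ∨ z' = z + 1 ∨ z = z' + 1 := by omega
  rcases this with h | h | h
  · exact hne (by rw [h])
  · exact hne (by rw [h, key z hz])
  · exact hne (by rw [h, key z' hz'])

theorem bounds_of_ediv {z b M : ℤ} (hM : 0 < M) (h : z / M = b) : M * b ≤ z ∧ z < M * b + M := by
  have h1 := Int.emod_add_mul_ediv z M
  have h2 := Int.emod_nonneg z hM.ne'
  have h3 := Int.emod_lt_of_pos z hM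
  rw [h] at h1
  constructor <;> linarith

theorem abs_cell (s u x x' : ℝ) :
    abs (|x - x'| * exp s - |((cell s u x - cell s u x' : ℤ) : ℝ)|) < 1 := by
  have h1 := Int.floor_le (x * exp s + u)
  have h2 := Int.lt_floor_add_one (x * exp s + u)
  have h3 := Int.floor_le (x' * exp s + u)
  have h4 := Int.lt_floor_add_one (x' * exp s + u)
  have e : |x - x'| * exp s = |(x - x') * exp s| := by
    rw [abs_mul, abs_of_pos (exp_pos s)]
  rw [e]
  refine (abs_abs_sub_abs_le_abs_sub _ _).trans_lt ?_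
  unfold cell
  push_cast
  rw [abs_lt]
  constructor <;> linarith

theorem sup_const_mul {Γ : Measure ℝ → ℝ} (hΓ : Sup Γ) {b : ℝ} (hb : 0 ≤ b) :
    Sup (fun ν => b * Γ ν) :=
  ⟨fun ν hν => mul_nonneg hb (hΓ.nonneg ν hν),
    fun ν ν' hν hν' => by
      have := mul_le_mul_of_nonneg_left (hΓ.add ν ν' hν hν') hb
      linarith,
    fun c ν hc hν => by rw [hΓ.smul c ν hc hν]; ring⟩

theorem core_fibre {S T : Finset Ω} (hTS : T ⊆ S) {w : Ω → ℝ} (hw : ∀ ω ∈ S, 0 ≤ w ω)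
    (t : Ω → ℝ) {Γ : Measure ℝ → ℝ} (hΓ : Sup Γ) (σ0 : ℝ) (K0 K2 : ℕ) {η b : ℝ} (hb : 0 ≤ b)
    (hB : ∀ (J : Finset ℤ) (n x : ℤ → ℝ), (∀ j ∈ J, 0 ≤ n j) → J.card ≤ 2 ^ K0 + 1 →
      (∀ j ∈ J, ∃ ω ∈ S, x j = t ω) → Sep J x σ0 (σ0 + (K0 + K2 : ℕ) * log 2) →
      ent J n ≤ η * ∑ j ∈ J, n j + b * Γ (atom J n x))
    (u : ℝ) (c : Ω → ℤ) (hc : ∀ ω, c ω = cell (σ0 + (K0 + K2 : ℕ) * log 2) u (t ω))
    (a0 a1 k : ℤ) (hk : ∀ ω ∈ T, (c ω + a0) / ((2 ^ (K0 + K2) : ℕ) : ℤ) = k)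
    (hcore : ∀ ω ∈ T, (c ω + a1) % ((2 ^ K2 : ℕ) : ℤ) ≠ ((2 ^ K2 : ℕ) : ℤ) - 1) :
    entW T w (fun ω => (c ω + a1) / ((2 ^ K2 : ℕ) : ℤ)) ≤
      η * ∑ ω ∈ T, w ω + b * Γ (atom T w t) := by
  have hwT : ∀ ω ∈ T, 0 ≤ w ω := fun ω hω => hw ω (hTS hω)
  obtain ⟨M1, hM1⟩ : ∃ M1 : ℤ, M1 = ((2 ^ K2 : ℕ) : ℤ) := ⟨_, rfl⟩
  obtain ⟨M0, hM0⟩ : ∃ M0 : ℤ, M0 = ((2 ^ (K0 + K2) : ℕ) : ℤ) := ⟨_, rfl⟩
  rw [← hM1] at hcore ⊢
  rw [← hM0] at hk
  have hM1p : 0 < M1 := by rw [hM1]; positivity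
  have hM0p : 0 < M0 := by rw [hM0]; positivity
  have hM01 : M0 = ((2 ^ K0 : ℕ) : ℤ) * M1 := by
    rw [hM0, hM1]
    push_cast
    ring
  obtain ⟨X, hX⟩ : ∃ X : Ω → ℤ, X = fun ω => (c ω + a1) / M1 := ⟨_, rfl⟩
  rw [← hX]
  have hcard : (img T X).card ≤ 2 ^ K0 + 1 := by
    have hsub : img T X ⊆ Finset.Icc ((M0 * k - a0 + a1) / M1)
        ((M0 * k - a0 + a1) / M1 + ((2 ^ K0 : ℕ) : ℤ)) := by
      intro j hj
      obtain ⟨ω, hω, rfl⟩ := mem_img.1 hj
      obtain ⟨h1, h2⟩ := bounds_of_ediv hM0p (hk ω hω)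
      rw [Finset.mem_Icc, hX]
      refine ⟨Int.ediv_le_ediv hM1p (by linarith), ?_⟩
      rw [← Int.add_mul_ediv_right _ _ hM1p.ne', ← hM01]
      exact Int.ediv_le_ediv hM1p (by linarith)
    refine (Finset.card_le_card hsub).trans ?_
    rw [Int.card_Icc]
    generalize (2 ^ K0 : ℕ) = N
    omega
  have key := Sup.sample (sup_const_mul hΓ hb) hwT t X (entW T w X - η * ∑ ω ∈ T, w ω) (by
    intro x hx
    have hsep : Sep (img T X) x σ0 (σ0 + (K0 + K2 : ℕ) * log 2) := by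
      intro j hj j' hj' hne
      obtain ⟨ω, hω, e⟩ := hx j hj
      obtain ⟨ω', hω', e'⟩ := hx j' hj'
      rw [mem_fib] at hω hω'
      rw [e, e']
      have h1 := abs_cell (σ0 + (K0 + K2 : ℕ) * log 2) u (t ω) (t ω')
      rw [← hc, ← hc, abs_lt] at h1
      have h2 : 2 ≤ |(c ω + a1) - (c ω' + a1)| := by
        refine two_le_abs hM1p ?_ (hcore ω hω.1) (hcore ω' hω'.1)
        have e1 : (c ω + a1) / M1 = j := by rw [← hω.2, hX]
        have e2 : (c ω' + a1) / M1 = j' := by rw [← hω'.2, hX]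
        rw [e1, e2]
        exact hne
      rw [add_sub_add_right_eq_sub] at h2
      have h3 : |c ω - c ω'| + 1 ≤ M0 := by
        obtain ⟨h1, h2⟩ := bounds_of_ediv hM0p (hk ω hω.1)
        obtain ⟨h1', h2'⟩ := bounds_of_ediv hM0p (hk ω' hω'.1)
        have : |c ω - c ω'| < M0 := by
          rw [abs_lt]
          constructor <;> linarith
        omega
      have h2' : (2 : ℝ) ≤ |((c ω - c ω' : ℤ) : ℝ)| := by exact_mod_cast h2
      have h3' : |((c ω - c ω' : ℤ) : ℝ)| + 1 ≤ (M0 : ℝ) := by exact_mod_cast h3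
      have hexp : exp (σ0 + (K0 + K2 : ℕ) * log 2) = exp σ0 * M0 := by
        rw [exp_add, hM0, ← log_pow, exp_log (by positivity)]
        push_cast
        ring
      have hM0r : (0 : ℝ) < M0 := by exact_mod_cast hM0p
      constructor
      · rw [exp_neg, inv_eq_one_div, div_le_iff₀ (exp_pos _)]
        linarith [h1.1]
      · rw [exp_neg, inv_eq_one_div, le_div_iff₀ (exp_pos _)]
        have h4 : |t ω - t ω'| * exp σ0 * M0 ≤ 1 * M0 := by
          have := h1.2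
          rw [hexp] at this
          linarith
        exact le_of_mul_le_mul_right h4 hM0r
    have h1 := hB (img T X) (mass T w X) x (fun j _ => mass_nonneg hwT X j) hcard
      (fun j hj => by
        obtain ⟨ω, hω, e⟩ := hx j hj
        exact ⟨ω, hTS (fib_subset _ _ _ hω), e⟩) hsep
    rw [sum_mass] at h1
    unfold entW
    linarith)
  linarith

theorem core_bound {S : Finset Ω} {w : Ω → ℝ} (hw : ∀ ω ∈ S, 0 ≤ w ω)
    (t : Ω → ℝ) {Γ : Measure ℝ → ℝ} (hΓ : Sup Γ) (σ0 : ℝ) (K0 K2 : ℕ) {η b : ℝ} (hη : 0 ≤ η)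
    (hb : 0 ≤ b)
    (hB : ∀ (J : Finset ℤ) (n x : ℤ → ℝ), (∀ j ∈ J, 0 ≤ n j) → J.card ≤ 2 ^ K0 + 1 →
      (∀ j ∈ J, ∃ ω ∈ S, x j = t ω) → Sep J x σ0 (σ0 + (K0 + K2 : ℕ) * log 2) →
      ent J n ≤ η * ∑ j ∈ J, n j + b * Γ (atom J n x))
    (u : ℝ) (c : Ω → ℤ) (hc : ∀ ω, c ω = cell (σ0 + (K0 + K2 : ℕ) * log 2) u (t ω))
    (a0 a1 : ℤ) {T : Finset Ω} (hTS : T ⊆ S)
    (hcore : ∀ ω ∈ T, (c ω + a1) % ((2 ^ K2 : ℕ) : ℤ) ≠ ((2 ^ K2 : ℕ) : ℤ) - 1) :
    condW T w (fun ω => (c ω + a1) / ((2 ^ K2 : ℕ) : ℤ))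
        (fun ω => (c ω + a0) / ((2 ^ (K0 + K2) : ℕ) : ℤ)) ≤
      η * ∑ ω ∈ S, w ω + b * Γ (atom S w t) := by
  rw [condW_eq_sum]
  have h1 := Finset.sum_le_sum
    fun k (_ : k ∈ img T (fun ω => (c ω + a0) / ((2 ^ (K0 + K2) : ℕ) : ℤ))) =>
    core_fibre (T := fib T (fun ω => (c ω + a0) / ((2 ^ (K0 + K2) : ℕ) : ℤ)) k)
      ((fib_subset _ _ _).trans hTS) hw t hΓ σ0 K0 K2 hb hB u c hc a0 a1 k
      (fun ω hω => (mem_fib.1 hω).2) fun ω hω => hcore ω (fib_subset _ _ _ hω)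
  rw [Finset.sum_add_distrib, ← Finset.mul_sum, ← Finset.mul_sum, sum_fib] at h1
  have h2 := hΓ.sum_atom_fib_le T w t (fun ω => (c ω + a0) / ((2 ^ (K0 + K2) : ℕ) : ℤ))
  have h3 := hΓ.atom_mono t hTS (fun ω hω => hw ω (hTS hω)) hw fun _ _ => le_rfl
  have h4 : ∑ ω ∈ T, w ω ≤ ∑ ω ∈ S, w ω :=
    Finset.sum_le_sum_of_subset_of_nonneg hTS fun ω hω _ => hw ω hω
  have h5 := mul_le_mul_of_nonneg_left (h2.trans h3) hb
  have h6 := mul_le_mul_of_nonneg_left h4 hη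
  linarith

theorem pointwise {S : Finset Ω} {w : Ω → ℝ} (hw : ∀ ω ∈ S, 0 ≤ w ω)
    (t : Ω → ℝ) {Γ : Measure ℝ → ℝ} (hΓ : Sup Γ) (σ0 : ℝ) (K0 K2 : ℕ) {η b : ℝ} (hη : 0 ≤ η)
    (hb : 0 ≤ b)
    (hB : ∀ (J : Finset ℤ) (n x : ℤ → ℝ), (∀ j ∈ J, 0 ≤ n j) → J.card ≤ 2 ^ K0 + 1 →
      (∀ j ∈ J, ∃ ω ∈ S, x j = t ω) → Sep J x σ0 (σ0 + (K0 + K2 : ℕ) * log 2) →
      ent J n ≤ η * ∑ j ∈ J, n j + b * Γ (atom J n x))
    (σ2 : ℝ) (hσ : σ2 = σ0 + (K0 + K2 : ℕ) * log 2) (u : ℝ) (a0 : ℕ) :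
    (∑ a1 ∈ Finset.range (2 ^ K2), Hc (atom S w t)
        (fun x => (cell σ2 u x + a1) / ((2 ^ K2 : ℕ) : ℤ))) / ((2 ^ K2 : ℕ) : ℝ) -
      Hc (atom S w t) (fun x => (cell σ2 u x + a0) / ((2 ^ (K0 + K2) : ℕ) : ℤ)) -
      8 / 2 ^ K2 * (Hu (atom S w t) σ2 u -
        Hc (atom S w t) (fun x => (cell σ2 u x + a0) / ((2 ^ (K0 + K2) : ℕ) : ℤ))) ≤
      η * ∑ ω ∈ S, w ω + b * Γ (atom S w t) := by
  have hm : ∀ a M : ℤ, Measurable (fun x => (cell σ2 u x + a) / M) := fun a M =>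
    (Measurable.of_discrete (f := fun k : ℤ => (k + a) / M)).comp (measurable_cell σ2 u)
  simp only [Hc_atom hw t (hm _ _), Hu_atom hw]
  have hM : (0 : ℝ) < ((2 ^ K2 : ℕ) : ℝ) := by positivity
  have h1 := red_discrete hw (fun ω => cell σ2 u (t ω))
    (fun ω => (cell σ2 u (t ω) + a0) / ((2 ^ (K0 + K2) : ℕ) : ℤ))
    (fun ω _ ω' _ h => by rw [h]) (M1 := 2 ^ K2) (by positivity)
  have h2 := Finset.sum_le_sum fun (a1 : ℕ) (_ : a1 ∈ Finset.range (2 ^ K2)) =>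
    core_bound hw t hΓ σ0 K0 K2 hη hb hB u (fun ω => cell σ2 u (t ω)) (fun ω => by rw [hσ])
      a0 a1 (T := S.filter (fun ω => (cell σ2 u (t ω) + a1) % ((2 ^ K2 : ℕ) : ℤ) ≠ 0 ∧
        (cell σ2 u (t ω) + a1) % ((2 ^ K2 : ℕ) : ℤ) ≠ ((2 ^ K2 : ℕ) : ℤ) - 1))
      (Finset.filter_subset _ _) fun ω hω => (Finset.mem_filter.1 hω).2.2
  rw [Finset.sum_const, Finset.card_range, nsmul_eq_mul, ← div_le_iff₀' hM] at h2
  rw [Finset.sum_sub_distrib, Finset.sum_const, Finset.card_range, nsmul_eq_mul, sub_div,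
    mul_div_cancel_left₀ _ hM.ne'] at h1
  have e : ((2 ^ K2 : ℕ) : ℝ) = 2 ^ K2 := by push_cast; rfl
  rw [← e]
  linarith

end RedAux

/-- The reduction. -/
theorem red {S : Finset Ω} {w : Ω → ℝ} (hw : ∀ ω ∈ S, 0 ≤ w ω) (t : Ω → ℝ)
    {Γ : Measure ℝ → ℝ} (hΓ : Sup Γ) (σ0 : ℝ) (K0 K2 : ℕ) {η b : ℝ} (hη : 0 ≤ η) (hb : 0 ≤ b)
    (hB : ∀ (J : Finset ℤ) (n x : ℤ → ℝ), (∀ j ∈ J, 0 ≤ n j) → J.card ≤ 2 ^ K0 + 1 →
      (∀ j ∈ J, ∃ ω ∈ S, x j = t ω) → Sep J x σ0 (σ0 + (K0 + K2 : ℕ) * log 2) →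
      ent J n ≤ η * ∑ j ∈ J, n j + b * Γ (atom J n x)) :
    Hk (atom S w t) σ0 K0 - 8 / 2 ^ K2 * Hk (atom S w t) σ0 (K0 + K2) ≤
      η * ∑ ω ∈ S, w ω + b * Γ (atom S w t) := by
  obtain ⟨σ2, hσ⟩ : ∃ σ2, σ2 = σ0 + (K0 + K2 : ℕ) * log 2 := ⟨_, rfl⟩
  have hν := Good.atom S w t
  have e1 : σ0 + K0 * log 2 + log ((2 ^ K2 : ℕ) : ℝ) = σ2 := by
    rw [hσ]
    push_cast
    rw [log_pow]
    ring
  have e0 : σ0 + log ((2 ^ (K0 + K2) : ℕ) : ℝ) = σ2 := by
    rw [hσ]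
    push_cast
    rw [log_pow]
    push_cast
    ring
  have h1 := Hs_nested hν (σ0 + K0 * log 2) (M := 2 ^ K2) (by positivity)
  have h0 := Hs_nested hν σ0 (M := 2 ^ (K0 + K2)) (by positivity)
  rw [e1] at h1
  rw [e0] at h0
  have hi : ∀ a M : ℤ, IntervalIntegrable
      (fun u => Hc (atom S w t) (fun x => (cell σ2 u x + a) / M)) volume 0 1 := fun a M =>
    intervalIntegrable_Hc_comp hν (fun k => (k + a) / M) σ2 0 1
  have hiA : IntervalIntegrable (fun u => (∑ a1 ∈ Finset.range (2 ^ K2), Hc (atom S w t)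
      (fun x => (cell σ2 u x + a1) / ((2 ^ K2 : ℕ) : ℤ))) / ((2 ^ K2 : ℕ) : ℝ)) volume 0 1 := by
    refine IntervalIntegrable.div_const ?_ _
    have := IntervalIntegrable.sum (Finset.range (2 ^ K2))
      fun (a1 : ℕ) _ => hi a1 ((2 ^ K2 : ℕ) : ℤ)
    rwa [Finset.sum_fn] at this
  have hiC := intervalIntegrable_Hu hν σ2 0 1
  have key : ∀ a0 ∈ Finset.range (2 ^ (K0 + K2)), Hs (atom S w t) (σ0 + K0 * log 2) -
      (∫ u in (0 : ℝ)..1, Hc (atom S w t)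
        (fun x => (cell σ2 u x + a0) / ((2 ^ (K0 + K2) : ℕ) : ℤ))) -
      8 / 2 ^ K2 * (Hs (atom S w t) σ2 - ∫ u in (0 : ℝ)..1, Hc (atom S w t)
        (fun x => (cell σ2 u x + a0) / ((2 ^ (K0 + K2) : ℕ) : ℤ))) ≤
      η * ∑ ω ∈ S, w ω + b * Γ (atom S w t) := by
    intro a0 _
    have hB0 := hi a0 ((2 ^ (K0 + K2) : ℕ) : ℤ)
    have h2 := intervalIntegral.integral_mono_on zero_le_one
      ((hiA.sub hB0).sub ((hiC.sub hB0).const_mul (8 / 2 ^ K2))) intervalIntegrable_const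
      fun u _ => pointwise hw t hΓ σ0 K0 K2 hη hb hB σ2 hσ u a0
    rw [intervalIntegral.integral_sub (hiA.sub hB0) ((hiC.sub hB0).const_mul _),
      intervalIntegral.integral_sub hiA hB0, intervalIntegral.integral_const_mul,
      intervalIntegral.integral_sub hiC hB0, intervalIntegral.integral_div,
      intervalIntegral.integral_finsetSum fun (a1 : ℕ) _ => hi a1 ((2 ^ K2 : ℕ) : ℤ), ← h1,
      intervalIntegral.integral_const] at h2
    simpa [Hs] using h2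
  have h3 := Finset.sum_le_sum key
  have hM : (0 : ℝ) < ((2 ^ (K0 + K2) : ℕ) : ℝ) := by positivity
  rw [eq_div_iff hM.ne'] at h0
  simp only [Finset.sum_sub_distrib, ← Finset.mul_sum, Finset.sum_const, Finset.card_range,
    nsmul_eq_mul] at h3
  rw [← h0] at h3
  unfold Hk
  rw [← hσ]
  refine le_of_mul_le_mul_left ?_ hM
  linarith

end

end Vale.Agent.P114
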