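import Vale.Agent.P114.SelfSim
import Vale.Agent.P114.Red

/-! # P114: entropies of one level -/

open MeasureTheory Real Set Polynomial
open scoped ENNReal

namespace Vale.Agent.P114

noncomputable section

variable {Λ : Type*} [Fintype Λ] {β : Type*}

namespace LevelAux

theorem hw (F : IFS Λ) (S : Finset (List Λ)) : ∀ w ∈ S, 0 ≤ pw F.p w :=
  fun w _ => (pw_pos F.p_pos w).le

theorem sum_mss_le (F : IFS Λ) (ex : List Λ → β) (ε : ℝ) (m : ℕ) :
    ∑ f ∈ img (F.typ ε m) (cls ex), mss (F.nu ex ε m f) ≤ 1 := by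
  simp only [F.mss_nu]
  rw [sum_mass]
  exact F.sum_typ_le_one ε m

theorem log_two_le_one : log 2 ≤ 1 := by
  have := log_le_sub_one_of_pos (show (0 : ℝ) < 2 by norm_num)
  linarith

theorem Hm_fun (F : IFS Λ) (ex : List Λ → β) (ε : ℝ) (m : ℕ) :
    F.Hm ex ε m = ∑ f ∈ img (F.typ ε m) (cls ex), Hs (F.nu ex ε m f) := by
  funext s
  simp [IFS.Hm, Finset.sum_apply]

theorem condW_cell (F : IFS Λ) (ex : List Λ → β) (ε : ℝ) (m : ℕ) (s u : ℝ) :
    condW (F.typ ε m) (pw F.p) (fun w => cell s u (F.tw w)) (cls ex) =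
      ∑ f ∈ img (F.typ ε m) (cls ex), Hu (F.nu ex ε m f) s u := by
  rw [condW_eq_sum]
  refine Finset.sum_congr rfl fun f _ => ?_
  rw [IFS.nu, Hu_atom (hw F _)]

theorem shift_integral {H : ℝ → ℝ} (hH : ∀ a b, IntervalIntegrable H volume a b) (a S L : ℝ) :
    ∫ σ in a..S, (H (σ + L) - H σ) = (∫ σ in S..(S + L), H σ) - ∫ σ in a..(a + L), H σ := by
  have h1 : IntervalIntegrable (fun σ => H (σ + L)) volume a S := by
    have := (hH (a + L) (S + L)).comp_add_right L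
    simpa using this
  rw [intervalIntegral.integral_sub h1 (hH a S), intervalIntegral.integral_comp_add_right]
  have e1 := intervalIntegral.integral_add_adjacent_intervals (hH a (a + L)) (hH (a + L) (S + L))
  have e2 := intervalIntegral.integral_add_adjacent_intervals (hH a S) (hH S (S + L))
  linarith

theorem integral_ge {H : ℝ → ℝ} (hH : ∀ a b, IntervalIntegrable H volume a b) {a L c : ℝ}
    (hL : 0 ≤ L) (h : ∀ x ∈ Icc a (a + L), c ≤ H x) : L * c ≤ ∫ σ in a..(a + L), H σ := by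
  have := intervalIntegral.integral_mono_on (μ := volume) (f := fun _ => c) (g := H)
    (show a ≤ a + L by linarith) intervalIntegrable_const (hH _ _) h
  simpa using this

theorem integral_le {H : ℝ → ℝ} (hH : ∀ a b, IntervalIntegrable H volume a b) {a L c : ℝ}
    (hL : 0 ≤ L) (h : ∀ x ∈ Icc a (a + L), H x ≤ c) : ∫ σ in a..(a + L), H σ ≤ L * c := by
  have := intervalIntegral.integral_mono_on (μ := volume) (g := fun _ => c) (f := H)
    (show a ≤ a + L by linarith) (hH _ _) intervalIntegrable_const h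
  simpa using this

theorem Em_eq (F : IFS Λ) (ex : List Λ → β) (ε : ℝ) (m K0 K2 : ℕ) (σ : ℝ) :
    F.Em ex ε m K0 K2 σ = ∑ f ∈ img (F.typ ε m) (cls ex),
      (Hk (F.nu ex ε m f) σ K0 - 8 / 2 ^ K2 * Hk (F.nu ex ε m f) σ (K0 + K2)) := by
  simp only [IFS.Em, IFS.Hm, Hk, Finset.sum_sub_distrib, ← Finset.mul_sum]

theorem card_img_cls {ex : List Λ → β} (hex : ∀ w w', ex w = ex w') (F : IFS Λ) (ε : ℝ)
    (m : ℕ) : (img (F.typ ε m) (cls ex)).card ≤ (m + 1) ^ Fintype.card Λ := by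
  refine le_trans ?_ (card_img_counts m)
  refine Finset.card_le_card_of_injOn (fun f => f.1) ?_ ?_
  · intro f hf
    obtain ⟨w, hw, rfl⟩ := mem_img.1 (Finset.mem_coe.1 hf)
    exact Finset.mem_coe.2 (mem_img.2 ⟨w, F.typ_subset ε m hw, rfl⟩)
  · intro f hf g hg hfg
    obtain ⟨w, -, rfl⟩ := mem_img.1 (Finset.mem_coe.1 hf)
    obtain ⟨w', -, rfl⟩ := mem_img.1 (Finset.mem_coe.1 hg)
    exact Prod.ext hfg (hex w w')

theorem HG_le_Hinf {ex : List Λ → β} (hex : ∀ w w', ex w = ex w') (F : IFS Λ) (ε : ℝ)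
    (m : ℕ) : F.HG m ≤ log 2 + F.Hinf ex ε m + Fintype.card Λ * log (m + 1) +
      ent (F.atyp ε m) (pw F.p) := by
  have h1 : F.HG m ≤ (∑ w ∈ words Λ m, pw F.p w) * log 2 +
      entW (F.typ ε m) (pw F.p) (fun w => (F.rw w, F.tw w)) +
      entW (F.atyp ε m) (pw F.p) (fun w => (F.rw w, F.tw w)) :=
    entW_le_split (hw F _) _ (fun w => F.chiw w ≤ (F.chi + ε / 2) * m)
  rw [sum_pw F.p_sum, one_mul] at h1
  have h2 : entW (F.atyp ε m) (pw F.p) (fun w => (F.rw w, F.tw w)) ≤ ent (F.atyp ε m) (pw F.p) :=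
    entW_le_ent (hw F _) _
  have h3 : entW (F.typ ε m) (pw F.p) (fun w => (F.rw w, F.tw w)) ≤
      entW (F.typ ε m) (pw F.p) (fun w => (F.tw w, cls ex w)) := by
    refine entW_mono (hw F _) fun w _ w' _ h => ?_
    have h1 : F.tw w = F.tw w' := congrArg Prod.fst h
    have h2 : cls ex w = cls ex w' := congrArg Prod.snd h
    have h3 : (w : Multiset Λ) = (w' : Multiset Λ) := congrArg Prod.fst h2
    rw [← F.rm_coe, ← F.rm_coe, h1, h3]
  have h4 : entW (F.typ ε m) (pw F.p) (fun w => (F.tw w, cls ex w)) =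
      F.Hinf ex ε m + entW (F.typ ε m) (pw F.p) (cls ex) := by
    simp only [IFS.Hinf, condW]
    ring
  have h5 := entW_le_log_card (hw F (F.typ ε m)) (cls ex) (card_img_cls hex F ε m)
  have h6 : log (((m + 1) ^ Fintype.card Λ : ℕ) : ℝ) = Fintype.card Λ * log (m + 1) := by
    push_cast
    rw [log_pow]
  have h7 : 0 ≤ log (((m + 1) ^ Fintype.card Λ : ℕ) : ℝ) := log_natCast_nonneg _
  have h8 := mul_le_mul_of_nonneg_right (F.sum_typ_le_one ε m) h7
  linarith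

theorem log_small (d : ℕ) {g : ℝ} (hg : 0 < g) (C : ℝ) :
    ∃ m0 : ℕ, ∀ m : ℕ, m0 ≤ m → d * log (m + 1) + C ≤ g * m := by
  obtain ⟨A, hA⟩ : ∃ A : ℝ, A = 2 * d / g + 1 := ⟨_, rfl⟩
  have hd : (0 : ℝ) ≤ d := Nat.cast_nonneg d
  have hA0 : 0 < A := by rw [hA]; positivity
  have hdA : d ≤ g / 2 * A := by
    rw [hA]
    have : g / 2 * (2 * d / g + 1) = d + g / 2 := by field_simp
    linarith
  obtain ⟨m0, hm0⟩ := exists_nat_ge ((g / 2 + d * log A + C) / (g / 2))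
  refine ⟨m0, fun m hm => ?_⟩
  have hm' : (m0 : ℝ) ≤ m := by exact_mod_cast hm
  have hm1 : (0 : ℝ) < m + 1 := by positivity
  have h1 : log ((m + 1) / A) ≤ (m + 1) / A - 1 := log_le_sub_one_of_pos (by positivity)
  rw [log_div hm1.ne' hA0.ne'] at h1
  have h2 : d * ((m + 1) / A) ≤ g / 2 * (m + 1) := by
    have : d * ((m + 1) / A) = d / A * (m + 1) := by ring
    rw [this]
    refine mul_le_mul_of_nonneg_right ?_ hm1.le
    rw [div_le_iff₀ hA0]
    exact hdA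
  have h3 : d * log (m + 1) ≤ d * ((m + 1) / A + log A) :=
    mul_le_mul_of_nonneg_left (by linarith) hd
  have h4 : g / 2 + d * log A + C ≤ g / 2 * m := by
    have := (div_le_iff₀ (show 0 < g / 2 by positivity)).1 (hm0.trans hm')
    linarith
  linarith

end LevelAux

open LevelAux

namespace IFS

variable (F : IFS Λ) (ex : List Λ → β) (ε : ℝ) (m : ℕ)

theorem Hm_nonneg (s : ℝ) : 0 ≤ F.Hm ex ε m s :=
  Finset.sum_nonneg fun f _ => Hs_nonneg (F.good_nu ex ε m f) s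

theorem Hm_le_Hinf (s : ℝ) : F.Hm ex ε m s ≤ F.Hinf ex ε m := by
  rw [Hinf, condW_eq_sum]
  exact Finset.sum_le_sum fun f _ => Hs_atom_le (hw F _) _ s

theorem Hinf_le : F.Hinf ex ε m ≤ m * log (Fintype.card Λ) :=
  (condW_le_entW (hw F _) _ _).trans
    ((entW_le_of_subset (F.typ_subset ε m) (hw F _) _).trans (entW_words_le F.p_pos F.p_sum _ m))

theorem Hm_mono {s s' : ℝ} (hs : s ≤ s') : F.Hm ex ε m s ≤ F.Hm ex ε m s' + 1 := by
  have h1 : F.Hm ex ε m s ≤ ∑ f ∈ img (F.typ ε m) (cls ex),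
      (Hs (F.nu ex ε m f) s' + mss (F.nu ex ε m f) * log 2) :=
    Finset.sum_le_sum fun f _ => Hs_mono (F.good_nu ex ε m f) hs
  rw [Finset.sum_add_distrib, ← Finset.sum_mul] at h1
  have h2 := mul_le_mul_of_nonneg_right (sum_mss_le F ex ε m) (log_nonneg one_le_two)
  have h3 := log_two_le_one
  unfold Hm at h1 ⊢
  linarith

theorem Hm_lip {s s' : ℝ} (hs : s ≤ s') :
    F.Hm ex ε m s' ≤ F.Hm ex ε m s + (s' - s + 2) := by
  have h1 : F.Hm ex ε m s' ≤ ∑ f ∈ img (F.typ ε m) (cls ex),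
      (Hs (F.nu ex ε m f) s + mss (F.nu ex ε m f) * (s' - s + 2)) :=
    Finset.sum_le_sum fun f _ => Hs_lip (F.good_nu ex ε m f) hs
  rw [Finset.sum_add_distrib, ← Finset.sum_mul] at h1
  have h2 := mul_le_mul_of_nonneg_right (sum_mss_le F ex ε m)
    (show 0 ≤ s' - s + 2 by linarith)
  unfold Hm at h1 ⊢
  linarith

theorem intervalIntegrable_Hm (a b : ℝ) : IntervalIntegrable (F.Hm ex ε m) volume a b := by
  rw [Hm_fun]
  exact IntervalIntegrable.sum _ fun f _ => intervalIntegrable_Hs (F.good_nu ex ε m f) a b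

theorem exists_Rm_eq_zero (a : ℝ) : ∃ s, a ≤ s ∧ F.Rm ex ε m s = 0 := by
  have h1 : ∀ᶠ s in Filter.atTop, ∀ w ∈ F.typ ε m, ∀ w' ∈ F.typ ε m,
      F.tw w ≠ F.tw w' → exp (-s) ≤ |F.tw w - F.tw w'| := by
    refine (Filter.eventually_all_finset _).2 fun w _ => ?_
    refine (Filter.eventually_all_finset _).2 fun w' _ => ?_
    by_cases h : F.tw w = F.tw w'
    · exact Filter.Eventually.of_forall fun s hs => absurd h hs
    · have hpos : 0 < |F.tw w - F.tw w'| := abs_pos.2 (sub_ne_zero.2 h)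
      exact (tendsto_exp_neg_atTop_nhds_zero.eventually (ge_mem_nhds hpos)).mono
        fun s hs _ => hs
  obtain ⟨s, hs1, hs2⟩ := ((Filter.eventually_ge_atTop a).and h1).exists
  refine ⟨s, hs1, ?_⟩
  rw [Rm, Hinf, condW_eq_sum, Hm, sub_eq_zero]
  refine Finset.sum_congr rfl fun f _ => ?_
  rw [nu, Hs_atom_sep (hw F _) _ s]
  intro w hw w' hw'
  exact hs2 w (fib_subset _ _ _ hw) w' (fib_subset _ _ _ hw')

/-- `Hm` as an average of conditional entropies of cells. -/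
theorem Hm_eq_integral (s : ℝ) : F.Hm ex ε m s =
    ∫ u in (0 : ℝ)..1, condW (F.typ ε m) (pw F.p) (fun w => cell s u (F.tw w)) (cls ex) := by
  simp only [condW_cell]
  rw [intervalIntegral.integral_finsetSum
    (fun f _ => intervalIntegrable_Hu (F.good_nu ex ε m f) s 0 1)]
  rfl

theorem intervalIntegrable_condW_cell (s : ℝ) : IntervalIntegrable
    (fun u => condW (F.typ ε m) (pw F.p) (fun w => cell s u (F.tw w)) (cls ex)) volume 0 1 := by
  have : (fun u => condW (F.typ ε m) (pw F.p) (fun w => cell s u (F.tw w)) (cls ex)) =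
      ∑ f ∈ img (F.typ ε m) (cls ex), Hu (F.nu ex ε m f) s := by
    funext u
    rw [condW_cell, Finset.sum_apply]
  rw [this]
  exact IntervalIntegrable.sum _ fun f _ => intervalIntegrable_Hu (F.good_nu ex ε m f) s 0 1

theorem VV_mono (hex : ExOK ex) : Monotone (F.VV ex) := by
  obtain ⟨i⟩ : Nonempty Λ := by
    by_contra hn
    rw [not_nonempty_iff] at hn
    have := F.p_sum
    simp at this
  refine monotone_nat_of_le_succ fun n v hv => ?_
  obtain ⟨w, hw, w', hw', hc, hne, rfl⟩ := hv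
  have h3 : (w : Multiset Λ) = (w' : Multiset Λ) := congrArg Prod.fst hc
  have hr : F.rw w = F.rw w' := by rw [← F.rm_coe, ← F.rm_coe, h3]
  have hd : F.tw (w ++ [i]) - F.tw (w' ++ [i]) = F.tw w - F.tw w' := by
    rw [F.tw_append, F.tw_append, hr]
    ring
  refine ⟨w ++ [i], ?_, w' ++ [i], ?_, ?_, ?_, ?_⟩
  · rw [mem_words] at hw ⊢
    simp [hw]
  · rw [mem_words] at hw' ⊢
    simp [hw']
  · refine Prod.ext ?_ (hex w w' [i] hc)
    change ((w ++ [i] : List Λ) : Multiset Λ) = ((w' ++ [i] : List Λ) : Multiset Λ)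
    rw [← Multiset.coe_add, ← Multiset.coe_add, h3]
  · intro h
    apply hne
    rw [← sub_eq_zero, ← hd, h, sub_self]
  · rw [hd]

theorem integrableOn_Em (K0 K2 : ℕ) (a b : ℝ) :
    IntegrableOn (F.Em ex ε m K0 K2) (Icc a b) := by
  rcases le_or_gt a b with hab | hab
  · rw [← intervalIntegrable_iff_integrableOn_Icc_of_le hab]
    have h1 : ∀ L : ℝ, IntervalIntegrable (fun σ => F.Hm ex ε m (σ + L)) volume a b := by
      intro L
      have := (F.intervalIntegrable_Hm ex ε m (a + L) (b + L)).comp_add_right L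
      simpa using this
    exact ((h1 _).sub (F.intervalIntegrable_Hm ex ε m a b)).sub
      (((h1 _).sub (F.intervalIntegrable_Hm ex ε m a b)).const_mul _)
  · rw [Icc_eq_empty (not_le.2 hab)]
    exact integrableOn_empty

theorem integral_Em_ge (K0 K2 : ℕ) {a S : ℝ} (haS : a ≤ S) :
    K0 * log 2 * (F.Hm ex ε m S - F.Hm ex ε m a - K0 - 3) -
        8 / 2 ^ K2 * ((K0 + K2) * (m * log (Fintype.card Λ))) ≤
      ∫ σ in Icc a S, F.Em ex ε m K0 K2 σ := by
  have hH := F.intervalIntegrable_Hm ex ε m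
  have h1 : ∀ L : ℝ, IntervalIntegrable (fun σ => F.Hm ex ε m (σ + L) - F.Hm ex ε m σ)
      volume a S := by
    intro L
    have := (hH (a + L) (S + L)).comp_add_right L
    exact IntervalIntegrable.sub (by simpa using this) (hH a S)
  rw [integral_Icc_eq_integral_Ioc, ← intervalIntegral.integral_of_le haS]
  unfold Em
  rw [intervalIntegral.integral_sub (h1 _) ((h1 _).const_mul _),
    intervalIntegral.integral_const_mul, shift_integral hH, shift_integral hH]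
  have hl0 : 0 ≤ log 2 := log_nonneg one_le_two
  have hl1 := log_two_le_one
  have hK0 : (0 : ℝ) ≤ K0 := Nat.cast_nonneg _
  have hL0 : 0 ≤ (K0 : ℝ) * log 2 := by positivity
  have hL0' : (K0 : ℝ) * log 2 ≤ K0 := mul_le_of_le_one_right hK0 hl1
  have hL : 0 ≤ ((K0 + K2 : ℕ) : ℝ) * log 2 := by positivity
  have hL' : ((K0 + K2 : ℕ) : ℝ) * log 2 ≤ K0 + K2 := by
    push_cast
    exact mul_le_of_le_one_right (by positivity) hl1
  have hM : 0 ≤ (m : ℝ) * log (Fintype.card Λ) :=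
    mul_nonneg (Nat.cast_nonneg _) (log_natCast_nonneg _)
  have e1 := integral_ge hH (a := S) (c := F.Hm ex ε m S - 1) hL0 fun x hx => by
    have := F.Hm_mono ex ε m hx.1
    linarith
  have e2 := integral_le hH (a := a) (c := F.Hm ex ε m a + K0 + 2) hL0 fun x hx => by
    have := F.Hm_lip ex ε m hx.1
    have := hx.2
    linarith
  have e3 := integral_le hH (a := S) (c := m * log (Fintype.card Λ)) hL fun x _ =>
    (F.Hm_le_Hinf ex ε m x).trans (F.Hinf_le ex ε m)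
  have e4 := integral_ge hH (a := a) (c := 0) hL fun x _ => F.Hm_nonneg ex ε m x
  have e5 := mul_le_mul_of_nonneg_right hL' hM
  have e6 : (∫ σ in S..(S + ((K0 + K2 : ℕ) : ℝ) * log 2), F.Hm ex ε m σ) -
      ∫ σ in a..(a + ((K0 + K2 : ℕ) : ℝ) * log 2), F.Hm ex ε m σ ≤
      (K0 + K2) * (m * log (Fintype.card Λ)) := by linarith
  have e7 := mul_le_mul_of_nonneg_left e6 (show (0 : ℝ) ≤ 8 / 2 ^ K2 by positivity)
  linarith

/-- The reduction summed over the classes. -/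
theorem Em_le (K0 K2 : ℕ) (σ : ℝ) (Γ : ℝ → Measure ℝ → ℝ) (hΓ : ∀ ρ, ρ ≠ 0 → Sup (Γ ρ))
    {η b : ℝ} (hη : 0 ≤ η) (hb : 0 ≤ b)
    (hB : ∀ ρ, ρ ≠ 0 → ∀ (J : Finset ℤ) (n x : ℤ → ℝ), (∀ j ∈ J, 0 ≤ n j) →
      J.card ≤ 2 ^ K0 + 1 → Sep J x σ (σ + (K0 + K2 : ℕ) * log 2) →
      ent J n ≤ η * ∑ j ∈ J, n j + b * Γ ρ (atom J n x)) :
    F.Em ex ε m K0 K2 σ ≤
      η + b * ∑ f ∈ img (F.typ ε m) (cls ex), Γ (F.rm f.1) (F.nu ex ε m f) := by
  rw [Em_eq]
  have h1 : ∑ f ∈ img (F.typ ε m) (cls ex),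
      (Hk (F.nu ex ε m f) σ K0 - 8 / 2 ^ K2 * Hk (F.nu ex ε m f) σ (K0 + K2)) ≤
      ∑ f ∈ img (F.typ ε m) (cls ex), (η * mass (F.typ ε m) (pw F.p) (cls ex) f +
        b * Γ (F.rm f.1) (F.nu ex ε m f)) := by
    refine Finset.sum_le_sum fun f _ => ?_
    exact red (hw F _) F.tw (hΓ _ (F.rm_ne_zero f.1)) σ K0 K2 hη hb
      fun J n x hn hJ _ hsep => hB _ (F.rm_ne_zero f.1) J n x hn hJ hsep
  rw [Finset.sum_add_distrib, ← Finset.mul_sum, ← Finset.mul_sum, sum_mass] at h1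
  have h2 := mul_le_of_le_one_right hη (F.sum_typ_le_one ε m)
  linarith

theorem Em_nonpos (K0 K2 : ℕ) (σ : ℝ)
    (h : ∀ v ∈ F.VV ex m, v ∉ Icc σ (σ + (K0 + K2 : ℕ) * log 2)) : F.Em ex ε m K0 K2 σ ≤ 0 := by
  rw [Em_eq]
  refine Finset.sum_nonpos fun f _ => ?_
  have := red (S := fib (F.typ ε m) (cls ex) f) (hw F _) F.tw sup_zero σ K0 K2
    (le_refl (0 : ℝ)) (le_refl (0 : ℝ)) fun J n x _ _ hx hsep => by
      have hc : J.card ≤ 1 := by
        refine Finset.card_le_one.2 fun j hj j' hj' => ?_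
        by_contra hne
        obtain ⟨h1, h2⟩ := hsep j hj j' hj' hne
        obtain ⟨w, hw, e⟩ := hx j hj
        obtain ⟨w', hw', e'⟩ := hx j' hj'
        rw [e, e'] at h1 h2
        rw [mem_fib] at hw hw'
        have hpos : 0 < |F.tw w - F.tw w'| := (exp_pos _).trans_le h1
        refine h (-log |F.tw w - F.tw w'|) ⟨w, F.typ_subset ε m hw.1, w',
          F.typ_subset ε m hw'.1, hw.2.trans hw'.2.symm, sub_ne_zero.1 (abs_pos.1 hpos), rfl⟩
          ⟨?_, ?_⟩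
        · have := (log_le_iff_le_exp hpos).2 h2
          linarith
        · have := (le_log_iff_exp_le hpos).2 h1
          linarith
      rw [ent_of_card_le_one n hc]
      simp
  simpa [nu] using this

theorem Hm_le_Hs {μ : Measure ℝ} [IsProbabilityMeasure μ] (h : F.SelfSim μ) (s : ℝ) :
    F.Hm ex ε m s ≤ Hs μ s := by
  have hμ := F.good_of_selfSim h
  have hg1 : ∀ f ∈ img (F.typ ε m) (cls ex), Good (F.nu ex ε m f ∗ scl (F.rm f.1) μ) :=
    fun f _ => (F.good_nu ex ε m f).conv (hμ.scl _)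
  have hg2 : Good (∑ w ∈ F.atyp ε m,
      ENNReal.ofReal (pw F.p w) • μ.map (fun x => F.rw w * x + F.tw w)) :=
    Good.sum fun w _ => (hμ.map_affine _ _).smul _
  have h1 := Hs_add_ge (Good.sum hg1) hg2 s
  rw [← F.selfSim_classes h ex ε m] at h1
  have h2 := Hs_sum_ge hg1 s
  have h3 := Hs_nonneg hg2 s
  have h4 : F.Hm ex ε m s ≤
      ∑ f ∈ img (F.typ ε m) (cls ex), Hs (F.nu ex ε m f ∗ scl (F.rm f.1) μ) s := by
    refine Finset.sum_le_sum fun f _ => ?_
    have := Hs_conv_ge' (F.good_nu ex ε m f) (hμ.scl (F.rm f.1)) s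
    rwa [mss_prob, one_mul] at this
  linarith

/-- If the slope is too small, linear entropy is left beyond the natural scale. -/
theorem Rm_lower {μ : Measure ℝ} [IsProbabilityMeasure μ] (h : F.SelfSim μ) {α C : ℝ}
    (hs : Slope μ α C) (hα : 0 ≤ α) (hlt : α * F.chi < F.hh) (hex : ∀ w w', ex w = ex w') :
    ∃ ε : ℝ, 0 < ε ∧ ∃ δ : ℝ, 0 < δ ∧ ∃ m0 : ℕ, ∀ m, m0 ≤ m →
      2 * δ * m ≤ F.Rm ex ε m ((F.chi + ε) * m) := by
  obtain ⟨g, hg⟩ : ∃ g, g = F.hh - α * F.chi := ⟨_, rfl⟩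
  have hg0 : 0 < g := by linarith
  obtain ⟨ε, hε⟩ : ∃ ε : ℝ, ε = g / (2 * (α + 1)) := ⟨_, rfl⟩
  have hε0 : 0 < ε := by rw [hε]; positivity
  have hαε : α * ε ≤ g / 2 := by
    have h1 : (α + 1) * ε = g / 2 := by rw [hε]; field_simp
    nlinarith
  obtain ⟨C1, -, hC1⟩ := F.exists_ent_atyp hε0
  obtain ⟨m0, hm0⟩ := log_small (Fintype.card Λ) (show 0 < g / 4 by positivity)
    (log 2 + C1 + Hs μ 0 + C)
  refine ⟨ε, hε0, g / 8, by positivity, m0, fun m hm => ?_⟩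
  have hm' : (0 : ℝ) ≤ m := Nat.cast_nonneg m
  have h1 := F.hh_mul_le m
  have h2 := HG_le_Hinf hex F ε m
  have h3 := hC1 m
  have h4 := F.Hm_le_Hs ex ε m h ((F.chi + ε) * m)
  have h5 := hs.1 0 ((F.chi + ε) * m) (mul_nonneg (add_pos F.chi_pos hε0).le hm')
  rw [zero_add] at h5
  have h6 := hm0 m hm
  have h7 := mul_le_mul_of_nonneg_right hαε hm'
  have h8 : g * m = F.hh * m - α * F.chi * m := by rw [hg]; ring
  unfold Rm
  linarith

theorem hh_le_of_PP {μ : Measure ℝ} [IsProbabilityMeasure μ] (h : F.SelfSim μ) {α C : ℝ}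
    (hs : Slope μ α C) (hα : 0 ≤ α) (hex : ∀ w w', ex w = ex w') (hP : F.PP ex) :
    F.hh ≤ α * F.chi := by
  by_contra hlt
  obtain ⟨ε, hε, δ, hδ, m0, hm0⟩ := F.Rm_lower ex h hs hα (not_le.1 hlt) hex
  obtain ⟨N, hN, hR⟩ := hP ε hε δ hδ (m0 + 1)
  have h1 := hm0 N (by omega)
  have h2 : (0 : ℝ) < N := by exact_mod_cast (by omega : 0 < N)
  have h3 := mul_pos hδ h2
  linarith

end IFS

end

end Vale.Agent.P114
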