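import Vale.Agent.P114.CaseA
import Vale.Agent.P114.CaseB
import Vale.Agent.P114.DimLow
import Vale.Agent.P114.DimUp

/-! # P114: the dimension formula -/

open MeasureTheory Real Set Polynomial
open scoped ENNReal

namespace Vale.Agent.P114

noncomputable section

variable {Λ : Type*} [Fintype Λ]

theorem IFS.thmM (F : IFS Λ) {μ : Measure ℝ} [IsProbabilityMeasure μ] (h : F.SelfSim μ)
    {α C : ℝ} (hs : Slope μ α C) (hα0 : 0 ≤ α) (hα : α < 1) : F.hh ≤ α * F.chi := by
  by_cases hirr : ∃ i j, Irrational (log |F.r i| / log |F.r j|)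
  · obtain ⟨i, j, hij⟩ := hirr
    exact F.caseB h hs hα0 hα i j hij
  · push Not at hirr
    obtain ⟨sh, x, hx, hF⟩ := F.exists_shape hirr
    have h' : (sh.ifs x hx F.t).SelfSim μ := hF ▸ h
    have := sh.caseA hx F.t h' hs hα0 hα
    rwa [← hF] at this

theorem IFS.dim_eq (F : IFS Λ) {μ : Measure ℝ} [IsProbabilityMeasure μ] (h : F.SelfSim μ) :
    lowerDim μ = ENNReal.ofReal (min 1 (F.hh / F.chi)) := by
  refine le_antisymm (F.dim_up h) ?_
  obtain ⟨α, C, hα0, hα1, -, hs⟩ := F.exists_slope h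
  refine le_trans (ENNReal.ofReal_le_ofReal ?_) (F.dim_low h hs)
  rcases hα1.lt_or_eq with hlt | heq
  · exact (min_le_right _ _).trans ((div_le_iff₀ F.chi_pos).2 (F.thmM h hs hα0 hlt))
  · exact heq ▸ min_le_left _ _

end

end Vale.Agent.P114
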