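import Vale.Agent.P114.SelfSim

/-! # P114: the potential and the slope -/

open MeasureTheory Real Set Polynomial
open scoped ENNReal

namespace Vale.Agent.P114

noncomputable section

namespace PotAux

theorem shift_bound {h r : ℝ → ℝ} (hi : ∀ a b, IntervalIntegrable h volume a b) {c K : ℝ}
    (hc : 0 ≤ c) (hK : ∀ t, ∀ y ∈ Icc t (t + c), |h y - r t| ≤ K) (s t : ℝ) :
    |(∫ y in s..t, (h (y + c) - h y)) - c * (r t - r s)| ≤ 2 * K * c := by
  have h1 : IntervalIntegrable (fun y => h (y + c)) volume s t := by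
    simpa using (hi (s + c) (t + c)).comp_add_right c
  have h2 : ∀ t, |(∫ y in t..t + c, h y) - c * r t| ≤ K * c := fun t => by
    have h3 := intervalIntegral.norm_integral_le_of_norm_le_const (a := t) (b := t + c) (C := K)
      (f := fun y => h y - r t) fun y hy => by
        rw [uIoc_of_le (by linarith)] at hy
        exact hK t y (Ioc_subset_Icc_self hy)
    rw [intervalIntegral.integral_sub (hi _ _) intervalIntegrable_const] at h3
    simpa [abs_of_nonneg hc] using h3
  rw [intervalIntegral.integral_sub h1 (hi _ _), intervalIntegral.integral_comp_add_right,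
    intervalIntegral.integral_interval_sub_interval_comm' (hi _ _) (hi _ _) (hi _ _)]
  have h4 := abs_le.1 (h2 s)
  have h5 := abs_le.1 (h2 t)
  rw [abs_le]
  constructor <;> linarith [h4.1, h4.2, h5.1, h5.2]

variable {Λ : Type*} [Fintype Λ] (F : IFS Λ) (μ : Measure ℝ)

/-- The primitive of the entropy increment. -/
def P (y : ℝ) : ℝ := ∫ x in (0 : ℝ)..y, Hk μ x 1

/-- The potential. -/
def Phi (y : ℝ) : ℝ := ∑ i, F.p i * (P μ y - P μ (y + log |F.r i|))

variable {F μ}

theorem log_r_neg (i : Λ) : log |F.r i| ≤ 0 := log_nonpos (abs_nonneg _) (F.r_lt i).le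

variable [IsProbabilityMeasure μ] (hG : Good μ)
include hG

theorem f_le (s : ℝ) : Hk μ s 1 ≤ log 2 := by
  simpa [mss_prob] using Hk_le hG s 1

theorem f_int (a b : ℝ) : IntervalIntegrable (fun s => Hk μ s 1) volume a b := by
  refine (intervalIntegrable_const (c := log 2)).mono_fun'
    (measurable_Hk hG 1).aestronglyMeasurable (ae_of_all _ fun s => ?_)
  exact (abs_of_nonneg (Hk_nonneg hG s 1)).trans_le (f_le hG s)

theorem P_sub (a b : ℝ) : P μ b - P μ a = ∫ x in a..b, Hk μ x 1 :=
  intervalIntegral.integral_interval_sub_left (f_int hG _ _) (f_int hG _ _)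

theorem P_bound {a b : ℝ} (hab : a ≤ b) : 0 ≤ P μ b - P μ a ∧ P μ b - P μ a ≤ log 2 * (b - a) := by
  rw [P_sub hG]
  refine ⟨intervalIntegral.integral_nonneg hab fun s _ => Hk_nonneg hG s 1, ?_⟩
  have := intervalIntegral.integral_mono_on hab (f_int hG a b) intervalIntegrable_const
    fun s _ => f_le hG s
  simpa [mul_comm] using this

theorem P_cont : Continuous (P μ) := intervalIntegral.continuous_primitive (f_int hG) 0

theorem Phi_cont : Continuous (Phi F μ) :=
  continuous_finsetSum _ fun _ _ =>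
    continuous_const.mul ((P_cont hG).sub ((P_cont hG).comp (continuous_add_const _)))

theorem Phi_nonneg (y : ℝ) : 0 ≤ Phi F μ y :=
  Finset.sum_nonneg fun i _ => mul_nonneg (F.p_pos i).le
    (P_bound hG (by linarith [log_r_neg (F := F) i])).1

theorem Phi_le (y : ℝ) : Phi F μ y ≤ log 2 * F.chi := by
  rw [IFS.chi, Finset.mul_sum]
  refine Finset.sum_le_sum fun i _ => ?_
  have h := (P_bound hG (a := y + log |F.r i|) (b := y) (by linarith [log_r_neg (F := F) i])).2
  have := mul_le_mul_of_nonneg_left h (F.p_pos i).le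
  linarith

theorem f_int' (c a b : ℝ) : IntervalIntegrable (fun s => Hk μ (s + c) 1) volume a b := by
  simpa using (f_int hG (a + c) (b + c)).comp_add_right c

theorem g_int (a b : ℝ) : IntervalIntegrable (F.gfun μ) volume a b := by
  refine (f_int hG a b).sub ?_
  have := IntervalIntegrable.sum (μ := volume) (a := a) (b := b) Finset.univ
    (f := fun i s => F.p i * Hk μ (s + log |F.r i|) 1) fun i _ => (f_int' hG _ a b).const_mul _
  rwa [Finset.sum_fn] at this

theorem Phi_sub (a b : ℝ) : Phi F μ b - Phi F μ a = ∫ x in a..b, F.gfun μ x := by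
  have h1 : ∀ i, ∫ x in a..b, F.p i * (Hk μ x 1 - Hk μ (x + log |F.r i|) 1) =
      F.p i * (P μ b - P μ (b + log |F.r i|)) - F.p i * (P μ a - P μ (a + log |F.r i|)) := by
    intro i
    rw [intervalIntegral.integral_const_mul,
      intervalIntegral.integral_sub (f_int hG _ _) (f_int' hG _ _ _),
      intervalIntegral.integral_comp_add_right (fun x => Hk μ x 1), ← P_sub hG, ← P_sub hG]
    ring
  rw [Phi, Phi, ← Finset.sum_sub_distrib, ← Finset.sum_congr rfl fun i _ => h1 i,
    ← intervalIntegral.integral_finsetSum fun i _ =>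
      ((f_int hG _ _).sub (f_int' hG _ _ _)).const_mul _]
  congr 1
  funext x
  simp only [mul_sub, Finset.sum_sub_distrib, ← Finset.sum_mul, F.p_sum, one_mul, IFS.gfun]

theorem P_Hs (s t : ℝ) :
    |P μ t - P μ s - log 2 * (Hs μ t - Hs μ s)| ≤ 2 * (log 2 + 2) * log 2 := by
  have hl : 0 ≤ log 2 := log_nonneg one_le_two
  have := shift_bound (r := Hs μ) (intervalIntegrable_Hs hG) hl (K := log 2 + 2) (fun t y hy => by
    have h1 := Hs_mono hG hy.1
    have h2 := Hs_lip hG hy.1
    rw [mss_prob] at h1 h2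
    rw [abs_le]
    constructor <;> linarith [hy.2]) s t
  rw [P_sub hG]
  simpa [Hk] using this

theorem Phi_P : ∃ K : ℝ, 0 ≤ K ∧ ∀ s t : ℝ,
    |(∫ y in s..t, Phi F μ y) - F.chi * (P μ t - P μ s)| ≤ K := by
  have hl : 0 ≤ log 2 := log_nonneg one_le_two
  refine ⟨∑ i, F.p i * (2 * (log 2 * -log |F.r i|) * -log |F.r i|), Finset.sum_nonneg fun i _ =>
    mul_nonneg (F.p_pos i).le ?_, fun s t => ?_⟩
  · have := neg_nonneg.2 (log_r_neg (F := F) i)
    positivity
  have hc : ∀ c, Continuous fun y => P μ (y + c) := fun c =>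
    (P_cont hG).comp (continuous_add_const _)
  unfold Phi
  rw [intervalIntegral.integral_finsetSum (f := fun i y => F.p i * (P μ y - P μ (y + log |F.r i|)))
    fun i _ => (continuous_const.mul ((P_cont hG).sub (hc _))).intervalIntegrable _ _, IFS.chi,
    Finset.sum_mul, ← Finset.sum_sub_distrib]
  refine (Finset.abs_sum_le_sum_abs _ _).trans (Finset.sum_le_sum fun i _ => ?_)
  have h0 := neg_nonneg.2 (log_r_neg (F := F) i)
  have := shift_bound (r := P μ) (fun a b => (hc (log |F.r i|)).intervalIntegrable a b) h0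
    (K := log 2 * -log |F.r i|) (fun t y hy => by
      have h1 := P_bound hG (a := y + log |F.r i|) (b := t) (by linarith [hy.2])
      have h2 := mul_le_mul_of_nonneg_left (show t - (y + log |F.r i|) ≤ -log |F.r i| by
        linarith [hy.1]) hl
      rw [abs_le]
      constructor <;> nlinarith [h1.1, h1.2]) s t
  rw [intervalIntegral.integral_const_mul, mul_assoc, ← mul_sub, abs_mul,
    abs_of_pos (F.p_pos i)]
  refine mul_le_mul_of_nonneg_left ?_ (F.p_pos i).le
  simpa using this

end PotAux

variable {Λ : Type*} [Fintype Λ]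

namespace IFS

open PotAux

variable (F : IFS Λ) {μ : Measure ℝ} [IsProbabilityMeasure μ]

theorem gfun_nonneg (h : F.SelfSim μ) (s : ℝ) : 0 ≤ F.gfun μ s := by
  have hG := F.good_of_selfSim h
  have h1 := Hk_sum_ge (I := Finset.univ)
    (m := fun i => ENNReal.ofReal (F.p i) • μ.map (fun x => F.r i * x + F.t i))
    (fun i _ => (hG.map_affine _ _).smul _) s 1
  rw [← h] at h1
  rw [gfun, sub_nonneg]
  refine le_of_eq_of_le (Finset.sum_congr rfl fun i _ => ?_) h1
  rw [Hk_smul (hG.map_affine _ _) (F.p_pos i).le, Hk_map_affine hG (F.r_ne i)]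

theorem measurable_gfun (h : F.SelfSim μ) : Measurable (F.gfun μ) := by
  have hG := F.good_of_selfSim h
  exact (measurable_Hk hG 1).sub (Finset.measurable_sum _ fun i _ =>
    ((measurable_Hk hG 1).comp (measurable_add_const _)).const_mul _)

theorem integrable_gfun (h : F.SelfSim μ) : Integrable (F.gfun μ) := by
  have hG := F.good_of_selfSim h
  refine integrable_of_intervalIntegral_norm_bounded (l := Filter.atTop) (a := fun x : ℝ => -x)
    (b := fun x => x) (log 2 * F.chi) (fun x => (g_int hG _ _).1) Filter.tendsto_neg_atTop_atBot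
    Filter.tendsto_id (Filter.Eventually.of_forall fun x => ?_)
  simp only [Real.norm_eq_abs, abs_of_nonneg (F.gfun_nonneg h _)]
  rw [← Phi_sub hG]
  linarith [Phi_le (F := F) hG x, Phi_nonneg (F := F) hG (-x)]

theorem exists_slope (h : F.SelfSim μ) :
    ∃ α C : ℝ, 0 ≤ α ∧ α ≤ 1 ∧ 0 ≤ C ∧ Slope μ α C := by
  have hG := F.good_of_selfSim h
  have hl : 0 < log 2 := log_pos one_lt_two
  have hχ := F.chi_pos
  have hd : 0 < log 2 * F.chi := mul_pos hl hχ
  have hm : Monotone (Phi F μ) := fun a b hab => by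
    rw [← sub_nonneg, Phi_sub hG]
    exact intervalIntegral.integral_nonneg hab fun s _ => F.gfun_nonneg h s
  have hb : BddAbove (range (Phi F μ)) := ⟨_, forall_mem_range.2 (Phi_le hG)⟩
  obtain ⟨K, hK0, hK⟩ := Phi_P (F := F) hG
  set L := ⨆ y, Phi F μ y with hL
  have hle : ∀ y, Phi F μ y ≤ L := fun y => le_ciSup hb y
  have key : ∀ s t, |(∫ y in s..t, Phi F μ y) - log 2 * F.chi * (Hs μ t - Hs μ s)| ≤
      K + F.chi * (2 * (log 2 + 2) * log 2) := fun s t => by
    have h1 := abs_le.1 (hK s t)
    have h2 := abs_le.1 (P_Hs hG s t)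
    have h3 := mul_le_mul_of_nonneg_left h2.1 hχ.le
    have h4 := mul_le_mul_of_nonneg_left h2.2 hχ.le
    rw [abs_le]
    constructor <;> nlinarith [h1.1, h1.2]
  refine ⟨L / (log 2 * F.chi), (K + F.chi * (2 * (log 2 + 2) * log 2)) / (log 2 * F.chi),
    div_nonneg ((Phi_nonneg hG 0).trans (hle 0)) hd.le,
    (div_le_one hd).2 (ciSup_le (Phi_le hG)), by positivity, fun s x hx => ?_, fun ε hε => ?_⟩
  · have h1 := (abs_le.1 (key s (s + x))).1
    have h2 := intervalIntegral.integral_mono_on (a := s) (b := s + x) (μ := volume)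
      (by linarith) ((Phi_cont (F := F) hG).intervalIntegrable _ _) intervalIntegrable_const
      fun y _ => hle y
    simp only [intervalIntegral.integral_const, add_sub_cancel_left, smul_eq_mul] at h2
    rw [div_mul_eq_mul_div, ← add_div, le_div_iff₀ hd]
    linarith
  · obtain ⟨s₁, hs₁⟩ := exists_lt_of_lt_ciSup (f := Phi F μ)
      (show L - ε * (log 2 * F.chi) < L by nlinarith)
    refine ⟨s₁, fun s x hs hx => ?_⟩
    have h1 := (abs_le.1 (key s (s + x))).2
    have h2 := intervalIntegral.integral_mono_on (a := s) (b := s + x) (μ := volume)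
      (by linarith) intervalIntegrable_const ((Phi_cont (F := F) hG).intervalIntegrable _ _)
      fun y hy => hs₁.le.trans (hm (hs.trans hy.1))
    simp only [intervalIntegral.integral_const, add_sub_cancel_left, smul_eq_mul] at h2
    have e : (L / (log 2 * F.chi) - ε) * x = (L - ε * (log 2 * F.chi)) * x / (log 2 * F.chi) := by
      field_simp
    rw [e, ← sub_div, div_le_iff₀ hd]
    linarith

theorem slope_chi_le (h : F.SelfSim μ) {α C : ℝ} (hs : Slope μ α C) :
    α * F.chi ≤ log (Fintype.card Λ) := by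
  have hG := F.good_of_selfSim h
  have hχ := F.chi_pos
  obtain ⟨cM, hcM, hc⟩ := F.exists_chi_bound
  have key : ∀ ε, 0 < ε → ∀ m : ℕ, (α - ε) * F.chi * m - C ≤ m * log (Fintype.card Λ) := by
    intro ε hε m
    obtain ⟨s₁, hs₁⟩ := hs.2 ε hε
    have hp := fun w => (pw_pos F.p_pos w).le
    have h1 := Hs_sum_le (I := words Λ m)
      (m := fun w => ENNReal.ofReal (pw F.p w) • μ.map (fun x => F.rw w * x + F.tw w))
      (fun i _ => (hG.map_affine _ _).smul _) (s₁ + cM * m)
    rw [← F.selfSim_words h m] at h1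
    simp only [mss_smul _ (hp _), mss_map_affine, mss_prob, mul_one,
      Hs_smul (hG.map_affine _ _) (hp _), Hs_map_affine hG (F.rw_ne_zero _)] at h1
    have h2 := ent_le_log_card (S := words Λ m) (a := pw F.p) fun w _ => hp w
    rw [sum_pw F.p_sum, card_words, one_mul, Nat.cast_pow, log_pow] at h2
    have h3 : ∑ w ∈ words Λ m, pw F.p w * ((α - ε) * F.chiw w - C) ≤
        ∑ w ∈ words Λ m, pw F.p w * (Hs μ (s₁ + cM * m) - Hs μ (s₁ + cM * m + log |F.rw w|)) := by
      refine Finset.sum_le_sum fun w hw => mul_le_mul_of_nonneg_left ?_ (hp w)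
      have h4 := F.chiw_le hc w
      rw [mem_words.1 hw] at h4
      have h5 := hs₁ (s₁ + cM * m + log |F.rw w|) (F.chiw w) (by rw [chiw] at h4; linarith)
        (F.chiw_nonneg w)
      rwa [chiw, add_neg_cancel_right, ← chiw] at h5
    have h6 : ∑ w ∈ words Λ m, pw F.p w * ((α - ε) * F.chiw w - C) =
        (α - ε) * F.chi * m - C := by
      simp only [mul_sub, Finset.sum_sub_distrib, ← Finset.sum_mul, sum_pw F.p_sum, one_mul,
        mul_left_comm _ (α - ε), ← Finset.mul_sum, F.sum_pw_chiw, mul_assoc]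
    simp only [mul_sub (pw F.p _) (Hs μ _), Finset.sum_sub_distrib, ← Finset.sum_mul,
      sum_pw F.p_sum, one_mul] at h3
    change ent (words Λ m) (fun w => pw F.p w) ≤ _ at h2
    linarith
  by_contra hcon
  rw [not_le] at hcon
  set D := α * F.chi - log (Fintype.card Λ) with hD
  have hD0 : 0 < D := sub_pos.2 hcon
  obtain ⟨m, hm⟩ := exists_nat_gt (C / (D / 2))
  have h1 := key (D / 2 / F.chi) (by positivity) m
  rw [sub_mul, div_mul_cancel₀ _ hχ.ne'] at h1
  rw [div_lt_iff₀ (by positivity)] at hm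
  nlinarith

end IFS

end

end Vale.Agent.P114
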