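import Vale.Agent.P114.Words
import Vale.Agent.P114.HsConv

/-! # P114: self-similar measures: support, iteration, stopping, existence -/

open MeasureTheory Real Set Polynomial
open scoped ENNReal

namespace Vale.Agent.P114

noncomputable section

variable {Λ : Type*} [Fintype Λ] {β : Type*}

namespace SelfSimAux

open Filter Topology BoundedContinuousFunction

theorem map_sum_smul {ι : Type*} (S : Finset ι) (c : ι → ℝ≥0∞) (ν : ι → Measure ℝ) {f : ℝ → ℝ}
    (hf : Measurable f) : (∑ i ∈ S, c i • ν i).map f = ∑ i ∈ S, c i • (ν i).map f := by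
  rw [Measure.map_finset_sum hf.aemeasurable]
  simp only [Measure.map_smul]

theorem meas_aff (a b : ℝ) : Measurable (fun x : ℝ => a * x + b) := by fun_prop

theorem exists_rho (F : IFS Λ) : ∃ ρ : ℝ, 0 < ρ ∧ ρ < 1 ∧ ∀ i, |F.r i| ≤ ρ := by
  have := F.nonempty
  obtain ⟨i, -, hi⟩ := Finset.exists_max_image Finset.univ (fun i => |F.r i|) Finset.univ_nonempty
  exact ⟨|F.r i|, abs_pos.2 (F.r_ne i), F.r_lt i, fun j => hi j (Finset.mem_univ j)⟩

theorem abs_rw_le (F : IFS Λ) {ρ : ℝ} (h : ∀ i, |F.r i| ≤ ρ) (w : List Λ) :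
    |F.rw w| ≤ ρ ^ w.length := by
  induction w with
  | nil => simp
  | cons i w ih =>
    rw [IFS.rw_cons, abs_mul, List.length_cons, pow_succ']
    exact mul_le_mul (h i) ih (abs_nonneg _) ((abs_nonneg _).trans (h i))

theorem sum_ofReal_pw (F : IFS Λ) (m : ℕ) : ∑ w ∈ words Λ m, ENNReal.ofReal (pw F.p w) = 1 := by
  rw [← ENNReal.ofReal_sum_of_nonneg fun w _ => (pw_pos F.p_pos w).le, sum_pw F.p_sum,
    ENNReal.ofReal_one]

theorem integral_sum_smul {ι : Type*} (S : Finset ι) {c : ι → ℝ} (hc : ∀ i ∈ S, 0 ≤ c i)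
    (ν : ι → Measure ℝ) [∀ i, IsFiniteMeasure (ν i)] (f : ℝ →ᵇ ℝ) :
    ∫ x, f x ∂(∑ i ∈ S, ENNReal.ofReal (c i) • ν i) = ∑ i ∈ S, c i * ∫ x, f x ∂(ν i) := by
  rw [integral_finsetSum_measure fun i _ =>
    (f.integrable (ν i)).smul_measure ENNReal.ofReal_ne_top]
  refine Finset.sum_congr rfl fun i hi => ?_
  rw [integral_smul_measure, ENNReal.toReal_ofReal (hc i hi), smul_eq_mul]

/-- The law of the translation at level `m`. -/
def lev (F : IFS Λ) (m : ℕ) : ProbabilityMeasure ℝ :=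
  ⟨atom (words Λ m) (pw F.p) F.tw, ⟨by
    simp only [atom, Measure.coe_finsetSum, Finset.sum_apply, Measure.smul_apply, measure_univ,
      smul_eq_mul, mul_one]
    exact sum_ofReal_pw F m⟩⟩

theorem integral_lev (F : IFS Λ) (m : ℕ) (f : ℝ →ᵇ ℝ) :
    ∫ x, f x ∂(lev F m : Measure ℝ) = ∑ w ∈ words Λ m, pw F.p w * f (F.tw w) := by
  have := integral_sum_smul (words Λ m) (fun w _ => (pw_pos F.p_pos w).le)
    (fun w => Measure.dirac (F.tw w)) f
  simp only [integral_dirac] at this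
  exact this

theorem lev_diff (F : IFS Λ) (f : ℝ →ᵇ ℝ) :
    Tendsto (fun m => ∫ x, f x ∂(lev F (m + 1) : Measure ℝ) - ∫ x, f x ∂(lev F m : Measure ℝ))
      atTop (𝓝 0) := by
  obtain ⟨R, hR0, -, hR⟩ := F.exists_radius
  obtain ⟨ρ, h0, h1, hρ⟩ := exists_rho F
  have hmem : ∀ w, F.tw w ∈ Icc (-R) R := fun w => by
    have := hR w
    have h2 := mul_nonneg (abs_nonneg (F.rw w)) hR0.le
    exact abs_le.1 (by linarith)
  have huc := (isCompact_Icc (a := -R) (b := R)).uniformContinuousOn_of_continuous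
    f.continuous.continuousOn
  rw [Metric.uniformContinuousOn_iff_le] at huc
  rw [Metric.tendsto_atTop]
  intro ε hε
  obtain ⟨δ, hδ, hd⟩ := huc (ε / 2) (half_pos hε)
  have hlim : Tendsto (fun m : ℕ => ρ ^ m * R) atTop (𝓝 0) := by
    simpa using (tendsto_pow_atTop_nhds_zero_of_lt_one h0.le h1).mul_const R
  obtain ⟨N, hN⟩ := eventually_atTop.1 (hlim.eventually (gt_mem_nhds hδ))
  refine ⟨N, fun m hm => ?_⟩
  rw [integral_lev, integral_lev, sum_words_add, Real.dist_eq, sub_zero, ← Finset.sum_sub_distrib]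
  refine lt_of_le_of_lt ?_ (half_lt_self hε)
  refine (Finset.abs_sum_le_sum_abs _ _).trans ?_
  rw [← one_mul (ε / 2), ← sum_pw F.p_sum m, Finset.sum_mul]
  refine Finset.sum_le_sum fun w hw => ?_
  rw [mem_words] at hw
  have e : ∑ v ∈ words Λ 1, pw F.p (w ++ v) * f (F.tw (w ++ v)) - pw F.p w * f (F.tw w) =
      ∑ v ∈ words Λ 1, pw F.p w * pw F.p v * (f (F.tw (w ++ v)) - f (F.tw w)) := by
    simp only [mul_sub, Finset.sum_sub_distrib, pw_append]
    rw [← Finset.sum_mul, ← Finset.mul_sum, sum_pw F.p_sum, mul_one]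
  rw [e]
  refine (Finset.abs_sum_le_sum_abs _ _).trans ?_
  rw [← mul_one (pw F.p w * (ε / 2)), ← sum_pw F.p_sum 1, Finset.mul_sum]
  refine Finset.sum_le_sum fun v _ => ?_
  have hp := mul_pos (pw_pos F.p_pos w) (pw_pos F.p_pos v)
  rw [abs_mul, abs_of_pos hp]
  have h3 : |f (F.tw (w ++ v)) - f (F.tw w)| ≤ ε / 2 := by
    rw [← Real.dist_eq]
    refine hd _ (hmem _) _ (hmem _) ?_
    rw [Real.dist_eq, F.tw_append, add_sub_cancel_right, abs_mul]
    refine le_trans ?_ (hN m hm).le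
    rw [← hw]
    exact mul_le_mul (abs_rw_le F hρ w) (abs_le.2 (hmem v)) (abs_nonneg _) (by positivity)
  calc _ ≤ pw F.p w * pw F.p v * (ε / 2) := mul_le_mul_of_nonneg_left h3 hp.le
    _ = _ := by ring

theorem exists_ss (F : IFS Λ) : ∃ μ : Measure ℝ, IsProbabilityMeasure μ ∧ F.SelfSim μ := by
  obtain ⟨R, hR0, -, hR⟩ := F.exists_radius
  have hmem : ∀ w, F.tw w ∈ Icc (-R) R := fun w => by
    have := hR w
    have h2 := mul_nonneg (abs_nonneg (F.rw w)) hR0.le
    exact abs_le.1 (by linarith)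
  have hc := isCompact_setOfPred_probabilityMeasure_mass_eq_compl_isCompact_le (E := ℝ)
    (u := fun _ => 0) (K := fun _ => Icc (-R) R) tendsto_const_nhds (fun _ => isCompact_Icc)
    (Or.inl inferInstance)
  obtain ⟨μ, -, hμ⟩ := hc.ultrafilter_le_nhds (Ultrafilter.map (lev F) (hyperfilter ℕ)) (by
    rw [Ultrafilter.coe_map, le_principal_iff, mem_map]
    refine Filter.univ_mem' fun m => ?_
    intro _
    have : (lev F m : Measure ℝ) (Icc (-R) R)ᶜ = 0 := by
      change atom (words Λ m) (pw F.p) F.tw (Icc (-R) R)ᶜ = 0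
      simp only [atom, Measure.coe_finsetSum, Finset.sum_apply, Measure.smul_apply]
      refine Finset.sum_eq_zero fun w _ => ?_
      rw [Measure.dirac_apply' _ measurableSet_Icc.compl, indicator_of_notMem
        (notMem_compl_iff.2 (hmem w)), smul_zero]
    exact le_of_eq ((ProbabilityMeasure.null_iff_toMeasure_null _ _).2 this))
  have hT : Tendsto (lev F) (hyperfilter ℕ : Filter ℕ) (𝓝 μ) := hμ
  rw [ProbabilityMeasure.tendsto_iff_forall_integral_tendsto] at hT
  refine ⟨μ, inferInstance, ?_⟩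
  have : IsFiniteMeasure (∑ i, ENNReal.ofReal (F.p i) •
      (μ : Measure ℝ).map (fun x => F.r i * x + F.t i)) := ⟨by
    simp only [Measure.coe_finsetSum, Finset.sum_apply, Measure.smul_apply, smul_eq_mul]
    exact ENNReal.sum_lt_top.2 fun i _ => ENNReal.mul_lt_top ENNReal.ofReal_lt_top
      (measure_lt_top _ _)⟩
  refine ext_of_forall_integral_eq_of_IsFiniteMeasure fun f => ?_
  rw [integral_sum_smul _ (fun i _ => (F.p_pos i).le)]
  let g : Λ → ℝ →ᵇ ℝ := fun i => f.compContinuous ⟨fun x => F.r i * x + F.t i, by fun_prop⟩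
  have hg : ∀ i, ∫ x, f x ∂((μ : Measure ℝ).map (fun x => F.r i * x + F.t i)) =
      ∫ x, g i x ∂(μ : Measure ℝ) := fun i =>
    integral_map (meas_aff _ _).aemeasurable f.continuous.aestronglyMeasurable
  simp only [hg]
  have h1 : Tendsto (fun m => ∫ x, f x ∂(lev F (m + 1) : Measure ℝ)) (hyperfilter ℕ : Filter ℕ)
      (𝓝 (∑ i, F.p i * ∫ x, g i x ∂(μ : Measure ℝ))) := by
    have e : ∀ m, ∫ x, f x ∂(lev F (m + 1) : Measure ℝ) =
        ∑ i, F.p i * ∫ x, g i x ∂(lev F m : Measure ℝ) := by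
      intro m
      simp only [integral_lev, sum_words_succ, Finset.mul_sum, pw_cons, mul_assoc]
      rfl
    simp only [e]
    exact tendsto_finsetSum _ fun i _ => (hT (g i)).const_mul _
  have h2 := ((lev_diff F f).mono_left (Nat.hyperfilter_le_atTop)).add (hT f)
  simp only [sub_add_cancel, zero_add] at h2
  exact tendsto_nhds_unique h2 h1

end SelfSimAux

open SelfSimAux Filter Topology

namespace IFS

variable (F : IFS Λ) {μ : Measure ℝ}

theorem selfSim_words (h : F.SelfSim μ) (m : ℕ) :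
    μ = ∑ w ∈ words Λ m, ENNReal.ofReal (pw F.p w) • μ.map (fun x => F.rw w * x + F.tw w) := by
  induction m with
  | zero => simp [words_zero]
  | succ m ih =>
    rw [sum_words_succ]
    refine h.trans (Finset.sum_congr rfl fun i _ => ?_)
    conv_lhs => rw [ih]
    rw [map_sum_smul _ _ _ (meas_aff _ _), Finset.smul_sum]
    refine Finset.sum_congr rfl fun w _ => ?_
    rw [smul_smul, pw_cons, ENNReal.ofReal_mul (F.p_pos i).le,
      Measure.map_map (meas_aff _ _) (meas_aff _ _)]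
    congr 2
    funext x
    simp only [Function.comp, rw_cons, tw_cons]
    ring

/-- The measure lives on every invariant interval. -/
theorem support_of_selfSim [IsProbabilityMeasure μ] (h : F.SelfSim μ) {R : ℝ}
    (hR : ∀ w, |F.rw w| * R + |F.tw w| ≤ R) (hR0 : 0 ≤ R) : μ (Icc (-R) R)ᶜ = 0 := by
  obtain ⟨ρ, h0, h1, hρ⟩ := exists_rho F
  have key : ∀ d : ℝ, 0 < d → μ (Icc (-(R + d)) (R + d))ᶜ = 0 := by
    intro d hd
    have hm : ∀ m : ℕ, μ (Icc (-(R + d)) (R + d))ᶜ ≤
        μ (Icc (-(R + d / ρ ^ m)) (R + d / ρ ^ m))ᶜ := by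
      intro m
      conv_lhs => rw [F.selfSim_words h m]
      rw [← one_mul (μ (Icc (-(R + d / ρ ^ m)) (R + d / ρ ^ m))ᶜ), ← sum_ofReal_pw F m,
        Finset.sum_mul]
      simp only [Measure.coe_finsetSum, Finset.sum_apply, Measure.smul_apply, smul_eq_mul]
      refine Finset.sum_le_sum fun w hw => ?_
      rw [mem_words] at hw
      refine mul_le_mul_right ?_ _
      rw [Measure.map_apply (meas_aff _ _) measurableSet_Icc.compl]
      refine measure_mono fun x hx hx' => hx ?_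
      rw [mem_Icc, ← abs_le] at hx' ⊢
      have h2 := abs_rw_le F hρ w
      rw [hw] at h2
      have h3 : |F.rw w| * (d / ρ ^ m) ≤ d := by
        rw [← mul_div_assoc, div_le_iff₀ (by positivity)]
        nlinarith
      have h4 := abs_add_le (F.rw w * x) (F.tw w)
      rw [abs_mul] at h4
      have h5 := mul_le_mul_of_nonneg_left hx' (abs_nonneg (F.rw w))
      nlinarith [hR w]
    have hanti : Antitone (fun m : ℕ => (Icc (-(R + d / ρ ^ m)) (R + d / ρ ^ m))ᶜ) := by
      intro a b hab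
      have : d / ρ ^ a ≤ d / ρ ^ b :=
        div_le_div_of_nonneg_left hd.le (by positivity) (pow_le_pow_of_le_one h0.le h1.le hab)
      exact compl_subset_compl.2 (Icc_subset_Icc (by linarith) (by linarith))
    have hlim := tendsto_measure_iInter_atTop (μ := μ)
      (fun m => measurableSet_Icc.compl.nullMeasurableSet) hanti ⟨0, measure_ne_top _ _⟩
    have hemp : (⋂ m : ℕ, (Icc (-(R + d / ρ ^ m)) (R + d / ρ ^ m))ᶜ) = ∅ := by
      refine eq_empty_of_forall_notMem fun x hx => ?_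
      obtain ⟨m, hm⟩ := exists_pow_lt_of_lt_one (show 0 < d / (|x| + 1) by positivity) h1
      refine mem_iInter.1 hx m ?_
      rw [mem_Icc, ← abs_le]
      rw [lt_div_iff₀ (by positivity)] at hm
      have : |x| + 1 ≤ d / ρ ^ m := by
        rw [le_div_iff₀ (by positivity)]
        linarith
      linarith
    rw [hemp, measure_empty] at hlim
    exact le_antisymm (ge_of_tendsto' hlim hm) (zero_le)
  have : (Icc (-R) R)ᶜ ⊆ ⋃ n : ℕ, (Icc (-(R + 1 / ((n : ℝ) + 1))) (R + 1 / ((n : ℝ) + 1)))ᶜ := by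
    intro x hx
    rw [mem_compl_iff, mem_Icc, ← abs_le, not_le] at hx
    obtain ⟨n, hn⟩ := exists_nat_one_div_lt (sub_pos.2 hx)
    refine mem_iUnion.2 ⟨n, ?_⟩
    rw [mem_compl_iff, mem_Icc, ← abs_le, not_le]
    linarith
  exact measure_mono_null this (measure_iUnion_null fun n => key _ (by positivity))

theorem good_of_selfSim [IsProbabilityMeasure μ] (h : F.SelfSim μ) : Good μ := by
  obtain ⟨R, hR0, -, hR⟩ := F.exists_radius
  exact ⟨inferInstance, R, F.support_of_selfSim h hR hR0.le⟩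

/-- Stopping at a prescribed contraction. -/
theorem exists_stop (h : F.SelfSim μ) {cM : ℝ} (hc : ∀ i, -log |F.r i| ≤ cM) {x : ℝ}
    (hx : 0 ≤ x) : ∃ U : Finset (List Λ), (∀ u ∈ U, x ≤ F.chiw u ∧ F.chiw u ≤ x + cM) ∧
      ∑ u ∈ U, pw F.p u = 1 ∧
      μ = ∑ u ∈ U, ENNReal.ofReal (pw F.p u) • μ.map (fun y => F.rw u * y + F.tw u) := by
  obtain ⟨ρ, h0, h1, hρ⟩ := exists_rho F
  have hc0 : 0 < -log ρ := neg_pos.2 (log_neg h0 h1)
  have hci : ∀ i, -log ρ ≤ -log |F.r i| := fun i =>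
    neg_le_neg (log_le_log (abs_pos.2 (F.r_ne i)) (hρ i))
  have key : ∀ n : ℕ, ∀ x : ℝ, -cM ≤ x → x ≤ n * (-log ρ) → ∃ U : Finset (List Λ),
      (∀ u ∈ U, x ≤ F.chiw u ∧ F.chiw u ≤ x + cM) ∧ ∑ u ∈ U, pw F.p u = 1 ∧
      μ = ∑ u ∈ U, ENNReal.ofReal (pw F.p u) • μ.map (fun y => F.rw u * y + F.tw u) := by
    have base : ∀ x : ℝ, -cM ≤ x → x ≤ 0 → ∃ U : Finset (List Λ),
        (∀ u ∈ U, x ≤ F.chiw u ∧ F.chiw u ≤ x + cM) ∧ ∑ u ∈ U, pw F.p u = 1 ∧
        μ = ∑ u ∈ U, ENNReal.ofReal (pw F.p u) • μ.map (fun y => F.rw u * y + F.tw u) := by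
      intro x h2 h3
      refine ⟨{[]}, fun u hu => ?_, by simp, by simp⟩
      rw [Finset.mem_singleton.1 hu, chiw_nil]
      constructor <;> linarith
    intro n
    induction n with
    | zero => intro x h2 h3; exact base x h2 (by simpa using h3)
    | succ n ih =>
      intro x h2 h3
      rcases le_or_gt x 0 with h4 | h4
      · exact base x h2 h4
      have : ∀ i, ∃ U : Finset (List Λ),
          (∀ u ∈ U, x - (-log |F.r i|) ≤ F.chiw u ∧ F.chiw u ≤ x - (-log |F.r i|) + cM) ∧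
          ∑ u ∈ U, pw F.p u = 1 ∧
          μ = ∑ u ∈ U, ENNReal.ofReal (pw F.p u) • μ.map (fun y => F.rw u * y + F.tw u) :=
        fun i => ih _ (by linarith [hc i]) (by push_cast at h3; linarith [hci i])
      choose U hU1 hU2 hU3 using this
      let e : (Σ _ : Λ, List Λ) ↪ List Λ := ⟨fun z => z.1 :: z.2, by
        rintro ⟨a, b⟩ ⟨a', b'⟩ hab
        simp only [List.cons.injEq] at hab
        obtain ⟨rfl, rfl⟩ := hab
        rfl⟩
      refine ⟨(Finset.univ.sigma U).map e, fun u hu => ?_, ?_, ?_⟩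
      · obtain ⟨⟨i, v⟩, hz, rfl⟩ := Finset.mem_map.1 hu
        have := hU1 i v (Finset.mem_sigma.1 hz).2
        change x ≤ F.chiw (i :: v) ∧ F.chiw (i :: v) ≤ x + cM
        rw [chiw_cons]
        constructor <;> linarith [this.1, this.2]
      · rw [Finset.sum_map, Finset.sum_sigma]
        change ∑ i, ∑ v ∈ U i, pw F.p (i :: v) = 1
        simp only [pw_cons, ← Finset.mul_sum, hU2, mul_one, F.p_sum]
      · rw [Finset.sum_map, Finset.sum_sigma]
        refine h.trans (Finset.sum_congr rfl fun i _ => ?_)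
        conv_lhs => rw [hU3 i]
        rw [map_sum_smul _ _ _ (meas_aff _ _), Finset.smul_sum]
        refine Finset.sum_congr rfl fun w _ => ?_
        change _ = ENNReal.ofReal (pw F.p (i :: w)) •
          μ.map (fun y => F.rw (i :: w) * y + F.tw (i :: w))
        rw [smul_smul, pw_cons, ENNReal.ofReal_mul (F.p_pos i).le,
          Measure.map_map (meas_aff _ _) (meas_aff _ _)]
        congr 2
        funext x
        simp only [Function.comp, rw_cons, tw_cons]
        ring
  obtain ⟨n, hn⟩ := exists_nat_ge (x / (-log ρ))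
  rw [div_le_iff₀ hc0] at hn
  obtain ⟨i⟩ := F.nonempty
  exact key n x (by linarith [hc i, hci i]) hn

/-- Decomposition into classes of typical words and the atypical rest. -/
theorem selfSim_classes [IsProbabilityMeasure μ] (h : F.SelfSim μ) (ex : List Λ → β) (ε : ℝ)
    (m : ℕ) :
    μ = ∑ f ∈ img (F.typ ε m) (cls ex), F.nu ex ε m f ∗ scl (F.rm f.1) μ +
      ∑ w ∈ F.atyp ε m, ENNReal.ofReal (pw F.p w) • μ.map (fun x => F.rw w * x + F.tw w) := by
  have hg := F.good_of_selfSim h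
  conv_lhs => rw [F.selfSim_words h m]
  rw [← Finset.sum_filter_add_sum_filter_not (words Λ m)
    (fun w => F.chiw w ≤ (F.chi + ε / 2) * m)]
  congr 1
  change ∑ w ∈ F.typ ε m, _ = _
  rw [← sum_fib (F.typ ε m) (cls ex)]
  refine Finset.sum_congr rfl fun f _ => ?_
  rw [IFS.nu, atom_conv_scl _ _ _ hg]
  refine Finset.sum_congr rfl fun w hw => ?_
  rw [← (mem_fib.1 hw).2]
  change _ = _ • μ.map (fun x => F.rm (w : Multiset Λ) * x + F.tw w)
  rw [rm_coe]

/-- Self-similarity of the scaled measure. -/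
theorem scl_selfSim (h : F.SelfSim μ) (ρ : ℝ) :
    scl ρ μ = ∑ i, ENNReal.ofReal (F.p i) • (scl (ρ * F.r i) μ).map (fun x => ρ * F.t i + x) := by
  have hm : Measurable (fun x : ℝ => ρ * x) := by fun_prop
  unfold scl
  conv_lhs => rw [h]
  rw [map_sum_smul _ _ _ hm]
  refine Finset.sum_congr rfl fun i _ => ?_
  rw [Measure.map_map hm (meas_aff _ _), Measure.map_map (by fun_prop) (by fun_prop)]
  congr 2
  funext x
  simp only [Function.comp]
  ring

theorem good_nu (ex : List Λ → β) (ε : ℝ) (m : ℕ) (f : Multiset Λ × β) :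
    Good (F.nu ex ε m f) := Good.atom _ _ _

theorem mss_nu (ex : List Λ → β) (ε : ℝ) (m : ℕ) (f : Multiset Λ × β) :
    mss (F.nu ex ε m f) = mass (F.typ ε m) (pw F.p) (cls ex) f := by
  exact mss_atom (fun w _ => (pw_pos F.p_pos w).le) _

/-- Existence of a self-similar probability measure. -/
theorem exists_selfSim : ∃ μ : Measure ℝ, IsProbabilityMeasure μ ∧ F.SelfSim μ := by
  exact exists_ss F

end IFS

end

end Vale.Agent.P114
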