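import Vale.Agent.P114.Words
import Vale.Agent.P114.Elim
import Vale.Agent.P114.Liou

/-! # P114: formal translation vectors; windows in the lattice case -/

open MeasureTheory Real Set Polynomial
open scoped ENNReal

namespace Vale.Agent.P114

noncomputable section

variable {Λ : Type*} [Fintype Λ]

theorem ev_sub (x : ℝ) (t : Λ → ℝ) (y z : Λ → ℤ[X]) : ev x t (y - z) = ev x t y - ev x t z := by
  simp only [ev, Pi.sub_apply, map_sub, sub_mul, Finset.sum_sub_distrib]

omit [Fintype Λ] in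
theorem toPS_sub (y z : Λ → ℤ[X]) : toPS (y - z) = toPS y - toPS z := by
  funext l
  simp [toPS]

omit [Fintype Λ] in
theorem nice_top : Nice (⊤ : Submodule (PowerSeries ℤ) (Λ → PowerSeries ℤ)) := by
  exact ⟨fun _ _ _ _ => trivial, fun _ _ => trivial⟩

/-- The lattice case has a shape. -/
theorem IFS.exists_shape (F : IFS Λ) (h : ∀ i j, ¬ Irrational (log |F.r i| / log |F.r j|)) :
    ∃ (sh : Shape Λ) (x : ℝ) (hx : x ∈ Ioo (0 : ℝ) 1), F = sh.ifs x hx F.t := by
  classical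
  obtain ⟨i0⟩ := F.nonempty
  have hneg : ∀ i, log |F.r i| < 0 := fun i => log_neg (abs_pos.2 (F.r_ne i)) (F.r_lt i)
  have hq : ∀ i, ∃ q : ℚ, (q : ℝ) = log |F.r i| / log |F.r i0| := fun i => by
    have := h i i0
    rw [Irrational, not_not] at this
    exact this
  choose q hq using hq
  have hq0 : ∀ i, 0 < q i := fun i => by
    have : (0 : ℝ) < q i := by rw [hq]; exact div_pos_of_neg_of_neg (hneg i) (hneg i0)
    exact_mod_cast this
  set Dn : ℕ := ∏ i, (q i).den with hDn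
  have hD0 : (0 : ℝ) < Dn := Nat.cast_pos.2 (Finset.prod_pos fun i _ => (q i).den_pos)
  have ha : ∀ i, ∃ a : ℕ, (a : ℝ) = q i * Dn := fun i => by
    obtain ⟨k, hk⟩ : (q i).den ∣ Dn := Finset.dvd_prod_of_mem _ (Finset.mem_univ i)
    refine ⟨(q i).num.toNat * k, ?_⟩
    have h1 : (((q i).num.toNat : ℕ) : ℝ) = ((q i).num : ℝ) := by
      rw [← Int.cast_natCast, Int.toNat_of_nonneg (Rat.num_pos.2 (hq0 i)).le]
    have h2 : (q i : ℝ) * (q i).den = (q i).num := by exact_mod_cast Rat.mul_den_eq_num (q i)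
    rw [hk]
    push_cast
    rw [h1, ← mul_assoc, h2]
  choose a ha using ha
  have hx : exp (log |F.r i0| / Dn) ∈ Ioo (0 : ℝ) 1 :=
    ⟨exp_pos _, exp_lt_one_iff.2 (div_neg_of_neg_of_pos (hneg i0) hD0)⟩
  refine ⟨⟨a, fun i => if 0 < F.r i then 1 else -1, F.p, fun i => ?_, fun i => ?_, F.p_pos,
    F.p_sum⟩, _, hx, ?_⟩
  · have : (0 : ℝ) < a i := by
      rw [ha]
      exact mul_pos (by exact_mod_cast hq0 i) hD0
    exact_mod_cast this
  · split_ifs <;> simp
  · obtain ⟨r, t, p, h1, h2, h3, h4⟩ := F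
    simp only [Shape.ifs, IFS.mk.injEq, and_true]
    funext i
    have h5 : exp (log |r i0| / Dn) ^ a i = |r i| := by
      rw [← exp_nat_mul, ha, hq, ← exp_log (abs_pos.2 (h1 i))]
      congr 1
      have := (hneg i0).ne
      simp only [log_exp] at this ⊢
      field_simp
    rw [h5]
    split_ifs with h6
    · rw [abs_of_pos h6]; simp
    · rw [abs_of_nonpos (not_lt.1 h6)]; simp

namespace XWordsAux

theorem ev_smul (x : ℝ) (t : Λ → ℝ) (c : ℤ[X]) (y : Λ → ℤ[X]) :
    ev x t (c • y) = aeval x c * ev x t y := by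
  simp only [ev, Pi.smul_apply, smul_eq_mul, map_mul, Finset.mul_sum, mul_assoc]

theorem ev_add (x : ℝ) (t : Λ → ℝ) (y z : Λ → ℤ[X]) : ev x t (y + z) = ev x t y + ev x t z := by
  simp only [ev, Pi.add_apply, map_add, add_mul, Finset.sum_add_distrib]

omit [Fintype Λ] in
theorem toPS_add (y z : Λ → ℤ[X]) : toPS (y + z) = toPS y + toPS z := by
  funext l
  simp [toPS]

omit [Fintype Λ] in
theorem toPS_smul (c : ℤ[X]) (y : Λ → ℤ[X]) : toPS (c • y) = (c : PowerSeries ℤ) • toPS y := by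
  funext l
  simp [toPS]

variable (sh : Shape Λ)

theorem mon_cons (i : Λ) (w : List Λ) : sh.mon ((i :: w : List Λ) : Multiset Λ) =
    C (sh.sg i) * X ^ sh.a i * sh.mon (w : Multiset Λ) := by
  simp [Shape.mon]

theorem mon_nil : sh.mon (([] : List Λ) : Multiset Λ) = 1 := by
  simp [Shape.mon]

theorem abs_sg (i : Λ) : |sh.sg i| = 1 := by
  rcases sh.sg_sq i with h | h <;> simp [h]

theorem natDegree_XW {a : ℕ} (ha : ∀ i, sh.a i ≤ a) (v : List Λ) (l : Λ) :
    (sh.XW v l).natDegree ≤ a * v.length := by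
  induction v with
  | nil => simp [Shape.XW]
  | cons i v ih =>
    simp only [Shape.XW, List.length_cons]
    refine (natDegree_add_le _ _).trans (max_le ?_ ?_)
    · split_ifs <;> simp
    · refine natDegree_mul_le.trans ?_
      have := (natDegree_C_mul_X_pow_le (sh.sg i) (sh.a i)).trans (ha i)
      rw [mul_add, mul_one]
      omega

theorem abs_coeff_XW (v : List Λ) (l : Λ) (n : ℕ) : |(sh.XW v l).coeff n| ≤ 1 := by
  induction v generalizing n with
  | nil => simp [Shape.XW]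
  | cons i v ih =>
    simp only [Shape.XW]
    rw [coeff_add, mul_assoc, coeff_C_mul, coeff_X_pow_mul']
    rcases Nat.eq_zero_or_pos n with rfl | hn
    · rw [if_neg (Nat.not_le.2 (sh.a_pos i)), mul_zero, add_zero]
      split_ifs <;> simp
    · have : ∀ h : Decidable (l = i), (@ite _ (l = i) h (1 : ℤ[X]) 0).coeff n = 0 := by
        intro _
        split_ifs
        · rw [coeff_one, if_neg hn.ne']
        · simp
      rw [this, zero_add, abs_mul, abs_sg, one_mul]
      split_ifs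
      · exact ih _
      · simp

theorem pow_le_abs_mon {a : ℕ} (ha : ∀ i, sh.a i ≤ a) {x : ℝ} (hx : x ∈ Ioo (0 : ℝ) 1)
    (u : List Λ) : x ^ (a * u.length) ≤ |aeval x (sh.mon (u : Multiset Λ))| := by
  induction u with
  | nil => simp [Shape.mon]
  | cons i u ih =>
    rw [mon_cons, map_mul, map_mul, aeval_C, map_pow, aeval_X, abs_mul, abs_mul, List.length_cons,
      mul_add, mul_one, pow_add, mul_comm]
    have h1 : |algebraMap ℤ ℝ (sh.sg i)| = 1 := by
      rw [eq_intCast, ← Int.cast_abs, abs_sg, Int.cast_one]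
    rw [h1, one_mul, abs_of_pos (pow_pos hx.1 _)]
    exact mul_le_mul (pow_le_pow_of_le_one hx.1.le hx.2.le (ha i)) ih (pow_pos hx.1 _).le
      (pow_pos hx.1 _).le

end XWordsAux

open XWordsAux

namespace Shape

variable (sh : Shape Λ) {x : ℝ} (hx : x ∈ Ioo (0 : ℝ) 1) (t : Λ → ℝ)
  (K : Submodule (PowerSeries ℤ) (Λ → PowerSeries ℤ))

theorem XW_append (u v : List Λ) :
    sh.XW (u ++ v) = sh.XW u + sh.mon (u : Multiset Λ) • sh.XW v := by
  induction u with
  | nil => simp [Shape.XW, Shape.mon]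
  | cons i u ih =>
    funext l
    rw [List.cons_append, mon_cons]
    simp only [Shape.XW, ih, Pi.add_apply, Pi.smul_apply, smul_eq_mul]
    ring

theorem mon_ne_zero (c : Multiset Λ) : sh.mon c ≠ 0 := by
  refine Multiset.prod_ne_zero fun h => ?_
  obtain ⟨i, -, hi⟩ := Multiset.mem_map.1 h
  refine mul_ne_zero (C_ne_zero.2 ?_) (pow_ne_zero _ X_ne_zero) hi
  rcases sh.sg_sq i with h | h <;> simp [h]

theorem tw_ifs (w : List Λ) : (sh.ifs x hx t).tw w = ev x t (sh.XW w) := by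
  induction w with
  | nil => simp [ev, Shape.XW]
  | cons i w ih =>
    rw [IFS.tw_cons, ih]
    simp only [ev, Shape.XW, Shape.ifs, map_add, map_mul, map_pow, aeval_X, add_mul,
      Finset.sum_add_distrib, eq_intCast, map_intCast, Finset.mul_sum, mul_assoc]
    rw [add_comm]
    congr 1
    rw [Finset.sum_eq_single i (fun l _ hl => by simp [hl]) (by simp)]
    simp

theorem rw_ifs (w : List Λ) : (sh.ifs x hx t).rw w = aeval x (sh.mon (w : Multiset Λ)) := by
  induction w with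
  | nil => simp [Shape.mon]
  | cons i w ih =>
    rw [IFS.rw_cons, ih, mon_cons]
    simp [Shape.ifs]

theorem exK_eq_iff (w w' : List Λ) :
    sh.exK K w = sh.exK K w' ↔ toPS (sh.XW w - sh.XW w') ∈ K := by
  rw [Shape.exK, Shape.exK, Submodule.mkQ_apply, Submodule.mkQ_apply, Submodule.Quotient.eq,
    toPS_sub]

theorem exOK_exK : ExOK (sh.exK K) := by
  intro w w' v h
  simp only [cls, Prod.mk.injEq] at h
  rw [exK_eq_iff, XW_append, XW_append, h.1, add_sub_add_right_eq_sub, ← exK_eq_iff]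
  exact h.2

theorem exK_top (w w' : List Λ) : sh.exK ⊤ w = sh.exK ⊤ w' := by
  exact (sh.exK_eq_iff ⊤ w w').2 trivial

/-- The triple (counts, translation, coset) is compatible with concatenation. -/
theorem triple_append (v v' y y' : List Λ)
    (h1 : (cls (sh.exK K) v, (sh.ifs x hx t).tw v) = (cls (sh.exK K) v', (sh.ifs x hx t).tw v'))
    (h2 : (cls (sh.exK K) y, (sh.ifs x hx t).tw y) = (cls (sh.exK K) y', (sh.ifs x hx t).tw y')) :
    (cls (sh.exK K) (v ++ y), (sh.ifs x hx t).tw (v ++ y)) =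
      (cls (sh.exK K) (v' ++ y'), (sh.ifs x hx t).tw (v' ++ y')) := by
  simp only [cls, Prod.mk.injEq] at h1 h2 ⊢
  refine ⟨⟨?_, ?_⟩, ?_⟩
  · rw [← Multiset.coe_add, ← Multiset.coe_add, h1.1.1, h2.1.1]
  · rw [exK_eq_iff, XW_append, XW_append, h1.1.1, add_sub_add_comm, ← smul_sub, toPS_add,
      toPS_smul]
    exact K.add_mem ((sh.exK_eq_iff K _ _).1 h1.1.2)
      (K.smul_mem _ ((sh.exK_eq_iff K _ _).1 h2.1.2))
  · rw [IFS.tw_append, IFS.tw_append, rw_ifs, rw_ifs, h1.1.1, h1.2, h2.2]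

/-- Cancelling a common first part inside a class. -/
theorem sub_mem_RR (hK : Nice K) {m : ℕ} {s : ℝ} (u v v' : List Λ)
    (hm : (u ++ v).length = m) (hc : cls (sh.exK K) (u ++ v) = cls (sh.exK K) (u ++ v'))
    (hs : |(sh.ifs x hx t).tw (u ++ v) - (sh.ifs x hx t).tw (u ++ v')| ≤ exp (-s)) :
    sh.XW v - sh.XW v' ∈ sh.RR x t K m s := by
  simp only [cls, Prod.mk.injEq] at hc
  refine ⟨u, v, v', by rwa [List.length_append] at hm, ?_, ?_, ?_, rfl⟩
  · have := hc.1
    rw [← Multiset.coe_add, ← Multiset.coe_add] at this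
    exact add_left_cancel this
  · have := (sh.exK_eq_iff K _ _).1 hc.2
    rw [XW_append, XW_append, add_sub_add_left_eq_sub, ← smul_sub, toPS_smul] at this
    exact hK.sat _ _ (fun h => sh.mon_ne_zero _ (Polynomial.coe_eq_zero_iff.1 h)) this
  · rwa [tw_ifs, tw_ifs] at hs

theorem small_XW_sub {a : ℕ} (ha : ∀ i, sh.a i ≤ a) {m : ℕ} {v v' : List Λ}
    (hv : v.length ≤ m) (hv' : v'.length ≤ m) : Small (a * m) (sh.XW v - sh.XW v') := by
  intro l
  refine ⟨(natDegree_sub_le _ _).trans (max_le ?_ ?_), fun i => ?_⟩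
  · exact (natDegree_XW sh ha v l).trans (Nat.mul_le_mul_left _ hv)
  · exact (natDegree_XW sh ha v' l).trans (Nat.mul_le_mul_left _ hv')
  · rw [Pi.sub_apply, coeff_sub]
    have h1 := abs_le.1 (abs_coeff_XW sh v l i)
    have h2 := abs_le.1 (abs_coeff_XW sh v' l i)
    rw [abs_le]
    constructor <;> linarith [h1.1, h1.2, h2.1, h2.2]

theorem small_of_mem_RR {a : ℕ} (ha : ∀ i, sh.a i ≤ a) {m : ℕ} {s : ℝ} {y : Λ → ℤ[X]}
    (hy : y ∈ sh.RR x t K m s) : Small (a * m) y := by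
  obtain ⟨u, v, v', hm, hc, -, -, rfl⟩ := hy
  have := congrArg Multiset.card hc
  rw [Multiset.coe_card, Multiset.coe_card] at this
  exact sh.small_XW_sub ha (by omega) (by omega)

theorem toPS_mem_of_mem_RR {m : ℕ} {s : ℝ} {y : Λ → ℤ[X]} (hy : y ∈ sh.RR x t K m s) :
    toPS y ∈ K := by
  obtain ⟨u, v, v', -, -, h, -, rfl⟩ := hy
  exact h

theorem RR_anti {m : ℕ} {s s' : ℝ} (h : s ≤ s') : sh.RR x t K m s' ⊆ sh.RR x t K m s := by
  rintro y ⟨u, v, v', h1, h2, h3, h4, h5⟩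
  exact ⟨u, v, v', h1, h2, h3, h4.trans (exp_le_exp.2 (neg_le_neg h)), h5⟩

include hx in
theorem abs_ev_le_of_mem_RR {a : ℕ} (ha : ∀ i, sh.a i ≤ a) {m : ℕ} {s : ℝ} {y : Λ → ℤ[X]}
    (hy : y ∈ sh.RR x t K m s) : |ev x t y| ≤ exp (-s + a * m * (-log x)) := by
  obtain ⟨u, v, v', hm, -, -, h, rfl⟩ := hy
  rw [XW_append, XW_append, ← ev_sub, add_sub_add_left_eq_sub, ← smul_sub, ev_smul, abs_mul] at h
  have h1 : x ^ (a * m) ≤ |aeval x (sh.mon (u : Multiset Λ))| :=
    (pow_le_pow_of_le_one hx.1.le hx.2.le (Nat.mul_le_mul_left a (by omega))).trans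
      (pow_le_abs_mon sh ha hx u)
  have h2 : exp (a * m * (-log x)) * x ^ (a * m) = 1 := by
    rw [← exp_log (pow_pos hx.1 (a * m)), ← exp_add, log_pow]
    push_cast
    rw [show (a : ℝ) * m * -log x + a * m * log x = 0 by ring, exp_zero]
  rw [exp_add]
  have h3 := mul_le_mul_of_nonneg_right h1 (abs_nonneg (ev x t (sh.XW v - sh.XW v')))
  have h4 := mul_le_mul_of_nonneg_left (h3.trans h) (exp_pos (a * m * (-log x))).le
  rw [← mul_assoc, h2, one_mul] at h4
  linarith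

theorem exists_RR_of_mem_VV {m : ℕ} {v : ℝ} (hv : v ∈ (sh.ifs x hx t).VV (sh.exK K) m) :
    ∃ y ∈ sh.RR x t K m v, ev x t y ≠ 0 ∧ v = -log |ev x t y| := by
  obtain ⟨w, hw, w', hw', hc, hne, rfl⟩ := hv
  simp only [cls, Prod.mk.injEq] at hc
  rw [tw_ifs, tw_ifs] at hne ⊢
  refine ⟨sh.XW w - sh.XW w', ⟨[], w, w', by simpa using hw, hc.1,
    (sh.exK_eq_iff K _ _).1 hc.2, ?_, rfl⟩, ?_, ?_⟩
  · rw [neg_neg, exp_log (abs_pos.2 (sub_ne_zero.2 hne))]
    rfl
  · rw [ev_sub]
    exact sub_ne_zero.2 hne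
  · rw [ev_sub]

end Shape

end

end Vale.Agent.P114
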